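import Vale.Agent.P224.R2.H470.One
import Vale.Agent.P224.SM2.Rows

/-!
The one point rows hold for minimal immersions.
-/

namespace Vale.Agent.P224.R2.H470

open MeasureTheory Module Function Set Vale.Agent.P224 Vale.Agent.P224.FV Vale.Agent.P224.SM2
open scoped RealInnerProductSpace Topology ContDiff Manifold

set_option linter.unusedSectionVars false

section

variable {V W M : Type*} [NormedAddCommGroup V] [InnerProductSpace ℝ V] [FiniteDimensional ℝ V]
  [NormedAddCommGroup W] [InnerProductSpace ℝ W] [FiniteDimensional ℝ W]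
  [TopologicalSpace M] [ChartedSpace V M]
  [MeasurableSpace V] [BorelSpace V] [MeasurableSpace M] [BorelSpace M]
  [IsManifold 𝓘(ℝ, V) ∞ M] [CompactSpace M] [T2Space M]

lemma dl_compE (hW : finrank ℝ W = finrank ℝ V + 2) {F : M → W} (hF : SphImm V F)
    {N : M → W} (hN : ∀ x, IsUnitNormal V F x (N x)) {f : W → ℝ}
    (hf : ∀ u, ‖u‖ = 1 → ContDiffAt ℝ ∞ f u) (b : W) (x : M) :
    dl V F b (fun q => f (F q)) x = fderiv ℝ f (F x) (tg F N x b) := by
  have e1 : tg F N x b = dl V F b F x := by
    rw [dl_F hW hF hN]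
    unfold tg
    rw [real_inner_comm b (F x), real_inner_comm b (N x)]
  rw [e1]
  unfold dl
  have hp : rep (V := V) F x (chartAt V x x) = F x := by
    unfold rep; rw [(chartAt V x).left_inv (mem_chart_source _ x)]
  have e : rep (V := V) (fun q => f (F q)) x = f ∘ rep (V := V) F x := rfl
  have hd : DifferentiableAt ℝ f (rep (V := V) F x (chartAt V x x)) := by
    rw [hp]
    exact (hf _ (hF.unit x)).differentiableAt (by norm_num)
  rw [e, fderiv_comp _ hd (rep_diff_self hF.smooth x), hp]
  rfl

lemma smooth_compE {F : M → W} (hF : SphImm V F) {f : W → ℝ}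
    (hf : ∀ u, ‖u‖ = 1 → ContDiffAt ℝ ∞ f u) :
    ContMDiff 𝓘(ℝ, V) 𝓘(ℝ, ℝ) ∞ (fun q => f (F q)) := fun p =>
  (hf _ (hF.unit p)).comp_contMDiffAt (hF.smooth p)

/-- the one point rows of a minimal immersion -/
theorem oneP_of_min (hW : finrank ℝ W = finrank ℝ V + 2) {F : M → W}
    (hF : SphImm V F) (hmin : ∀ x n, IsUnitNormal V F x n → meanCurv V F x n = 0)
    {N : M → W} (hNs : ContMDiff 𝓘(ℝ, V) 𝓘(ℝ, W) ∞ N) (hN : ∀ x, IsUnitNormal V F x (N x)) :
    OneP (volM V F) (finrank ℝ V) F N where
  cp := hF.smooth.continuous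
  cn := hNs.continuous
  np := hF.unit
  nn := fun x => (hN x).1
  pn := fun x => (hN x).2.1
  r1 := by
    intro f hf b
    have hV : VolChart V F := volChart_of_sphImm hF
    have hfin : IsFiniteMeasure (volM V F) := isFiniteMeasure_volM hF
    have h1 := first_variation hW hF hmin hV b (smooth_compE hF hf)
    refine Eq.trans ?_ (h1.trans ?_)
    · exact integral_congr_ae (Filter.Eventually.of_forall fun x => (dl_compE hW hF hN hf b x).symm)
    · congr 1
      refine integral_congr_ae (Filter.Eventually.of_forall fun x => ?_)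
      simp only
      rw [real_inner_comm]
  r2 := by
    intro f hf b c
    have h1 := closed_id hW hF hmin hNs hN b c (smooth_compE hF hf)
    refine Eq.trans ?_ h1
    refine integral_congr_ae (Filter.Eventually.of_forall fun x => ?_)
    simp only
    rw [dl_compE hW hF hN hf, dl_compE hW hF hN hf]

end

end Vale.Agent.P224.R2.H470
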