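import Vale.Agent.P224.R2.H470.Ps

/-!
The square of the difference of the two cosines at level T.
-/

namespace Vale.Agent.P224.R2.H470

open MeasureTheory Set Filter Function Real Module Vale.Agent.P224.R2.H728
open scoped Topology RealInnerProductSpace

set_option linter.unusedSectionVars false

section

variable {V : Type*} [NormedAddCommGroup V] [InnerProductSpace ℝ V] [FiniteDimensional ℝ V]
  [MeasurableSpace V] [BorelSpace V] {Ω : Type*} [MeasurableSpace Ω]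

variable {μ : Measure Ω} [IsFiniteMeasure μ] {p n : Ω → V} {F G : Ω → ℝ}

/-- the bound of the linear forms -/
def LB {ι : Type*} [Fintype ι] (μ : Measure Ω) (p : Ω → V) (e : OrthonormalBasis ι ℝ V)
    (K1 : ℝ) : Prop :=
  ∀ c : ι → ℝ, ∫ x, (∑ i, c i * ⟪p x, e i⟫) ^ 2 ∂μ ≤ K1 * ∑ i, c i ^ 2

theorem m1_le (hp : Measurable p) (hp1 : ∀ x, ‖p x‖ = 1) (hF : BM F) {ι : Type*} [Fintype ι]
    (e : OrthonormalBasis ι ℝ V) {K1 : ℝ} (hK : 0 ≤ K1) (hl : LB μ p e K1) :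
    ∑ i, (∫ x, F x * ⟪p x, e i⟫ ∂μ) ^ 2 ≤ K1 * ∫ x, F x ^ 2 ∂μ := by
  set c : ι → ℝ := fun i => ∫ x, F x * ⟪p x, e i⟫ ∂μ with hc
  set S := ∑ i, c i ^ 2 with hS
  have hS0 : 0 ≤ S := Finset.sum_nonneg fun i _ => sq_nonneg _
  have b := fun i => BM_p hp hp1 (e i)
  have bq : BM fun x => ∑ i, c i * ⟪p x, e i⟫ := BM.sum _ fun i _ => (b i).const_mul _
  have hdual : S = ∫ x, F x * (∑ i, c i * ⟪p x, e i⟫) ∂μ := by
    have h1 : ∀ x, F x * (∑ i, c i * ⟪p x, e i⟫) = ∑ i, c i * (F x * ⟪p x, e i⟫) := by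
      intro x
      rw [Finset.mul_sum]
      exact Finset.sum_congr rfl fun i _ => by ring
    simp only [h1]
    rw [integral_finsetSum _ fun i _ => ((hF.mul (b i)).const_mul _).int]
    refine Finset.sum_congr rfl fun i _ => ?_
    rw [integral_const_mul, sq]
  have h4 := int_cs (μ := μ) hF bq
  rw [← hdual] at h4
  have h5 := hl c
  have hF2 : 0 ≤ ∫ x, F x ^ 2 ∂μ := integral_nonneg fun x => sq_nonneg _
  have h6 : S ^ 2 ≤ (∫ x, F x ^ 2 ∂μ) * (K1 * S) := h4.trans (mul_le_mul_of_nonneg_left h5 hF2)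
  rcases eq_or_lt_of_le hS0 with h8 | h8
  · rw [← h8]; positivity
  · have : S * S ≤ (K1 * ∫ x, F x ^ 2 ∂μ) * S := by nlinarith
    exact le_of_mul_le_mul_right this h8

/-- the full form above its constant term -/
theorem KF_sk_ge (hp : Measurable p) (hp1 : ∀ x, ‖p x‖ = 1) (hF : BM F) {m q : ℕ} (hq : 1 ≤ q)
    (hd : finrank ℝ V = m + 2) {T : ℝ} (h1 : 0 < T) (h3 : T < 1) :
    (∫ x, F x ∂μ) ^ 2 ≤ KF (sk m q T) μ p F F := by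
  have h := (PT_rk (μ := μ) hp hp1 hF hq hd (by norm_num : 1 ≤ 3) h1 le_rfl h3).1
  rw [KF_rk hp hp1 m q 1 h1.le h3 hF hF, Finset.sum_range_one, KF_a0, pow_zero, mul_one] at h
  rw [sq]
  unfold PT at h
  unfold KF
  linarith

/-- the full form of a family below its expansion -/
theorem KF_sk_le (hp : Measurable p) (hp1 : ∀ x, ‖p x‖ = 1) {κ : Type*} (S : Finset κ)
    {F : κ → Ω → ℝ} (hF : ∀ i, BM (F i)) {ι : Type*} [Fintype ι]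
    (e : OrthonormalBasis ι ℝ V) {m q : ℕ} (hq : 1 ≤ q) (hd : finrank ℝ V = m + 2) {K2 : ℝ}
    (hK : 0 ≤ K2) (hQ : QB μ p e K2) {T T1 c : ℝ} (h1 : 0 < T) (h2 : T ≤ T1) (h3 : T1 < 1)
    (hc : ∀ x, ∫ y, sk m q T1 ⟪p x, p y⟫ ∂μ ≤ c) :
    ∑ i ∈ S, KF (sk m q T) μ p (F i) (F i)
      ≤ (∑ i ∈ S, (∫ x, F i x ∂μ) ^ 2)
      + T * (q * ∑ i ∈ S, ∑ j, (∫ x, F i x * ⟪p x, e j⟫ ∂μ) ^ 2)
      + ((q * (q + 1) / 2 * K2 * T ^ 2 + c * (T / T1) ^ 3) * (∑ i ∈ S, ∫ x, F i x ^ 2 ∂μ)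
      + (q * (q + 1) / (2 * (m + 2)) - ((q : ℝ) - m / 2 - 1)) * T ^ 2
        * ∑ i ∈ S, (∫ x, F i x ∂μ) ^ 2) := by
  have h4 := rk2_fam (μ := μ) hp hp1 S hF e hq hd hK hQ h1 h2 h3 hc
  have e1 : ∑ i ∈ S, KF (rk m q 2 T) μ p (F i) (F i)
      = (∑ i ∈ S, KF (sk m q T) μ p (F i) (F i)) - (∑ i ∈ S, (∫ x, F i x ∂μ) ^ 2)
      - T * (q * ∑ i ∈ S, ∑ j, (∫ x, F i x * ⟪p x, e j⟫ ∂μ) ^ 2) := by
    rw [Finset.mul_sum, Finset.mul_sum, ← Finset.sum_sub_distrib, ← Finset.sum_sub_distrib]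
    refine Finset.sum_congr rfl fun i _ => ?_
    rw [KF_rk hp hp1 m q 2 h1.le (h2.trans_lt h3) (hF i) (hF i), Finset.sum_range_succ,
      Finset.sum_range_succ, Finset.sum_range_zero, KF_a0, KF_a1 hp hp1 (hF i) (hF i) e]
    have e2 : ∑ j, (∫ x, F i x * ⟪p x, e j⟫ ∂μ) * (∫ x, F i x * ⟪p x, e j⟫ ∂μ)
        = ∑ j, (∫ x, F i x * ⟪p x, e j⟫ ∂μ) ^ 2 := Finset.sum_congr rfl fun j _ => by ring
    rw [e2]
    unfold PT KF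
    ring
  rw [e1] at h4
  linarith

/-- the profile of the loss -/
noncomputable def Phi (m : ℕ) (K1 K2 c T1 T : ℝ) : ℝ :=
  K1 * (1 + T ^ 2 / 2) + (m + 1) * K2 * T + (m + 1) * (m + 2) / 2 * K2 * T ^ 2 + c * (T / T1) ^ 3

theorem row_b (hp : Measurable p) (hp1 : ∀ x, ‖p x‖ = 1) (hn : Measurable n)
    (hn1 : ∀ x, ‖n x‖ = 1) {ι : Type*} [Fintype ι]
    (e : OrthonormalBasis ι ℝ V) {m : ℕ} (hd : finrank ℝ V = m + 2) {K1 K2 : ℝ}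
    (hK1 : 0 ≤ K1) (hL : LB μ p e K1) (hK : 0 ≤ K2) (hQ : QB μ p e K2) {T T1 c : ℝ} (h1 : 0 < T)
    (h2 : T ≤ T1) (h3 : T1 < 1) (hc : ∀ x, ∫ y, sk m (m + 1) T1 ⟪p x, p y⟫ ∂μ ≤ c) (b : V) :
    ∑ a, KF (sk m (m + 1) T) μ p (fun x => ⟪n x, b⟫ * ⟪p x, e a⟫)
        (fun x => ⟪n x, b⟫ * ⟪p x, e a⟫)
      ≤ Phi m K1 K2 c T1 T * (∫ x, ⟪n x, b⟫ ^ 2 ∂μ) + T * (∫ x, ⟪n x, b⟫ ∂μ) ^ 2 := by
  have bn : BM fun x => ⟪n x, b⟫ := BM_p hn hn1 b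
  have bp := fun a => BM_p hp hp1 (e a)
  have hcard : Fintype.card ι = m + 2 := by
    rw [← hd]
    exact (Module.finrank_eq_card_basis e.toBasis).symm
  have h4 := KF_sk_le (μ := μ) hp hp1 Finset.univ (fun a => bn.mul (bp a)) e
    (q := m + 1) (by omega) hd hK hQ h1 h2 h3 hc
  have s1 := m1_le (μ := μ) hp hp1 bn e hK1 hL
  have s2 : ∑ a, ∫ x, (⟪n x, b⟫ * ⟪p x, e a⟫) ^ 2 ∂μ = ∫ x, ⟪n x, b⟫ ^ 2 ∂μ := by
    rw [← integral_finsetSum _ fun a _ => ((bn.mul (bp a)).pow 2).int]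
    refine integral_congr_ae (Eventually.of_forall fun x => ?_)
    simp only [mul_pow]
    rw [← Finset.mul_sum]
    have : ∑ a, ⟪p x, e a⟫ ^ 2 = 1 := by
      have h5 := inner_sum_basis e (p x) (p x)
      rw [real_inner_self_eq_norm_sq, hp1] at h5
      rw [one_pow] at h5
      rw [h5]
      exact Finset.sum_congr rfl fun a _ => sq _
    rw [this, mul_one]
  have s3 : ∑ a, ∑ j, (∫ x, ⟪n x, b⟫ * ⟪p x, e a⟫ * ⟪p x, e j⟫ ∂μ) ^ 2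
      ≤ K2 * (∫ x, ⟪n x, b⟫ ^ 2 ∂μ) + (∫ x, ⟪n x, b⟫ ∂μ) ^ 2 / (m + 2) := by
    refine le_trans (le_of_eq ?_) (m2f_le (μ := μ) hp hp1 bn e hcard hK hQ)
    refine Finset.sum_congr rfl fun a _ => Finset.sum_congr rfl fun j _ => ?_
    unfold m2f
    congr 1
    exact integral_congr_ae (Eventually.of_forall fun x => by simp only; ring)
  rw [s2] at h4
  set ν := ∫ x, ⟪n x, b⟫ ^ 2 ∂μ with hν
  set E := ∫ x, ⟪n x, b⟫ ∂μ with hE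
  have hν0 : 0 ≤ ν := integral_nonneg fun x => sq_nonneg _
  have hT2 : 0 ≤ T ^ 2 / 2 := by positivity
  have h5 := mul_le_mul_of_nonneg_left s3 (by positivity : (0 : ℝ) ≤ T * (m + 1))
  have h6 := mul_le_mul_of_nonneg_left s1 (by positivity : (0 : ℝ) ≤ 1 + T ^ 2 / 2)
  have e1 : ((m + 1 : ℕ) : ℝ) * (((m + 1 : ℕ) : ℝ) + 1) / (2 * ((m : ℝ) + 2))
      - (((m + 1 : ℕ) : ℝ) - m / 2 - 1) = 1 / 2 := by
    push_cast
    have : (m : ℝ) + 2 ≠ 0 := by positivity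
    field_simp
    ring
  rw [e1] at h4
  have h7 : T * ((m : ℝ) + 1) * (E ^ 2 / (m + 2)) ≤ T * E ^ 2 := by
    have h8 : ((m : ℝ) + 1) * (E ^ 2 / (m + 2)) ≤ E ^ 2 := by
      rw [mul_div_assoc', div_le_iff₀ (by positivity)]
      nlinarith [sq_nonneg E]
    have := mul_le_mul_of_nonneg_left h8 h1.le
    linarith
  push_cast at h4
  unfold Phi
  nlinarith [h4, h5, h6, h7]

/-- the lower bound of the square at level T -/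
theorem mac (hp : Measurable p) (hp1 : ∀ x, ‖p x‖ = 1) (hn : Measurable n)
    (hn1 : ∀ x, ‖n x‖ = 1) {ι : Type*} [Fintype ι]
    (e : OrthonormalBasis ι ℝ V) {m : ℕ} (hd : finrank ℝ V = m + 2) {K1 K2 : ℝ}
    (hK1 : 0 ≤ K1) (hL : LB μ p e K1) (hK : 0 ≤ K2) (hQ : QB μ p e K2) {T T1 c : ℝ} (h1 : 0 < T)
    (h2 : T ≤ T1) (h3 : T1 < 1) (hc : ∀ x, ∫ y, sk m (m + 1) T1 ⟪p x, p y⟫ ∂μ ≤ c)
    {w : ι → ℝ} (hw0 : ∀ b, 0 ≤ w b) (hw1 : ∀ b, w b ≤ 1) :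
    ∑ b, ((2 * w b - w b ^ 2) * (∫ x, ⟪n x, e b⟫ ^ 2 ∂μ) ^ 2
      - 2 * w b * (Phi m K1 K2 c T1 T * (∫ x, ⟪n x, e b⟫ ^ 2 ∂μ)
        + T * (∫ x, ⟪n x, e b⟫ ∂μ) ^ 2))
      ≤ ∫ u : Ω × Ω, sk m (m + 1) T ⟪p u.1, p u.2⟫ * (⟪n u.1, n u.2⟫ - ⟪p u.1, p u.2⟫) ^ 2
        ∂(μ.prod μ) := by
  have hT1 : 0 < T1 := h1.trans_le h2
  have hT : T < 1 := h2.trans_lt h3
  have hk : 0 < 1 - T ^ 2 := by nlinarith
  set K := sk m (m + 1) T with hKd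
  have bK : BK K := BK_sk m (m + 1) h1.le hT
  have hK0 : ∀ s ∈ Icc (-1 : ℝ) 1, 0 ≤ K s := by
    intro s hs
    have hv : 0 ≤ 1 - T * s := by
      have := mul_le_mul_of_nonneg_left hs.2 h1.le
      linarith
    rw [hKd]
    unfold sk
    exact mul_nonneg (Real.rpow_nonneg hk.le _) (inv_nonneg.2 (pow_nonneg hv _))
  have bn := fun a => BM_p hn hn1 (e a)
  have bp := fun a => BM_p hp hp1 (e a)
  -- families
  have i1 : ∀ a b, Integrable (fun u : Ω × Ω => K ⟪p u.1, p u.2⟫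
      * ((⟪n u.1, e a⟫ * ⟪n u.1, e b⟫) * (⟪n u.2, e a⟫ * ⟪n u.2, e b⟫))) (μ.prod μ) :=
    fun a b => KF_int hp hp1 bK ((bn a).mul (bn b)) ((bn a).mul (bn b))
  have i2 : ∀ a b, Integrable (fun u : Ω × Ω => K ⟪p u.1, p u.2⟫
      * ((⟪n u.1, e b⟫ * ⟪p u.1, e a⟫) * (⟪n u.2, e b⟫ * ⟪p u.2, e a⟫))) (μ.prod μ) :=
    fun a b => KF_int hp hp1 bK ((bn b).mul (bp a)) ((bn b).mul (bp a))
  have i3 : ∀ a b, Integrable (fun u : Ω × Ω => K ⟪p u.1, p u.2⟫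
      * ((⟪p u.1, e a⟫ * ⟪p u.1, e b⟫) * (⟪p u.2, e a⟫ * ⟪p u.2, e b⟫))) (μ.prod μ) :=
    fun a b => KF_int hp hp1 bK ((bp a).mul (bp b)) ((bp a).mul (bp b))
  -- the pointwise inequality
  have hc' : ∀ u : Ω × Ω, (⟪n u.1, n u.2⟫ : ℝ) = ∑ a, ⟪n u.1, e a⟫ * ⟪n u.2, e a⟫ :=
    fun u => inner_sum_basis e _ _
  have hs' : ∀ u : Ω × Ω, (⟪p u.1, p u.2⟫ : ℝ) = ∑ a, ⟪p u.1, e a⟫ * ⟪p u.2, e a⟫ :=
    fun u => inner_sum_basis e _ _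
  have ea : ∀ u : Ω × Ω, (∑ b, w b * (⟪n u.1, e b⟫ * ⟪n u.2, e b⟫)) * ⟪n u.1, n u.2⟫
      = ∑ a, ∑ b, w b * ((⟪n u.1, e a⟫ * ⟪n u.1, e b⟫) * (⟪n u.2, e a⟫ * ⟪n u.2, e b⟫)) := by
    intro u
    rw [hc' u, mul_comm, Finset.sum_mul_sum]
    exact Finset.sum_congr rfl fun a _ => Finset.sum_congr rfl fun b _ => by ring
  have eb : ∀ u : Ω × Ω, (∑ b, w b * (⟪n u.1, e b⟫ * ⟪n u.2, e b⟫)) ^ 2
      = ∑ a, ∑ b, w a * w b
        * ((⟪n u.1, e a⟫ * ⟪n u.1, e b⟫) * (⟪n u.2, e a⟫ * ⟪n u.2, e b⟫)) := by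
    intro u
    rw [sq, Finset.sum_mul_sum]
    exact Finset.sum_congr rfl fun a _ => Finset.sum_congr rfl fun b _ => by ring
  have ec : ∀ u : Ω × Ω, (∑ b, w b * (⟪n u.1, e b⟫ * ⟪n u.2, e b⟫)) * ⟪p u.1, p u.2⟫
      = ∑ b, ∑ a, w b * ((⟪n u.1, e b⟫ * ⟪p u.1, e a⟫) * (⟪n u.2, e b⟫ * ⟪p u.2, e a⟫)) := by
    intro u
    rw [hs' u, Finset.sum_mul_sum]
    exact Finset.sum_congr rfl fun a _ => Finset.sum_congr rfl fun b _ => by ring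
  have hpt : ∀ u : Ω × Ω,
      (∑ a, ∑ b, (2 * w b - w a * w b) * (K ⟪p u.1, p u.2⟫
        * ((⟪n u.1, e a⟫ * ⟪n u.1, e b⟫) * (⟪n u.2, e a⟫ * ⟪n u.2, e b⟫))))
      - (∑ b, ∑ a, 2 * w b * (K ⟪p u.1, p u.2⟫
        * ((⟪n u.1, e b⟫ * ⟪p u.1, e a⟫) * (⟪n u.2, e b⟫ * ⟪p u.2, e a⟫))))
      ≤ K ⟪p u.1, p u.2⟫ * (⟪n u.1, n u.2⟫ - ⟪p u.1, p u.2⟫) ^ 2 := by
    intro u
    set g := ∑ b, w b * (⟪n u.1, e b⟫ * ⟪n u.2, e b⟫) with hg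
    have e1 : (∑ a, ∑ b, (2 * w b - w a * w b) * (K ⟪p u.1, p u.2⟫
        * ((⟪n u.1, e a⟫ * ⟪n u.1, e b⟫) * (⟪n u.2, e a⟫ * ⟪n u.2, e b⟫))))
        = K ⟪p u.1, p u.2⟫ * (2 * (g * ⟪n u.1, n u.2⟫) - g ^ 2) := by
      rw [ea u, eb u, Finset.mul_sum, ← Finset.sum_sub_distrib, Finset.mul_sum]
      refine Finset.sum_congr rfl fun a _ => ?_
      rw [Finset.mul_sum, ← Finset.sum_sub_distrib, Finset.mul_sum]
      exact Finset.sum_congr rfl fun b _ => by ring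
    have e2 : (∑ b, ∑ a, 2 * w b * (K ⟪p u.1, p u.2⟫
        * ((⟪n u.1, e b⟫ * ⟪p u.1, e a⟫) * (⟪n u.2, e b⟫ * ⟪p u.2, e a⟫))))
        = K ⟪p u.1, p u.2⟫ * (2 * (g * ⟪p u.1, p u.2⟫)) := by
      rw [ec u, Finset.mul_sum, Finset.mul_sum]
      refine Finset.sum_congr rfl fun b _ => ?_
      rw [Finset.mul_sum, Finset.mul_sum]
      exact Finset.sum_congr rfl fun a _ => by ring
    rw [e1, e2]
    have h4 := hK0 _ (cos_mem hp1 u)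
    nlinarith [mul_nonneg h4 (sq_nonneg (⟪n u.1, n u.2⟫ - ⟪p u.1, p u.2⟫ - g))]
  have iR : Integrable (fun u : Ω × Ω => K ⟪p u.1, p u.2⟫
      * (⟪n u.1, n u.2⟫ - ⟪p u.1, p u.2⟫) ^ 2) (μ.prod μ) := by
    have e1 : ∀ u : Ω × Ω, K ⟪p u.1, p u.2⟫ * (⟪n u.1, n u.2⟫ - ⟪p u.1, p u.2⟫) ^ 2
        = (∑ a, ∑ b, K ⟪p u.1, p u.2⟫
          * ((⟪n u.1, e a⟫ * ⟪n u.1, e b⟫) * (⟪n u.2, e a⟫ * ⟪n u.2, e b⟫)))
        - 2 * (∑ b, ∑ a, K ⟪p u.1, p u.2⟫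
          * ((⟪n u.1, e b⟫ * ⟪p u.1, e a⟫) * (⟪n u.2, e b⟫ * ⟪p u.2, e a⟫)))
        + ∑ a, ∑ b, K ⟪p u.1, p u.2⟫
          * ((⟪p u.1, e a⟫ * ⟪p u.1, e b⟫) * (⟪p u.2, e a⟫ * ⟪p u.2, e b⟫)) := by
      intro u
      have x1 : (⟪n u.1, n u.2⟫ : ℝ) ^ 2
          = ∑ a, ∑ b, (⟪n u.1, e a⟫ * ⟪n u.1, e b⟫) * (⟪n u.2, e a⟫ * ⟪n u.2, e b⟫) := by
        rw [sq, hc' u, Finset.sum_mul_sum]
        exact Finset.sum_congr rfl fun a _ => Finset.sum_congr rfl fun b _ => by ring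
      have x2 : (⟪n u.1, n u.2⟫ : ℝ) * ⟪p u.1, p u.2⟫
          = ∑ b, ∑ a, (⟪n u.1, e b⟫ * ⟪p u.1, e a⟫) * (⟪n u.2, e b⟫ * ⟪p u.2, e a⟫) := by
        rw [hc' u, hs' u, Finset.sum_mul_sum]
        exact Finset.sum_congr rfl fun a _ => Finset.sum_congr rfl fun b _ => by ring
      have x3 : (⟪p u.1, p u.2⟫ : ℝ) ^ 2
          = ∑ a, ∑ b, (⟪p u.1, e a⟫ * ⟪p u.1, e b⟫) * (⟪p u.2, e a⟫ * ⟪p u.2, e b⟫) := by
        rw [sq]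
        nth_rewrite 1 2 [hs' u]
        rw [Finset.sum_mul_sum]
        exact Finset.sum_congr rfl fun a _ => Finset.sum_congr rfl fun b _ => by ring
      have y1 : K ⟪p u.1, p u.2⟫ * (⟪n u.1, n u.2⟫ - ⟪p u.1, p u.2⟫) ^ 2
          = K ⟪p u.1, p u.2⟫ * (⟪n u.1, n u.2⟫ : ℝ) ^ 2
            - 2 * (K ⟪p u.1, p u.2⟫ * ((⟪n u.1, n u.2⟫ : ℝ) * ⟪p u.1, p u.2⟫))
            + K ⟪p u.1, p u.2⟫ * (⟪p u.1, p u.2⟫ : ℝ) ^ 2 := by ring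
      rw [y1]
      generalize K ⟪p u.1, p u.2⟫ = k0
      rw [x1, x2, x3]
      simp only [Finset.mul_sum]
    refine Integrable.congr ?_ (Eventually.of_forall fun u => (e1 u).symm)
    refine Integrable.add (Integrable.sub ?_ ?_) ?_
    · exact integrable_finsetSum _ fun a _ => integrable_finsetSum _ fun b _ => i1 a b
    · exact (integrable_finsetSum _ fun b _ => integrable_finsetSum _ fun a _ => i2 a b).const_mul 2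
    · exact integrable_finsetSum _ fun a _ => integrable_finsetSum _ fun b _ => i3 a b
  have j1 : Integrable (fun u : Ω × Ω => ∑ a, ∑ b, (2 * w b - w a * w b) * (K ⟪p u.1, p u.2⟫
        * ((⟪n u.1, e a⟫ * ⟪n u.1, e b⟫) * (⟪n u.2, e a⟫ * ⟪n u.2, e b⟫)))) (μ.prod μ) :=
    integrable_finsetSum _ fun a _ => integrable_finsetSum _ fun b _ => (i1 a b).const_mul _
  have j2 : Integrable (fun u : Ω × Ω => ∑ b, ∑ a, 2 * w b * (K ⟪p u.1, p u.2⟫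
        * ((⟪n u.1, e b⟫ * ⟪p u.1, e a⟫) * (⟪n u.2, e b⟫ * ⟪p u.2, e a⟫)))) (μ.prod μ) :=
    integrable_finsetSum _ fun b _ => integrable_finsetSum _ fun a _ => (i2 a b).const_mul _
  have hmain := integral_mono (j1.sub j2) iR hpt
  simp only [Pi.sub_apply] at hmain
  rw [integral_sub j1 j2] at hmain
  have k1 : ∫ u : Ω × Ω, ∑ a, ∑ b, (2 * w b - w a * w b) * (K ⟪p u.1, p u.2⟫
        * ((⟪n u.1, e a⟫ * ⟪n u.1, e b⟫) * (⟪n u.2, e a⟫ * ⟪n u.2, e b⟫))) ∂(μ.prod μ)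
      = ∑ a, ∑ b, (2 * w b - w a * w b) * KF K μ p (fun x => ⟪n x, e a⟫ * ⟪n x, e b⟫)
        (fun x => ⟪n x, e a⟫ * ⟪n x, e b⟫) := by
    rw [integral_finsetSum _ fun a _ => integrable_finsetSum _ fun b _ => (i1 a b).const_mul _]
    refine Finset.sum_congr rfl fun a _ => ?_
    rw [integral_finsetSum _ fun b _ => (i1 a b).const_mul _]
    refine Finset.sum_congr rfl fun b _ => ?_
    rw [integral_const_mul]
    rfl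
  have k2 : ∫ u : Ω × Ω, ∑ b, ∑ a, 2 * w b * (K ⟪p u.1, p u.2⟫
        * ((⟪n u.1, e b⟫ * ⟪p u.1, e a⟫) * (⟪n u.2, e b⟫ * ⟪p u.2, e a⟫))) ∂(μ.prod μ)
      = ∑ b, 2 * w b * ∑ a, KF K μ p (fun x => ⟪n x, e b⟫ * ⟪p x, e a⟫)
        (fun x => ⟪n x, e b⟫ * ⟪p x, e a⟫) := by
    rw [integral_finsetSum _ fun b _ => integrable_finsetSum _ fun a _ => (i2 a b).const_mul _]
    refine Finset.sum_congr rfl fun b _ => ?_
    rw [integral_finsetSum _ fun a _ => (i2 a b).const_mul _, Finset.mul_sum]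
    refine Finset.sum_congr rfl fun a _ => ?_
    rw [integral_const_mul]
    rfl
  rw [k1, k2] at hmain
  refine le_trans ?_ hmain
  rw [Finset.sum_sub_distrib]
  refine sub_le_sub ?_ ?_
  · -- the squares
    rw [Finset.sum_comm]
    refine Finset.sum_le_sum fun b _ => ?_
    have h5 : ∀ a, (2 * w b - w a * w b) * (∫ x, ⟪n x, e a⟫ * ⟪n x, e b⟫ ∂μ) ^ 2
        ≤ (2 * w b - w a * w b) * KF K μ p (fun x => ⟪n x, e a⟫ * ⟪n x, e b⟫)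
          (fun x => ⟪n x, e a⟫ * ⟪n x, e b⟫) := by
      intro a
      refine mul_le_mul_of_nonneg_left ?_ ?_
      · exact KF_sk_ge hp hp1 ((bn a).mul (bn b)) (by omega) hd h1 hT
      · nlinarith [hw0 b, hw1 a, mul_nonneg (hw0 b) (sub_nonneg.2 (hw1 a))]
    refine le_trans ?_ (Finset.sum_le_sum fun a _ => h5 a)
    have h6 : (2 * w b - w b ^ 2) * (∫ x, ⟪n x, e b⟫ ^ 2 ∂μ) ^ 2
        = (2 * w b - w b * w b) * (∫ x, ⟪n x, e b⟫ * ⟪n x, e b⟫ ∂μ) ^ 2 := by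
      have : ∫ x, ⟪n x, e b⟫ ^ 2 ∂μ = ∫ x, ⟪n x, e b⟫ * ⟪n x, e b⟫ ∂μ :=
        integral_congr_ae (Eventually.of_forall fun x => by simp only; ring)
      rw [this]
      ring
    rw [h6]
    refine Finset.single_le_sum (f := fun a => (2 * w b - w a * w b)
      * (∫ x, ⟪n x, e a⟫ * ⟪n x, e b⟫ ∂μ) ^ 2) (fun a _ => ?_) (Finset.mem_univ b)
    refine mul_nonneg ?_ (sq_nonneg _)
    nlinarith [hw0 b, hw1 a, mul_nonneg (hw0 b) (sub_nonneg.2 (hw1 a))]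
  · refine Finset.sum_le_sum fun b _ => ?_
    exact mul_le_mul_of_nonneg_left
      (row_b (μ := μ) hp hp1 hn hn1 e hd hK1 hL hK hQ h1 h2 h3 hc (e b))
      (mul_nonneg zero_le_two (hw0 b))

/-- the positive part form -/
theorem mac_pos (hp : Measurable p) (hp1 : ∀ x, ‖p x‖ = 1) (hn : Measurable n)
    (hn1 : ∀ x, ‖n x‖ = 1) {ι : Type*} [Fintype ι]
    (e : OrthonormalBasis ι ℝ V) {m : ℕ} (hd : finrank ℝ V = m + 2) {K1 K2 : ℝ}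
    (hK1 : 0 ≤ K1) (hL : LB μ p e K1) (hK : 0 ≤ K2) (hQ : QB μ p e K2) {T T1 c : ℝ} (h1 : 0 < T)
    (h2 : T ≤ T1) (h3 : T1 < 1) (hc : ∀ x, ∫ y, sk m (m + 1) T1 ⟪p x, p y⟫ ∂μ ≤ c)
    (hPhi : 0 ≤ Phi m K1 K2 c T1 T) :
    ∑ b, max ((∫ x, ⟪n x, e b⟫ ^ 2 ∂μ) - Phi m K1 K2 c T1 T) 0 ^ 2
      - 2 * T * ∑ b, (∫ x, ⟪n x, e b⟫ ∂μ) ^ 2
      ≤ ∫ u : Ω × Ω, sk m (m + 1) T ⟪p u.1, p u.2⟫ * (⟪n u.1, n u.2⟫ - ⟪p u.1, p u.2⟫) ^ 2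
        ∂(μ.prod μ) := by
  set P := Phi m K1 K2 c T1 T with hP
  set ν : ι → ℝ := fun b => ∫ x, ⟪n x, e b⟫ ^ 2 ∂μ with hν
  set E : ι → ℝ := fun b => ∫ x, ⟪n x, e b⟫ ∂μ with hE
  have hν0 : ∀ b, 0 ≤ ν b := fun b => integral_nonneg fun x => sq_nonneg _
  set w : ι → ℝ := fun b => if P < ν b then 1 - P / ν b else 0 with hw
  have hw0 : ∀ b, 0 ≤ w b := by
    intro b
    simp only [hw]
    split_ifs with h
    · have h4 : 0 < ν b := hPhi.trans_lt h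
      rw [sub_nonneg, div_le_one h4]
      exact h.le
    · exact le_rfl
  have hw1 : ∀ b, w b ≤ 1 := by
    intro b
    simp only [hw]
    split_ifs with h
    · have : 0 ≤ P / ν b := div_nonneg hPhi (hν0 b)
      linarith
    · exact zero_le_one
  refine le_trans ?_ (mac (μ := μ) hp hp1 hn hn1 e hd hK1 hL hK hQ h1 h2 h3 hc hw0 hw1)
  rw [Finset.mul_sum, ← Finset.sum_sub_distrib]
  refine Finset.sum_le_sum fun b _ => ?_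
  have h5 : 0 ≤ 2 * T * E b ^ 2 := by positivity
  have h6 : 2 * w b * (T * E b ^ 2) ≤ 2 * T * E b ^ 2 := by
    have := mul_le_mul_of_nonneg_right (hw1 b) h5
    linarith
  have h7 : max (ν b - P) 0 ^ 2 = (2 * w b - w b ^ 2) * ν b ^ 2 - 2 * w b * (P * ν b) := by
    simp only [hw]
    split_ifs with h
    · have h4 : 0 < ν b := hPhi.trans_lt h
      rw [max_eq_left (by linarith)]
      field_simp
      ring
    · rw [max_eq_right (by linarith)]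
      ring
  change max (ν b - P) 0 ^ 2 - 2 * T * E b ^ 2
    ≤ (2 * w b - w b ^ 2) * ν b ^ 2 - 2 * w b * (P * ν b + T * E b ^ 2)
  rw [h7]
  linarith

end

end Vale.Agent.P224.R2.H470
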