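import Vale.Agent.P224.R2.H470.ZSplit

/-!
The coefficients of the quadratic form of a vector field in moments.
-/

namespace Vale.Agent.P224.R2.H470

open MeasureTheory Set Filter Function Real Module Vale.Agent.P224.R2.H728
open scoped Topology RealInnerProductSpace

set_option linter.unusedSectionVars false

section

variable {V : Type*} [NormedAddCommGroup V] [InnerProductSpace ℝ V] [FiniteDimensional ℝ V]
  [MeasurableSpace V] [BorelSpace V] {Ω : Type*} [MeasurableSpace Ω]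
  {μ : Measure Ω} [IsFiniteMeasure μ] {p η : Ω → V}

lemma BM_inner (hη : Measurable η) {C : ℝ} (hηC : ∀ x, ‖η x‖ ≤ C) (b : V) :
    BM fun x => ⟪η x, b⟫ := by
  refine ⟨hη.inner_const, C * ‖b‖, fun x => ?_⟩
  exact (abs_real_inner_le_norm (η x) b).trans
    (mul_le_mul_of_nonneg_right (hηC x) (norm_nonneg _))

lemma pair_int {f g : Ω → ℝ} (hf : BM f) (hg : BM g) :
    Integrable (fun u : Ω × Ω => f u.1 * g u.2) (μ.prod μ) := hf.int.mul_prod hg.int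

lemma pair_eq {f g : Ω → ℝ} : ∫ u : Ω × Ω, f u.1 * g u.2 ∂(μ.prod μ)
    = (∫ x, f x ∂μ) * ∫ x, g x ∂μ := integral_prod_mul (μ := μ) (ν := μ) f g

/-- the first moments -/
noncomputable def m1f {ι : Type*} [Fintype ι] (μ : Measure Ω) (p : Ω → V)
    (e : OrthonormalBasis ι ℝ V) (F : Ω → ℝ) (j : ι) : ℝ := ∫ x, F x * ⟪p x, e j⟫ ∂μ

theorem zcf1 (hη : Measurable η) {C : ℝ} (hηC : ∀ x, ‖η x‖ ≤ C) {ι : Type*} [Fintype ι]
    (e : OrthonormalBasis ι ℝ V) (m : ℕ) :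
    zcf m μ p η 1 = ∑ i, (∫ x, ⟪η x, e i⟫ ∂μ) ^ 2 := by
  have b := fun i => BM_inner hη hηC (e i)
  have h1 : ∀ i, (∫ x, ⟪η x, e i⟫ ∂μ) ^ 2
      = ∫ u : Ω × Ω, ⟪η u.1, e i⟫ * ⟪η u.2, e i⟫ ∂(μ.prod μ) := by
    intro i
    rw [pair_eq (f := fun x => ⟪η x, e i⟫) (g := fun x => ⟪η x, e i⟫), sq]
  simp only [h1]
  rw [← integral_finsetSum _ fun i _ => pair_int (b i) (b i)]
  unfold zcf
  refine integral_congr_ae (Eventually.of_forall fun u => ?_)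
  simp only [zc]
  rw [inner_sum_basis e]

theorem zcf2 (hp : Measurable p) (hη : Measurable η) {C : ℝ} (hp1 : ∀ x, ‖p x‖ = 1)
    (hηC : ∀ x, ‖η x‖ ≤ C) {ι : Type*} [Fintype ι] (e : OrthonormalBasis ι ℝ V) (m : ℕ) :
    zcf m μ p η 2 = m * ∑ i, ∑ j, (m1f μ p e (fun x => ⟪η x, e i⟫) j
      * m1f μ p e (fun x => ⟪η x, e i⟫) j
      + m1f μ p e (fun x => ⟪η x, e i⟫) j * m1f μ p e (fun x => ⟪η x, e j⟫) i) := by
  have b := fun i => BM_inner hη hηC (e i)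
  have c := fun j => BM_p hp hp1 (e j)
  have h1 : ∀ i j k l, m1f μ p e (fun x => ⟪η x, e i⟫) j * m1f μ p e (fun x => ⟪η x, e k⟫) l
      = ∫ u : Ω × Ω, (⟪η u.1, e i⟫ * ⟪p u.1, e j⟫) * (⟪η u.2, e k⟫ * ⟪p u.2, e l⟫) ∂(μ.prod μ) := by
    intro i j k l
    rw [pair_eq (f := fun x => ⟪η x, e i⟫ * ⟪p x, e j⟫)
      (g := fun x => ⟪η x, e k⟫ * ⟪p x, e l⟫)]
    rfl
  have hi : ∀ i j k l, Integrable (fun u : Ω × Ω =>
      (⟪η u.1, e i⟫ * ⟪p u.1, e j⟫) * (⟪η u.2, e k⟫ * ⟪p u.2, e l⟫)) (μ.prod μ) :=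
    fun i j k l => pair_int ((b i).mul (c j)) ((b k).mul (c l))
  simp only [h1]
  have h2 : ∀ i j, (∫ u : Ω × Ω, (⟪η u.1, e i⟫ * ⟪p u.1, e j⟫) * (⟪η u.2, e i⟫ * ⟪p u.2, e j⟫)
        ∂(μ.prod μ)) + ∫ u : Ω × Ω, (⟪η u.1, e i⟫ * ⟪p u.1, e j⟫)
        * (⟪η u.2, e j⟫ * ⟪p u.2, e i⟫) ∂(μ.prod μ)
      = ∫ u : Ω × Ω, ((⟪η u.1, e i⟫ * ⟪p u.1, e j⟫) * (⟪η u.2, e i⟫ * ⟪p u.2, e j⟫)
        + (⟪η u.1, e i⟫ * ⟪p u.1, e j⟫) * (⟪η u.2, e j⟫ * ⟪p u.2, e i⟫)) ∂(μ.prod μ) :=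
    fun i j => (integral_add (hi i j i j) (hi i j j i)).symm
  simp only [h2]
  have h3 : ∀ i j, Integrable (fun u : Ω × Ω =>
      ((⟪η u.1, e i⟫ * ⟪p u.1, e j⟫) * (⟪η u.2, e i⟫ * ⟪p u.2, e j⟫)
        + (⟪η u.1, e i⟫ * ⟪p u.1, e j⟫) * (⟪η u.2, e j⟫ * ⟪p u.2, e i⟫))) (μ.prod μ) :=
    fun i j => (hi i j i j).add (hi i j j i)
  have h4 : ∀ i, ∑ j, ∫ u : Ω × Ω, ((⟪η u.1, e i⟫ * ⟪p u.1, e j⟫) * (⟪η u.2, e i⟫ * ⟪p u.2, e j⟫)
        + (⟪η u.1, e i⟫ * ⟪p u.1, e j⟫) * (⟪η u.2, e j⟫ * ⟪p u.2, e i⟫)) ∂(μ.prod μ)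
      = ∫ u : Ω × Ω, ∑ j, ((⟪η u.1, e i⟫ * ⟪p u.1, e j⟫) * (⟪η u.2, e i⟫ * ⟪p u.2, e j⟫)
        + (⟪η u.1, e i⟫ * ⟪p u.1, e j⟫) * (⟪η u.2, e j⟫ * ⟪p u.2, e i⟫)) ∂(μ.prod μ) :=
    fun i => (integral_finsetSum _ fun j _ => h3 i j).symm
  simp only [h4]
  rw [← integral_finsetSum _ fun i _ => integrable_finsetSum _ fun j _ => h3 i j,
    ← integral_const_mul]
  unfold zcf
  refine integral_congr_ae (Eventually.of_forall fun u => ?_)
  simp only [zc]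
  congr 1
  have e1 : ⟪p u.1, p u.2⟫ * ⟪η u.1, η u.2⟫ = ∑ i, ∑ j,
      (⟪η u.1, e i⟫ * ⟪p u.1, e j⟫) * (⟪η u.2, e i⟫ * ⟪p u.2, e j⟫) := by
    rw [inner_sum_basis e (p u.1), inner_sum_basis e (η u.1), mul_comm, Finset.sum_mul_sum]
    refine Finset.sum_congr rfl fun i _ => Finset.sum_congr rfl fun j _ => ?_
    ring
  have e2 : ⟪η u.1, p u.2⟫ * ⟪η u.2, p u.1⟫ = ∑ i, ∑ j,
      (⟪η u.1, e i⟫ * ⟪p u.1, e j⟫) * (⟪η u.2, e j⟫ * ⟪p u.2, e i⟫) := by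
    rw [inner_sum_basis e (η u.1), inner_sum_basis e (η u.2), Finset.sum_mul_sum]
    refine Finset.sum_congr rfl fun i _ => Finset.sum_congr rfl fun j _ => ?_
    ring
  rw [e1, e2, ← Finset.sum_add_distrib]
  exact Finset.sum_congr rfl fun i _ => Finset.sum_add_distrib.symm

/-- the second coefficient vanishes when the first moments are antisymmetric -/
theorem zcf2_zero (hp : Measurable p) (hη : Measurable η) {C : ℝ} (hp1 : ∀ x, ‖p x‖ = 1)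
    (hηC : ∀ x, ‖η x‖ ≤ C) {ι : Type*} [Fintype ι] (e : OrthonormalBasis ι ℝ V) (m : ℕ)
    (ha : ∀ i j, m1f μ p e (fun x => ⟪η x, e i⟫) j = -m1f μ p e (fun x => ⟪η x, e j⟫) i) :
    zcf m μ p η 2 = 0 := by
  rw [zcf2 hp hη hp1 hηC e m]
  have h1 : ∑ i, ∑ j, (m1f μ p e (fun x => ⟪η x, e i⟫) j
      * m1f μ p e (fun x => ⟪η x, e i⟫) j
      + m1f μ p e (fun x => ⟪η x, e i⟫) j * m1f μ p e (fun x => ⟪η x, e j⟫) i) = 0 := by
    refine Finset.sum_eq_zero fun i _ => Finset.sum_eq_zero fun j _ => ?_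
    rw [ha j i]
    ring
  rw [h1, mul_zero]

/-- algebra of the third coefficient -/
lemma cub_alg {ι : Type*} [Fintype ι] [DecidableEq ι] {A : ι → ι → ι → ℝ} {d : ℝ}
    (hd : (Fintype.card ι : ℝ) = d) (hd0 : d ≠ 0) (hs : ∀ i j k, A i j k = A i k j) :
    (∑ i, ∑ j, ∑ k, A i j k ^ 2) + 2 * (∑ i, ∑ j, ∑ k, A i j k * A j i k)
      ≤ 3 * (∑ i, ((∑ j, ∑ k, A i j k ^ 2) - (∑ j, A i j j) ^ 2 / d))
        + (1 / d - 2 / d ^ 2) * (∑ i, (∑ j, A i j j) ^ 2)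
        + 4 / d * ∑ i, (∑ j, A i j j) * ∑ j, A j j i := by
  set e : ι → ℝ := fun i => ∑ j, A i j j with he
  set g : ι → ℝ := fun i => ∑ j, A j j i with hg
  set B : ι → ι → ι → ℝ := fun i j k => A i j k - e i / d * (if j = k then 1 else 0) with hB
  have hBs : ∀ i j k, B i j k = B i k j := by
    intro i j k
    simp only [hB]
    rw [hs i j k]
    by_cases h : j = k
    · simp [h]
    · simp [h, Ne.symm h]
  have h1 : ∀ i, ∑ j, ∑ k, A i j k ^ 2 = (∑ j, ∑ k, B i j k ^ 2) + e i ^ 2 / d := by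
    intro i
    have h2 : ∀ j, ∑ k, A i j k ^ 2
        = (∑ k, B i j k ^ 2) + (2 * (e i / d) * A i j j - (e i / d) ^ 2) := by
      intro j
      have h3 : ∀ k, A i j k ^ 2 = B i j k ^ 2
          + (if j = k then 2 * (e i / d) * A i j j - (e i / d) ^ 2 else 0) := by
        intro k
        by_cases h : j = k
        · subst h
          simp only [hB, if_true]
          ring
        · simp only [hB, h, if_false]
          ring
      simp only [h3]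
      rw [Finset.sum_add_distrib, Finset.sum_ite_eq]
      simp
    simp only [h2]
    rw [Finset.sum_add_distrib, Finset.sum_sub_distrib, ← Finset.mul_sum, Finset.sum_const,
      Finset.card_univ, nsmul_eq_mul, hd]
    have h4 : ∑ j, A i j j = e i := rfl
    rw [h4]
    field_simp
    ring
  have h5 : ∑ i, ∑ j, ∑ k, A i j k * A j i k = (∑ i, ∑ j, ∑ k, B i j k * B j i k)
      + 2 / d * (∑ i, e i * g i) - 1 / d ^ 2 * ∑ i, e i ^ 2 := by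
    have h6 : ∀ i j k, A i j k * A j i k = B i j k * B j i k
        + ((if i = k then A i j k * (e j / d) else 0) + (if j = k then A j i k * (e i / d) else 0)
          - (if j = k then (if i = k then e i / d * (e j / d) else 0) else 0)) := by
      intro i j k
      simp only [hB]
      by_cases h : i = k
      · by_cases h' : j = k
        · simp only [h, h', if_true]
          ring
        · simp only [h, h', if_true, if_false]
          ring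
      · by_cases h' : j = k
        · simp only [h, h', if_true, if_false]
          ring
        · simp only [h, h', if_false]
          ring
    simp only [h6, Finset.sum_add_distrib, Finset.sum_sub_distrib, Finset.sum_ite_eq,
      Finset.mem_univ, if_true]
    have s1 : ∑ i, ∑ j, A i j i * (e j / d) = 1 / d * ∑ i, e i * g i := by
      rw [Finset.sum_comm, Finset.mul_sum]
      refine Finset.sum_congr rfl fun j _ => ?_
      rw [← Finset.sum_mul]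
      have : ∑ i, A i j i = g j := Finset.sum_congr rfl fun i _ => hs i j i
      rw [this]
      ring
    have s2 : ∑ i, ∑ j, A j i j * (e i / d) = 1 / d * ∑ i, e i * g i := by
      rw [Finset.mul_sum]
      refine Finset.sum_congr rfl fun i _ => ?_
      rw [← Finset.sum_mul]
      have : ∑ j, A j i j = g i := Finset.sum_congr rfl fun j _ => hs j i j
      rw [this]
      ring
    have s3 : ∑ i, e i / d * (e i / d) = 1 / d ^ 2 * ∑ i, e i ^ 2 := by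
      rw [Finset.mul_sum]
      refine Finset.sum_congr rfl fun i _ => ?_
      ring
    rw [s1, s2, s3]
    ring
  have h7 : ∑ i, ∑ j, ∑ k, B i j k * B j i k ≤ ∑ i, ∑ j, ∑ k, B i j k ^ 2 := by
    have h8 : ∑ i, ∑ j, ∑ k, B j i k ^ 2 = ∑ i, ∑ j, ∑ k, B i j k ^ 2 := Finset.sum_comm
    have h9 : ∑ i, ∑ j, ∑ k, B i j k * B j i k
        ≤ ∑ i, ∑ j, ∑ k, (1 / 2 * B i j k ^ 2 + 1 / 2 * B j i k ^ 2) := by
      refine Finset.sum_le_sum fun i _ => Finset.sum_le_sum fun j _ => Finset.sum_le_sum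
        fun k _ => ?_
      nlinarith [sq_nonneg (B i j k - B j i k)]
    simp only [Finset.sum_add_distrib, ← Finset.mul_sum] at h9
    rw [h8] at h9
    linarith
  have h10 : ∑ i, ((∑ j, ∑ k, A i j k ^ 2) - (∑ j, A i j j) ^ 2 / d)
      = ∑ i, ∑ j, ∑ k, B i j k ^ 2 := by
    refine Finset.sum_congr rfl fun i _ => ?_
    rw [h1 i]
    ring
  have h11 : ∑ i, ∑ j, ∑ k, A i j k ^ 2 = (∑ i, ∑ j, ∑ k, B i j k ^ 2) + 1 / d * ∑ i, e i ^ 2 := by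
    simp only [h1]
    rw [Finset.sum_add_distrib, Finset.mul_sum]
    congr 1
    refine Finset.sum_congr rfl fun i _ => ?_
    ring
  have h12 : ∑ i, (∑ j, A i j j) ^ 2 = ∑ i, e i ^ 2 := rfl
  have h13 : ∑ i, (∑ j, A i j j) * ∑ j, A j j i = ∑ i, e i * g i := rfl
  rw [h10, h11, h12, h13, h5]
  set SB := ∑ i, ∑ j, ∑ k, B i j k ^ 2
  set BB := ∑ i, ∑ j, ∑ k, B i j k * B j i k
  set E := ∑ i, e i ^ 2
  set G := ∑ i, e i * g i
  have h14 : 3 * SB + (1 / d - 2 / d ^ 2) * E + 4 / d * G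
      - (SB + 1 / d * E + 2 * (BB + 2 / d * G - 1 / d ^ 2 * E)) = 2 * (SB - BB) := by ring
  linarith

theorem zcf3_eq (hp : Measurable p) (hη : Measurable η) {C : ℝ} (hp1 : ∀ x, ‖p x‖ = 1)
    (hηC : ∀ x, ‖η x‖ ≤ C) {ι : Type*} [Fintype ι] (e : OrthonormalBasis ι ℝ V) (m : ℕ) :
    zcf m μ p η 3 = m * (m + 1) / 2 * ((∑ i, ∑ j, ∑ k, m2f μ p e (fun x => ⟪η x, e i⟫) j k ^ 2)
        + 2 * ∑ i, ∑ j, ∑ k, m2f μ p e (fun x => ⟪η x, e i⟫) j k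
          * m2f μ p e (fun x => ⟪η x, e j⟫) i k)
      - ((m : ℝ) / 2 - 2) * (∑ i, (∫ x, ⟪η x, e i⟫ ∂μ) ^ 2)
      - 2 * m * ∑ i, (∫ x, ⟪η x, e i⟫ ∂μ) * m1f μ p e (fun x => ⟪η x, p x⟫) i := by
  have b := fun i => BM_inner hη hηC (e i)
  have c := fun j => BM_p hp hp1 (e j)
  have bf : BM fun x => ⟪η x, p x⟫ := by
    refine ⟨hη.inner (𝕜 := ℝ) hp, C, fun x => ?_⟩
    have := abs_real_inner_le_norm (η x) (p x)
    rw [hp1, mul_one] at this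
    exact this.trans (hηC x)
  have ps : ∀ (S : Ω × Ω → ℝ) (f : ι → Ω × Ω → ℝ), (∀ i, Integrable (f i) (μ.prod μ)) →
      (∀ u, S u = ∑ i, f i u) → Integrable S (μ.prod μ) ∧
        ∫ u, S u ∂(μ.prod μ) = ∑ i, ∫ u, f i u ∂(μ.prod μ) := by
    intro S f hf hS
    constructor
    · exact (integrable_finsetSum _ fun i _ => hf i).congr (Eventually.of_forall fun u => (hS u).symm)
    · rw [← integral_finsetSum _ fun i _ => hf i]
      exact integral_congr_ae (Eventually.of_forall fun u => hS u)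
  have b2 : ∀ i j k, BM fun x => ⟪η x, e i⟫ * (⟪p x, e j⟫ * ⟪p x, e k⟫) :=
    fun i j k => (b i).mul ((c j).mul (c k))
  have hq : ∀ i j k l, (∫ u : Ω × Ω, (⟪η u.1, e i⟫ * (⟪p u.1, e j⟫ * ⟪p u.1, e k⟫))
      * (⟪η u.2, e l⟫ * (⟪p u.2, e j⟫ * ⟪p u.2, e k⟫)) ∂(μ.prod μ))
      = m2f μ p e (fun x => ⟪η x, e i⟫) j k * m2f μ p e (fun x => ⟪η x, e l⟫) j k := by
    intro i j k l
    rw [pair_eq (f := fun x => ⟪η x, e i⟫ * (⟪p x, e j⟫ * ⟪p x, e k⟫))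
      (g := fun x => ⟪η x, e l⟫ * (⟪p x, e j⟫ * ⟪p x, e k⟫))]
    rfl
  -- s^2 <a,b>
  have w1 : ∀ i, KF (fun s => s ^ 2) μ p (fun x => ⟪η x, e i⟫) (fun x => ⟪η x, e i⟫)
      = ∑ j, ∑ k, m2f μ p e (fun x => ⟪η x, e i⟫) j k ^ 2 := by
    intro i
    rw [KF_s2 hp hp1 (b i) (b i) e]
    refine Finset.sum_congr rfl fun j _ => Finset.sum_congr rfl fun k _ => ?_
    unfold m2f
    ring
  obtain ⟨i1, v1⟩ := ps (fun u => ⟪p u.1, p u.2⟫ ^ 2 * ⟪η u.1, η u.2⟫)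
    (fun i u => (⟪p u.1, p u.2⟫ ^ 2) * (⟪η u.1, e i⟫ * ⟪η u.2, e i⟫))
    (fun i => KF_int hp hp1 (κ := fun s => s ^ 2) (BK.of_cont (by fun_prop)) (b i) (b i))
    (fun u => by rw [inner_sum_basis e (η u.1), Finset.mul_sum])
  have v1' : ∫ u : Ω × Ω, ⟪p u.1, p u.2⟫ ^ 2 * ⟪η u.1, η u.2⟫ ∂(μ.prod μ)
      = ∑ i, ∑ j, ∑ k, m2f μ p e (fun x => ⟪η x, e i⟫) j k ^ 2 := by
    rw [v1]
    exact Finset.sum_congr rfl fun i _ => w1 i
  -- <a,b>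
  obtain ⟨i2, v2⟩ := ps (fun u => ⟪η u.1, η u.2⟫) (fun i u => ⟪η u.1, e i⟫ * ⟪η u.2, e i⟫)
    (fun i => pair_int (b i) (b i)) (fun u => inner_sum_basis e _ _)
  have v2' : ∫ u : Ω × Ω, ⟪η u.1, η u.2⟫ ∂(μ.prod μ) = ∑ i, (∫ x, ⟪η x, e i⟫ ∂μ) ^ 2 := by
    rw [v2]
    refine Finset.sum_congr rfl fun i _ => ?_
    rw [pair_eq (f := fun x => ⟪η x, e i⟫) (g := fun x => ⟪η x, e i⟫), sq]
  -- s a_y b_x
  have r3 : ∀ i j k, Integrable (fun u : Ω × Ω => (⟪η u.1, e i⟫ * (⟪p u.1, e j⟫ * ⟪p u.1, e k⟫))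
      * (⟪η u.2, e j⟫ * (⟪p u.2, e i⟫ * ⟪p u.2, e k⟫))) (μ.prod μ) :=
    fun i j k => pair_int (b2 i j k) (b2 j i k)
  obtain ⟨i3, v3⟩ := ps (fun u => ⟪p u.1, p u.2⟫ * (⟪η u.1, p u.2⟫ * ⟪η u.2, p u.1⟫))
    (fun i u => ∑ j, ∑ k, (⟪η u.1, e i⟫ * (⟪p u.1, e j⟫ * ⟪p u.1, e k⟫))
      * (⟪η u.2, e j⟫ * (⟪p u.2, e i⟫ * ⟪p u.2, e k⟫)))
    (fun i => integrable_finsetSum _ fun j _ => integrable_finsetSum _ fun k _ => r3 i j k)
    (fun u => by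
      rw [inner_sum_basis e (η u.1) (p u.2), inner_sum_basis e (η u.2) (p u.1),
        inner_sum_basis e (p u.1) (p u.2), Finset.sum_mul_sum, Finset.mul_sum]
      refine Finset.sum_congr rfl fun i _ => ?_
      rw [Finset.mul_sum]
      refine Finset.sum_congr rfl fun j _ => ?_
      rw [Finset.sum_mul]
      refine Finset.sum_congr rfl fun k _ => ?_
      ring)
  have v3' : ∫ u : Ω × Ω, ⟪p u.1, p u.2⟫ * (⟪η u.1, p u.2⟫ * ⟪η u.2, p u.1⟫) ∂(μ.prod μ)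
      = ∑ i, ∑ j, ∑ k, m2f μ p e (fun x => ⟪η x, e i⟫) j k
          * m2f μ p e (fun x => ⟪η x, e j⟫) i k := by
    rw [v3]
    refine Finset.sum_congr rfl fun i _ => ?_
    rw [integral_finsetSum _ fun j _ => integrable_finsetSum _ fun k _ => r3 i j k]
    refine Finset.sum_congr rfl fun j _ => ?_
    rw [integral_finsetSum _ fun k _ => r3 i j k]
    refine Finset.sum_congr rfl fun k _ => ?_
    rw [pair_eq (f := fun x => ⟪η x, e i⟫ * (⟪p x, e j⟫ * ⟪p x, e k⟫))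
      (g := fun x => ⟪η x, e j⟫ * (⟪p x, e i⟫ * ⟪p x, e k⟫))]
    rfl
  -- a_x b_x
  obtain ⟨i4, v4⟩ := ps (fun u => ⟪η u.1, p u.1⟫ * ⟪η u.2, p u.1⟫)
    (fun i u => (⟪η u.1, p u.1⟫ * ⟪p u.1, e i⟫) * ⟪η u.2, e i⟫)
    (fun i => pair_int (bf.mul (c i)) (b i)) (fun u => by
      rw [inner_sum_basis e (η u.2) (p u.1), Finset.mul_sum]
      refine Finset.sum_congr rfl fun i _ => ?_
      ring)
  have v4' : ∫ u : Ω × Ω, ⟪η u.1, p u.1⟫ * ⟪η u.2, p u.1⟫ ∂(μ.prod μ)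
      = ∑ i, (∫ x, ⟪η x, e i⟫ ∂μ) * m1f μ p e (fun x => ⟪η x, p x⟫) i := by
    rw [v4]
    refine Finset.sum_congr rfl fun i _ => ?_
    rw [pair_eq (f := fun x => ⟪η x, p x⟫ * ⟪p x, e i⟫) (g := fun x => ⟪η x, e i⟫), mul_comm]
    rfl
  obtain ⟨i5, v5⟩ := ps (fun u => ⟪η u.1, p u.2⟫ * ⟪η u.2, p u.2⟫)
    (fun i u => ⟪η u.1, e i⟫ * (⟪η u.2, p u.2⟫ * ⟪p u.2, e i⟫))
    (fun i => pair_int (b i) (bf.mul (c i))) (fun u => by
      rw [inner_sum_basis e (η u.1) (p u.2), Finset.sum_mul]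
      refine Finset.sum_congr rfl fun i _ => ?_
      ring)
  have v5' : ∫ u : Ω × Ω, ⟪η u.1, p u.2⟫ * ⟪η u.2, p u.2⟫ ∂(μ.prod μ)
      = ∑ i, (∫ x, ⟪η x, e i⟫ ∂μ) * m1f μ p e (fun x => ⟪η x, p x⟫) i := by
    rw [v5]
    refine Finset.sum_congr rfl fun i _ => ?_
    rw [pair_eq (f := fun x => ⟪η x, e i⟫) (g := fun x => ⟪η x, p x⟫ * ⟪p x, e i⟫)]
    rfl
  have hz : zcf m μ p η 3 = ∫ u : Ω × Ω, (((m * (m + 1) / 2 : ℝ) * (⟪p u.1, p u.2⟫ ^ 2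
      * ⟪η u.1, η u.2⟫) + (m * (m + 1) : ℝ) * (⟪p u.1, p u.2⟫ * (⟪η u.1, p u.2⟫ * ⟪η u.2, p u.1⟫)))
      - (((m : ℝ) / 2 - 2) * ⟪η u.1, η u.2⟫ + ((m : ℝ) * (⟪η u.1, p u.1⟫ * ⟪η u.2, p u.1⟫)
        + (m : ℝ) * (⟪η u.1, p u.2⟫ * ⟪η u.2, p u.2⟫)))) ∂(μ.prod μ) := by
    unfold zcf
    refine integral_congr_ae (Eventually.of_forall fun u => ?_)
    simp only [zc]
    ring
  have j13 : Integrable (fun u : Ω × Ω => ((m * (m + 1) / 2 : ℝ) * (⟪p u.1, p u.2⟫ ^ 2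
      * ⟪η u.1, η u.2⟫) + (m * (m + 1) : ℝ) * (⟪p u.1, p u.2⟫ * (⟪η u.1, p u.2⟫ * ⟪η u.2, p u.1⟫))))
      (μ.prod μ) := (i1.const_mul _).add (i3.const_mul _)
  have j45 : Integrable (fun u : Ω × Ω => ((m : ℝ) * (⟪η u.1, p u.1⟫ * ⟪η u.2, p u.1⟫)
        + (m : ℝ) * (⟪η u.1, p u.2⟫ * ⟪η u.2, p u.2⟫))) (μ.prod μ) :=
    (i4.const_mul _).add (i5.const_mul _)
  have j245 : Integrable (fun u : Ω × Ω => (((m : ℝ) / 2 - 2) * ⟪η u.1, η u.2⟫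
      + ((m : ℝ) * (⟪η u.1, p u.1⟫ * ⟪η u.2, p u.1⟫)
        + (m : ℝ) * (⟪η u.1, p u.2⟫ * ⟪η u.2, p u.2⟫)))) (μ.prod μ) := (i2.const_mul _).add j45
  rw [hz, integral_sub j13 j245, integral_add (i1.const_mul _) (i3.const_mul _),
    integral_add (i2.const_mul _) j45, integral_add (i4.const_mul _) (i5.const_mul _)]
  simp only [integral_const_mul]
  rw [v1', v2', v3', v4', v5']
  ring

/-- the bound of the third coefficient -/
theorem zcf3_le (hp : Measurable p) (hη : Measurable η) {C : ℝ} (hp1 : ∀ x, ‖p x‖ = 1)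
    (hηC : ∀ x, ‖η x‖ ≤ C) {ι : Type*} [Fintype ι] (e : OrthonormalBasis ι ℝ V) {m : ℕ}
    (hd : finrank ℝ V = m + 2) {K2 : ℝ} (hK : 0 ≤ K2) (hQ : QB μ p e K2) :
    zcf m μ p η 3 ≤ 3 * (m * (m + 1) / 2 * K2) * (∫ x, ‖η x‖ ^ 2 ∂μ)
      + (2 - m * (3 * m + 4) / (2 * (m + 2) ^ 2)) * (∑ i, (∫ x, ⟪η x, e i⟫ ∂μ) ^ 2)
      - 2 * m / (m + 2) * ∑ i, (∫ x, ⟪η x, e i⟫ ∂μ) * m1f μ p e (fun x => ⟪η x, p x⟫) i := by
  classical
  have b := fun i => BM_inner hη hηC (e i)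
  have c := fun j => BM_p hp hp1 (e j)
  have hcard : Fintype.card ι = m + 2 := by
    rw [← hd]
    exact (Module.finrank_eq_card_basis e.toBasis).symm
  have hcR : (Fintype.card ι : ℝ) = (m : ℝ) + 2 := by rw [hcard]; push_cast; ring
  have hm2 : (m : ℝ) + 2 ≠ 0 := by positivity
  set A : ι → ι → ι → ℝ := fun i j k => m2f μ p e (fun x => ⟪η x, e i⟫) j k with hA
  have hAs : ∀ i j k, A i j k = A i k j := by
    intro i j k
    simp only [hA, m2f]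
    refine integral_congr_ae (Eventually.of_forall fun x => ?_)
    simp only
    ring
  have hE : ∀ i, ∑ j, A i j j = ∫ x, ⟪η x, e i⟫ ∂μ := by
    intro i
    simp only [hA, m2f]
    rw [← integral_finsetSum _ fun j _ => ((b i).mul ((c j).mul (c j))).int]
    refine integral_congr_ae (Eventually.of_forall fun x => ?_)
    simp only
    rw [← Finset.mul_sum, ← inner_sum_basis e, real_inner_self_eq_norm_sq, hp1]
    ring
  have hG : ∀ i, ∑ j, A j j i = m1f μ p e (fun x => ⟪η x, p x⟫) i := by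
    intro i
    simp only [hA, m2f, m1f]
    rw [← integral_finsetSum _ fun j _ => ((b j).mul ((c j).mul (c i))).int]
    refine integral_congr_ae (Eventually.of_forall fun x => ?_)
    simp only
    rw [inner_sum_basis e (η x) (p x), Finset.sum_mul]
    refine Finset.sum_congr rfl fun j _ => ?_
    ring
  have h1 := cub_alg hcR hm2 hAs
  simp only [hE, hG] at h1
  have h2 : ∑ i, ((∑ j, ∑ k, A i j k ^ 2) - (∫ x, ⟪η x, e i⟫ ∂μ) ^ 2 / (m + 2))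
      ≤ K2 * ∫ x, ‖η x‖ ^ 2 ∂μ := by
    have h3 : ∀ i, (∑ j, ∑ k, A i j k ^ 2) - (∫ x, ⟪η x, e i⟫ ∂μ) ^ 2 / (m + 2)
        ≤ K2 * ∫ x, ⟪η x, e i⟫ ^ 2 ∂μ := by
      intro i
      have := m2f_le (μ := μ) hp hp1 (b i) e hcard hK hQ
      simp only [hA]
      linarith
    refine (Finset.sum_le_sum fun i _ => h3 i).trans (le_of_eq ?_)
    rw [← Finset.mul_sum, ← integral_finsetSum _ fun i _ => ((b i).pow 2).int]
    congr 1
    refine integral_congr_ae (Eventually.of_forall fun x => ?_)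
    simp only
    rw [← real_inner_self_eq_norm_sq, inner_sum_basis e]
    refine Finset.sum_congr rfl fun i _ => ?_
    ring
  rw [zcf3_eq hp hη hp1 hηC e m]
  have hmm : (0 : ℝ) ≤ m * (m + 1) / 2 := by positivity
  have h4 := mul_le_mul_of_nonneg_left h1 hmm
  have h5 := mul_le_mul_of_nonneg_left h2 (by positivity : (0 : ℝ) ≤ 3 * (m * (m + 1) / 2))
  set E2 := ∑ i, (∫ x, ⟪η x, e i⟫ ∂μ) ^ 2 with hE2
  set EG := ∑ i, (∫ x, ⟪η x, e i⟫ ∂μ) * m1f μ p e (fun x => ⟪η x, p x⟫) i with hEG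
  have e1 : (m : ℝ) * (m + 1) / 2 * ((1 / ((m : ℝ) + 2) - 2 / ((m : ℝ) + 2) ^ 2) * E2)
      - ((m : ℝ) / 2 - 2) * E2 = (2 - m * (3 * m + 4) / (2 * (m + 2) ^ 2)) * E2 := by
    field_simp
    ring
  have e2 : (m : ℝ) * (m + 1) / 2 * (4 / ((m : ℝ) + 2) * EG) - 2 * m * EG
      = - (2 * m / (m + 2) * EG) := by
    field_simp
    ring
  nlinarith [h4, h5, e1, e2]

/-- the upper bound for a field with antisymmetric first moments -/
theorem ZZ_up (hp : Measurable p) (hη : Measurable η) {C : ℝ} (hp1 : ∀ x, ‖p x‖ = 1)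
    (hηC : ∀ x, ‖η x‖ ≤ C) (hC : 0 ≤ C) {m : ℕ} (hm : 1 ≤ m) (hd : finrank ℝ V = m + 2)
    {ι : Type*} [Fintype ι] (e : OrthonormalBasis ι ℝ V)
    (ha : ∀ i j, m1f μ p e (fun x => ⟪η x, e i⟫) j = -m1f μ p e (fun x => ⟪η x, e j⟫) i)
    {T T1 : ℝ} (h1 : 0 < T) (h2 : T ≤ T1) (h3 : T1 < 1) :
    zcf m μ p η 1 * T + zcf m μ p η 3 * T ^ 3 ≤ ZZ m μ p η T ∧
    ZZ m μ p η T ≤ zcf m μ p η 1 * T + zcf m μ p η 3 * T ^ 3 + (T / T1) ^ 4 * ZZ m μ p η T1 := by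
  obtain ⟨h4, h5⟩ := ZZ_split (μ := μ) hp hη hp1 hηC hC hm hd
  obtain ⟨h6, h7⟩ := h5 h1 h2 h3
  have hz2 := zcf2_zero (μ := μ) hp hη hp1 hηC e m ha
  have e1 : ∀ t : ℝ, ∑ i ∈ Finset.range 4, zcf m μ p η i * t ^ i
      = zcf m μ p η 1 * t + zcf m μ p η 3 * t ^ 3 := by
    intro t
    have hz0 : zcf m μ p η 0 = 0 := by
      unfold zcf
      simp [zc]
    rw [Finset.sum_range_succ, Finset.sum_range_succ, Finset.sum_range_succ,
      Finset.sum_range_succ, Finset.sum_range_zero, hz0, hz2]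
    ring
  rw [e1] at h6 h7
  rw [e1] at h7
  have hT1 : 0 < T1 := h1.trans_le h2
  have h8 : 0 ≤ zcf m μ p η 1 * T1 + zcf m μ p η 3 * T1 ^ 3 :=
    add_nonneg (mul_nonneg (h4 1 (by norm_num)) hT1.le)
      (mul_nonneg (h4 3 (by norm_num)) (pow_nonneg hT1.le _))
  have h9 : (T / T1) ^ 4 * (ZZ m μ p η T1 - (zcf m μ p η 1 * T1 + zcf m μ p η 3 * T1 ^ 3))
      ≤ (T / T1) ^ 4 * ZZ m μ p η T1 :=
    mul_le_mul_of_nonneg_left (by linarith) (by positivity)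
  constructor
  · linarith
  · linarith

end

end Vale.Agent.P224.R2.H470
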