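import Vale.Agent.P224.R2.H460.Dn
import Vale.Agent.P224.R2.H460.Main
import Vale.Agent.P224.R2.H470.ZCoef
import Vale.Agent.P224.R2.H470.Mac
import Vale.Agent.P224.R2.H869.Mom

/-!
The expansions for the pair integrals at level T.
-/

namespace Vale.Agent.P224.R2.H470

open MeasureTheory Module Function Set Filter Real
open Vale.Agent.P224.R2.H460 Vale.Agent.P224.R2.H869 Vale.Agent.P224.R2.H484
open Vale.Agent.P224.R2.H728 (BM ZZ)
open scoped RealInnerProductSpace Topology ContDiff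

set_option linter.unusedSectionVars false

section

variable {X : Type*} {E : Type*} [NormedAddCommGroup E] [InnerProductSpace ℝ E]
  [FiniteDimensional ℝ E] [MeasurableSpace E] [BorelSpace E]
variable [TopologicalSpace X] [MeasurableSpace X] [SecondCountableTopology X]
variable [CompactSpace X] [BorelSpace X] {μ : Measure X} {m : ℕ} {p n : X → E}
  {z : X → E} {T : ℝ}

lemma sk_eq_m {T : ℝ} (h0 : 0 ≤ T) (h1 : T < 1) (s : ℝ) :
    (1 - T ^ 2) * sk m m T s = cw m T * kr T m s := by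
  have hk : 0 < 1 - T ^ 2 := by nlinarith
  unfold sk cw kr
  have e : (m : ℝ) - m / 2 - 1 = (m : ℝ) / 2 - 1 := by ring
  rw [e, Real.rpow_sub_one hk.ne']
  field_simp

lemma sk_eq_m1 {T : ℝ} (s : ℝ) : sk m (m + 1) T s = cw m T * kr T (m + 1) s := by
  unfold sk cw kr
  have e : ((m + 1 : ℕ) : ℝ) - m / 2 - 1 = (m : ℝ) / 2 := by push_cast; ring
  rw [e]

/-- the row of the conformal volume -/
theorem minRow_of_oneP [IsFiniteMeasure μ] (h : OneP μ m p n) (hm : 1 ≤ m) : MinRow μ m p n where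
  mp := h.cp.measurable
  mn := h.cn.measurable
  np := h.np
  nn := h.nn
  row := by
    intro a ha ρ hρ
    have h1 := row1 h hm hρ.1 hρ.2 ha a
    rw [← neg_eq_zero, ← integral_neg] at h1
    rw [← h1]
    refine integral_congr_ae (Eventually.of_forall fun x => ?_)
    simp only [kr, SM2.ker]
    rw [inner_sub_left, real_inner_smul_left, real_inner_self_eq_norm_sq, ha,
      real_inner_comm (p x) a, real_inner_comm (n x) a]
    ring

variable [IsProbabilityMeasure μ]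

theorem cv_of_oneP [Nontrivial E] (h : OneP μ m p n) (hm : 1 ≤ m) : CV μ m p :=
  cv_of_min (minRow_of_oneP h hm)

lemma kr_int_le [Nontrivial E] (h : OneP μ m p n) (hm : 1 ≤ m) (h0 : 0 ≤ T) (h1 : T < 1) {y : E}
    (hy : ‖y‖ = 1) : cw m T * ∫ x, kr T m ⟪y, p x⟫ ∂μ ≤ 1 := by
  have h2 := (cv_of_oneP h hm).cv (T • y) (by
    rw [norm_smul, hy, mul_one, Real.norm_eq_abs, abs_of_nonneg h0]
    exact h1)
  rw [norm_smul, hy, mul_one, Real.norm_eq_abs, sq_abs, ← rpow_half_eq (by nlinarith)] at h2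
  rw [probReal_univ] at h2
  refine le_trans (le_of_eq ?_) h2
  unfold cw
  congr 1
  refine integral_congr_ae (Eventually.of_forall fun x => ?_)
  simp only [kr]
  rw [real_inner_smul_right, real_inner_comm]

lemma sk_m_le [Nontrivial E] (h : OneP μ m p n) (hm : 1 ≤ m) (h0 : 0 ≤ T) (h1 : T < 1) (x : X) :
    ∫ y, sk m m T ⟪p x, p y⟫ ∂μ ≤ 1 / (1 - T ^ 2) := by
  have hk : 0 < 1 - T ^ 2 := by nlinarith
  have h2 := kr_int_le h hm h0 h1 (h.np x)
  rw [le_div_iff₀ hk, mul_comm, ← integral_const_mul]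
  refine le_trans (le_of_eq ?_) h2
  rw [← integral_const_mul]
  exact integral_congr_ae (Eventually.of_forall fun y => sk_eq_m h0 h1 _)

lemma sk_m1_le [Nontrivial E] (h : OneP μ m p n) (hm : 1 ≤ m) (h0 : 0 ≤ T) (h1 : T < 1) (x : X) :
    ∫ y, sk m (m + 1) T ⟪p x, p y⟫ ∂μ ≤ 1 / (1 - T ^ 2) := by
  have hk : 0 < 1 - T ^ 2 := by nlinarith
  have hp := h.cp
  have hn := h.cn
  have hx := h.np x
  have h2 := kr_int_le h hm h0 h1 hx
  have r := row1 h hm h0 h1 hx (p x)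
  have hc : ∀ q, Continuous fun y => kr T q ⟪p x, p y⟫ := fun q =>
    continuous_kr h0 h1 q hx hp h.np
  have c1 := hc (m + 1)
  have c0 := hc m
  have hpos : ∀ y, 0 < kr T (m + 1) ⟪p x, p y⟫ := fun y => kr_pos _ (one_sub_pos h0 h1 hx (h.np y))
  have e1 : ∫ y, kr T m ⟪p x, p y⟫ ∂μ = (1 - T ^ 2) * (∫ y, kr T (m + 1) ⟪p x, p y⟫ ∂μ)
      + T ^ 2 * (∫ y, kr T (m + 1) ⟪p x, p y⟫ * ⟪p x, n y⟫ ^ 2 ∂μ) := by
    have e2 : ∫ y, kr T m ⟪p x, p y⟫ ∂μ = ∫ y, (((1 - T ^ 2) * kr T (m + 1) ⟪p x, p y⟫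
        + T ^ 2 * (kr T (m + 1) ⟪p x, p y⟫ * ⟪p x, n y⟫ ^ 2))
        - T * (kr T (m + 1) ⟪p x, p y⟫ * (⟪p y - T • p x, p x⟫
          + T * (⟪p x, n y⟫ * ⟪n y, p x⟫)))) ∂μ := by
      refine integral_congr_ae (Eventually.of_forall fun y => ?_)
      simp only
      rw [← kr_mul m (one_sub_pos h0 h1 hx (h.np y)), inner_sub_left, real_inner_smul_left,
        real_inner_self_eq_norm_sq, hx, real_inner_comm (p x) (n y), real_inner_comm (p x) (p y)]
      ring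
    rw [e2, integral_sub (int_of_cont (by fun_prop)) (int_of_cont (by fun_prop)),
      integral_add (int_of_cont (by fun_prop)) (int_of_cont (by fun_prop)), integral_const_mul,
      integral_const_mul, integral_const_mul, r]
    ring
  have h3 : 0 ≤ ∫ y, kr T (m + 1) ⟪p x, p y⟫ * ⟪p x, n y⟫ ^ 2 ∂μ :=
    integral_nonneg fun y => mul_nonneg (hpos y).le (sq_nonneg _)
  have hcw := (cw_pos (m := m) h0 h1).le
  have h4 : (1 - T ^ 2) * (cw m T * ∫ y, kr T (m + 1) ⟪p x, p y⟫ ∂μ) ≤ 1 := by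
    have h5 : cw m T * ((1 - T ^ 2) * (∫ y, kr T (m + 1) ⟪p x, p y⟫ ∂μ))
        ≤ cw m T * ∫ y, kr T m ⟪p x, p y⟫ ∂μ := by
      refine mul_le_mul_of_nonneg_left ?_ hcw
      rw [e1]
      have := mul_nonneg (sq_nonneg T) h3
      linarith
    linarith
  rw [le_div_iff₀ hk, mul_comm]
  refine le_trans (le_of_eq ?_) h4
  congr 1
  rw [← integral_const_mul]
  exact integral_congr_ae (Eventually.of_forall fun y => sk_eq_m1 _)

lemma BM_cont {f : X → ℝ} (hf : Continuous f) : BM f := by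
  obtain ⟨C, hC⟩ := (isCompact_univ (X := X)).exists_bound_of_continuousOn hf.continuousOn
  exact ⟨hf.measurable, C, fun x => by
    have := hC x (mem_univ x)
    rwa [Real.norm_eq_abs] at this⟩

lemma cwPI_m (h0 : 0 ≤ T) (h1 : T < 1) {F G : X → ℝ} :
    cw m T * PI μ p T m (fun u => F u.1 * G u.2) = (1 - T ^ 2) * KF (sk m m T) μ p F G := by
  unfold PI KF
  rw [← integral_const_mul, ← integral_const_mul]
  refine integral_congr_ae (Eventually.of_forall fun u => ?_)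
  simp only
  rw [← mul_assoc, ← sk_eq_m h0 h1]
  ring

/-- the product of two means at level T -/
theorem chi_le [Nontrivial E] (h : OneP μ m p n) (hm : 1 ≤ m) (hd : finrank ℝ E = m + 2)
    {ι : Type*} [Fintype ι]
    (e : OrthonormalBasis ι ℝ E) {K2 : ℝ} (hK : 0 ≤ K2) (hQ : QB μ p e K2) {T1 : ℝ} (h1 : 0 < T)
    (h2 : T ≤ T1) (h3 : T1 < 1) {F : X → ℝ} (hF : Continuous F) :
    cw m T * PI μ p T m (fun u => F u.1 * F u.2)
      ≤ (1 - T ^ 2) * ((∫ x, F x ∂μ) ^ 2 * (1 + (m + 4) / (2 * (m + 2)) * T ^ 2)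
        + T * (m * ∑ j, (∫ x, F x * ⟪p x, e j⟫ ∂μ) ^ 2)
        + (m * (m + 1) / 2 * K2 * T ^ 2 + 1 / (1 - T1 ^ 2) * (T / T1) ^ 3) * ∫ x, F x ^ 2 ∂μ) := by
  have hT : T < 1 := h2.trans_lt h3
  have hk : 0 < 1 - T ^ 2 := by nlinarith
  have hT1 : 0 < T1 := h1.trans_le h2
  rw [cwPI_m h1.le hT]
  refine mul_le_mul_of_nonneg_left ?_ hk.le
  have h4 := KF_sk_le (μ := μ) h.cp.measurable h.np (Finset.univ : Finset Unit)
    (F := fun _ => F) (fun _ => BM_cont hF) e hm hd hK hQ h1 h2 h3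
    (fun x => sk_m_le h hm hT1.le h3 x)
  simp only [Finset.univ_unique, Finset.sum_const, Finset.card_singleton, one_smul] at h4
  refine h4.trans (le_of_eq ?_)
  have hm2 : (m : ℝ) + 2 ≠ 0 := by positivity
  field_simp
  ring

omit [FiniteDimensional ℝ E] [MeasurableSpace E] [BorelSpace E] in
lemma mob_id {x y b : E} (hxx : ⟪x, x⟫ = 1) (hv : 1 - T * ⟪x, y⟫ ≠ 0) :
    √(1 - T ^ 2) * ⟪y - T • x, b⟫
      = (1 - T * ⟪x, y⟫) * ⟪(b - ⟪b, x⟫ • x) + √(1 - T ^ 2) • (⟪b, x⟫ • x), mob T x y⟫ := by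
  have e4 : ⟪y, b⟫ = ⟪b, y⟫ := real_inner_comm _ _
  have e5 : ⟪x, b⟫ = ⟪b, x⟫ := real_inner_comm _ _
  have e6 : ⟪y, x⟫ = ⟪x, y⟫ := real_inner_comm _ _
  unfold mob
  rw [e6, real_inner_smul_right, mul_inv_cancel_left₀ hv]
  simp only [inner_add_left, inner_add_right, inner_sub_left, inner_sub_right,
        real_inner_smul_left, real_inner_smul_right, hxx, e4, e5]
  ring

/-- the second moment of the centred product -/
theorem MM_le_mom [Nontrivial E] (h : OneP μ m p n) (hm : 1 ≤ m) (h0 : 0 ≤ T) (h1 : T < 1)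
    (hz : Continuous z) :
    (1 - T) * (cw m T * MM μ m p z T) ≤ m * Mo m 2 * ∫ x, ‖z x‖ ^ 2 ∂μ := by
  have hk : 0 < 1 - T ^ 2 := by nlinarith
  have hp := h.cp
  have hcw := cw_pos (m := m) h0 h1
  have hM := Mo_nonneg m 2
  have key : ∀ x, cw m T * ∫ y, kr T (m + 1) ⟪p x, p y⟫ * ⟪p y - T • p x, z x⟫ ^ 2 ∂μ
      ≤ (1 + T) / (1 - T ^ 2) * (Mo m 2 * ‖z x‖ ^ 2) := by
    intro x
    set b := z x with hb
    set f := ⟪b, p x⟫ with hf
    set b' : E := (b - f • p x) + √(1 - T ^ 2) • (f • p x) with hb'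
    have hs : √(1 - T ^ 2) ^ 2 = 1 - T ^ 2 := Real.sq_sqrt hk.le
    have hsp : 0 < √(1 - T ^ 2) := Real.sqrt_pos.2 hk
    have hxx : ⟪p x, p x⟫ = 1 := h.pp x
    have hperp : ⟪b - f • p x, p x⟫ = 0 := inner_perp (h.np x)
    have hbn : ‖b'‖ ^ 2 ≤ ‖b‖ ^ 2 := by
      have e1 : ‖b'‖ ^ 2 = ‖b - f • p x‖ ^ 2 + (1 - T ^ 2) * f ^ 2 := by
        rw [hb', norm_add_sq_real, inner_smul_right, inner_smul_right, hperp, norm_smul, norm_smul,
          h.np, mul_pow, mul_pow, Real.norm_eq_abs, Real.norm_eq_abs, sq_abs, sq_abs, hs]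
        ring
      have e2 : ‖b - f • p x‖ ^ 2 = ‖b‖ ^ 2 - f ^ 2 := norm_perp_sq (h.np x)
      rw [e1, e2]
      nlinarith [sq_nonneg (T * f)]
    have h4 := mom_one (cv_of_oneP h hm) (by omega) ⟨h0, h1⟩ (h.np x) b' 2
    rw [probReal_univ, one_mul, ← rpow_half_eq hk.le] at h4
    have e3 : ∀ y, √(1 - T ^ 2) * ⟪p y - T • p x, b⟫
        = (1 - T * ⟪p x, p y⟫) * ⟪b', mob T (p x) (p y)⟫ := fun y =>
      mob_id hxx (one_sub_pos h0 h1 (h.np x) (h.np y)).ne'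
    have hpw : ∀ y, kr T (m + 1) ⟪p x, p y⟫ * ⟪p y - T • p x, b⟫ ^ 2
        ≤ (1 + T) / (1 - T ^ 2) * (((1 - T * ⟪p y, p x⟫) ^ m)⁻¹
          * |⟪b', mob T (p x) (p y)⟫| ^ 2) := by
      intro y
      have hv := one_sub_pos h0 h1 (h.np x) (h.np y)
      have e6 : ⟪p y - T • p x, b⟫ ^ 2 = (1 - T * ⟪p x, p y⟫) ^ 2
          * ⟪b', mob T (p x) (p y)⟫ ^ 2 / (1 - T ^ 2) := by
        rw [eq_div_iff hk.ne', ← mul_pow, ← e3 y, mul_pow, hs]
        ring
      have hv1 : 1 - T * ⟪p x, p y⟫ ≤ 1 + T := by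
        have := (cos_mem h.np (x, y)).1
        simp only at this
        nlinarith
      rw [e6, sq_abs, real_inner_comm (p x) (p y)]
      have e7 : kr T (m + 1) ⟪p x, p y⟫ * ((1 - T * ⟪p x, p y⟫) ^ 2
          * ⟪b', mob T (p x) (p y)⟫ ^ 2 / (1 - T ^ 2))
          = (1 - T * ⟪p x, p y⟫) * (((1 - T * ⟪p x, p y⟫) ^ m)⁻¹
            * ⟪b', mob T (p x) (p y)⟫ ^ 2 / (1 - T ^ 2)) := by
        have := kr_mul m hv
        unfold kr at *
        rw [← this]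
        ring
      rw [e7]
      have h5 : 0 ≤ ((1 - T * ⟪p x, p y⟫) ^ m)⁻¹ * ⟪b', mob T (p x) (p y)⟫ ^ 2 / (1 - T ^ 2) :=
        div_nonneg (mul_nonneg (inv_nonneg.2 (pow_nonneg hv.le _)) (sq_nonneg _)) hk.le
      refine (mul_le_mul_of_nonneg_right hv1 h5).trans (le_of_eq (by ring))
    have c1 : Continuous fun y => kr T (m + 1) ⟪p x, p y⟫ :=
      continuous_kr h0 h1 (m + 1) (h.np x) hp h.np
    have i1 : Integrable (fun y => ((1 - T * ⟪p y, p x⟫) ^ m)⁻¹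
          * |⟪b', mob T (p x) (p y)⟫| ^ 2) μ := by
      refine int_mom (cv_of_oneP h hm) ⟨h0, h1⟩ (h.np x) (G := fun y => |⟪b', mob T (p x) (p y)⟫| ^ 2)
        ?_ (C := ‖b'‖ ^ 2) fun y => ?_
      · have := measurable_mob hp.measurable T (p x)
        exact ((measurable_const.inner this).abs).pow_const 2
      · rw [abs_of_nonneg (by positivity : (0 : ℝ) ≤ |⟪b', mob T (p x) (p y)⟫| ^ 2)]
        exact pow_le_pow_left₀ (abs_nonneg _) (abs_inner_mob_le ⟨h0, h1⟩ (h.np y) (h.np x) b') 2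
    have h6 := integral_mono (int_of_cont (μ := μ) (by fun_prop)) (i1.const_mul _) hpw
    rw [integral_const_mul] at h6
    have h7 := mul_le_mul_of_nonneg_left h6 hcw.le
    have h8 : 0 ≤ (1 + T) / (1 - T ^ 2) := by positivity
    have h9 := mul_le_mul_of_nonneg_left h4 h8
    have h10 : Mo m 2 * ‖b'‖ ^ 2 ≤ Mo m 2 * ‖b‖ ^ 2 := mul_le_mul_of_nonneg_left hbn hM
    have h11 := mul_le_mul_of_nonneg_left h10 h8
    unfold cw at h7 ⊢
    linarith
  have hkc := continuous_krp (p := p) h0 h1 (m + 1) hp h.np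
  have iP : Integrable (fun u : X × X => kr T (m + 1) ⟪p u.1, p u.2⟫
      * ⟪p u.2 - T • p u.1, z u.1⟫ ^ 2) (μ.prod μ) :=
    int_PI h0 h1 (m + 1) hp h.np (G := fun u => ⟪p u.2 - T • p u.1, z u.1⟫ ^ 2) (by fun_prop)
  have e8 : cw m T * PI μ p T (m + 1) (fun u => Y2 p z T u ^ 2)
      = ∫ x, cw m T * ∫ y, kr T (m + 1) ⟪p x, p y⟫ * ⟪p y - T • p x, z x⟫ ^ 2 ∂μ ∂μ := by
    unfold PI Y2
    rw [integral_prod _ iP, integral_const_mul]
  have h12 : cw m T * PI μ p T (m + 1) (fun u => Y2 p z T u ^ 2)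
      ≤ ∫ x, (1 + T) / (1 - T ^ 2) * (Mo m 2 * ‖z x‖ ^ 2) ∂μ := by
    rw [e8]
    exact integral_mono (iP.integral_prod_left.const_mul _) (int_of_cont (by fun_prop)) key
  rw [integral_const_mul, integral_const_mul] at h12
  have e9 : (1 - T) * ((1 + T) / (1 - T ^ 2)) = 1 := by
    have : (1 - T ^ 2) = (1 - T) * (1 + T) := by ring
    rw [this]
    have h13 : (1 - T) ≠ 0 := by linarith
    have h14 : (1 + T) ≠ 0 := by linarith
    field_simp
  unfold MM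
  have h15 := mul_le_mul_of_nonneg_left h12 (by positivity : (0 : ℝ) ≤ m)
  have h16 := mul_le_mul_of_nonneg_left h15 (by linarith : 0 ≤ 1 - T)
  calc (1 - T) * (cw m T * (m * PI μ p T (m + 1) (fun u => Y2 p z T u ^ 2)))
      = (1 - T) * (m * (cw m T * PI μ p T (m + 1) (fun u => Y2 p z T u ^ 2))) := by ring
    _ ≤ (1 - T) * (m * ((1 + T) / (1 - T ^ 2) * (Mo m 2 * ∫ x, ‖z x‖ ^ 2 ∂μ))) := h16
    _ = ((1 - T) * ((1 + T) / (1 - T ^ 2))) * (m * Mo m 2 * ∫ x, ‖z x‖ ^ 2 ∂μ) := by ring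
    _ = _ := by rw [e9, one_mul]

/-- the second moment constant -/
lemma mMo_le (m : ℕ) : (m : ℝ) * Mo m 2 ≤ 1472 / 1000 := by
  have hm2 : (0 : ℝ) < (m : ℝ) + 2 := by positivity
  set r : ℝ := (m : ℝ) / (m + 2) with hr
  have hr0 : 0 ≤ r := by positivity
  have h1 : r ≤ Real.exp (-(2 / (m + 2))) := by
    have h2 := Real.add_one_le_exp (-(2 / ((m : ℝ) + 2)))
    have h3 : r = -(2 / ((m : ℝ) + 2)) + 1 := by
      rw [hr]
      field_simp
      ring
    rw [h3]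
    exact h2
  have h4 : √r ≤ Real.exp (-(1 / (m + 2))) := by
    rw [Real.sqrt_le_left (Real.exp_pos _).le, ← Real.exp_nat_mul]
    refine h1.trans (le_of_eq ?_)
    congr 1
    push_cast
    ring
  have h5 : √r ^ m ≤ Real.exp (-(m / (m + 2))) := by
    refine (pow_le_pow_left₀ (Real.sqrt_nonneg _) h4 m).trans (le_of_eq ?_)
    rw [← Real.exp_nat_mul]
    congr 1
    ring
  have h6 : r * √r ^ m ≤ Real.exp (-1) := by
    refine (mul_le_mul h1 h5 (by positivity) (Real.exp_pos _).le).trans (le_of_eq ?_)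
    rw [← Real.exp_add]
    congr 1
    field_simp
    ring
  have h7 : (m : ℝ) * Mo m 2 = 4 * (r * √r ^ m) := by
    unfold Mo
    have h8 : √(((2 : ℕ) : ℝ) / ((m : ℝ) + ((2 : ℕ) : ℝ))) ^ 2 = 2 / ((m : ℝ) + 2) := by
      rw [Real.sq_sqrt (by positivity)]
      norm_num
    rw [h8]
    have h9 : (m : ℝ) / ((m : ℝ) + ((2 : ℕ) : ℝ)) = r := by rw [hr]; norm_num
    rw [h9, hr]
    field_simp
    ring
  have h10 : Real.exp (-1) ≤ 368 / 1000 := by
    rw [Real.exp_neg, inv_le_comm₀ (Real.exp_pos _) (by norm_num)]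
    have := Real.exp_one_gt_d9
    norm_num at this ⊢
    linarith
  rw [h7]
  linarith

theorem MM_le_h [Nontrivial E] (h : OneP μ m p n) (hm : 1 ≤ m) (h0 : 0 ≤ T) (h1 : T < 1)
    (hz : Continuous z) :
    (1 - T) * (cw m T * MM μ m p z T) ≤ 1472 / 1000 * ∫ x, ‖z x‖ ^ 2 ∂μ :=
  (MM_le_mom h hm h0 h1 hz).trans (mul_le_mul_of_nonneg_right (mMo_le m)
    (integral_nonneg fun _ => sq_nonneg _))

end

end Vale.Agent.P224.R2.H470
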