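import Vale.Agent.P224.R2.H470.Mac
import Vale.Agent.P224.R2.H728.T0f

/-!
The Gram bound of the trace free quadratic forms, from the one point rows.
-/

namespace Vale.Agent.P224.R2.H470

open MeasureTheory Set Filter Function Real Module Matrix Vale.Agent.P224.R2.H728
open scoped Topology RealInnerProductSpace

set_option linter.unusedSectionVars false

section

variable {V : Type*} [NormedAddCommGroup V] [InnerProductSpace ℝ V] [FiniteDimensional ℝ V]
  [MeasurableSpace V] [BorelSpace V]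

/-- the bound with the top eigenvalue of the normals -/
theorem OneP.qb {X : Type*} [TopologicalSpace X] [MeasurableSpace X] [CompactSpace X]
    [BorelSpace X] {μ : Measure X} [IsProbabilityMeasure μ] {m : ℕ} {p n : X → V}
    (h : OneP μ m p n) {ν : ℝ} (h0 : 0 ≤ ν)
    (hν : ∀ b, ∫ x, ⟪n x, b⟫ ^ 2 ∂μ ≤ ν * ‖b‖ ^ 2) {ι : Type*} [Fintype ι]
    (e : OrthonormalBasis ι ℝ V) {K : ℝ} (hK : 0 < K)
    (hKm : 2 / (m + 1) + √ν * K ≤ (m + 3) * K ^ 2) : QB μ p e (K ^ 2) := by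
  classical
  intro c hc ht
  have hm1 : (0 : ℝ) < m + 1 := by positivity
  have h1 := h.gram h0 hν (ι := Unit) (fun _ => qf e c) (fun _ u v => qf_symm e hc u v)
    (fun _ => by rw [trace_qf, ht])
  simp only [Finset.univ_unique, Finset.sum_const, Finset.card_singleton, one_smul, hs_qf] at h1
  have e1 : ∀ x, ⟪p x, qf e c (p x)⟫ = ∑ i, ∑ j, c i j * (⟪p x, e i⟫ * ⟪p x, e j⟫) :=
    fun x => inner_qf e c (p x) (p x)
  simp only [e1] at h1
  set Q := ∫ x, (∑ i, ∑ j, c i j * (⟪p x, e i⟫ * ⟪p x, e j⟫)) ^ 2 ∂μ with hQ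
  set S := ∑ i, ∑ j, c i j ^ 2 with hS
  have hQ0 : 0 ≤ Q := integral_nonneg fun x => sq_nonneg _
  have hS0 : 0 ≤ S := Finset.sum_nonneg fun i _ => Finset.sum_nonneg fun j _ => sq_nonneg _
  have hv : √Q ≤ K * √S := by
    refine root_le (M := m + 3) (c := 2 / (m + 1)) (n := √ν) hK (by positivity)
      (Real.sqrt_nonneg _) (Real.sqrt_nonneg _) (Real.sqrt_nonneg _) ?_ hKm
    rw [Real.sq_sqrt hQ0, Real.sq_sqrt hS0]
    exact h1
  have h2 := pow_le_pow_left₀ (Real.sqrt_nonneg _) hv 2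
  rwa [mul_pow, Real.sq_sqrt hQ0, Real.sq_sqrt hS0] at h2

/-- the uniform bound -/
theorem qb_of_T0 {Ω : Type*} [MeasurableSpace Ω] {μ : Measure Ω} {p : Ω → V} {ι : Type*}
    [Fintype ι] [DecidableEq ι] (e : OrthonormalBasis ι ℝ V) {m : ℝ} (hm : 0 ≤ m)
    {N : ι → Ω → ℝ} (h : T0Data μ m (fun i x => ⟪p x, e i⟫) N) :
    QB μ p e (16 / ((m + 1) * (7 * m + 23))) := by
  intro c hc ht
  have hA : (Matrix.of c).IsSymm := by
    ext i j
    simp only [transpose_apply, of_apply]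
    exact hc j i
  have htr : (Matrix.of c).trace = 0 := by
    simpa [Matrix.trace] using ht
  have h1 := h.quad_bound hm hA htr
  have e1 : ∀ ω, vc (fun i x => ⟪p x, e i⟫) ω ⬝ᵥ (Matrix.of c *ᵥ vc (fun i x => ⟪p x, e i⟫) ω)
      = ∑ i, ∑ j, c i j * (⟪p ω, e i⟫ * ⟪p ω, e j⟫) := by
    intro ω
    unfold vc dotProduct mulVec dotProduct
    refine Finset.sum_congr rfl fun i _ => ?_
    rw [Finset.mul_sum]
    refine Finset.sum_congr rfl fun j _ => ?_
    simp only [of_apply]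
    ring
  simp only [e1] at h1
  exact h1

/-- the bound of the linear forms, from the rows -/
theorem OneP.lb {X : Type*} [TopologicalSpace X] [MeasurableSpace X] [CompactSpace X]
    [BorelSpace X] {μ : Measure X} [IsProbabilityMeasure μ] {m : ℕ} {p n : X → V}
    (h : OneP μ m p n) {ι : Type*} [Fintype ι] (e : OrthonormalBasis ι ℝ V) :
    LB μ p e (1 / (m + 1)) := by
  intro c
  have hm : (0 : ℝ) < m + 1 := by positivity
  have h1 := h.int_sq_le (∑ i, c i • e i)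
  have e1 : ∀ x, ⟪p x, ∑ i, c i • e i⟫ = ∑ i, c i * ⟪p x, e i⟫ := by
    intro x
    rw [inner_sum]
    exact Finset.sum_congr rfl fun i _ => real_inner_smul_right _ _ _
  have e2 : ‖∑ i, c i • e i‖ ^ 2 = ∑ i, c i ^ 2 := by
    rw [← real_inner_self_eq_norm_sq, e.orthonormal.inner_sum]
    simp [sq]
  simp only [e1, e2] at h1
  have h2 : 0 ≤ ∫ x, ⟪n x, ∑ i, c i • e i⟫ ^ 2 ∂μ := integral_nonneg fun x => sq_nonneg _
  rw [one_div, inv_mul_eq_div, le_div_iff₀ hm]
  linarith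

/-- the same from the abstract rows -/
theorem lb_of_T0 {Ω : Type*} [MeasurableSpace Ω] {μ : Measure Ω} {p : Ω → V} {ι : Type*}
    [Fintype ι] [DecidableEq ι] (e : OrthonormalBasis ι ℝ V) {m : ℝ} (hm : 0 ≤ m)
    {N : ι → Ω → ℝ} (h : T0Data μ m (fun i x => ⟪p x, e i⟫) N) :
    LB μ p e (1 / (m + 1)) := by
  intro c
  have := h.prob
  have hm1 : (0 : ℝ) < m + 1 := by positivity
  have bx := h.bx
  have bN := h.bN
  have ex : ∀ {f : ι → Ω → ℝ}, (∀ a, BM (f a)) → ∫ ω, (∑ i, c i * f i ω) ^ 2 ∂μ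
      = ∑ a, ∑ b, c a * c b * ∫ ω, f a ω * f b ω ∂μ := by
    intro f hf
    have e1 : ∀ ω, (∑ i, c i * f i ω) ^ 2 = ∑ a, ∑ b, c a * c b * (f a ω * f b ω) := by
      intro ω
      rw [sq, Finset.sum_mul_sum]
      exact Finset.sum_congr rfl fun a _ => Finset.sum_congr rfl fun b _ => by ring
    simp only [e1]
    have i1 : ∀ a b, Integrable (fun ω => c a * c b * (f a ω * f b ω)) μ :=
      fun a b => (((hf a).mul (hf b)).const_mul _).int
    rw [integral_finsetSum _ fun a _ => integrable_finsetSum _ fun b _ => i1 a b]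
    refine Finset.sum_congr rfl fun a _ => ?_
    rw [integral_finsetSum _ fun b _ => i1 a b]
    exact Finset.sum_congr rfl fun b _ => integral_const_mul _ _
  have h1 := ex bx
  have h2 := ex bN
  have h3 : (m + 1) * ∫ ω, (∑ i, c i * ⟪p ω, e i⟫) ^ 2 ∂μ + ∫ ω, (∑ i, c i * N i ω) ^ 2 ∂μ
      = ∑ i, c i ^ 2 := by
    rw [h1, h2, Finset.mul_sum, ← Finset.sum_add_distrib]
    refine Finset.sum_congr rfl fun a _ => ?_
    rw [Finset.mul_sum, ← Finset.sum_add_distrib]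
    have e3 : ∀ b, (m + 1) * (c a * c b * ∫ ω, ⟪p ω, e a⟫ * ⟪p ω, e b⟫ ∂μ)
        + c a * c b * ∫ ω, N a ω * N b ω ∂μ = if a = b then c a * c b else 0 := by
      intro b
      have h4 := h.r2 a b
      have e4 : (m + 1) * (c a * c b * ∫ ω, ⟪p ω, e a⟫ * ⟪p ω, e b⟫ ∂μ)
        + c a * c b * ∫ ω, N a ω * N b ω ∂μ = c a * c b * ((m + 1) * (∫ ω, ⟪p ω, e a⟫ * ⟪p ω, e b⟫ ∂μ)
        + ∫ ω, N a ω * N b ω ∂μ) := by ring
      rw [e4, h4]
      split_ifs <;> ring
    simp only [e3, Finset.sum_ite_eq, Finset.mem_univ, if_true]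
    ring
  have h5 : 0 ≤ ∫ ω, (∑ i, c i * N i ω) ^ 2 ∂μ := integral_nonneg fun x => sq_nonneg _
  rw [one_div, inv_mul_eq_div, le_div_iff₀ hm1]
  linarith

end

end Vale.Agent.P224.R2.H470
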