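import Vale.Agent.P224.R2.H470.MacI
import Vale.Agent.P224.R2.H470.Brg
import Vale.Agent.P224.R2.H470.OneInst
import Vale.Agent.P224.R2.H470.Qb
import Vale.Agent.P224.R2.H582.Conv
import Vale.Agent.P224.R2.H728.T0g
import Vale.Agent.P224.R2.H627.DCondM

/-!
The integrated lower bound of the square for a minimal hypersurface.
-/

namespace Vale.Agent.P224.R2.H470

open MeasureTheory Set Filter Function Real Module Vale.Agent.P224 Vale.Agent.P224.FV
open Vale.Agent.P224.SM2 Vale.Agent.P224.R2.H820 Vale.Agent.P224.R2.H728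
open Vale.Agent.P224.R2.H627 Vale.Agent.P224.R2.H582
open scoped Topology RealInnerProductSpace ContDiff Manifold

set_option linter.unusedSectionVars false

/-- the lower bound of E by h for small levels -/
lemma vL_ge {s t : ℝ} (ht0 : 0 ≤ t) (ht1 : t ≤ 2 / 17) (hs : s ^ 2 ≤ 166 / 1000) :
    1 - s ^ 2 ≤ vL s t := by
  set g : ℝ := s ^ 2 with hg
  have hg0 : 0 ≤ g := sq_nonneg s
  have e1 : vL s t - (1 - g) = t * (1 - g) * ((3 / 2 - 27 / 4 * g + 35 / 8 * g ^ 2)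
      + t * (36 / 25 - 5163 / 100 * g + 22524 / 100 * g ^ 2 - 44567 / 100 * g ^ 3
        + 45128 / 100 * g ^ 4 - 18486 / 100 * g ^ 5)) := by
    unfold vL
    rw [← hg]
    ring
  have h1 : -3 ≤ 36 / 25 - 5163 / 100 * g + 22524 / 100 * g ^ 2 - 44567 / 100 * g ^ 3
        + 45128 / 100 * g ^ 4 - 18486 / 100 * g ^ 5 := by
    have h2 : 0 ≤ g ^ 2 * (166 / 1000 - g) := mul_nonneg (sq_nonneg g) (by linarith)
    have h3 : 0 ≤ g ^ 4 * (166 / 1000 - g) := mul_nonneg (by positivity) (by linarith)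
    have h4 : 0 ≤ g ^ 4 := by positivity
    nlinarith [sq_nonneg (g - 17 / 100)]
  have h2 : (0 : ℝ) ≤ 1 - g := by linarith
  have h3 : 0 ≤ (3 / 2 - 27 / 4 * g + 35 / 8 * g ^ 2)
      + t * (36 / 25 - 5163 / 100 * g + 22524 / 100 * g ^ 2 - 44567 / 100 * g ^ 3
        + 45128 / 100 * g ^ 4 - 18486 / 100 * g ^ 5) := by
    have h4 := mul_le_mul_of_nonneg_left h1 ht0
    nlinarith [sq_nonneg g]
  have h4 : 0 ≤ vL s t - (1 - g) := by
    rw [e1]
    positivity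
  linarith

/-- the lower bound of the normalised weight -/
lemma eh_ge {m : ℕ} (hm : 17 ≤ m) {T : ℝ} (h0 : 0 < T) (h1 : T ≤ 3 / 10) :
    T * (1 - 7 / 2 * T ^ 2) ≤ eh m T := by
  have hT : T ∈ Ioo (0 : ℝ) 1 := ⟨h0, by linarith⟩
  have hb := bds2_M (m := m) (T := T) hm hT
  have hm0 : (17 : ℝ) ≤ m := by exact_mod_cast hm
  have hT2 : T ^ 2 ≤ 9 / 100 := by nlinarith
  have hs2 : sv T ^ 2 = 2 * T ^ 2 / (1 + T ^ 2) := by
    rw [sv_sq]
    unfold hv
    field_simp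
    ring
  have hs3 : sv T ^ 2 ≤ 166 / 1000 := by
    rw [hs2, div_le_iff₀ (by positivity)]
    linarith
  have h2 := vL_ge (t := 2 / m) (by positivity) (by
    rw [div_le_div_iff₀ (by linarith) (by norm_num)]
    linarith) hs3
  have h3 := h2.trans hb.El
  rw [hs2] at h3
  set q := √(1 + T ^ 2) with hq
  have hq2 : q ^ 2 = 1 + T ^ 2 := Real.sq_sqrt (by positivity)
  have hq1 : 0 < q := Real.sqrt_pos.2 (by positivity)
  have hq3 : q ≤ 1 + T ^ 2 / 2 := by
    rw [hq, Real.sqrt_le_left (by positivity)]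
    nlinarith [sq_nonneg (T ^ 2)]
  have e0 : eh m T = T * Ef (m / 2) (cn m) T / ((1 + T ^ 2) * q) := by
    unfold eh
    rw [← hq, div_mul_eq_mul_div]
  rw [e0, le_div_iff₀ (by positivity)]
  have h4 : T * (1 - 2 * T ^ 2 / (1 + T ^ 2)) ≤ T * Ef (m / 2) (cn m) T :=
    mul_le_mul_of_nonneg_left h3 h0.le
  refine le_trans ?_ h4
  have h5 : 1 - 2 * T ^ 2 / (1 + T ^ 2) = (1 - T ^ 2) / (1 + T ^ 2) := by
    field_simp
    ring
  rw [h5]
  have h6 : (1 - 7 / 2 * T ^ 2) * ((1 + T ^ 2) * q) ≤ (1 - T ^ 2) / (1 + T ^ 2) := by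
    rw [le_div_iff₀ (by positivity)]
    have h7 : (1 - 7 / 2 * T ^ 2) * ((1 + T ^ 2) * q) * (1 + T ^ 2)
        ≤ (1 - 7 / 2 * T ^ 2) * ((1 + T ^ 2) * (1 + T ^ 2 / 2)) * (1 + T ^ 2) := by
      have h8 : 0 ≤ 1 - 7 / 2 * T ^ 2 := by linarith
      gcongr
    refine h7.trans ?_
    set y := T ^ 2
    have hy : 0 ≤ y := sq_nonneg T
    nlinarith [mul_nonneg hy hy, mul_nonneg (mul_nonneg hy hy) hy]
  have h9 := mul_le_mul_of_nonneg_left h6 h0.le
  linarith

section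

variable {V W M : Type*} [NormedAddCommGroup V] [InnerProductSpace ℝ V] [FiniteDimensional ℝ V]
  [NormedAddCommGroup W] [InnerProductSpace ℝ W] [FiniteDimensional ℝ W]
  [TopologicalSpace M] [ChartedSpace V M]
  [MeasurableSpace V] [BorelSpace V] [MeasurableSpace M] [BorelSpace M]
  [MeasurableSpace W] [BorelSpace W] [IsManifold 𝓘(ℝ, V) ∞ M]
  [CompactSpace M] [T2Space M]

/-- the rows for the normalised volume -/
theorem oneP_nrm (hW : finrank ℝ W = finrank ℝ V + 2) {F : M → W}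
    (hF : SphImm V F) (hmin : ∀ x n, IsUnitNormal V F x n → meanCurv V F x n = 0)
    {N : M → W} (hNs : ContMDiff 𝓘(ℝ, V) 𝓘(ℝ, W) ∞ N) (hN : ∀ x, IsUnitNormal V F x (N x)) :
    OneP (nrm (volM V F)) (finrank ℝ V) F N :=
  (oneP_of_min hW hF hmin hNs hN).smul _

/-- the integrated lower bound of the square -/
theorem mac_law [Nonempty M] (hm : 17 ≤ finrank ℝ V) (hW : finrank ℝ W = finrank ℝ V + 2)
    {F : M → W} (hF : SphImm V F) (hmin : ∀ x n, IsUnitNormal V F x n → meanCurv V F x n = 0)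
    {N : M → W} (hNs : ContMDiff 𝓘(ℝ, V) 𝓘(ℝ, W) ∞ N) (hN : ∀ x, IsUnitNormal V F x (N x))
    {ι : Type*} [Fintype ι] [DecidableEq ι] (b : OrthonormalBasis ι ℝ W) (a : ι)
    {m : ℕ} (hmm : m = finrank ℝ V) {T0 A η : ℝ} (hT00 : 0 < T0) (hT0 : T0 ≤ 3 / 10)
    (hA : 1 / ((m : ℝ) + 1) + 8 * T0 / (7 * m + 23) ≤ A)
    (hη : 1 / (2 * ((m : ℝ) + 1)) + 8 / ((7 * m + 23) * T0) + 8 * (m + 2) / (7 * m + 23)
      + 27 / 5 * T0 ≤ η)
    (hν : m2 (nrm (volM V F)) (co b N) (co b N) a a - A ≤ η * T0 ^ 2) :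
    ∃ Bc : ℝ → ℝ, IntervalIntegrable Bc volume 0 1 ∧
      (∀ T ∈ Ioo (0 : ℝ) 1, Bc T * (volM V F).real univ ^ 2
        ≤ m * eM m T * E2 (volM V F) F N (fun k => SM2.ker T (m + 1) k.1 * Ck k)) ∧
      max (m2 (nrm (volM V F)) (co b N) (co b N) a a - A) 0 ^ 3 / (6 * η) * (1 - 7 / 8 * T0 ^ 2)
        - 2 / 3 * T0 ^ 3 * ∑ i, m1 (nrm (volM V F)) (co b N) i ^ 2
        ≤ ∫ T in (0 : ℝ)..1, Bc T := by
  subst hmm
  set m := finrank ℝ V with hmdef
  have hfin : IsFiniteMeasure (volM V F) := isFiniteMeasure_volM hF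
  have hm1 : 1 ≤ m := by omega
  have hvpos : 0 < volM V F univ := volM_pos_of_isOpen hW hF isOpen_univ univ_nonempty
  have hnz : NeZero (volM V F) := ⟨fun h => by rw [h] at hvpos; simp at hvpos⟩
  have hA0 : 0 < (volM V F).real univ := ENNReal.toReal_pos hvpos.ne' (measure_ne_top _ _)
  have hT0' : T0Data (nrm (volM V F)) m (co b F) (co b N) :=
    t0Data_of_min hm1 hW hF hmin hNs hN b
  have hprob : IsProbabilityMeasure (nrm (volM V F)) := hT0'.prob
  have hone : OneP (nrm (volM V F)) m F N := oneP_nrm hW hF hmin hNs hN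
  have hsc : SecondCountableTopology M := ChartedSpace.secondCountable_of_sigmaCompact V M
  have hnt : Nontrivial W := Module.nontrivial_of_finrank_pos (R := ℝ) (by omega)
  have hm0 : (0 : ℝ) < m := by
    have : 0 < m := by omega
    exact_mod_cast this
  have hη0 : 0 < η := lt_of_lt_of_le (by positivity) hη
  have hAp : 0 ≤ A := le_trans (by positivity) hA
  set ν := m2 (nrm (volM V F)) (co b N) (co b N) a a with hνd
  set u := ∑ i, m1 (nrm (volM V F)) (co b N) i ^ 2 with hu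
  have hu0 : 0 ≤ u := Finset.sum_nonneg fun i _ => sq_nonneg _
  have hν1 : ν = ∫ x, ⟪N x, b a⟫ ^ 2 ∂(nrm (volM V F)) := by
    rw [hνd]
    unfold m2 co
    simp only [sq]
  have hu1 : u = ∑ i, (∫ x, ⟪N x, b i⟫ ∂(nrm (volM V F))) ^ 2 := rfl
  set S := √(max (ν - A) 0 / η) with hS
  have hS0 : 0 ≤ S := Real.sqrt_nonneg _
  have hS2 : η * S ^ 2 = max (ν - A) 0 := by
    rw [hS, Real.sq_sqrt (div_nonneg (le_max_right _ _) hη0.le)]
    field_simp
  have hST : S ≤ T0 := by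
    rw [hS, Real.sqrt_le_left hT00.le, div_le_iff₀ hη0]
    rw [mul_comm]
    exact max_le hν (by positivity)
  set f : ℝ → ℝ := fun T => T * (1 - 7 / 2 * T ^ 2) * ((η * (S ^ 2 - T ^ 2)) ^ 2 - 2 * T * u)
    with hf
  have hfi : IntervalIntegrable f volume 0 S := Continuous.intervalIntegrable (by
    rw [hf]
    fun_prop) _ _
  obtain ⟨j0, j1⟩ := int_ctf hS0 (by linarith : S ≤ 1) hfi
  refine ⟨ctf S f, j0, fun T hT => ?_, ?_⟩
  · have hk : 0 < 1 - T ^ 2 := by nlinarith [hT.1, hT.2]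
    -- the two point mean
    have e1 : m * eM m T * E2 (volM V F) F N (fun k => SM2.ker T (m + 1) k.1 * Ck k)
        = (volM V F).real univ ^ 2 * (eh m T * ∫ q : M × M, sk m (m + 1) T ⟪F q.1, F q.2⟫
          * (⟪N q.1, N q.2⟫ - ⟪F q.1, F q.2⟫) ^ 2
            ∂((nrm (volM V F)).prod (nrm (volM V F)))) := by
      rw [E2_nrm, eM_eq hT]
      have e2 : ∫ q : M × M, sk m (m + 1) T ⟪F q.1, F q.2⟫
          * (⟪N q.1, N q.2⟫ - ⟪F q.1, F q.2⟫) ^ 2 ∂((nrm (volM V F)).prod (nrm (volM V F)))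
          = (1 - T ^ 2) ^ ((m : ℝ) / 2)
            * ∫ q : M × M, SM2.ker T (m + 1) (SM2.pr F N q).1 * Ck (SM2.pr F N q)
            ∂((nrm (volM V F)).prod (nrm (volM V F))) := by
        rw [← integral_const_mul]
        refine integral_congr_ae (Eventually.of_forall fun q => ?_)
        simp only [sk, SM2.ker, Ck, SM2.pr]
        have e3 : ((m + 1 : ℕ) : ℝ) - m / 2 - 1 = (m : ℝ) / 2 := by push_cast; ring
        rw [e3]
        ring
      rw [e2]
      ring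
    have hD : 0 ≤ ∫ q : M × M, sk m (m + 1) T ⟪F q.1, F q.2⟫
          * (⟪N q.1, N q.2⟫ - ⟪F q.1, F q.2⟫) ^ 2
            ∂((nrm (volM V F)).prod (nrm (volM V F))) := by
      refine integral_nonneg fun q => mul_nonneg ?_ (sq_nonneg _)
      have hv := H460.one_sub_pos hT.1.le hT.2 (hone.np q.1) (hone.np q.2)
      unfold sk
      positivity
    have heh : 0 ≤ eh m T := by
      have hb := bds2_M (m := m) (T := T) hm hT
      have := hb.E0
      have := hT.1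
      unfold eh
      positivity
    rw [e1]
    rcases lt_or_ge T S with hTS | hTS
    · rw [ctf_lt f hTS]
      have h3 := mac_pt (μ := nrm (volM V F)) hone.cp.measurable hone.np hone.cn.measurable hone.nn b
        hW (lb_of_T0 b (by positivity : (0 : ℝ) ≤ (m : ℝ)) hT0')
        (qb_of_T0 b (by positivity : (0 : ℝ) ≤ (m : ℝ)) hT0')
        (fun x => sk_m1_le hone hm1 (by norm_num) (by norm_num) x) hT.1 hTS.le hST
        (by linarith) hA hη hη0.le a (by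
          rw [← hν1, hS2]
          refine max_eq_left ?_
          by_contra hneg
          push Not at hneg
          have : S = 0 := by
            rw [hS, max_eq_right hneg.le, zero_div, Real.sqrt_zero]
          linarith [hT.1])
      rw [← hu1] at h3
      have h4 := eh_ge hm hT.1 (by linarith : T ≤ 3 / 10)
      have hw0 : 0 ≤ T * (1 - 7 / 2 * T ^ 2) := by
        have : T ^ 2 ≤ 9 / 100 := by nlinarith [hT.1]
        exact mul_nonneg hT.1.le (by linarith)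
      have h5 : f T ≤ eh m T * ∫ q : M × M, sk m (m + 1) T ⟪F q.1, F q.2⟫
          * (⟪N q.1, N q.2⟫ - ⟪F q.1, F q.2⟫) ^ 2
            ∂((nrm (volM V F)).prod (nrm (volM V F))) := by
        have h6 := mul_le_mul_of_nonneg_left h3 hw0
        have h7 := mul_le_mul_of_nonneg_right h4 hD
        exact h6.trans h7
      rw [mul_comm]
      exact mul_le_mul_of_nonneg_left h5 (by positivity)
    · rw [ctf_ge f hTS, zero_mul]
      positivity
  · rw [j1, hf, int_mac]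
    have h3 : max (ν - A) 0 ^ 3 / (6 * η) = η ^ 2 * S ^ 6 / 6 := by
      rw [← hS2]
      field_simp
    rw [h3]
    have h4 : S ^ 2 ≤ T0 ^ 2 := pow_le_pow_left₀ hS0 hST 2
    have h5 : S ^ 3 ≤ T0 ^ 3 := pow_le_pow_left₀ hS0 hST 3
    have h6 : η ^ 2 * S ^ 6 / 6 * (1 - 7 / 8 * T0 ^ 2) ≤ η ^ 2 * S ^ 6 / 6 * (1 - 7 / 8 * S ^ 2) :=
      mul_le_mul_of_nonneg_left (by linarith) (by positivity)
    have h7 : 2 * u * (S ^ 3 / 3 - 7 / 10 * S ^ 5) ≤ 2 / 3 * T0 ^ 3 * u := by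
      have h8 : 0 ≤ S ^ 5 := by positivity
      have h9 : S ^ 3 / 3 - 7 / 10 * S ^ 5 ≤ T0 ^ 3 / 3 := by linarith
      have := mul_le_mul_of_nonneg_left h9 (by positivity : 0 ≤ 2 * u)
      linarith
    linarith

lemma cube_alg {ν A c m : ℝ} (hν : 0 ≤ ν) (hA : 0 ≤ A) (hc : 0 ≤ c) (hm : 0 < m)
    (h : 9 * c * (A * m) ≤ 1) : c * ν ^ 3 - ν ^ 2 / (3 * m) ≤ c * max (ν - A) 0 ^ 3 := by
  have h1 : ν ^ 3 - 3 * A * ν ^ 2 ≤ max (ν - A) 0 ^ 3 := by
    rcases le_total A ν with h2 | h2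
    · rw [max_eq_left (by linarith)]
      nlinarith [mul_nonneg (mul_nonneg hA hA) (by linarith : 0 ≤ 3 * ν - A)]
    · rw [max_eq_right (by linarith)]
      nlinarith [mul_nonneg (sq_nonneg ν) (by linarith : 0 ≤ 3 * A - ν)]
  have h2 := mul_le_mul_of_nonneg_left h1 hc
  have h3 : 3 * c * A ≤ 1 / (3 * m) := by
    rw [le_div_iff₀ (by positivity)]
    linarith
  have h4 := mul_le_mul_of_nonneg_right h3 (sq_nonneg ν)
  have h5 : ν ^ 2 / (3 * m) = 1 / (3 * m) * ν ^ 2 := by ring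
  rw [h5]
  linarith

/-- the integrated lower bound of the square for large dimension -/
theorem mac_400 [Nonempty M] (hm : 400 ≤ finrank ℝ V) (hW : finrank ℝ W = finrank ℝ V + 2)
    {F : M → W} (hF : SphImm V F) (hmin : ∀ x n, IsUnitNormal V F x n → meanCurv V F x n = 0)
    {N : M → W} (hNs : ContMDiff 𝓘(ℝ, V) 𝓘(ℝ, W) ∞ N) (hN : ∀ x, IsUnitNormal V F x (N x))
    {ι : Type*} [Fintype ι] [DecidableEq ι] (b : OrthonormalBasis ι ℝ W) (a : ι)
    {m : ℕ} (hmm : m = finrank ℝ V) {T0 c cu ν2 : ℝ} (hT00 : 0 < T0) (hT0 : T0 ≤ 3 / 10)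
    (h3 : ν2 ≤ (1 / 802 + 8 / (2823 * T0) + 8 / 7 + 27 / 5 * T0) * T0 ^ 2) (h4 : 0 ≤ c)
    (h5 : c * (6 * (1 / 802 + 8 / (2823 * T0) + 8 / 7 + 27 / 5 * T0)) ≤ 1 - 7 / 8 * T0 ^ 2)
    (h6 : 9 * c * (1 + 8 / 7 * T0) ≤ 1) (h7 : 2 / 3 * T0 ^ 3 ≤ cu)
    (hν : m2 (nrm (volM V F)) (co b N) (co b N) a a ≤ ν2) :
    ∃ Bc : ℝ → ℝ, IntervalIntegrable Bc volume 0 1 ∧
      (∀ T ∈ Ioo (0 : ℝ) 1, Bc T * (volM V F).real univ ^ 2
        ≤ m * eM m T * E2 (volM V F) F N (fun k => SM2.ker T (m + 1) k.1 * Ck k)) ∧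
      c * m2 (nrm (volM V F)) (co b N) (co b N) a a ^ 3
        - m2 (nrm (volM V F)) (co b N) (co b N) a a ^ 2 / (3 * m)
        - cu * ∑ i, m1 (nrm (volM V F)) (co b N) i ^ 2 ≤ ∫ T in (0 : ℝ)..1, Bc T := by
  have hmr : (400 : ℝ) ≤ m := by
    rw [hmm]
    exact_mod_cast hm
  set A : ℝ := (1 + 8 / 7 * T0) / m with hA
  set η : ℝ := 1 / 802 + 8 / (2823 * T0) + 8 / 7 + 27 / 5 * T0 with hη
  have hη0 : 0 < η := by positivity
  have hA0 : 0 ≤ A := by positivity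
  have g1 : 1 / ((m : ℝ) + 1) + 8 * T0 / (7 * m + 23) ≤ A := by
    have e1 : A = 1 / m + 8 * T0 / (7 * m) := by
      rw [hA]
      field_simp
    rw [e1]
    refine add_le_add ?_ ?_
    · exact one_div_le_one_div_of_le (by linarith) (by linarith)
    · exact div_le_div_of_nonneg_left (by positivity) (by linarith) (by linarith)
  have g2 : 1 / (2 * ((m : ℝ) + 1)) + 8 / ((7 * m + 23) * T0) + 8 * (m + 2) / (7 * m + 23)
      + 27 / 5 * T0 ≤ η := by
    rw [hη]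
    refine add_le_add (add_le_add (add_le_add ?_ ?_) ?_) le_rfl
    · exact one_div_le_one_div_of_le (by norm_num) (by linarith)
    · refine div_le_div_of_nonneg_left (by norm_num) (by positivity) ?_
      exact mul_le_mul_of_nonneg_right (by linarith) hT00.le
    · rw [div_le_div_iff₀ (by linarith) (by norm_num)]
      linarith
  set ν := m2 (nrm (volM V F)) (co b N) (co b N) a a with hνd
  obtain ⟨Bc, j1, j2, j3⟩ := mac_law (by omega : 17 ≤ finrank ℝ V) hW hF hmin hNs hN b a hmm hT00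
    hT0 g1 g2 (by
      rw [← hνd]
      linarith)
  rw [← hνd] at j3
  refine ⟨Bc, j1, j2, le_trans ?_ j3⟩
  have hν0 : 0 ≤ ν := by
    rw [hνd]
    unfold m2 co
    exact integral_nonneg fun x => mul_self_nonneg _
  have hu0 : 0 ≤ ∑ i, m1 (nrm (volM V F)) (co b N) i ^ 2 := Finset.sum_nonneg fun i _ => sq_nonneg _
  have k1 := cube_alg (m := m) hν0 hA0 h4 (by linarith) (by
    have : A * m = 1 + 8 / 7 * T0 := by
      rw [hA]
      field_simp
    rw [this]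
    exact h6)
  have k2 : c * max (ν - A) 0 ^ 3 ≤ max (ν - A) 0 ^ 3 / (6 * η) * (1 - 7 / 8 * T0 ^ 2) := by
    have k3 : c ≤ (1 - 7 / 8 * T0 ^ 2) / (6 * η) := by
      rw [le_div_iff₀ (by positivity)]
      exact h5
    have k4 := mul_le_mul_of_nonneg_right k3 (by positivity : 0 ≤ max (ν - A) 0 ^ 3)
    refine k4.trans (le_of_eq ?_)
    ring
  have k5 := mul_le_mul_of_nonneg_right h7 hu0
  linarith

/-- the closed form up to one fifth -/
theorem mac_fifth [Nonempty M] (hm : 400 ≤ finrank ℝ V) (hW : finrank ℝ W = finrank ℝ V + 2)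
    {F : M → W} (hF : SphImm V F) (hmin : ∀ x n, IsUnitNormal V F x n → meanCurv V F x n = 0)
    {N : M → W} (hNs : ContMDiff 𝓘(ℝ, V) 𝓘(ℝ, W) ∞ N) (hN : ∀ x, IsUnitNormal V F x (N x))
    {ι : Type*} [Fintype ι] [DecidableEq ι] (b : OrthonormalBasis ι ℝ W) (a : ι)
    {m : ℕ} (hmm : m = finrank ℝ V) {c cu ν2 : ℝ}
    (hc : (c = 1 / 10 ∧ cu = 1 / 3000 ∧ ν2 = 1 / 100) ∨ (c = 88 / 1000 ∧ cu = 7 / 5000 ∧ ν2 = 3 / 100)
      ∨ (c = 78 / 1000 ∧ cu = 33 / 10000 ∧ ν2 = 6 / 100) ∨ (c = 7 / 100 ∧ cu = 62 / 10000 ∧ ν2 = 1 / 10)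
      ∨ (c = 635 / 10000 ∧ cu = 1 / 100 ∧ ν2 = 3 / 20) ∨ (c = 589 / 10000 ∧ cu = 14 / 1000 ∧ ν2 = 1 / 5))
    (hν : m2 (nrm (volM V F)) (co b N) (co b N) a a ≤ ν2) :
    ∃ Bc : ℝ → ℝ, IntervalIntegrable Bc volume 0 1 ∧
      (∀ T ∈ Ioo (0 : ℝ) 1, Bc T * (volM V F).real univ ^ 2
        ≤ m * eM m T * E2 (volM V F) F N (fun k => SM2.ker T (m + 1) k.1 * Ck k)) ∧
      c * m2 (nrm (volM V F)) (co b N) (co b N) a a ^ 3
        - m2 (nrm (volM V F)) (co b N) (co b N) a a ^ 2 / (3 * m)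
        - cu * ∑ i, m1 (nrm (volM V F)) (co b N) i ^ 2 ≤ ∫ T in (0 : ℝ)..1, Bc T := by
  rcases hc with ⟨rfl, rfl, rfl⟩ | ⟨rfl, rfl, rfl⟩ | ⟨rfl, rfl, rfl⟩ | ⟨rfl, rfl, rfl⟩
    | ⟨rfl, rfl, rfl⟩ | ⟨rfl, rfl, rfl⟩
  · exact mac_400 hm hW hF hmin hNs hN b a hmm (T0 := 79 / 1000) (by norm_num) (by norm_num)
      (by norm_num) (by norm_num) (by norm_num) (by norm_num) (by norm_num) hν
  · exact mac_400 hm hW hF hmin hNs hN b a hmm (T0 := 1274 / 10000) (by norm_num) (by norm_num)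
      (by norm_num) (by norm_num) (by norm_num) (by norm_num) (by norm_num) hν
  · exact mac_400 hm hW hF hmin hNs hN b a hmm (T0 := 1701 / 10000) (by norm_num) (by norm_num)
      (by norm_num) (by norm_num) (by norm_num) (by norm_num) (by norm_num) hν
  · exact mac_400 hm hW hF hmin hNs hN b a hmm (T0 := 2092 / 10000) (by norm_num) (by norm_num)
      (by norm_num) (by norm_num) (by norm_num) (by norm_num) (by norm_num) hν
  · exact mac_400 hm hW hF hmin hNs hN b a hmm (T0 := 2459 / 10000) (by norm_num) (by norm_num)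
      (by norm_num) (by norm_num) (by norm_num) (by norm_num) (by norm_num) hν
  · exact mac_400 hm hW hF hmin hNs hN b a hmm (T0 := 2753 / 10000) (by norm_num) (by norm_num)
      (by norm_num) (by norm_num) (by norm_num) (by norm_num) (by norm_num) hν

end

end Vale.Agent.P224.R2.H470
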