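import Vale.Agent.P224.R2.H470.Brg

/-!
A finer bound of the second moment of the centred product.
-/

namespace Vale.Agent.P224.R2.H470

open MeasureTheory Module Function Set Filter Real
open Vale.Agent.P224.R2.H460 Vale.Agent.P224.R2.H869 Vale.Agent.P224.R2.H484
open scoped RealInnerProductSpace Topology ContDiff

set_option linter.unusedSectionVars false

/-- the moment constants -/
lemma Mo_le {m : ℕ} (hm : 1 ≤ m) (j : ℕ) :
    √(m : ℝ) ^ j * Mo m j ≤ 2 * (√(j : ℝ) ^ j * Real.exp (-(j / 2))) := by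
  have hm0 : (0 : ℝ) < m := by exact_mod_cast hm
  have hmj : (0 : ℝ) < (m : ℝ) + j := by positivity
  set r : ℝ := (m : ℝ) / (m + j) with hr
  have hr0 : 0 ≤ r := by positivity
  have h1 : r ≤ Real.exp (-(j / (m + j))) := by
    have h2 := Real.add_one_le_exp (-((j : ℝ) / ((m : ℝ) + j)))
    have h3 : r = -((j : ℝ) / ((m : ℝ) + j)) + 1 := by
      rw [hr]
      field_simp
      ring
    rw [h3]
    exact h2
  have h4 : √r ≤ Real.exp (-(j / (2 * (m + j)))) := by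
    rw [Real.sqrt_le_left (Real.exp_pos _).le, ← Real.exp_nat_mul]
    refine h1.trans (le_of_eq ?_)
    congr 1
    push_cast
    field_simp
  have h5 : √r ^ (m + j) ≤ Real.exp (-(j / 2)) := by
    refine (pow_le_pow_left₀ (Real.sqrt_nonneg _) h4 (m + j)).trans (le_of_eq ?_)
    rw [← Real.exp_nat_mul]
    congr 1
    push_cast
    field_simp
  have h6 : √(m : ℝ) ^ j * √((j : ℝ) / (m + j)) ^ j = √(j : ℝ) ^ j * √r ^ j := by
    rw [← mul_pow, ← mul_pow, ← Real.sqrt_mul hm0.le, ← Real.sqrt_mul (by positivity)]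
    congr 2
    rw [hr]
    ring
  unfold Mo
  have e : √(m : ℝ) ^ j * (2 * (√((j : ℝ) / (m + j)) ^ j * √((m : ℝ) / (m + j)) ^ m))
      = 2 * (√(j : ℝ) ^ j * √r ^ (m + j)) := by
    calc √(m : ℝ) ^ j * (2 * (√((j : ℝ) / (m + j)) ^ j * √((m : ℝ) / (m + j)) ^ m))
        = 2 * ((√(m : ℝ) ^ j * √((j : ℝ) / (m + j)) ^ j) * √r ^ m) := by rw [hr]; ring
      _ = 2 * (√(j : ℝ) ^ j * √r ^ (m + j)) := by rw [h6, pow_add]; ring
  rw [e]
  exact mul_le_mul_of_nonneg_left (mul_le_mul_of_nonneg_left h5 (by positivity)) (by norm_num)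

lemma exp_neg_three_half : Real.exp (-(3 / 2)) ≤ 2232 / 10000 := by
  have h1 : Real.exp (-(3 / 2)) ^ 2 ≤ (2232 / 10000) ^ 2 := by
    rw [← Real.exp_nat_mul]
    have e : ((2 : ℕ) : ℝ) * (-(3 / 2)) = -((3 : ℕ) : ℝ) * 1 := by norm_num
    rw [e, neg_mul, Real.exp_neg, Real.exp_nat_mul, inv_le_comm₀ (by positivity) (by norm_num)]
    have h2 := Real.exp_one_gt_d9
    have h3 : (2.7182818283 : ℝ) ^ 3 ≤ Real.exp 1 ^ 3 := pow_le_pow_left₀ (by norm_num) h2.le 3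
    refine le_trans ?_ h3
    norm_num
  exact abs_le_of_sq_le_sq' h1 (by norm_num) |>.2

lemma mMo3_le {m : ℕ} (hm : 1 ≤ m) : (m : ℝ) * Mo m 3 ≤ 232 / 100 / √m := by
  have hm0 : (0 : ℝ) < m := by exact_mod_cast hm
  have hs : 0 < √(m : ℝ) := Real.sqrt_pos.2 hm0
  have h1 := Mo_le hm 3
  rw [le_div_iff₀ hs]
  have e1 : √(m : ℝ) ^ 3 = m * √m := by
    have := Real.mul_self_sqrt hm0.le
    calc √(m : ℝ) ^ 3 = √(m : ℝ) * √m * √m := by ring
      _ = _ := by rw [this]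
  rw [e1] at h1
  have h3 : √((3 : ℕ) : ℝ) ^ 3 ≤ 51963 / 10000 := by
    have h4 : √((3 : ℕ) : ℝ) ≤ 17321 / 10000 := by
      rw [Real.sqrt_le_left (by norm_num)]
      norm_num
    have h5 : √((3 : ℕ) : ℝ) ^ 2 = 3 := by rw [Real.sq_sqrt (by positivity)]; norm_num
    calc √((3 : ℕ) : ℝ) ^ 3 = √((3 : ℕ) : ℝ) ^ 2 * √((3 : ℕ) : ℝ) := by ring
      _ ≤ _ := by rw [h5]; linarith
  have h6 : Real.exp (-(((3 : ℕ) : ℝ) / 2)) ≤ 2232 / 10000 := by
    have := exp_neg_three_half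
    norm_num at this ⊢
    exact this
  have h7 := mul_le_mul h3 h6 (Real.exp_pos _).le (by norm_num)
  calc (m : ℝ) * Mo m 3 * √m = m * √m * Mo m 3 := by ring
    _ ≤ _ := by linarith

lemma mMo4_le {m : ℕ} (hm : 1 ≤ m) : (m : ℝ) * Mo m 4 ≤ 434 / 100 / m := by
  have hm0 : (0 : ℝ) < m := by exact_mod_cast hm
  have h1 := Mo_le hm 4
  rw [le_div_iff₀ hm0]
  have e1 : √(m : ℝ) ^ 4 = m * m := by
    have := Real.mul_self_sqrt hm0.le
    calc √(m : ℝ) ^ 4 = (√(m : ℝ) * √m) * (√m * √m) := by ring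
      _ = _ := by rw [this]
  have e2 : √((4 : ℕ) : ℝ) ^ 4 = 16 := by
    have := Real.mul_self_sqrt (by positivity : (0 : ℝ) ≤ ((4 : ℕ) : ℝ))
    calc √((4 : ℕ) : ℝ) ^ 4 = (√((4 : ℕ) : ℝ) * √((4 : ℕ) : ℝ)) * (√((4 : ℕ) : ℝ) * √((4 : ℕ) : ℝ)) := by
          ring
      _ = _ := by rw [this]; norm_num
  have h6 : Real.exp (-(((4 : ℕ) : ℝ) / 2)) ≤ 13535 / 100000 := by
    have e : -(((4 : ℕ) : ℝ) / 2) = -(((2 : ℕ) : ℝ) * 1) := by norm_num
    rw [e, Real.exp_neg, Real.exp_nat_mul, inv_le_comm₀ (by positivity) (by norm_num)]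
    have h2 := Real.exp_one_gt_d9
    have h3 : (2.7182818283 : ℝ) ^ 2 ≤ Real.exp 1 ^ 2 := pow_le_pow_left₀ (by norm_num) h2.le 2
    refine le_trans ?_ h3
    norm_num
  rw [e1, e2] at h1
  calc (m : ℝ) * Mo m 4 * m = m * m * Mo m 4 := by ring
    _ ≤ _ := by linarith

section

variable {X : Type*} {E : Type*} [NormedAddCommGroup E] [InnerProductSpace ℝ E]
  [FiniteDimensional ℝ E] [MeasurableSpace E] [BorelSpace E]
variable [TopologicalSpace X] [MeasurableSpace X] [SecondCountableTopology X]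
variable [CompactSpace X] [BorelSpace X] {μ : Measure X} {m : ℕ} {p n : X → E}
  {z : X → E} {T : ℝ}

/-- the conformal factor in the image -/
lemma fac_le {T w : ℝ} (h0 : 0 ≤ T) (h1 : T < 1) (hw : -1 ≤ w) :
    (1 + T * w)⁻¹ ≤ 1 + T * |w| + T ^ 2 / (1 - T) * w ^ 2 := by
  have hT : 0 < 1 - T := by linarith
  have h2 : 1 - T ≤ 1 + T * w := by nlinarith
  have h3 : 0 < 1 + T * w := by linarith
  have h4 : (1 + T * w)⁻¹ = 1 - T * w + T ^ 2 * w ^ 2 * (1 + T * w)⁻¹ := by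
    field_simp
    ring
  have h5 : (1 + T * w)⁻¹ ≤ (1 - T)⁻¹ := inv_anti₀ hT h2
  have h6 : T ^ 2 * w ^ 2 * (1 + T * w)⁻¹ ≤ T ^ 2 * w ^ 2 * (1 - T)⁻¹ :=
    mul_le_mul_of_nonneg_left h5 (by positivity)
  have h7 : -(T * w) ≤ T * |w| := by
    have := mul_le_mul_of_nonneg_left (neg_le_abs w) h0
    linarith
  have h8 : T ^ 2 * w ^ 2 * (1 - T)⁻¹ = T ^ 2 / (1 - T) * w ^ 2 := by
    rw [div_eq_mul_inv]
    ring
  rw [h4]
  linarith

omit [FiniteDimensional ℝ E] [MeasurableSpace E] [BorelSpace E] in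
lemma mob_rad {x y : E} (hxx : ⟪x, x⟫ = 1) (hv : 0 < 1 - T * ⟪x, y⟫) :
    (1 - T * ⟪x, y⟫) * (1 + T * ⟪x, mob T x y⟫) = 1 - T ^ 2 := by
  have e6 : ⟪y, x⟫ = ⟪x, y⟫ := real_inner_comm _ _
  unfold mob
  rw [e6, real_inner_smul_right]
  simp only [inner_add_right, inner_sub_right, real_inner_smul_right, hxx]
  field_simp
  ring

variable [IsProbabilityMeasure μ]

/-- the second moment of the centred product, finer form -/
theorem MM_le_mom2 [Nontrivial E] (h : OneP μ m p n) (hm : 1 ≤ m) (h0 : 0 ≤ T) (h1 : T < 1)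
    (hz : Continuous z) :
    cw m T * MM μ m p z T ≤ (m * Mo m 2 + T * (m * Mo m 3) + T ^ 2 / (1 - T) * (m * Mo m 4))
      * ∫ x, ‖z x‖ ^ 2 ∂μ := by
  have hk : 0 < 1 - T ^ 2 := by nlinarith
  have hT1 : 0 < 1 - T := by linarith
  have hp := h.cp
  have hcw := cw_pos (m := m) h0 h1
  have hM := Mo_nonneg m
  set Mc : ℝ := Mo m 2 + T * Mo m 3 + T ^ 2 / (1 - T) * Mo m 4 with hMc
  have hMc0 : 0 ≤ Mc := by
    have := hM 2
    have := hM 3
    have := hM 4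
    positivity
  have key : ∀ x, cw m T * ∫ y, kr T (m + 1) ⟪p x, p y⟫ * ⟪p y - T • p x, z x⟫ ^ 2 ∂μ
      ≤ Mc * ‖z x‖ ^ 2 := by
    intro x
    set b := z x with hb
    set f := ⟪b, p x⟫ with hf
    set b' : E := (b - f • p x) + √(1 - T ^ 2) • (f • p x) with hb'
    have hs : √(1 - T ^ 2) ^ 2 = 1 - T ^ 2 := Real.sq_sqrt hk.le
    have hsp : 0 < √(1 - T ^ 2) := Real.sqrt_pos.2 hk
    have hxx : ⟪p x, p x⟫ = 1 := h.pp x
    have hperp : ⟪b - f • p x, p x⟫ = 0 := inner_perp (h.np x)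
    have hbn : ‖b'‖ ^ 2 ≤ ‖b‖ ^ 2 := by
      have e1 : ‖b'‖ ^ 2 = ‖b - f • p x‖ ^ 2 + (1 - T ^ 2) * f ^ 2 := by
        rw [hb', norm_add_sq_real, inner_smul_right, inner_smul_right, hperp, norm_smul, norm_smul,
          h.np, mul_pow, mul_pow, Real.norm_eq_abs, Real.norm_eq_abs, sq_abs, sq_abs, hs]
        ring
      have e2 : ‖b - f • p x‖ ^ 2 = ‖b‖ ^ 2 - f ^ 2 := norm_perp_sq (h.np x)
      rw [e1, e2]
      nlinarith [sq_nonneg (T * f)]
    have hcv := cv_of_oneP h hm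
    have hq : 0 < m := by omega
    have hT : T ∈ Ico (0 : ℝ) 1 := ⟨h0, h1⟩
    have g2 := mom_one hcv hq hT (h.np x) b' 2
    have g3 := mom_two hcv hq hT (h.np x) b' (p x) 2 1
    have g4 := mom_two hcv hq hT (h.np x) b' (p x) 2 2
    rw [probReal_univ, one_mul, ← rpow_half_eq hk.le] at g2 g3 g4
    rw [h.np, one_pow, mul_one] at g3 g4
    have e3 : ∀ y, √(1 - T ^ 2) * ⟪p y - T • p x, b⟫
        = (1 - T * ⟪p x, p y⟫) * ⟪b', mob T (p x) (p y)⟫ := fun y =>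
      mob_id hxx (one_sub_pos h0 h1 (h.np x) (h.np y)).ne'
    set Q : X → ℝ := fun y => ((1 - T * ⟪p y, p x⟫) ^ m)⁻¹ with hQ
    set B : X → ℝ := fun y => |⟪b', mob T (p x) (p y)⟫| with hB
    set R : X → ℝ := fun y => |⟪p x, mob T (p x) (p y)⟫| with hR
    have hQ0 : ∀ y, 0 ≤ Q y := fun y => inv_nonneg.2 (pow_nonneg (by
      have := one_sub_pos h0 h1 (h.np x) (h.np y)
      rw [real_inner_comm (p x) (p y)]
      exact this.le) _)
    have hpw : ∀ y, kr T (m + 1) ⟪p x, p y⟫ * ⟪p y - T • p x, b⟫ ^ 2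
        ≤ Q y * B y ^ 2 + T * (Q y * (B y ^ 2 * R y ^ 1))
          + T ^ 2 / (1 - T) * (Q y * (B y ^ 2 * R y ^ 2)) := by
      intro y
      have hv := one_sub_pos h0 h1 (h.np x) (h.np y)
      have e6 : ⟪p y - T • p x, b⟫ ^ 2 = (1 - T * ⟪p x, p y⟫) ^ 2
          * ⟪b', mob T (p x) (p y)⟫ ^ 2 / (1 - T ^ 2) := by
        rw [eq_div_iff hk.ne', ← mul_pow, ← e3 y, mul_pow, hs]
        ring
      set w := ⟪p x, mob T (p x) (p y)⟫ with hw
      have hrad : (1 - T * ⟪p x, p y⟫) * (1 + T * w) = 1 - T ^ 2 := mob_rad hxx hv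
      have hwl : -1 ≤ w := by
        have := abs_inner_mob_le hT (h.np y) (h.np x) (p x)
        rw [h.np] at this
        exact (abs_le.1 this).1
      have hfac := fac_le h0 h1 hwl
      have hw1 : 0 < 1 + T * w := by nlinarith
      have e7 : kr T (m + 1) ⟪p x, p y⟫ * ((1 - T * ⟪p x, p y⟫) ^ 2
          * ⟪b', mob T (p x) (p y)⟫ ^ 2 / (1 - T ^ 2))
          = (1 + T * w)⁻¹ * (Q y * B y ^ 2) := by
        have h5 := kr_mul m hv
        simp only [hQ, hB]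
        rw [sq_abs, real_inner_comm (p x) (p y)]
        unfold kr at *
        rw [← h5, ← hrad]
        field_simp
      rw [e6, e7]
      have h5 : 0 ≤ Q y * B y ^ 2 := mul_nonneg (hQ0 y) (sq_nonneg _)
      refine (mul_le_mul_of_nonneg_right hfac h5).trans (le_of_eq ?_)
      have e8 : R y = |w| := rfl
      rw [e8, ← sq_abs w]
      ring
    have c1 : Continuous fun y => kr T (m + 1) ⟪p x, p y⟫ :=
      continuous_kr h0 h1 (m + 1) (h.np x) hp h.np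
    have mB : Measurable B := by
      have := measurable_mob hp.measurable T (p x)
      exact (measurable_const.inner this).abs
    have mR : Measurable R := by
      have := measurable_mob hp.measurable T (p x)
      exact (measurable_const.inner this).abs
    have bB : ∀ y, 0 ≤ B y ∧ B y ≤ ‖b'‖ := fun y =>
      ⟨abs_nonneg _, abs_inner_mob_le hT (h.np y) (h.np x) b'⟩
    have bR : ∀ y, 0 ≤ R y ∧ R y ≤ 1 := fun y =>
      ⟨abs_nonneg _, by
        have := abs_inner_mob_le hT (h.np y) (h.np x) (p x)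
        rwa [h.np] at this⟩
    have i2 : Integrable (fun y => Q y * B y ^ 2) μ := by
      refine int_mom hcv hT (h.np x) (G := fun y => B y ^ 2) (mB.pow_const 2) (C := ‖b'‖ ^ 2)
        fun y => ?_
      rw [abs_of_nonneg (sq_nonneg _)]
      exact pow_le_pow_left₀ (bB y).1 (bB y).2 2
    have i3 : ∀ j, Integrable (fun y => Q y * (B y ^ 2 * R y ^ j)) μ := by
      intro j
      refine int_mom hcv hT (h.np x) (G := fun y => B y ^ 2 * R y ^ j)
        ((mB.pow_const 2).mul (mR.pow_const j)) (C := ‖b'‖ ^ 2) fun y => ?_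
      rw [abs_of_nonneg (mul_nonneg (sq_nonneg _) (pow_nonneg (bR y).1 _))]
      have h5 := mul_le_mul (pow_le_pow_left₀ (bB y).1 (bB y).2 2)
        (pow_le_one₀ (bR y).1 (bR y).2 (n := j)) (pow_nonneg (bR y).1 _) (sq_nonneg ‖b'‖)
      rwa [mul_one] at h5
    have i23 : Integrable (fun y => Q y * B y ^ 2 + T * (Q y * (B y ^ 2 * R y ^ 1))) μ :=
      i2.add ((i3 1).const_mul T)
    have i34 : Integrable (fun y => Q y * B y ^ 2 + T * (Q y * (B y ^ 2 * R y ^ 1))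
        + T ^ 2 / (1 - T) * (Q y * (B y ^ 2 * R y ^ 2))) μ :=
      i23.add ((i3 2).const_mul (T ^ 2 / (1 - T)))
    have h6 := integral_mono (int_of_cont (μ := μ) (by fun_prop)) i34 hpw
    rw [integral_add i23 ((i3 2).const_mul (T ^ 2 / (1 - T))),
      integral_add i2 ((i3 1).const_mul T), integral_const_mul, integral_const_mul] at h6
    have h7 := mul_le_mul_of_nonneg_left h6 hcw.le
    have h8 : 0 ≤ T ^ 2 / (1 - T) := by positivity
    have h9 := mul_le_mul_of_nonneg_left g3 h0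
    have h10 := mul_le_mul_of_nonneg_left g4 h8
    have h11 : Mc * ‖b'‖ ^ 2 ≤ Mc * ‖b‖ ^ 2 := mul_le_mul_of_nonneg_left hbn hMc0
    unfold cw at h7 ⊢
    have e9 : Mc * ‖b'‖ ^ 2 = ‖b'‖ ^ 2 * Mo m 2 + T * (‖b'‖ ^ 2 * Mo m (2 + 1))
        + T ^ 2 / (1 - T) * (‖b'‖ ^ 2 * Mo m (2 + 2)) := by
      rw [hMc]
      ring
    linarith
  have hkc := continuous_krp (p := p) h0 h1 (m + 1) hp h.np
  have iP : Integrable (fun u : X × X => kr T (m + 1) ⟪p u.1, p u.2⟫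
      * ⟪p u.2 - T • p u.1, z u.1⟫ ^ 2) (μ.prod μ) :=
    int_PI h0 h1 (m + 1) hp h.np (G := fun u => ⟪p u.2 - T • p u.1, z u.1⟫ ^ 2) (by fun_prop)
  have e8 : cw m T * PI μ p T (m + 1) (fun u => Y2 p z T u ^ 2)
      = ∫ x, cw m T * ∫ y, kr T (m + 1) ⟪p x, p y⟫ * ⟪p y - T • p x, z x⟫ ^ 2 ∂μ ∂μ := by
    unfold PI Y2
    rw [integral_prod _ iP, integral_const_mul]
  have h12 : cw m T * PI μ p T (m + 1) (fun u => Y2 p z T u ^ 2) ≤ ∫ x, Mc * ‖z x‖ ^ 2 ∂μ := by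
    rw [e8]
    exact integral_mono (iP.integral_prod_left.const_mul _) (int_of_cont (by fun_prop)) key
  rw [integral_const_mul] at h12
  unfold MM
  have h15 := mul_le_mul_of_nonneg_left h12 (by positivity : (0 : ℝ) ≤ m)
  calc cw m T * (m * PI μ p T (m + 1) (fun u => Y2 p z T u ^ 2))
      = m * (cw m T * PI μ p T (m + 1) (fun u => Y2 p z T u ^ 2)) := by ring
    _ ≤ m * (Mc * ∫ x, ‖z x‖ ^ 2 ∂μ) := h15
    _ = _ := by rw [hMc]; ring

end

end Vale.Agent.P224.R2.H470
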