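import Vale.Agent.P224.R2.H470.CrB
import Vale.Agent.P224.R2.H470.Brg2

/-!
The cross term at level T, sharper form.
-/

namespace Vale.Agent.P224.R2.H470

open MeasureTheory Module Function Set Filter Real
open Vale.Agent.P224.R2.H460 Vale.Agent.P224.R2.H869 Vale.Agent.P224.R2.H484
open Vale.Agent.P224.R2.H728 (BM ZZ)
open scoped RealInnerProductSpace Topology ContDiff

set_option linter.unusedSectionVars false

section

variable {X : Type*} {E : Type*} [NormedAddCommGroup E] [InnerProductSpace ℝ E]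
  [FiniteDimensional ℝ E] [MeasurableSpace E] [BorelSpace E]
variable [TopologicalSpace X] [MeasurableSpace X] [SecondCountableTopology X]
variable [CompactSpace X] [BorelSpace X] {μ : Measure X} {m : ℕ} {p n : X → E}
  {z : X → E} {T : ℝ}

/-- the trace free second moments -/
noncomputable def al {ι : Type*} [Fintype ι] (μ : Measure X) (m : ℕ) (p z : X → E)
    (e : OrthonormalBasis ι ℝ E) : ℝ :=
  m * (m + 1) / 2 * ∑ i, ((∑ j, ∑ k, m2f μ p e (fun x => ⟪z x, e i⟫) j k ^ 2)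
    - (∫ x, ⟪z x, e i⟫ ∂μ) ^ 2 / (m + 2))

variable [IsProbabilityMeasure μ]

lemma al_le (hp : Continuous p) (np : ∀ x, ‖p x‖ = 1) (hz : Continuous z) {ι : Type*} [Fintype ι]
    (e : OrthonormalBasis ι ℝ E) (hd : finrank ℝ E = m + 2) {K2 : ℝ} (hK : 0 ≤ K2)
    (hQ : QB μ p e K2) : al μ m p z e ≤ m * (m + 1) / 2 * K2 * ∫ x, ‖z x‖ ^ 2 ∂μ := by
  have hcard : Fintype.card ι = m + 2 := by
    rw [← hd]
    exact (Module.finrank_eq_card_basis e.toBasis).symm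
  unfold al
  rw [mul_assoc (_ / 2)]
  refine mul_le_mul_of_nonneg_left ?_ (by positivity)
  rw [← sum_int_sq hz e, Finset.mul_sum]
  refine Finset.sum_le_sum fun i _ => ?_
  have := m2f_le (μ := μ) hp.measurable np (BMi hz (e i)) e hcard hK hQ
  linarith

lemma zcf3_al (hp : Continuous p) (np : ∀ x, ‖p x‖ = 1) (hz : Continuous z) {C : ℝ}
    (hzC : ∀ x, ‖z x‖ ≤ C) {ι : Type*} [Fintype ι]
    (e : OrthonormalBasis ι ℝ E) (hd : finrank ℝ E = m + 2) :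
    zcf m μ p z 3 ≤ 3 * al μ m p z e
      + (2 - m * (3 * m + 4) / (2 * (m + 2) ^ 2)) * (∑ i, (∫ x, ⟪z x, e i⟫ ∂μ) ^ 2)
      - 2 * m / (m + 2) * ∑ i, (∫ x, ⟪z x, e i⟫ ∂μ) * m1f μ p e (fun x => ⟪z x, p x⟫) i := by
  classical
  have b := fun i => BM_inner hz.measurable hzC (e i)
  have c := fun j => BM_p hp.measurable np (e j)
  have hcard : Fintype.card ι = m + 2 := by
    rw [← hd]
    exact (Module.finrank_eq_card_basis e.toBasis).symm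
  have hcR : (Fintype.card ι : ℝ) = (m : ℝ) + 2 := by rw [hcard]; push_cast; ring
  have hm2 : (m : ℝ) + 2 ≠ 0 := by positivity
  set A : ι → ι → ι → ℝ := fun i j k => m2f μ p e (fun x => ⟪z x, e i⟫) j k with hA
  have hAs : ∀ i j k, A i j k = A i k j := by
    intro i j k
    simp only [hA, m2f]
    refine integral_congr_ae (Eventually.of_forall fun x => ?_)
    simp only
    ring
  have hE : ∀ i, ∑ j, A i j j = ∫ x, ⟪z x, e i⟫ ∂μ := by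
    intro i
    simp only [hA, m2f]
    rw [← integral_finsetSum _ fun j _ => ((b i).mul ((c j).mul (c j))).int]
    refine integral_congr_ae (Eventually.of_forall fun x => ?_)
    simp only
    rw [← Finset.mul_sum, ← inner_sum_basis e, real_inner_self_eq_norm_sq, np]
    ring
  have hG : ∀ i, ∑ j, A j j i = m1f μ p e (fun x => ⟪z x, p x⟫) i := by
    intro i
    simp only [hA, m2f, m1f]
    rw [← integral_finsetSum _ fun j _ => ((b j).mul ((c j).mul (c i))).int]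
    refine integral_congr_ae (Eventually.of_forall fun x => ?_)
    simp only
    rw [inner_sum_basis e (z x) (p x), Finset.sum_mul]
    refine Finset.sum_congr rfl fun j _ => ?_
    ring
  have h1 := cub_alg hcR hm2 hAs
  simp only [hE, hG] at h1
  rw [zcf3_eq hp.measurable hz.measurable np hzC e m]
  have hmm : (0 : ℝ) ≤ m * (m + 1) / 2 := by positivity
  have h4 := mul_le_mul_of_nonneg_left h1 hmm
  unfold al
  set E2 := ∑ i, (∫ x, ⟪z x, e i⟫ ∂μ) ^ 2 with hE2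
  set EG := ∑ i, (∫ x, ⟪z x, e i⟫ ∂μ) * m1f μ p e (fun x => ⟪z x, p x⟫) i with hEG
  have e1 : (m : ℝ) * (m + 1) / 2 * ((1 / ((m : ℝ) + 2) - 2 / ((m : ℝ) + 2) ^ 2) * E2)
      - ((m : ℝ) / 2 - 2) * E2 = (2 - m * (3 * m + 4) / (2 * (m + 2) ^ 2)) * E2 := by
    field_simp
    ring
  have e2 : (m : ℝ) * (m + 1) / 2 * (4 / ((m : ℝ) + 2) * EG) - 2 * m * EG
      = - (2 * m / (m + 2) * EG) := by
    field_simp
    ring
  linarith

lemma KF_rk1_ge (hp : Measurable p) (np : ∀ x, ‖p x‖ = 1) {F : X → ℝ} (hF : BM F) {ι : Type*}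
    [Fintype ι] (e : OrthonormalBasis ι ℝ E) (hm : 1 ≤ m) (hd : finrank ℝ E = m + 2) (h0 : 0 < T)
    (h1 : T < 1) :
    T ^ 2 * (m * (m + 1) / 2 * ((∑ j, ∑ k, m2f μ p e F j k ^ 2) - (∫ x, F x ∂μ) ^ 2 / (m + 2)))
      ≤ KF (rk m m 1 T) μ p F F := by
  have h3 := (PT_rk (μ := μ) hp np hF hm hd (by norm_num : 3 ≤ 3) h0 le_rfl h1).1
  have a1 := PD_ak (μ := μ) hp np hm hd (by norm_num : 1 < 3) F hF
  have e3 : KF (rk m m 1 T) μ p F F = KF (rk m m 3 T) μ p F F + T ^ 1 * KF (ak m m 1) μ p F F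
      + T ^ 2 * KF (ak m m 2) μ p F F := by
    have e4 : rk m m 1 T = fun s => (rk m m 3 T s + T ^ 2 * ak m m 2 s) + T ^ 1 * ak m m 1 s := by
      funext s
      rw [rk_succ m m 1, rk_succ m m 2]
    rw [e4, KF_kadd hp np ((BK_rk m m 3 h0.le h1).add ((BK_ak m m 2).smul _))
      ((BK_ak m m 1).smul _) hF hF, KF_kadd hp np (BK_rk m m 3 h0.le h1) ((BK_ak m m 2).smul _)
      hF hF, KF_ksmul, KF_ksmul]
    ring
  have e5 : KF (ak m m 2) μ p F F = m * (m + 1) / 2 * (∑ j, ∑ k, m2f μ p e F j k ^ 2)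
      - ((m : ℝ) / 2 - 1) * (∫ x, F x ∂μ) ^ 2 := by
    rw [KF_a2 hp np hF hF e]
    have e6 : ∀ i j, (∫ x, F x * (⟪p x, e i⟫ * ⟪p x, e j⟫) ∂μ)
        * (∫ x, F x * (⟪p x, e i⟫ * ⟪p x, e j⟫) ∂μ) = m2f μ p e F i j ^ 2 := fun i j => (sq _).symm
    simp only [e6]
    ring
  rw [e3, e5]
  have h4 : 0 ≤ T ^ 1 * KF (ak m m 1) μ p F F := mul_nonneg (by positivity) a1
  have hm2 : (0 : ℝ) < (m : ℝ) + 2 := by positivity
  have e7 : T ^ 2 * (m * (m + 1) / 2 * (∑ j, ∑ k, m2f μ p e F j k ^ 2)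
      - ((m : ℝ) / 2 - 1) * (∫ x, F x ∂μ) ^ 2)
      = T ^ 2 * (m * (m + 1) / 2 * ((∑ j, ∑ k, m2f μ p e F j k ^ 2)
        - (∫ x, F x ∂μ) ^ 2 / (m + 2))) + T ^ 2 * ((m + 4) / (2 * (m + 2)) * (∫ x, F x ∂μ) ^ 2) := by
    field_simp
    ring
  rw [e7]
  have h5 : 0 ≤ T ^ 2 * (((m : ℝ) + 4) / (2 * (m + 2)) * (∫ x, F x ∂μ) ^ 2) := by positivity
  linarith

lemma VK_rk1_ge (hp : Continuous p) (np : ∀ x, ‖p x‖ = 1) (hz : Continuous z) {ι : Type*}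
    [Fintype ι] (e : OrthonormalBasis ι ℝ E) (hm : 1 ≤ m) (hd : finrank ℝ E = m + 2) (h0 : 0 < T)
    (h1 : T < 1) : T ^ 2 * al μ m p z e ≤ VK (rk m m 1 T) μ p z z := by
  rw [VK_eq (BK_rk m m 1 h0.le h1) hp np hz hz e]
  unfold al
  rw [Finset.mul_sum, Finset.mul_sum]
  exact Finset.sum_le_sum fun i _ => KF_rk1_ge hp.measurable np (BMi hz (e i)) e hm hd h0 h1

lemma ZZ_up2 (hp : Continuous p) (np : ∀ x, ‖p x‖ = 1) (hz : Continuous z) {C : ℝ}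
    (hzC : ∀ x, ‖z x‖ ≤ C) (hC : 0 ≤ C) (hm : 1 ≤ m) (hd : finrank ℝ E = m + 2)
    {ι : Type*} [Fintype ι] (e : OrthonormalBasis ι ℝ E)
    (ha : ∀ i j, m1f μ p e (fun x => ⟪z x, e i⟫) j = -m1f μ p e (fun x => ⟪z x, e j⟫) i)
    {T1 : ℝ} (h1 : 0 < T) (h2 : T ≤ T1) (h3 : T1 < 1) :
    0 ≤ zcf m μ p z 3 ∧
    ZZ m μ p z T ≤ zcf m μ p z 1 * T + zcf m μ p z 3 * (T ^ 3 * (1 - T / T1))
      + (T / T1) ^ 4 * ZZ m μ p z T1 := by
  obtain ⟨h4, h5⟩ := ZZ_split (μ := μ) hp.measurable hz.measurable np hzC hC hm hd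
  obtain ⟨h6, h7⟩ := h5 h1 h2 h3
  have hz2 := zcf2_zero (μ := μ) hp.measurable hz.measurable np hzC e m ha
  have e1 : ∀ t : ℝ, ∑ i ∈ Finset.range 4, zcf m μ p z i * t ^ i
      = zcf m μ p z 1 * t + zcf m μ p z 3 * t ^ 3 := by
    intro t
    have hz0 : zcf m μ p z 0 = 0 := by
      unfold zcf
      simp [zc]
    rw [Finset.sum_range_succ, Finset.sum_range_succ, Finset.sum_range_succ,
      Finset.sum_range_succ, Finset.sum_range_zero, hz0, hz2]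
    ring
  rw [e1, e1] at h7
  have hT1 : 0 < T1 := h1.trans_le h2
  have z1 := h4 1 (by norm_num)
  have z3 := h4 3 (by norm_num)
  refine ⟨z3, ?_⟩
  have h8 : (T / T1) ^ 4 * (zcf m μ p z 3 * T1 ^ 3) = zcf m μ p z 3 * (T ^ 3 * (T / T1)) := by
    field_simp
  have h9 : 0 ≤ (T / T1) ^ 4 * (zcf m μ p z 1 * T1) := by positivity
  linarith

theorem ZZ_top_gen [Nontrivial E] (h : OneP μ m p n) (hm : 1 ≤ m) (hz : Continuous z)
    (h0 : 0 ≤ T) (h1 : T < 1) {M : ℝ} (hM : cw m T * MM μ m p z T ≤ M * ∫ x, ‖z x‖ ^ 2 ∂μ) :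
    (1 - T ^ 2) ^ 2 * ZZ m μ p z T ≤ (T + T ^ 2 * M) * ∫ x, ‖z x‖ ^ 2 ∂μ := by
  have hp := h.cp
  have h2 := VK_schur h hm h0 h1 hz
  rw [← cwPI_v h0 h1] at h2
  have cs := PI_cs_m (μ := μ) (m := m) h0 h1 (m + 1) hp h.np (cont_Y2 (T := T) hp hz)
    (cont_Y2s (T := T) hp hz)
  have s1 : PI μ p T (m + 1) (fun u => Y2 p z T u.swap ^ 2)
      = PI μ p T (m + 1) (fun u => Y2 p z T u ^ 2) :=
    PI_swap h0 h1 (m + 1) (fun u => Y2 p z T u ^ 2)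
  rw [s1] at cs
  have hM0 : 0 ≤ MM μ m p z T := MM_nonneg h0 h1 h.np
  have e2 : √(m * PI μ p T (m + 1) (fun u => Y2 p z T u ^ 2))
      * √(m * PI μ p T (m + 1) (fun u => Y2 p z T u ^ 2)) = MM μ m p z T :=
    Real.mul_self_sqrt hM0
  rw [e2] at cs
  have h5 := (abs_le.1 cs).2
  have h6 := mul_le_mul_of_nonneg_left h5 (cw_pos (m := m) h0 h1).le
  have h7 := mul_le_mul_of_nonneg_left (h6.trans hM) (sq_nonneg T)
  have h8 := mul_le_mul_of_nonneg_left h2 h0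
  rw [ZZ_PI hp h.np hz h0 h1]
  linarith

/-- algebra: the mean terms -/
lemma cr_m1 {T k x E2 t f g a b c2 c3 : ℝ} (hT : 0 ≤ T) (hk0 : 0 ≤ k) (hk1 : k ≤ 1)
    (hx0 : 0 ≤ x) (hx : x ≤ 1) (hE2 : 0 ≤ E2)
    (hc2 : 0 ≤ c2) (hc30 : 0 ≤ c3) (hc3 : c3 ≤ 2) (hf : |f| ≤ a) (hg : |g| ≤ b)
    (ht : t = E2 - f - g) :
    k * T * (4 * t - E2) + k ^ 2 * T * (1 - x) * (c2 * E2 - c3 * f)
      ≤ T * ((3 + c2) * E2 + 6 * a + 4 * b) := by
  have ha0 : 0 ≤ a := (abs_nonneg f).trans hf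
  have hb0 : 0 ≤ b := (abs_nonneg g).trans hg
  have hf1 := (abs_le.1 hf).1
  have hg1 := (abs_le.1 hg).1
  have h1x : 0 ≤ 1 - x := sub_nonneg.2 hx
  have h35 : 4 * t - E2 ≤ 3 * E2 + 4 * a + 4 * b := by
    rw [ht]
    linarith
  have h36 : k * T * (4 * t - E2) ≤ k * T * (3 * E2 + 4 * a + 4 * b) :=
    mul_le_mul_of_nonneg_left h35 (by positivity)
  have h37 : k * (T * (3 * E2 + 4 * a + 4 * b)) ≤ 1 * (T * (3 * E2 + 4 * a + 4 * b)) :=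
    mul_le_mul_of_nonneg_right hk1 (by positivity)
  have h40 : -(c3 * f) ≤ c3 * a := by
    have := mul_le_mul_of_nonneg_left hf1 hc30
    linarith
  have h41 : c3 * a ≤ 2 * a := mul_le_mul_of_nonneg_right hc3 ha0
  have h39 : c2 * E2 - c3 * f ≤ c2 * E2 + 2 * a := by linarith
  have h42 : k ^ 2 * T * (1 - x) * (c2 * E2 - c3 * f) ≤ k ^ 2 * T * (1 - x) * (c2 * E2 + 2 * a) :=
    mul_le_mul_of_nonneg_left h39 (by positivity)
  have h43 : k ^ 2 * (1 - x) ≤ 1 := mul_le_one₀ (pow_le_one₀ hk0 hk1) h1x (by linarith)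
  have h44 : (k ^ 2 * (1 - x)) * (T * (c2 * E2 + 2 * a)) ≤ 1 * (T * (c2 * E2 + 2 * a)) :=
    mul_le_mul_of_nonneg_right h43 (by positivity)
  linarith

/-- algebra: the main terms -/
lemma cr_m2 {T T1 k H B A G : ℝ} (hT : 0 < T) (hTT : T ≤ T1) (hTh : T ≤ 1 / 2)
    (hbr : 0 ≤ 2 - (3 / T1 - 2) * T) (hk0 : 0 ≤ k) (hk1 : k ≤ 1)
    (hA0 : 0 ≤ A) (hA : A ≤ G * H) (hAB : T ^ 2 * A ≤ B) :
    k ^ 2 * T * (1 - T / T1) * (3 * A) + (k * (2 * B) - k * (B / T))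
      ≤ T * ((2 - (3 / T1 - 2) * T) * (G * H)) := by
  have hT10 : 0 < T1 := hT.trans_le hTT
  have hx : T / T1 ≤ 1 := (div_le_one hT10).2 hTT
  have h1x : 0 ≤ 1 - T / T1 := sub_nonneg.2 hx
  have hkk2 : k ^ 2 ≤ k := by nlinarith
  have h24 : k * (2 * B) - k * (B / T) ≤ -(k * (1 - 2 * T) * (T * A)) := by
    have e1 : k * (2 * B) - k * (B / T) = -(k * (1 - 2 * T) * (B / T)) := by
      field_simp
      ring
    rw [e1]
    have h25 : T * A ≤ B / T := by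
      rw [le_div_iff₀ hT]
      linarith
    have h26 : 0 ≤ k * (1 - 2 * T) := mul_nonneg hk0 (by linarith)
    have := mul_le_mul_of_nonneg_left h25 h26
    linarith
  have h27 : k ^ 2 * T * (1 - T / T1) * (3 * A) ≤ k * T * (1 - T / T1) * (3 * A) := by
    have h28 : 0 ≤ T * (1 - T / T1) * (3 * A) := by positivity
    have := mul_le_mul_of_nonneg_right hkk2 h28
    linarith
  have h29 : k * T * (1 - T / T1) * (3 * A) - k * (1 - 2 * T) * (T * A)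
      = k * (T * ((2 - (3 / T1 - 2) * T) * A)) := by
    field_simp
    ring
  have h31 : 0 ≤ T * ((2 - (3 / T1 - 2) * T) * A) := by positivity
  have h32 : k * (T * ((2 - (3 / T1 - 2) * T) * A)) ≤ 1 * (T * ((2 - (3 / T1 - 2) * T) * A)) :=
    mul_le_mul_of_nonneg_right hk1 h31
  have h33 : T * ((2 - (3 / T1 - 2) * T) * A) ≤ T * ((2 - (3 / T1 - 2) * T) * (G * H)) :=
    mul_le_mul_of_nonneg_left (mul_le_mul_of_nonneg_left hA hbr) hT.le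
  linarith

lemma cr_m3 {T B C D : ℝ} (hT : 0 ≤ T) (hB0 : 0 ≤ B) (hD0 : 0 ≤ D) (hC : C ^ 2 ≤ B * D) :
    4 * T * C ≤ 2 * B + 2 * T ^ 2 * D := by
  have h4 : (4 * T * C) ^ 2 ≤ (2 * B + 2 * T ^ 2 * D) ^ 2 := by
    have h6 : (4 * T * C) ^ 2 ≤ 16 * T ^ 2 * (B * D) := by
      have := mul_le_mul_of_nonneg_left hC (by positivity : 0 ≤ 16 * T ^ 2)
      linarith
    nlinarith [sq_nonneg (2 * B - 2 * T ^ 2 * D)]
  exact (abs_le_of_sq_le_sq' h4 (by positivity)).2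

/-- algebra of the cross term -/
lemma cr_alg3 {T T1 k E2 z3 W' H B C D Xc A G c2 c3 t f g a b R : ℝ} (hT : 0 < T) (hTT : T ≤ T1)
    (hTh : T ≤ 1 / 2) (hbr : 0 ≤ 2 - (3 / T1 - 2) * T) (hk0 : 0 ≤ k) (hk1 : k ≤ 1)
    (hk : k = 1 - T ^ 2) (hH : 0 ≤ H) (hW : 0 ≤ W') (hE2 : 0 ≤ E2)
    (h11 : T ^ 2 * Xc ≤ k ^ 2 * (E2 * T + z3 * (T ^ 3 * (1 - T / T1)) + T ^ 4 * (W' * H))
      - T * (k * (E2 + B)))
    (h8 : z3 ≤ 3 * A + c2 * E2 - c3 * f) (hA0 : 0 ≤ A) (hA : A ≤ G * H) (hAB : T ^ 2 * A ≤ B)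
    (hC : C ^ 2 ≤ B * D) (hB0 : 0 ≤ B) (hD0 : 0 ≤ D) (hD : k * D ≤ H)
    (hc2 : 0 ≤ c2) (hc30 : 0 ≤ c3) (hc3 : c3 ≤ 2) (hf : |f| ≤ a) (hg : |g| ≤ b)
    (ht : t = E2 - f - g) (hR : R = Xc + 4 * T * (k * (t + C))) :
    R ≤ (G * (2 * T - (3 / T1 - 2) * T ^ 2) + (W' + 2) * T ^ 2) * H
      + T * ((3 + c2) * E2 + 6 * a + 4 * b) := by
  have hT10 : 0 < T1 := hT.trans_le hTT
  have hx : T / T1 ≤ 1 := (div_le_one hT10).2 hTT
  have hx0 : 0 ≤ T / T1 := by positivity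
  have m1 := cr_m1 (x := T / T1) hT.le hk0 hk1 hx0 hx hE2 hc2 hc30 hc3 hf hg ht
  have m2 := cr_m2 hT hTT hTh hbr hk0 hk1 hA0 hA hAB
  have m3 := mul_le_mul_of_nonneg_left (cr_m3 hT.le hB0 hD0 hC) hk0
  have h1x : 0 ≤ 1 - T / T1 := sub_nonneg.2 hx
  have hk2 : k ^ 2 ≤ 1 := pow_le_one₀ hk0 hk1
  have h15 : T ^ 2 * Xc ≤ T ^ 2 * (-(k * T * E2) + k ^ 2 * T * (1 - T / T1) * z3
      + k ^ 2 * T ^ 2 * (W' * H) - k * (B / T)) := by
    refine h11.trans (le_of_eq ?_)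
    have h16 : T ^ 2 * (k * (B / T)) = T * (k * B) := by field_simp
    have h17 : k ^ 2 * (E2 * T) - T * (k * E2) = T ^ 2 * (-(k * T * E2)) := by
      rw [hk]
      ring
    linear_combination h17 + h16
  have h18 := le_of_mul_le_mul_left h15 (by positivity)
  have h20 : k ^ 2 * T * (1 - T / T1) * z3
      ≤ k ^ 2 * T * (1 - T / T1) * (3 * A + c2 * E2 - c3 * f) :=
    mul_le_mul_of_nonneg_left h8 (by positivity)
  have h22 : k ^ 2 * (T ^ 2 * (W' * H)) ≤ 1 * (T ^ 2 * (W' * H)) :=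
    mul_le_mul_of_nonneg_right hk2 (by positivity)
  have h23 : 2 * T ^ 2 * (k * D) ≤ 2 * T ^ 2 * H :=
    mul_le_mul_of_nonneg_left hD (by positivity)
  have e1 : R = Xc + 4 * T * k * t + k * (4 * T * C) := by rw [hR]; ring
  have e2 : (G * (2 * T - (3 / T1 - 2) * T ^ 2) + (W' + 2) * T ^ 2) * H
      = T * ((2 - (3 / T1 - 2) * T) * (G * H)) + T ^ 2 * (W' * H) + 2 * T ^ 2 * H := by ring
  have e3 : k * (2 * B + 2 * T ^ 2 * D) = k * (2 * B) + 2 * T ^ 2 * (k * D) := by ring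
  have e4 : k * T * (4 * t - E2) = 4 * T * k * t - k * T * E2 := by ring
  have e5 : k ^ 2 * T * (1 - T / T1) * (3 * A + c2 * E2 - c3 * f)
      = k ^ 2 * T * (1 - T / T1) * (3 * A) + k ^ 2 * T * (1 - T / T1) * (c2 * E2 - c3 * f) := by
    ring
  have e6 : k ^ 2 * T ^ 2 * (W' * H) = k ^ 2 * (T ^ 2 * (W' * H)) := by ring
  rw [e3] at m3
  rw [e4] at m1
  rw [e5] at h20
  rw [e6] at h18
  rw [e1, e2]
  set q1 := k ^ 2 * T * (1 - T / T1) * (3 * A)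
  set q2 := k ^ 2 * T * (1 - T / T1) * (c2 * E2 - c3 * f)
  set q3 := k ^ 2 * T * (1 - T / T1) * z3
  set q4 := T * ((2 - (3 / T1 - 2) * T) * (G * H))
  set q5 := T ^ 2 * (W' * H)
  linarith

lemma al_nonneg (hp : Continuous p) (np : ∀ x, ‖p x‖ = 1) (hz : Continuous z) {ι : Type*}
    [Fintype ι] (e : OrthonormalBasis ι ℝ E) (hd : finrank ℝ E = m + 2) : 0 ≤ al μ m p z e := by
  have hcard : Fintype.card ι = m + 2 := by
    rw [← hd]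
    exact (Module.finrank_eq_card_basis e.toBasis).symm
  have hcR : (Fintype.card ι : ℝ) = (m : ℝ) + 2 := by rw [hcard]; push_cast; ring
  unfold al
  refine mul_nonneg (by positivity) (Finset.sum_nonneg fun i _ => ?_)
  have hE : ∑ j, m2f μ p e (fun x => ⟪z x, e i⟫) j j = ∫ x, ⟪z x, e i⟫ ∂μ := by
    simp only [m2f]
    rw [← integral_finsetSum _ fun j _ => ((BMi hz (e i)).mul ((BMi hp (e j)).mul
      (BMi hp (e j)))).int]
    refine integral_congr_ae (Eventually.of_forall fun x => ?_)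
    simp only
    rw [← Finset.mul_sum, ← inner_sum_basis e, real_inner_self_eq_norm_sq, np]
    ring
  rw [← hE, sub_nonneg, div_le_iff₀ (by positivity)]
  have h1 : (∑ j, m2f μ p e (fun x => ⟪z x, e i⟫) j j) ^ 2
      ≤ (Fintype.card ι : ℝ) * ∑ j, m2f μ p e (fun x => ⟪z x, e i⟫) j j ^ 2 := by
    have := sq_sum_le_card_mul_sum_sq (s := (Finset.univ : Finset ι))
      (f := fun j => m2f μ p e (fun x => ⟪z x, e i⟫) j j)
    simpa using this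
  have h2 : ∑ j, m2f μ p e (fun x => ⟪z x, e i⟫) j j ^ 2
      ≤ ∑ j, ∑ k, m2f μ p e (fun x => ⟪z x, e i⟫) j k ^ 2 :=
    Finset.sum_le_sum fun j _ => Finset.single_le_sum
      (f := fun k => m2f μ p e (fun x => ⟪z x, e i⟫) j k ^ 2) (fun k _ => sq_nonneg _)
      (Finset.mem_univ j)
  rw [hcR] at h1
  have h3 := mul_le_mul_of_nonneg_left h2 (by positivity : (0 : ℝ) ≤ (m : ℝ) + 2)
  linarith

/-- the cross term, general sharper form -/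
theorem Cr_sharp [Nontrivial E] (h : OneP μ m p n) (hm : 1 ≤ m) (hd : finrank ℝ E = m + 2)
    {ι : Type*} [Fintype ι] (e : OrthonormalBasis ι ℝ E) {K2 : ℝ} (hK : 0 ≤ K2)
    (hQ : QB μ p e K2) (hz : Continuous z)
    (ha : ∀ i j, m1f μ p e (fun x => ⟪z x, e i⟫) j = -m1f μ p e (fun x => ⟪z x, e j⟫) i)
    {T1 M : ℝ} (h1 : 0 < T) (h2 : T ≤ T1) (h3 : T1 < 1) (hTh : T ≤ 1 / 2)
    (hbr : 0 ≤ 2 - (3 / T1 - 2) * T) (hM0 : 0 ≤ M)
    (hM : cw m T1 * MM μ m p z T1 ≤ M * ∫ x, ‖z x‖ ^ 2 ∂μ) {ν : ℝ} (hν0 : 0 ≤ ν)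
    (hν : ∫ x, ⟪n x, ∫ y, z y ∂μ⟫ ^ 2 ∂μ ≤ ν * ‖∫ y, z y ∂μ‖ ^ 2) :
    cw m T * Cr μ m p n z T
      ≤ (m * (m + 1) / 2 * K2 * (2 * T - (3 / T1 - 2) * T ^ 2)
        + ((T1 + T1 ^ 2 * M) / (1 - T1 ^ 2) ^ 2 / T1 ^ 4 + 2) * T ^ 2) * (∫ x, ‖z x‖ ^ 2 ∂μ)
      + T * ((3 + (2 - m * (3 * m + 4) / (2 * (m + 2) ^ 2))) * ‖∫ y, z y ∂μ‖ ^ 2
        + 6 * (1 / √(m + 1) * (‖∫ y, z y ∂μ‖ * √(∫ x, ‖z x‖ ^ 2 ∂μ)))
        + 4 * (√ν * (‖∫ y, z y ∂μ‖ * √(∫ x, ‖z x‖ ^ 2 ∂μ)))) := by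
  have hT1 : T < 1 := h2.trans_lt h3
  have hT10 : 0 < T1 := h1.trans_le h2
  have hk : 0 < 1 - T ^ 2 := by nlinarith
  have hk1 : 0 < 1 - T1 ^ 2 := by nlinarith
  have hkle : 1 - T ^ 2 ≤ 1 := sub_le_self 1 (sq_nonneg T)
  have hm1 : (0 : ℝ) < (m : ℝ) + 1 := by positivity
  have hm1' : (1 : ℝ) ≤ m := by exact_mod_cast hm
  have hp := h.cp
  have hn := h.cn
  have hzt := cont_tgz hp hn hz
  obtain ⟨C0, hC0⟩ := (isCompact_univ (X := X)).exists_bound_of_continuousOn hz.continuousOn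
  have hC : ∀ x, ‖z x‖ ≤ max C0 0 := fun x => (hC0 x (mem_univ x)).trans (le_max_left _ _)
  have hC' : 0 ≤ max C0 0 := le_max_right _ _
  set H := ∫ x, ‖z x‖ ^ 2 ∂μ with hH
  have hH0 : 0 ≤ H := integral_nonneg fun x => sq_nonneg _
  set ev := ∫ x, z x ∂μ with hev
  set fv := ∫ x, ⟪z x, p x⟫ • p x ∂μ with hfv
  set gv := ∫ x, ⟪z x, n x⟫ • n x ∂μ with hgv
  have e1' : ∫ x, tg p n x (z x) ∂μ = ev - fv - gv := by
    rw [hev, hfv, hgv, ← integral_sub (int_of_cont hz) (int_of_cont (by fun_prop)),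
      ← integral_sub (int_of_cont (by fun_prop)) (int_of_cont (by fun_prop))]
    refine integral_congr_ae (Eventually.of_forall fun x => ?_)
    simp only [tg]
    rw [real_inner_comm (p x) (z x), real_inner_comm (n x) (z x)]
  have hz1 : ∀ {q : X → E}, Continuous q → (∀ x, ‖q x‖ = 1) → ∫ x, ⟪z x, q x⟫ ^ 2 ∂μ ≤ H := by
    intro q hq nq
    refine integral_mono (int_of_cont (by fun_prop)) (int_of_cont (by fun_prop)) fun x => ?_
    simp only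
    have := abs_real_inner_le_norm (z x) (q x)
    rw [nq, mul_one] at this
    exact sq_le_sq' (abs_le.1 this).1 (abs_le.1 this).2
  have hip : ∀ {q : X → E}, Continuous q → (∀ x, ‖q x‖ = 1) → ∀ {c : ℝ}, 0 ≤ c →
      ∫ x, ⟪q x, ev⟫ ^ 2 ∂μ ≤ c * ‖ev‖ ^ 2 →
      |⟪ev, ∫ x, ⟪z x, q x⟫ • q x ∂μ⟫| ≤ √c * (‖ev‖ * √H) := by
    intro q hq nq c hc hcb
    have e2 : ⟪ev, ∫ x, ⟪z x, q x⟫ • q x ∂μ⟫ = ∫ x, ⟪z x, q x⟫ * ⟪q x, ev⟫ ∂μ := by
      rw [real_inner_comm, ← inner_int (F := fun x => ⟪z x, q x⟫ • q x) (by fun_prop)]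
      refine integral_congr_ae (Eventually.of_forall fun x => ?_)
      simp only
      rw [real_inner_smul_left]
    have h3 := cs_int (μ := μ) (f := fun x => ⟪z x, q x⟫) (g := fun x => ⟪q x, ev⟫) (by fun_prop)
      (by fun_prop)
    rw [← e2] at h3
    have h4 : ⟪ev, ∫ x, ⟪z x, q x⟫ • q x ∂μ⟫ ^ 2 ≤ (√c * (‖ev‖ * √H)) ^ 2 := by
      rw [mul_pow, mul_pow, Real.sq_sqrt hc, Real.sq_sqrt hH0]
      refine h3.trans ((mul_le_mul (hz1 hq nq) hcb (integral_nonneg fun x => sq_nonneg _)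
        hH0).trans (le_of_eq (by ring)))
    exact abs_le_of_sq_le_sq h4 (by positivity)
  have hP : ∫ x, ⟪p x, ev⟫ ^ 2 ∂μ ≤ 1 / ((m : ℝ) + 1) * ‖ev‖ ^ 2 := by
    have h3 := h.int_sq_le ev
    have h4 : 0 ≤ ∫ x, ⟪n x, ev⟫ ^ 2 ∂μ := integral_nonneg fun x => sq_nonneg _
    rw [div_mul_eq_mul_div, one_mul, le_div_iff₀ hm1]
    linarith
  have hfb := hip hp h.np (c := 1 / ((m : ℝ) + 1)) (by positivity) hP
  have hgb := hip hn h.nn hν0 hν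
  have e3' : √(1 / ((m : ℝ) + 1)) = 1 / √(m + 1) := by
    rw [Real.sqrt_div zero_le_one, Real.sqrt_one]
  rw [e3'] at hfb
  have hc20 : (0 : ℝ) ≤ 2 - m * (3 * m + 4) / (2 * (m + 2) ^ 2) := by
    rw [sub_nonneg, div_le_iff₀ (by positivity)]
    nlinarith
  have hc30 : (0 : ℝ) ≤ 2 * m / (m + 2) := by positivity
  have hc3 : (2 : ℝ) * m / (m + 2) ≤ 2 := by
    rw [div_le_iff₀ (by positivity)]
    linarith
  have e4' : ⟪ev, ev - fv - gv⟫ = ‖ev‖ ^ 2 - ⟪ev, fv⟫ - ⟪ev, gv⟫ := by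
    rw [inner_sub_right, inner_sub_right, real_inner_self_eq_norm_sq]
  set B := VK (rk m m 1 T) μ p z z with hB
  set C := VK (rk m m 1 T) μ p z (fun x => tg p n x (z x)) with hCC
  set D := VK (rk m m 1 T) μ p (fun x => tg p n x (z x)) (fun x => tg p n x (z x)) with hD
  have e1 : PI μ p T m (fun u => ⟪z u.2, tg p n u.2 (z u.1)⟫)
      = PI μ p T m (fun u => ⟪z u.1, tg p n u.2 (z u.2)⟫) := by
    congr 1
    funext u
    rw [tg_self, real_inner_comm]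
  have e2 : cw m T * PI μ p T m (fun u => ⟪z u.2, tg p n u.2 (z u.1)⟫)
      = (1 - T ^ 2) * (⟪ev, ev - fv - gv⟫ + C) := by
    rw [e1, cwPI_v h1.le hT1 (F := z) (G := fun x => tg p n x (z x)),
      VK_sk hp h.np hz hzt m h1.le hT1, e1']
  have e3 : cw m T * PI μ p T m (fun u => ⟪z u.1, z u.2⟫) = (1 - T ^ 2) * (‖ev‖ ^ 2 + B) := by
    rw [cwPI_v h1.le hT1 (F := z) (G := z), VK_sk hp h.np hz hz m h1.le hT1,
      real_inner_self_eq_norm_sq]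
  have e4 := ZZ_PI (μ := μ) (m := m) hp h.np hz h1.le hT1
  rw [e3] at e4
  obtain ⟨hB0, hcs⟩ := VK_cs (μ := μ) hp h.np hz hzt hm hd h1 hT1
  have hD0 : 0 ≤ D := (VK_cs (μ := μ) hp h.np hzt hzt hm hd h1 hT1).1
  have hDle : (1 - T ^ 2) * D ≤ H := by
    have h4 := VK_schur h hm h1.le hT1 hzt
    rw [VK_sk hp h.np hzt hzt m h1.le hT1, real_inner_self_eq_norm_sq] at h4
    have h5 : ∫ x, ‖tg p n x (z x)‖ ^ 2 ∂μ ≤ H :=
      integral_mono (int_of_cont (by fun_prop)) (int_of_cont (by fun_prop)) fun x =>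
        tg_norm h x (z x)
    have h6 : 0 ≤ (1 - T ^ 2) * ‖∫ x, tg p n x (z x) ∂μ‖ ^ 2 := by positivity
    linarith
  have hAB := VK_rk1_ge (μ := μ) (m := m) hp h.np hz e hm hd h1 hT1
  have hA0 := al_nonneg (μ := μ) (m := m) hp h.np hz e hd
  have hA := al_le (μ := μ) (m := m) hp h.np hz e hd hK hQ
  obtain ⟨hz30, h7⟩ := ZZ_up2 (μ := μ) (m := m) hp h.np hz hC hC' hm hd e ha h1 h2 h3
  have h8 := zcf3_al (μ := μ) (m := m) hp h.np hz hC e hd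
  have s1 : ∑ i, (∫ x, ⟪z x, e i⟫ ∂μ) ^ 2 = ‖ev‖ ^ 2 := by
    rw [← real_inner_self_eq_norm_sq, inner_sum_basis e]
    refine Finset.sum_congr rfl fun i _ => ?_
    rw [inner_int hz, sq]
  rw [zcf1 hz.measurable hC e m, s1] at h7
  rw [s1, m1f_vec hp hz e] at h8
  have h9 := ZZ_top_gen h hm hz hT10.le h3 hM
  set W := (T1 + T1 ^ 2 * M) / (1 - T1 ^ 2) ^ 2 with hW
  have hW0 : 0 ≤ W := by positivity
  have h10 : ZZ m μ p z T1 ≤ W * H := by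
    rw [hW, div_mul_eq_mul_div, le_div_iff₀ (by positivity)]
    linarith
  set z3 := zcf m μ p z 3 with hz3
  set Z1 := ZZ m μ p z T1 with hZ1
  set ZT := ZZ m μ p z T with hZT
  set A := al μ m p z e with hAA
  set Xc := cw m T * (m * PI μ p T (m + 1) (fun u => Y2 p z T u * Y2 p z T u.swap)) with hXc
  have eC : cw m T * Cr μ m p n z T
      = Xc + 4 * T * ((1 - T ^ 2) * (⟪ev, ev - fv - gv⟫ + C)) := by
    rw [← e2]
    unfold Cr
    rw [hXc]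
    ring
  have h11 : ZT ≤ ‖ev‖ ^ 2 * T + z3 * (T ^ 3 * (1 - T / T1)) + T ^ 4 * (W / T1 ^ 4 * H) := by
    refine h7.trans ?_
    have h12 : (T / T1) ^ 4 * Z1 ≤ (T / T1) ^ 4 * (W * H) :=
      mul_le_mul_of_nonneg_left h10 (by positivity)
    have h13 : (T / T1) ^ 4 * (W * H) = T ^ 4 * (W / T1 ^ 4 * H) := by
      rw [div_pow]
      ring
    linarith
  have h14 : T ^ 2 * Xc ≤ (1 - T ^ 2) ^ 2 * (‖ev‖ ^ 2 * T + z3 * (T ^ 3 * (1 - T / T1))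
      + T ^ 4 * (W / T1 ^ 4 * H)) - T * ((1 - T ^ 2) * (‖ev‖ ^ 2 + B)) := by
    have := mul_le_mul_of_nonneg_left h11 (sq_nonneg (1 - T ^ 2))
    linarith
  exact cr_alg3 (B := B) (C := C) (D := D) h1 h2 hTh hbr hk.le hkle rfl hH0 (by positivity)
    (sq_nonneg _) h14 h8 hA0 hA hAB hcs hB0 hD0 hDle hc20 hc30 hc3 hfb hgb e4' eC

/-- the cross term for large dimension -/
theorem Cr_le2 [Nontrivial E] (h : OneP μ m p n) (hm : 400 ≤ m) (hd : finrank ℝ E = m + 2)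
    {ι : Type*} [Fintype ι] (e : OrthonormalBasis ι ℝ E)
    (hQ : QB μ p e (16 / ((m + 1) * (7 * m + 23)))) (hz : Continuous z)
    (ha : ∀ i j, m1f μ p e (fun x => ⟪z x, e i⟫) j = -m1f μ p e (fun x => ⟪z x, e j⟫) i)
    (h1 : 0 < T) (h2 : T ≤ 1 / 2) {ν : ℝ} (hν0 : 0 ≤ ν)
    (hν : ∫ x, ⟪n x, ∫ y, z y ∂μ⟫ ^ 2 ∂μ ≤ ν * ‖∫ y, z y ∂μ‖ ^ 2) :
    cw m T * Cr μ m p n z T
      ≤ (16 / 7 * T + 103 / 5 * T ^ 2) * (∫ x, ‖z x‖ ^ 2 ∂μ)
        + T * ((7 / 2 + 4 / (m + 2)) * ‖∫ y, z y ∂μ‖ ^ 2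
          + (6 / √(m + 1) + 4 * √ν) * (‖∫ y, z y ∂μ‖ * √(∫ x, ‖z x‖ ^ 2 ∂μ))) := by
  have hm1 : 1 ≤ m := by omega
  have hmr : (400 : ℝ) ≤ m := by exact_mod_cast hm
  have hm0 : (0 : ℝ) < m := by linarith
  have hH0 : 0 ≤ ∫ x, ‖z x‖ ^ 2 ∂μ := integral_nonneg fun x => sq_nonneg _
  have hs : (20 : ℝ) ≤ √m := by
    rw [show (20 : ℝ) = √400 by rw [show (400 : ℝ) = 20 ^ 2 by norm_num, Real.sqrt_sq (by norm_num)]]
    exact Real.sqrt_le_sqrt hmr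
  have hM : cw m (31 / 50) * MM μ m p z (31 / 50) ≤ 1555 / 1000 * ∫ x, ‖z x‖ ^ 2 ∂μ := by
    refine (MM_le_mom2 h hm1 (by norm_num) (by norm_num) hz).trans
      (mul_le_mul_of_nonneg_right ?_ hH0)
    have g2 := mMo_le m
    have g3 : (m : ℝ) * Mo m 3 ≤ 116 / 1000 := by
      refine (mMo3_le hm1).trans ?_
      rw [div_le_iff₀ (by linarith)]
      linarith
    have g4 : (m : ℝ) * Mo m 4 ≤ 1085 / 100000 := by
      refine (mMo4_le hm1).trans ?_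
      rw [div_le_iff₀ hm0]
      linarith
    have e5 : (31 / 50 : ℝ) ^ 2 / (1 - 31 / 50) = 961 / 950 := by norm_num
    rw [e5]
    linarith
  have hmain := Cr_sharp h hm1 hd e (K2 := 16 / ((m + 1) * (7 * m + 23))) (by positivity) hQ hz ha
    h1 (h2.trans (by norm_num : (1 / 2 : ℝ) ≤ 31 / 50)) (by norm_num) h2
    (by norm_num; linarith) (by norm_num) hM hν0 hν
  refine hmain.trans ?_
  set H := ∫ x, ‖z x‖ ^ 2 ∂μ with hH
  set ev := ∫ x, z x ∂μ with hev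
  have hc2 : (2 : ℝ) - m * (3 * m + 4) / (2 * (m + 2) ^ 2) ≤ 1 / 2 + 4 / (m + 2) := by
    rw [sub_le_iff_le_add, div_add_div _ _ (by norm_num) (by positivity),
      div_add_div _ _ (by positivity) (by positivity), le_div_iff₀ (by positivity)]
    ring_nf
    nlinarith
  have hg2 : (m : ℝ) * (m + 1) / 2 * (16 / ((m + 1) * (7 * m + 23))) ≤ 8 / 7 := by
    have e5 : (m : ℝ) * (m + 1) / 2 * (16 / ((m + 1) * (7 * m + 23))) = 8 * m / (7 * m + 23) := by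
      field_simp
      ring
    rw [e5, div_le_div_iff₀ (by positivity) (by norm_num)]
    linarith
  have hbr : 0 ≤ 2 * T - (3 / (31 / 50) - 2) * T ^ 2 := by
    have : 2 * T - (3 / (31 / 50) - 2) * T ^ 2 = T * (2 - (3 / (31 / 50) - 2) * T) := by ring
    rw [this]
    refine mul_nonneg h1.le ?_
    norm_num
    linarith
  have h6 : (m * (m + 1) / 2 * (16 / ((m + 1) * (7 * m + 23))) * (2 * T - (3 / (31 / 50) - 2) * T ^ 2)
        + ((31 / 50 + (31 / 50) ^ 2 * (1555 / 1000)) / (1 - (31 / 50) ^ 2) ^ 2 / (31 / 50) ^ 4 + 2)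
          * T ^ 2) * H ≤ (16 / 7 * T + 103 / 5 * T ^ 2) * H := by
    refine mul_le_mul_of_nonneg_right ?_ hH0
    have h7 := mul_le_mul_of_nonneg_right hg2 hbr
    have h8 : 8 / 7 * (2 * T - (3 / (31 / 50) - 2) * T ^ 2)
        + ((31 / 50 + (31 / 50) ^ 2 * (1555 / 1000)) / (1 - (31 / 50) ^ 2) ^ 2 / (31 / 50) ^ 4 + 2)
          * T ^ 2 ≤ 16 / 7 * T + 103 / 5 * T ^ 2 := by
      have h9 : (8 / 7 : ℝ) * (-(3 / (31 / 50) - 2))
          + ((31 / 50 + (31 / 50) ^ 2 * (1555 / 1000)) / (1 - (31 / 50) ^ 2) ^ 2 / (31 / 50) ^ 4 + 2)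
          ≤ 103 / 5 := by norm_num
      have h10 := mul_le_mul_of_nonneg_right h9 (sq_nonneg T)
      linarith
    linarith
  have h7 : T * ((3 + (2 - m * (3 * m + 4) / (2 * (m + 2) ^ 2))) * ‖ev‖ ^ 2
        + 6 * (1 / √(m + 1) * (‖ev‖ * √H)) + 4 * (√ν * (‖ev‖ * √H)))
      ≤ T * ((7 / 2 + 4 / (m + 2)) * ‖ev‖ ^ 2 + (6 / √(m + 1) + 4 * √ν) * (‖ev‖ * √H)) := by
    refine mul_le_mul_of_nonneg_left ?_ h1.le
    have h8 := mul_le_mul_of_nonneg_right hc2 (sq_nonneg ‖ev‖)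
    have e6 : 6 * (1 / √((m : ℝ) + 1) * (‖ev‖ * √H)) = 6 / √(m + 1) * (‖ev‖ * √H) := by ring
    rw [e6]
    linarith
  linarith

end

end Vale.Agent.P224.R2.H470
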