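import Vale.Agent.P224.R2.H470.MacT

/-!
The lower bound of the square in terms of the largest eigenvalue and the Frobenius norm of the
second moment of the normal.
-/

namespace Vale.Agent.P224.R2.H470

open MeasureTheory Set Filter Function Real Module Vale.Agent.P224 Vale.Agent.P224.FV
open Vale.Agent.P224.SM2 Vale.Agent.P224.R2.H820 Vale.Agent.P224.R2.H728
open Vale.Agent.P224.R2.H627 Vale.Agent.P224.R2.H582
open scoped Topology RealInnerProductSpace ContDiff Manifold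

set_option linter.unusedSectionVars false

/-- the admissible constants -/
def MacE (c cu ν2 : ℝ) : Prop :=
  (c = 1 / 10 ∧ cu = 1 / 3000 ∧ ν2 = 1 / 100) ∨ (c = 88 / 1000 ∧ cu = 7 / 5000 ∧ ν2 = 3 / 100)
    ∨ (c = 78 / 1000 ∧ cu = 33 / 10000 ∧ ν2 = 6 / 100) ∨ (c = 7 / 100 ∧ cu = 62 / 10000 ∧ ν2 = 1 / 10)
    ∨ (c = 635 / 10000 ∧ cu = 1 / 100 ∧ ν2 = 3 / 20) ∨ (c = 589 / 10000 ∧ cu = 14 / 1000 ∧ ν2 = 1 / 5)

lemma MacE.pos {c cu ν2 : ℝ} (h : MacE c cu ν2) : 0 < c ∧ 0 < cu ∧ 0 < ν2 := by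
  rcases h with ⟨rfl, rfl, rfl⟩ | ⟨rfl, rfl, rfl⟩ | ⟨rfl, rfl, rfl⟩ | ⟨rfl, rfl, rfl⟩
    | ⟨rfl, rfl, rfl⟩ | ⟨rfl, rfl, rfl⟩ <;> norm_num

lemma psi_nonneg (c m ν : ℝ) : 0 ≤ psi c m ν := le_max_right _ _

lemma psi_mono {c m ν ν' : ℝ} (hc : 0 ≤ c) (hm : 0 < m) (h0 : 0 ≤ ν) (h : ν ≤ ν') :
    psi c m ν ≤ psi c m ν' := by
  refine max_le ?_ (psi_nonneg c m ν')
  rcases eq_or_lt_of_le h0 with h2 | h2
  · rw [← h2]
    refine le_trans (le_of_eq ?_) (psi_nonneg c m ν')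
    ring
  rcases le_total (c * ν ^ 3 - ν ^ 2 / (3 * m)) 0 with h1 | h1
  · exact h1.trans (psi_nonneg c m ν')
  · refine le_trans ?_ (le_max_left _ _)
    have e : ∀ t : ℝ, c * t ^ 3 - t ^ 2 / (3 * m) = t ^ 2 * (c * t - 1 / (3 * m)) := by
      intro t
      field_simp
    rw [e] at h1 ⊢
    rw [e ν']
    have h3 : 0 ≤ c * ν - 1 / (3 * m) := nonneg_of_mul_nonneg_right h1 (by positivity)
    have h4 : c * ν - 1 / (3 * m) ≤ c * ν' - 1 / (3 * m) := by
      have := mul_le_mul_of_nonneg_left h hc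
      linarith
    exact mul_le_mul (pow_le_pow_left₀ h0 h 2) h4 h3 (sq_nonneg _)

/-- the lower bound in terms of the sum of squares -/
noncomputable def psq (c m D : ℝ) : ℝ := max (c * D ^ 2 - D / (3 * m)) 0

lemma psq_nonneg (c m ν : ℝ) : 0 ≤ psq c m ν := le_max_right _ _

lemma psq_mono {c m ν ν' : ℝ} (hc : 0 ≤ c) (hm : 0 < m) (h0 : 0 ≤ ν) (h : ν ≤ ν') :
    psq c m ν ≤ psq c m ν' := by
  refine max_le ?_ (psq_nonneg c m ν')
  rcases eq_or_lt_of_le h0 with h2 | h2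
  · rw [← h2]
    refine le_trans (le_of_eq ?_) (psq_nonneg c m ν')
    ring
  rcases le_total (c * ν ^ 2 - ν / (3 * m)) 0 with h1 | h1
  · exact h1.trans (psq_nonneg c m ν')
  · refine le_trans ?_ (le_max_left _ _)
    have e : ∀ t : ℝ, c * t ^ 2 - t / (3 * m) = t * (c * t - 1 / (3 * m)) := by
      intro t
      field_simp
    rw [e] at h1 ⊢
    rw [e ν']
    have h3 : 0 ≤ c * ν - 1 / (3 * m) := nonneg_of_mul_nonneg_right h1 h2
    have h4 : c * ν - 1 / (3 * m) ≤ c * ν' - 1 / (3 * m) := by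
      have := mul_le_mul_of_nonneg_left h hc
      linarith
    exact mul_le_mul h h4 h3 (h0.trans h)

section

variable {ι Ω : Type*} [Fintype ι] [DecidableEq ι] [MeasurableSpace Ω] {μ : Measure Ω}
  {m : ℝ} {x N : ι → Ω → ℝ}

/-- the Frobenius norm of the second moment against the traceless one -/
theorem fro_NN (h : T0Data μ m x N) (hm : 0 ≤ m) :
    ∑ a, ∑ c, m2 μ N N a c ^ 2 = ((m + 1) ^ 2 * fro (De μ x N) + (m + 2)) / (m + 2) ^ 2 := by
  have := h.prob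
  have r2 : ∀ a c, (m + 1) * m2 μ x x a c + m2 μ N N a c = if a = c then 1 else 0 := h.r2
  have hD : ∀ a c, De μ x N a c = m2 μ N N a c - m2 μ x x a c := fun a c => rfl
  have tr : ∑ a, De μ x N a a = 0 := by
    have e1 : ∑ a, m2 μ N N a a = 1 := by
      unfold m2
      rw [← integral_finsetSum _ fun a _ => ((h.bN a).mul (h.bN a)).int]
      have : ∀ q, ∑ a, N a q * N a q = 1 := fun q => by
        rw [← h.uN q]
        exact Finset.sum_congr rfl fun a _ => by ring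
      simp_rw [this]
      simp
    have e2 : ∑ a, m2 μ x x a a = 1 := by
      unfold m2
      rw [← integral_finsetSum _ fun a _ => ((h.bx a).mul (h.bx a)).int]
      have : ∀ q, ∑ a, x a q * x a q = 1 := fun q => by
        rw [← h.ux q]
        exact Finset.sum_congr rfl fun a _ => by ring
      simp_rw [this]
      simp
    simp_rw [hD]
    rw [Finset.sum_sub_distrib, e1, e2, sub_self]
  have e : ∀ a c, m2 μ N N a c ^ 2 = ((m + 1) ^ 2 * De μ x N a c ^ 2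
      + 2 * (m + 1) * (if a = c then De μ x N a c else 0) + (if a = c then 1 else 0))
        / (m + 2) ^ 2 := by
    intro a c
    have h1 : m2 μ N N a c = ((m + 1) * De μ x N a c + (if a = c then 1 else 0)) / (m + 2) := by
      rw [hD, eq_div_iff (by linarith), ← r2 a c]
      ring
    rw [h1, div_pow]
    congr 1
    split_ifs <;> ring
  simp_rw [e, ← Finset.sum_div, Finset.sum_add_distrib, ← Finset.mul_sum, Finset.sum_ite_eq,
    Finset.mem_univ, if_true]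
  rw [tr, Finset.sum_const, Finset.card_univ, nsmul_eq_mul, mul_one, h.card, mul_zero, add_zero]
  rfl

lemma fro_le_NN (h : T0Data μ m x N) (hm : 0 ≤ m) (hf : fro (De μ x N) ≤ 1 / 2) :
    fro (De μ x N) ≤ ∑ a, ∑ c, m2 μ N N a c ^ 2 := by
  rw [fro_NN h hm, le_div_iff₀ (by positivity)]
  nlinarith [mul_le_mul_of_nonneg_left hf (by linarith : 0 ≤ 2 * m + 3)]

end

/-- the general condition on the constants, `T0` is free -/
def MacX (c cu ν2 : ℝ) : Prop := ∃ T0 : ℝ, 0 < T0 ∧ T0 ≤ 3 / 10 ∧ 0 ≤ ν2 ∧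
    ν2 ≤ (1 / 802 + 8 / (2823 * T0) + 8 / 7 + 27 / 5 * T0) * T0 ^ 2 ∧ 0 ≤ c ∧
    c * (6 * (1 / 802 + 8 / (2823 * T0) + 8 / 7 + 27 / 5 * T0)) ≤ 1 - 7 / 8 * T0 ^ 2 ∧
    9 * c * (1 + 8 / 7 * T0) ≤ 1 ∧ 2 / 3 * T0 ^ 3 ≤ cu

lemma MacE.ex {c cu ν2 : ℝ} (h : MacE c cu ν2) : MacX c cu ν2 := by
  rcases h with ⟨rfl, rfl, rfl⟩ | ⟨rfl, rfl, rfl⟩ | ⟨rfl, rfl, rfl⟩ | ⟨rfl, rfl, rfl⟩
    | ⟨rfl, rfl, rfl⟩ | ⟨rfl, rfl, rfl⟩
  · exact ⟨79 / 1000, by norm_num⟩
  · exact ⟨1274 / 10000, by norm_num⟩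
  · exact ⟨1701 / 10000, by norm_num⟩
  · exact ⟨2092 / 10000, by norm_num⟩
  · exact ⟨2459 / 10000, by norm_num⟩
  · exact ⟨2753 / 10000, by norm_num⟩

section

variable {W Ω : Type*} [NormedAddCommGroup W] [InnerProductSpace ℝ W] [FiniteDimensional ℝ W]
  [MeasurableSpace W] [BorelSpace W] [MeasurableSpace Ω]

variable {μ : Measure Ω} [IsFiniteMeasure μ] {N : Ω → W}

theorem uu_basis (hN : Measurable N) (hN1 : ∀ x, ‖N x‖ = 1) {ι : Type*} [Fintype ι]
    (b : OrthonormalBasis ι ℝ W) :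
    ∑ i, m1 μ (co b N) i ^ 2 = KF (fun s => s) μ N (fun _ => 1) fun _ => 1 := by
  have h1 : BM fun _ : Ω => (1 : ℝ) := BM.const 1
  rw [KF_s hN hN1 h1 h1 b]
  refine Finset.sum_congr rfl fun a _ => ?_
  simp only [one_mul, m1, co]
  ring

end

section

variable {V W M : Type*} [NormedAddCommGroup V] [InnerProductSpace ℝ V] [FiniteDimensional ℝ V]
  [NormedAddCommGroup W] [InnerProductSpace ℝ W] [FiniteDimensional ℝ W]
  [TopologicalSpace M] [ChartedSpace V M] [IsManifold 𝓘(ℝ, V) ∞ M]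
  [CompactSpace M] [T2Space M]
  [MeasurableSpace V] [BorelSpace V] [MeasurableSpace W] [BorelSpace W]
  [MeasurableSpace M] [BorelSpace M]

/-- **the spectral bound of the square** -/
theorem mac_specX [Nonempty M] (hm : 400 ≤ finrank ℝ V) (hW : finrank ℝ W = finrank ℝ V + 2)
    {F : M → W} (hF : SphImm V F) (hmin : ∀ x n, IsUnitNormal V F x n → meanCurv V F x n = 0)
    {N : M → W} (hNs : ContMDiff 𝓘(ℝ, V) 𝓘(ℝ, W) ∞ N) (hN : ∀ x, IsUnitNormal V F x (N x))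
    (b : OrthonormalBasis (Fin (finrank ℝ W)) ℝ W) {m : ℕ} (hmm : m = finrank ℝ V) :
    ∃ l : ℝ, 0 ≤ l ∧ (∀ a, m2 (nrm (volM V F)) (co b N) (co b N) a a ≤ l) ∧
      ∀ c cu ν2 : ℝ, MacX c cu ν2 → ∃ Bc : ℝ → ℝ, IntervalIntegrable Bc volume 0 1 ∧
      (∀ T ∈ Ioo (0 : ℝ) 1, Bc T * (volM V F).real univ ^ 2
        ≤ m * eM m T * E2 (volM V F) F N (fun k => SM2.ker T (m + 1) k.1 * Ck k)) ∧
      psi c m (min l ν2) - cu * ∑ i, m1 (nrm (volM V F)) (co b N) i ^ 2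
        ≤ ∫ T in (0 : ℝ)..1, Bc T ∧
      (l ≤ ν2 → fro (De (nrm (volM V F)) (co b F) (co b N)) ≤ 1 / 2 →
        psq c m (fro (De (nrm (volM V F)) (co b F) (co b N)))
          - cu * ∑ i, m1 (nrm (volM V F)) (co b N) i ^ 2 ≤ ∫ T in (0 : ℝ)..1, Bc T) := by
  have hfin : IsFiniteMeasure (volM V F) := isFiniteMeasure_volM hF
  have hm1 : 1 ≤ finrank ℝ V := by omega
  have hvpos : 0 < volM V F univ := volM_pos_of_isOpen hW hF isOpen_univ univ_nonempty
  have hnz : NeZero (volM V F) := ⟨fun h => by rw [h] at hvpos; simp at hvpos⟩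
  have hT0' : T0Data (nrm (volM V F)) (finrank ℝ V) (co b F) (co b N) :=
    t0Data_of_min hm1 hW hF hmin hNs hN b
  have hprob : IsProbabilityMeasure (nrm (volM V F)) := hT0'.prob
  have hone : OneP (nrm (volM V F)) (finrank ℝ V) F N := oneP_nrm hW hF hmin hNs hN
  have hNm := hone.cn.measurable
  obtain ⟨b', hb'⟩ := exists_eig (μ := nrm (volM V F)) hNm hone.nn
  have hne : (Finset.univ : Finset (Fin (finrank ℝ W))).Nonempty := by
    rw [← Finset.card_pos, Finset.card_univ, Fintype.card_fin]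
    omega
  obtain ⟨a0, -, ha0⟩ := Finset.exists_max_image Finset.univ
    (fun a => m2 (nrm (volM V F)) (co b' N) (co b' N) a a) hne
  set ν : Fin (finrank ℝ W) → ℝ := fun a => m2 (nrm (volM V F)) (co b' N) (co b' N) a a with hν
  have hν0 : ∀ a, 0 ≤ ν a := by
    intro a
    simp only [hν]
    unfold m2 co
    exact integral_nonneg fun x => mul_self_nonneg _
  have hT1 : T0Data (nrm (volM V F)) (finrank ℝ V) (co b' F) (co b' N) :=
    t0Data_of_min hm1 hW hF hmin hNs hN b'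
  have hs1 : ∑ a, ν a = 1 := by
    simp only [hν]
    unfold m2
    rw [← integral_finsetSum _ fun a _ => ((hT1.bN a).mul (hT1.bN a)).int]
    have : ∀ q, ∑ a, co b' N a q * co b' N a q = 1 := fun q => by
      rw [← hT1.uN q]
      exact Finset.sum_congr rfl fun a _ => by ring
    simp_rw [this]
    simp
  have hmr : (0 : ℝ) < m := by
    rw [hmm]
    have : 0 < finrank ℝ V := by omega
    exact_mod_cast this
  have hu : ∑ i, m1 (nrm (volM V F)) (co b' N) i ^ 2 = ∑ i, m1 (nrm (volM V F)) (co b N) i ^ 2 := by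
    rw [uu_basis hNm hone.nn b', uu_basis hNm hone.nn b]
  have hD : ∑ a, ν a ^ 2
      = ∑ a, ∑ c, m2 (nrm (volM V F)) (co b N) (co b N) a c ^ 2 := by
    rw [fro_basis hNm hone.nn b, ← fro_basis hNm hone.nn b']
    refine Finset.sum_congr rfl fun a _ => ?_
    rw [Finset.sum_eq_single a]
    · intro c _ hc
      rw [hb' a c (Ne.symm hc)]
      norm_num
    · intro h
      exact absurd (Finset.mem_univ a) h
  refine ⟨ν a0, hν0 a0, diag_le hNm hone.nn b hb' fun i => ha0 i (Finset.mem_univ i), ?_⟩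
  intro c cu ν2 hE
  obtain ⟨T0, t1, t2, t3, t4, t5, t6, t7, t8⟩ := hE
  obtain ⟨Bc, j1, j2, j3⟩ := mac_400_sum hm hW hF hmin hNs hN b' hmm t1 t2 t3 t4 t5 t6 t7 t8
  rw [hu] at j3
  refine ⟨Bc, j1, j2, ?_, fun hl hf => ?_⟩
  · have h1 : psi c m (min (ν a0) ν2) ≤ ∑ a, psi c m (min (ν a) ν2) :=
      Finset.single_le_sum (f := fun a => psi c m (min (ν a) ν2))
        (fun a _ => psi_nonneg _ _ _) (Finset.mem_univ a0)
    change ∑ a, psi c m (min (ν a) ν2) - _ ≤ _ at j3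
    linarith
  · have h1 : ∀ a, min (ν a) ν2 = ν a := fun a =>
      min_eq_left ((ha0 a (Finset.mem_univ a)).trans hl)
    change ∑ a, psi c m (min (ν a) ν2) - _ ≤ _ at j3
    simp_rw [h1] at j3
    have h2 : c * (∑ a, ν a ^ 2) ^ 2 - (∑ a, ν a ^ 2) / (3 * m) ≤ ∑ a, psi c m (ν a) := by
      have h3 : ∑ a, (c * ν a ^ 3 - ν a ^ 2 / (3 * m)) ≤ ∑ a, psi c m (ν a) :=
        Finset.sum_le_sum fun a _ => le_max_left _ _
      rw [Finset.sum_sub_distrib, ← Finset.mul_sum, ← Finset.sum_div] at h3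
      have h4 := mul_le_mul_of_nonneg_left (jensen_cube hν0 hs1) t5
      linarith
    have h3 : psq c m (∑ a, ν a ^ 2) ≤ ∑ a, psi c m (ν a) :=
      max_le h2 (Finset.sum_nonneg fun a _ => psi_nonneg _ _ _)
    have h4 : psq c m (fro (De (nrm (volM V F)) (co b F) (co b N))) ≤ psq c m (∑ a, ν a ^ 2) := by
      refine psq_mono t5 hmr (fro_nonneg _) ?_
      rw [hD]
      exact fro_le_NN hT0' (Nat.cast_nonneg _) hf
    linarith

/-- the same with the closed list of constants -/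
theorem mac_spec [Nonempty M] (hm : 400 ≤ finrank ℝ V) (hW : finrank ℝ W = finrank ℝ V + 2)
    {F : M → W} (hF : SphImm V F) (hmin : ∀ x n, IsUnitNormal V F x n → meanCurv V F x n = 0)
    {N : M → W} (hNs : ContMDiff 𝓘(ℝ, V) 𝓘(ℝ, W) ∞ N) (hN : ∀ x, IsUnitNormal V F x (N x))
    (b : OrthonormalBasis (Fin (finrank ℝ W)) ℝ W) {m : ℕ} (hmm : m = finrank ℝ V) :
    ∃ l : ℝ, 0 ≤ l ∧ (∀ a, m2 (nrm (volM V F)) (co b N) (co b N) a a ≤ l) ∧
      ∀ c cu ν2 : ℝ, MacE c cu ν2 → ∃ Bc : ℝ → ℝ, IntervalIntegrable Bc volume 0 1 ∧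
      (∀ T ∈ Ioo (0 : ℝ) 1, Bc T * (volM V F).real univ ^ 2
        ≤ m * eM m T * E2 (volM V F) F N (fun k => SM2.ker T (m + 1) k.1 * Ck k)) ∧
      psi c m (min l ν2) - cu * ∑ i, m1 (nrm (volM V F)) (co b N) i ^ 2
        ≤ ∫ T in (0 : ℝ)..1, Bc T ∧
      (l ≤ ν2 → fro (De (nrm (volM V F)) (co b F) (co b N)) ≤ 1 / 2 →
        psq c m (fro (De (nrm (volM V F)) (co b F) (co b N)))
          - cu * ∑ i, m1 (nrm (volM V F)) (co b N) i ^ 2 ≤ ∫ T in (0 : ℝ)..1, Bc T) := by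
  obtain ⟨l, h1, h2, h3⟩ := mac_specX hm hW hF hmin hNs hN b hmm
  exact ⟨l, h1, h2, fun c cu ν2 h => h3 c cu ν2 h.ex⟩

/-- sharper constants for narrow columns -/
lemma macX_15 : MacX (980 / 10000) (6 / 10000) (15 / 1000) := ⟨945 / 10000, by norm_num⟩

lemma macX_20 : MacX (942 / 10000) (9 / 10000) (20 / 1000) := ⟨1073 / 10000, by norm_num⟩

lemma macX_25 : MacX (911 / 10000) (11 / 10000) (25 / 1000) := ⟨1180 / 10000, by norm_num⟩

lemma macX_35 : MacX (862 / 10000) (17 / 10000) (35 / 1000) := ⟨1362 / 10000, by norm_num⟩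

lemma macX_40 : MacX (842 / 10000) (20 / 10000) (40 / 1000) := ⟨1440 / 10000, by norm_num⟩

lemma macX_45 : MacX (825 / 10000) (23 / 10000) (45 / 1000) := ⟨1510 / 10000, by norm_num⟩

lemma macX_50 : MacX (808 / 10000) (27 / 10000) (50 / 1000) := ⟨1580 / 10000, by norm_num⟩

lemma macX_55 : MacX (794 / 10000) (30 / 10000) (55 / 1000) := ⟨1642 / 10000, by norm_num⟩

lemma macX_65 : MacX (768 / 10000) (37 / 10000) (65 / 1000) := ⟨1758 / 10000, by norm_num⟩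

lemma macX_70 : MacX (756 / 10000) (40 / 10000) (70 / 1000) := ⟨1813 / 10000, by norm_num⟩

lemma macX_80 : MacX (735 / 10000) (50 / 10000) (80 / 1000) := ⟨1915 / 10000, by norm_num⟩

lemma macX_90 : MacX (716 / 10000) (60 / 10000) (90 / 1000) := ⟨2012 / 10000, by norm_num⟩

lemma macX_115 : MacX (675 / 10000) (80 / 10000) (115 / 1000) := ⟨2230 / 10000, by norm_num⟩

lemma macX_130 : MacX (654 / 10000) (90 / 10000) (130 / 1000) := ⟨2350 / 10000, by norm_num⟩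

end

end Vale.Agent.P224.R2.H470
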