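import Vale.Agent.P224.R2.H470.Gram

/-!
The Gram bound for quadratic functions.
-/

namespace Vale.Agent.P224.R2.H470

open MeasureTheory Module Function Set
open scoped RealInnerProductSpace Topology ContDiff

set_option linter.unusedSectionVars false

section

variable {X : Type*} {E : Type*} [NormedAddCommGroup E] [InnerProductSpace ℝ E]
  [FiniteDimensional ℝ E]
  [TopologicalSpace X] [MeasurableSpace X] [CompactSpace X] [BorelSpace X] {μ : Measure X}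
  [IsFiniteMeasure μ] {m : ℕ} {p n : X → E}

/-- the Hilbert-Schmidt norm squared -/
noncomputable def hs (A : E →L[ℝ] E) : ℝ := ∑ i, ‖A (stdOrthonormalBasis ℝ E i)‖ ^ 2

lemma hs_nonneg (A : E →L[ℝ] E) : 0 ≤ hs A := Finset.sum_nonneg fun _ _ => sq_nonneg _

lemma hs_eq {ι : Type*} [Fintype ι] (e : OrthonormalBasis ι ℝ E) (A : E →L[ℝ] E) :
    hs A = ∑ i, ‖A (e i)‖ ^ 2 := by
  unfold hs
  set b := stdOrthonormalBasis ℝ E with hb
  have h1 : ∀ i, ‖A (b i)‖ ^ 2 = ∑ j, ⟪A (b i), e j⟫ * ⟪e j, A (b i)⟫ := by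
    intro i
    rw [e.sum_inner_mul_inner, real_inner_self_eq_norm_sq]
  have h2 : ∀ j, ‖A (e j)‖ ^ 2 = ∑ k, ⟪A (e j), b k⟫ * ⟪b k, A (e j)⟫ := by
    intro j
    rw [b.sum_inner_mul_inner, real_inner_self_eq_norm_sq]
  have h3 : ∀ i j, ⟪A (b i), e j⟫ = ⟪b i, A.adjoint (e j)⟫ := by
    intro i j
    rw [ContinuousLinearMap.adjoint_inner_right]
  have h4 : ∀ j, ‖A.adjoint (e j)‖ ^ 2 = ∑ i, ⟪A.adjoint (e j), b i⟫ * ⟪b i, A.adjoint (e j)⟫ := by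
    intro j
    rw [b.sum_inner_mul_inner, real_inner_self_eq_norm_sq]
  have h5 : ∀ j, ‖A.adjoint (e j)‖ ^ 2
      = ∑ i, ⟪A.adjoint (e j), e i⟫ * ⟪e i, A.adjoint (e j)⟫ := by
    intro j
    rw [e.sum_inner_mul_inner, real_inner_self_eq_norm_sq]
  have h6 : ∀ j, ‖A (e j)‖ ^ 2 = ∑ k, ⟪A (e j), e k⟫ * ⟪e k, A (e j)⟫ := by
    intro j
    rw [e.sum_inner_mul_inner, real_inner_self_eq_norm_sq]
  have h7 : ∑ i, ‖A (b i)‖ ^ 2 = ∑ j, ‖A.adjoint (e j)‖ ^ 2 := by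
    simp only [h1, h4]
    rw [Finset.sum_comm]
    refine Finset.sum_congr rfl fun j _ => Finset.sum_congr rfl fun i _ => ?_
    rw [real_inner_comm (A (b i)) (e j), h3, real_inner_comm (b i) (A.adjoint (e j))]
  rw [h7]
  simp only [h5, h6]
  rw [Finset.sum_comm]
  refine Finset.sum_congr rfl fun i _ => Finset.sum_congr rfl fun j _ => ?_
  rw [ContinuousLinearMap.adjoint_inner_left, ContinuousLinearMap.adjoint_inner_right,
    real_inner_comm (e j) (A (e i))]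

lemma hasFD_quad {A : E →L[ℝ] E} (hA : ∀ u v, ⟪A u, v⟫ = ⟪u, A v⟫) (u : E) :
    HasFDerivAt (fun u : E => ⟪u, A u⟫) ((2 : ℝ) • innerSL ℝ (A u)) u := by
  have h := (hasFDerivAt_id u).inner ℝ (A.hasFDerivAt (x := u))
  refine h.congr_fderiv ?_
  ext v
  simp only [ContinuousLinearMap.comp_apply, ContinuousLinearMap.prod_apply,
    fderivInnerCLM_apply, id_eq, ContinuousLinearMap.coe_id', _root_.smul_apply, innerSL_apply_apply,
    smul_eq_mul]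
  rw [← hA u v, real_inner_comm (A u) v]
  ring

/-- the row of the field x ↦ ⟨x, A x⟩ A x -/
theorem OneP.row4 (h : OneP μ m p n) {A : E →L[ℝ] E} (hA : ∀ u v, ⟪A u, v⟫ = ⟪u, A v⟫) :
    (m + 3) * ∫ x, ⟪p x, A (p x)⟫ ^ 2 ∂μ
      = ∫ x, (2 * ‖A (p x)‖ ^ 2 + ⟪p x, A (p x)⟫ * LinearMap.trace ℝ E (A : E →ₗ[ℝ] E)
          - 2 * ⟪A (p x), n x⟫ ^ 2 - ⟪p x, A (p x)⟫ * ⟪n x, A (n x)⟫) ∂μ := by
  have cp := h.cp
  have cn := h.cn
  set e := stdOrthonormalBasis ℝ E with he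
  have hW : ContDiff ℝ ∞ (fun u : E => ⟪u, A u⟫ • A u) :=
    (contDiff_id.inner ℝ A.contDiff).smul A.contDiff
  have hd : ∀ u, HasFDerivAt (fun u : E => ⟪u, A u⟫ • A u)
      (⟪u, A u⟫ • A + ((2 : ℝ) • innerSL ℝ (A u)).smulRight (A u)) u := fun u =>
    (hasFD_quad hA u).smul (A.hasFDerivAt (x := u))
  have hc : Continuous fun u : E =>
      (⟪u, A u⟫ • A + ((2 : ℝ) • innerSL ℝ (A u)).smulRight (A u)) := by
    refine continuous_clm_apply.2 fun y => ?_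
    simp only [_root_.add_apply, _root_.smul_apply, ContinuousLinearMap.smulRight_apply,
      innerSL_apply_apply, smul_eq_mul]
    fun_prop
  have h1 := h.rv hW hd hc
  have htr : ∀ u : E, LinearMap.trace ℝ E
      ((⟪u, A u⟫ • A + ((2 : ℝ) • innerSL ℝ (A u)).smulRight (A u) : E →L[ℝ] E) : E →ₗ[ℝ] E)
      = ⟪u, A u⟫ * LinearMap.trace ℝ E (A : E →ₗ[ℝ] E) + 2 * ‖A u‖ ^ 2 := by
    intro u
    rw [LinearMap.trace_eq_sum_inner _ e, LinearMap.trace_eq_sum_inner _ e,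
      ← real_inner_self_eq_norm_sq, ← e.sum_inner_mul_inner (A u) (A u), Finset.mul_sum,
      Finset.mul_sum, ← Finset.sum_add_distrib]
    refine Finset.sum_congr rfl fun i _ => ?_
    simp only [ContinuousLinearMap.coe_coe, _root_.add_apply, _root_.smul_apply,
      ContinuousLinearMap.smulRight_apply, innerSL_apply_apply, smul_eq_mul, inner_add_right,
      inner_smul_right]
    ring
  simp only [htr] at h1
  simp only [_root_.add_apply, _root_.smul_apply,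
      ContinuousLinearMap.smulRight_apply, innerSL_apply_apply, smul_eq_mul, inner_add_left,
      inner_smul_left, inner_smul_right, RCLike.conj_to_real] at h1
  have e2 : ∀ x, ⟪p x, A (p x)⟫ * LinearMap.trace ℝ E (A : E →ₗ[ℝ] E) + 2 * ‖A (p x)‖ ^ 2
      - (⟪p x, A (p x)⟫ * ⟪A (p x), p x⟫ + 2 * ⟪A (p x), p x⟫ * ⟪A (p x), p x⟫)
      - (⟪p x, A (p x)⟫ * ⟪A (n x), n x⟫ + 2 * ⟪A (p x), n x⟫ * ⟪A (p x), n x⟫)
      = (2 * ‖A (p x)‖ ^ 2 + ⟪p x, A (p x)⟫ * LinearMap.trace ℝ E (A : E →ₗ[ℝ] E)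
          - 2 * ⟪A (p x), n x⟫ ^ 2 - ⟪p x, A (p x)⟫ * ⟪n x, A (n x)⟫)
        - 3 * ⟪p x, A (p x)⟫ ^ 2 := by
    intro x
    rw [hA (p x) (p x), hA (n x) (n x)]
    ring
  simp only [e2] at h1
  have e3 : ∫ x, ⟪p x, A (p x)⟫ * ⟪p x, A (p x)⟫ ∂μ = ∫ x, ⟪p x, A (p x)⟫ ^ 2 ∂μ := by
    refine integral_congr_ae (Filter.Eventually.of_forall fun x => ?_)
    simp only
    ring
  have c3 : Continuous fun x => (2 * ‖A (p x)‖ ^ 2
      + ⟪p x, A (p x)⟫ * LinearMap.trace ℝ E (A : E →ₗ[ℝ] E)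
      - 2 * ⟪A (p x), n x⟫ ^ 2 - ⟪p x, A (p x)⟫ * ⟪n x, A (n x)⟫) := by fun_prop
  rw [integral_sub (int_of_cont c3) (int_of_cont (by fun_prop)), integral_const_mul, e3] at h1
  linarith

/-- the second moment bound -/
theorem OneP.int_sq_le (h : OneP μ m p n) [IsProbabilityMeasure μ] (b : E) :
    (m + 1) * ∫ x, ⟪p x, b⟫ ^ 2 ∂μ + ∫ x, ⟪n x, b⟫ ^ 2 ∂μ = ‖b‖ ^ 2 := by
  have h1 := h.mom2 b b
  simp only [← pow_two, real_inner_self_eq_norm_sq, probReal_univ, mul_one] at h1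
  exact h1

lemma int_norm_map_sq {q : X → E} (hq : Continuous q) {A : E →L[ℝ] E}
    (hA : ∀ u v, ⟪A u, v⟫ = ⟪u, A v⟫) {C : ℝ} (hC : ∀ b, ∫ x, ⟪q x, b⟫ ^ 2 ∂μ ≤ C * ‖b‖ ^ 2) :
    ∫ x, ‖A (q x)‖ ^ 2 ∂μ ≤ C * hs A := by
  set e := stdOrthonormalBasis ℝ E with he
  have h1 : ∀ x, ‖A (q x)‖ ^ 2 = ∑ i, ⟪q x, A (e i)⟫ ^ 2 := by
    intro x
    rw [← real_inner_self_eq_norm_sq, ← e.sum_inner_mul_inner]
    refine Finset.sum_congr rfl fun i _ => ?_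
    rw [real_inner_comm (A (q x)) (e i), hA]
    ring
  simp only [h1]
  rw [integral_finsetSum _ fun i _ => int_of_cont (by fun_prop)]
  unfold hs
  rw [Finset.mul_sum]
  exact Finset.sum_le_sum fun i _ => hC _

lemma cs_int {f g : X → ℝ} (hf : Continuous f) (hg : Continuous g) :
    (∫ x, f x * g x ∂μ) ^ 2 ≤ (∫ x, f x ^ 2 ∂μ) * ∫ x, g x ^ 2 ∂μ := by
  have h1 : ∀ a b : ℝ, 0 ≤ a ^ 2 * (∫ x, f x ^ 2 ∂μ) + 2 * a * b * (∫ x, f x * g x ∂μ)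
      + b ^ 2 * ∫ x, g x ^ 2 ∂μ := by
    intro a b
    have e1 : a ^ 2 * (∫ x, f x ^ 2 ∂μ) + 2 * a * b * (∫ x, f x * g x ∂μ)
      + b ^ 2 * (∫ x, g x ^ 2 ∂μ) = ∫ x, (a * f x + b * g x) ^ 2 ∂μ := by
      rw [← integral_const_mul, ← integral_const_mul, ← integral_const_mul,
        ← integral_add (int_of_cont (by fun_prop)) (int_of_cont (by fun_prop)),
        ← integral_add (int_of_cont (by fun_prop)) (int_of_cont (by fun_prop))]
      refine integral_congr_ae (Filter.Eventually.of_forall fun x => ?_)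
      simp only
      ring
    rw [e1]
    exact integral_nonneg fun x => sq_nonneg _
  set F := ∫ x, f x ^ 2 ∂μ with hF
  set G := ∫ x, g x ^ 2 ∂μ with hG
  set C := ∫ x, f x * g x ∂μ with hC
  have hF0 : 0 ≤ F := integral_nonneg fun x => sq_nonneg _
  have hG0 : 0 ≤ G := integral_nonneg fun x => sq_nonneg _
  rcases eq_or_lt_of_le hG0 with h0 | h0
  · have h2 : C = 0 := by
      by_contra hne
      have h3 := h1 1 (-(F + 1) / (2 * C))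
      rw [← h0] at h3
      have h4 : 2 * 1 * (-(F + 1) / (2 * C)) * C = -(F + 1) := by field_simp
      linarith
    rw [h2, ← h0]; simp
  · have h2 := h1 G (-C)
    have h3 : 0 ≤ G * (F * G - C ^ 2) := by nlinarith
    have h4 := nonneg_of_mul_nonneg_right h3 h0
    linarith

/-- the Gram bound for families of trace free symmetric quadratic forms -/
theorem OneP.gram (h : OneP μ m p n) [IsProbabilityMeasure μ] {ν : ℝ} (h0 : 0 ≤ ν)
    (hν : ∀ b, ∫ x, ⟪n x, b⟫ ^ 2 ∂μ ≤ ν * ‖b‖ ^ 2) {ι : Type*} [Fintype ι] (A : ι → E →L[ℝ] E)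
    (hA : ∀ i u v, ⟪A i u, v⟫ = ⟪u, A i v⟫)
    (ht : ∀ i, LinearMap.trace ℝ E (A i : E →ₗ[ℝ] E) = 0) :
    (m + 3) * (∑ i, ∫ x, ⟪p x, A i (p x)⟫ ^ 2 ∂μ)
      ≤ 2 / (m + 1) * (∑ i, hs (A i))
        + √ν * √(∑ i, hs (A i)) * √(∑ i, ∫ x, ⟪p x, A i (p x)⟫ ^ 2 ∂μ) := by
  have cp := h.cp
  have cn := h.cn
  have hm : (0 : ℝ) < m + 1 := by positivity
  set Q : ι → ℝ := fun i => ∫ x, ⟪p x, A i (p x)⟫ ^ 2 ∂μ with hQ
  set R : ι → ℝ := fun i => ∫ x, ⟪n x, A i (n x)⟫ ^ 2 ∂μ with hR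
  have hQ0 : ∀ i, 0 ≤ Q i := fun i => integral_nonneg fun x => sq_nonneg _
  have hR0 : ∀ i, 0 ≤ R i := fun i => integral_nonneg fun x => sq_nonneg _
  have hRle : ∀ i, R i ≤ ν * hs (A i) := by
    intro i
    refine le_trans ?_ (int_norm_map_sq (μ := μ) cn (hA i) hν)
    refine integral_mono (int_of_cont (by fun_prop)) (int_of_cont (by fun_prop)) fun x => ?_
    simp only
    have h1 := abs_real_inner_le_norm (n x) (A i (n x))
    rw [h.nn, one_mul] at h1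
    rw [← sq_abs]
    exact pow_le_pow_left₀ (abs_nonneg _) h1 2
  have hP : ∀ b, ∫ x, ⟪p x, b⟫ ^ 2 ∂μ ≤ 1 / (m + 1) * ‖b‖ ^ 2 := by
    intro b
    have h1 := h.int_sq_le b
    have h2 : 0 ≤ ∫ x, ⟪n x, b⟫ ^ 2 ∂μ := integral_nonneg fun x => sq_nonneg _
    rw [one_div, inv_mul_eq_div, le_div_iff₀ hm]
    linarith
  have hrow : ∀ i, (m + 3) * Q i ≤ 2 / (m + 1) * hs (A i) + √(Q i) * √(R i) := by
    intro i
    have h1 := h.row4 (hA i)
    rw [ht i] at h1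
    have h2 := int_norm_map_sq (μ := μ) cp (hA i) hP
    have h3 := cs_int (μ := μ) (f := fun x => ⟪p x, A i (p x)⟫) (g := fun x => ⟪n x, A i (n x)⟫)
      (by fun_prop) (by fun_prop)
    have h4 : -(∫ x, ⟪p x, A i (p x)⟫ * ⟪n x, A i (n x)⟫ ∂μ) ≤ √(Q i) * √(R i) := by
      rw [← Real.sqrt_mul (hQ0 i)]
      refine (neg_le_abs _).trans ?_
      exact Real.abs_le_sqrt h3
    have h5 : ∫ x, (2 * ‖A i (p x)‖ ^ 2 + ⟪p x, A i (p x)⟫ * 0
          - 2 * ⟪A i (p x), n x⟫ ^ 2 - ⟪p x, A i (p x)⟫ * ⟪n x, A i (n x)⟫) ∂μ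
        ≤ ∫ x, (2 * ‖A i (p x)‖ ^ 2 - ⟪p x, A i (p x)⟫ * ⟪n x, A i (n x)⟫) ∂μ := by
      refine integral_mono (int_of_cont (by fun_prop)) (int_of_cont (by fun_prop)) fun x => ?_
      simp only
      nlinarith [sq_nonneg ⟪A i (p x), n x⟫]
    have e8 : ∫ x, (2 * ‖A i (p x)‖ ^ 2 - ⟪p x, A i (p x)⟫ * ⟪n x, A i (n x)⟫) ∂μ
        = 2 * (∫ x, ‖A i (p x)‖ ^ 2 ∂μ) - ∫ x, ⟪p x, A i (p x)⟫ * ⟪n x, A i (n x)⟫ ∂μ := by
      rw [integral_sub (int_of_cont (by fun_prop)) (int_of_cont (by fun_prop)),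
        integral_const_mul]
    rw [e8] at h5
    have h6 : (m + 3) * Q i = (m + 3) * ∫ x, ⟪p x, A i (p x)⟫ ^ 2 ∂μ := rfl
    have h7 : 2 / (m + 1) * hs (A i) = 2 * (1 / (m + 1) * hs (A i)) := by ring
    rw [h6, h7]
    linarith
  have hsum : ∑ i, √(Q i) * √(R i) ≤ √(∑ i, Q i) * √(∑ i, R i) := by
    have h1 := Finset.sum_mul_sq_le_sq_mul_sq Finset.univ (fun i => √(Q i)) (fun i => √(R i))
    simp only [Real.sq_sqrt (hQ0 _), Real.sq_sqrt (hR0 _)] at h1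
    rw [← Real.sqrt_mul (Finset.sum_nonneg fun i _ => hQ0 i)]
    exact Real.le_sqrt_of_sq_le h1
  have hRs : √(∑ i, R i) ≤ √ν * √(∑ i, hs (A i)) := by
    rw [← Real.sqrt_mul h0, Finset.mul_sum]
    exact Real.sqrt_le_sqrt (Finset.sum_le_sum fun i _ => hRle i)
  have hfin : (m + 3) * ∑ i, Q i ≤ 2 / (m + 1) * (∑ i, hs (A i)) + ∑ i, √(Q i) * √(R i) := by
    rw [Finset.mul_sum, Finset.mul_sum, ← Finset.sum_add_distrib]
    exact Finset.sum_le_sum fun i _ => hrow i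
  have h8 := mul_le_mul_of_nonneg_left hRs (Real.sqrt_nonneg (∑ i, Q i))
  calc (m + 3) * ∑ i, Q i ≤ 2 / (m + 1) * (∑ i, hs (A i)) + ∑ i, √(Q i) * √(R i) := hfin
    _ ≤ 2 / (m + 1) * (∑ i, hs (A i)) + √(∑ i, Q i) * √(∑ i, R i) := by linarith
    _ ≤ 2 / (m + 1) * (∑ i, hs (A i)) + √(∑ i, Q i) * (√ν * √(∑ i, hs (A i))) := by linarith
    _ = _ := by ring

end

end Vale.Agent.P224.R2.H470
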