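import Vale.Agent.P224.R2.H470.Quad

/-!
Bessel bounds for third order moments.
-/

namespace Vale.Agent.P224.R2.H470

open MeasureTheory Module Function Set
open scoped RealInnerProductSpace Topology ContDiff

set_option linter.unusedSectionVars false

lemma root_le {M c n K v s : ℝ} (hK : 0 < K) (hc : 0 < c) (hn : 0 ≤ n) (hv : 0 ≤ v) (hs : 0 ≤ s)
    (h1 : M * v ^ 2 ≤ c * s ^ 2 + n * s * v) (h2 : c + n * K ≤ M * K ^ 2) : v ≤ K * s := by
  by_contra h
  push Not at h
  have a1 : 0 < v := lt_of_le_of_lt (by positivity) h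
  have a2 : (K * s) ^ 2 < v ^ 2 := pow_lt_pow_left₀ h (by positivity) (by norm_num)
  have a3 : n * K * (v * (K * s)) ≤ n * K * (v * v) := by
    have : v * (K * s) ≤ v * v := mul_le_mul_of_nonneg_left h.le hv
    exact mul_le_mul_of_nonneg_left this (by positivity)
  have a4 : c * (K * s) ^ 2 < c * v ^ 2 := mul_lt_mul_of_pos_left a2 hc
  have a5 : (c + n * K) * v ^ 2 ≤ (M * K ^ 2) * v ^ 2 :=
    mul_le_mul_of_nonneg_right h2 (by positivity)
  have a6 : K ^ 2 * (M * v ^ 2) ≤ K ^ 2 * (c * s ^ 2 + n * s * v) :=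
    mul_le_mul_of_nonneg_left h1 (by positivity)
  nlinarith

section

variable {X : Type*} {E : Type*} [NormedAddCommGroup E] [InnerProductSpace ℝ E]
  [FiniteDimensional ℝ E]
  [TopologicalSpace X] [MeasurableSpace X] [CompactSpace X] [BorelSpace X] {μ : Measure X}
  [IsFiniteMeasure μ] {m : ℕ} {p n : X → E}

/-- the symmetric form with matrix T -/
noncomputable def qf {ι : Type*} [Fintype ι] (e : OrthonormalBasis ι ℝ E) (T : ι → ι → ℝ) :
    E →L[ℝ] E := ∑ i, ∑ j, T i j • (innerSL ℝ (e j)).smulRight (e i)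

lemma qf_apply {ι : Type*} [Fintype ι] (e : OrthonormalBasis ι ℝ E) (T : ι → ι → ℝ) (u : E) :
    qf e T u = ∑ i, (∑ j, T i j * ⟪u, e j⟫) • e i := by
  unfold qf
  simp only [_root_.sum_apply, _root_.smul_apply, ContinuousLinearMap.smulRight_apply,
    innerSL_apply_apply]
  refine Finset.sum_congr rfl fun i _ => ?_
  rw [Finset.sum_smul]
  refine Finset.sum_congr rfl fun j _ => ?_
  rw [smul_smul, real_inner_comm]

lemma inner_qf {ι : Type*} [Fintype ι] (e : OrthonormalBasis ι ℝ E) (T : ι → ι → ℝ) (u v : E) :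
    ⟪v, qf e T u⟫ = ∑ i, ∑ j, T i j * (⟪v, e i⟫ * ⟪u, e j⟫) := by
  rw [qf_apply, inner_sum]
  refine Finset.sum_congr rfl fun i _ => ?_
  rw [inner_smul_right, Finset.sum_mul]
  refine Finset.sum_congr rfl fun j _ => ?_
  ring

lemma qf_symm {ι : Type*} [Fintype ι] (e : OrthonormalBasis ι ℝ E) {T : ι → ι → ℝ}
    (hT : ∀ i j, T i j = T j i) (u v : E) : ⟪qf e T u, v⟫ = ⟪u, qf e T v⟫ := by
  rw [real_inner_comm, inner_qf, inner_qf, Finset.sum_comm]
  refine Finset.sum_congr rfl fun i _ => Finset.sum_congr rfl fun j _ => ?_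
  rw [hT]
  ring

lemma hs_qf {ι : Type*} [Fintype ι] [DecidableEq ι] (e : OrthonormalBasis ι ℝ E)
    (T : ι → ι → ℝ) : hs (qf e T) = ∑ i, ∑ j, T i j ^ 2 := by
  rw [hs_eq e]
  have h1 : ∀ k, ‖qf e T (e k)‖ ^ 2 = ∑ i, T i k ^ 2 := by
    intro k
    rw [← real_inner_self_eq_norm_sq, ← e.sum_inner_mul_inner]
    refine Finset.sum_congr rfl fun i _ => ?_
    have h2 : ⟪e i, qf e T (e k)⟫ = T i k := by
      rw [inner_qf]
      simp only [e.inner_eq_ite, mul_ite, mul_one, mul_zero]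
      simp
    rw [real_inner_comm, h2]
    ring
  simp only [h1]
  exact Finset.sum_comm

lemma trace_qf {ι : Type*} [Fintype ι] [DecidableEq ι] (e : OrthonormalBasis ι ℝ E)
    (T : ι → ι → ℝ) : LinearMap.trace ℝ E (qf e T : E →ₗ[ℝ] E) = ∑ i, T i i := by
  rw [LinearMap.trace_eq_sum_inner _ e]
  refine Finset.sum_congr rfl fun i _ => ?_
  rw [ContinuousLinearMap.coe_coe, inner_qf]
  simp only [e.inner_eq_ite, mul_ite, mul_one, mul_zero]
  simp

/-- the third order moments of η with the position -/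
noncomputable def T3 {ι : Type*} [Fintype ι] (μ : Measure X) (e : OrthonormalBasis ι ℝ E)
    (η p : X → E) (i j k : ι) : ℝ := ∫ x, ⟪η x, e i⟫ * (⟪p x, e j⟫ * ⟪p x, e k⟫) ∂μ

theorem OneP.bessel (h : OneP μ m p n) [IsProbabilityMeasure μ] {ν : ℝ} (h0 : 0 ≤ ν)
    (hν : ∀ b, ∫ x, ⟪n x, b⟫ ^ 2 ∂μ ≤ ν * ‖b‖ ^ 2) {ι : Type*} [Fintype ι]
    (e : OrthonormalBasis ι ℝ E) {η : X → E} (hη : Continuous η)
    (hm : ∀ i, ∫ x, ⟪η x, e i⟫ ∂μ = 0) {K : ℝ} (hK : 0 < K)
    (hKm : 2 / (m + 1) + √ν * K ≤ (m + 3) * K ^ 2) :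
    ∑ i, ∑ j, ∑ k, T3 μ e η p i j k ^ 2 ≤ K ^ 2 * ∫ x, ‖η x‖ ^ 2 ∂μ := by
  classical
  have cp := h.cp
  set T := T3 μ e η p with hT
  set S := ∑ i, ∑ j, ∑ k, T i j k ^ 2 with hS
  set H := ∫ x, ‖η x‖ ^ 2 ∂μ with hH
  set A : ι → E →L[ℝ] E := fun i => qf e (T i) with hA
  have hsym : ∀ i j k, T i j k = T i k j := by
    intro i j k
    simp only [hT, T3]
    refine integral_congr_ae (Filter.Eventually.of_forall fun x => ?_)
    simp only
    ring
  have hAs : ∀ i u v, ⟪A i u, v⟫ = ⟪u, A i v⟫ := fun i u v => qf_symm e (hsym i) u v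
  have htr : ∀ i, LinearMap.trace ℝ E (A i : E →ₗ[ℝ] E) = 0 := by
    intro i
    rw [hA, trace_qf]
    simp only [hT, T3]
    rw [← integral_finsetSum _ fun j _ => int_of_cont (by fun_prop), ← hm i]
    refine integral_congr_ae (Filter.Eventually.of_forall fun x => ?_)
    simp only
    rw [← Finset.mul_sum]
    have : ∑ j, ⟪p x, e j⟫ * ⟪p x, e j⟫ = 1 := by
      rw [← h.pp x, ← e.sum_inner_mul_inner (p x) (p x)]
      refine Finset.sum_congr rfl fun j _ => ?_
      rw [real_inner_comm (p x) (e j)]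
    rw [this, mul_one]
  have hSs : ∑ i, hs (A i) = S := by
    simp only [hA, hs_qf]
    rfl
  have hg := h.gram h0 hν A hAs htr
  rw [hSs] at hg
  set V := ∑ i, ∫ x, ⟪p x, A i (p x)⟫ ^ 2 ∂μ with hV
  have hV0 : 0 ≤ V := Finset.sum_nonneg fun i _ => integral_nonneg fun x => sq_nonneg _
  have hS0 : 0 ≤ S := Finset.sum_nonneg fun i _ => Finset.sum_nonneg fun j _ =>
    Finset.sum_nonneg fun k _ => sq_nonneg _
  have hH0 : 0 ≤ H := integral_nonneg fun x => sq_nonneg _
  have hm1 : (0 : ℝ) < m + 1 := by positivity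
  have hv : √V ≤ K * √S := by
    refine root_le (M := m + 3) (c := 2 / (m + 1)) (n := √ν) hK (by positivity)
      (Real.sqrt_nonneg _) (Real.sqrt_nonneg _) (Real.sqrt_nonneg _) ?_ hKm
    rw [Real.sq_sqrt hV0, Real.sq_sqrt hS0]
    exact hg
  -- the duality
  have hdual : S = ∫ x, ∑ i, ⟪η x, e i⟫ * ⟪p x, A i (p x)⟫ ∂μ := by
    rw [integral_finsetSum _ fun i _ => int_of_cont (by fun_prop)]
    refine Finset.sum_congr rfl fun i _ => ?_
    simp only [hA, inner_qf, Finset.mul_sum]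
    rw [integral_finsetSum _ fun j _ => int_of_cont (by fun_prop)]
    refine Finset.sum_congr rfl fun j _ => ?_
    rw [integral_finsetSum _ fun k _ => int_of_cont (by fun_prop)]
    refine Finset.sum_congr rfl fun k _ => ?_
    rw [pow_two]
    nth_rewrite 2 [hT]
    unfold T3
    rw [← integral_const_mul]
    refine integral_congr_ae (Filter.Eventually.of_forall fun x => ?_)
    simp only
    ring
  have hle : S ≤ √H * √V := by
    have h1 : ∀ x, ∑ i, ⟪η x, e i⟫ * ⟪p x, A i (p x)⟫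
        ≤ ‖η x‖ * √(∑ i, ⟪p x, A i (p x)⟫ ^ 2) := by
      intro x
      have h2 := Finset.sum_mul_sq_le_sq_mul_sq Finset.univ (fun i => ⟪η x, e i⟫)
        (fun i => ⟪p x, A i (p x)⟫)
      have h3 : ∑ i, ⟪η x, e i⟫ ^ 2 = ‖η x‖ ^ 2 := by
        rw [← real_inner_self_eq_norm_sq, ← e.sum_inner_mul_inner]
        refine Finset.sum_congr rfl fun i _ => ?_
        rw [real_inner_comm (η x) (e i)]
        ring
      rw [h3] at h2
      have h4 := Real.abs_le_sqrt h2
      rw [Real.sqrt_mul (sq_nonneg _), Real.sqrt_sq (norm_nonneg _)] at h4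
      exact (le_abs_self _).trans h4
    have c1 : Continuous fun x => √(∑ i, ⟪p x, A i (p x)⟫ ^ 2) := by fun_prop
    have h5 : S ≤ ∫ x, ‖η x‖ * √(∑ i, ⟪p x, A i (p x)⟫ ^ 2) ∂μ := by
      rw [hdual]
      exact integral_mono (int_of_cont (by fun_prop)) (int_of_cont (by fun_prop)) h1
    have h6 := cs_int (μ := μ) (f := fun x => ‖η x‖)
      (g := fun x => √(∑ i, ⟪p x, A i (p x)⟫ ^ 2)) (by fun_prop) c1
    have h7 : ∫ x, √(∑ i, ⟪p x, A i (p x)⟫ ^ 2) ^ 2 ∂μ = V := by
      rw [hV, ← integral_finsetSum _ fun i _ => int_of_cont (by fun_prop)]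
      refine integral_congr_ae (Filter.Eventually.of_forall fun x => ?_)
      simp only
      rw [Real.sq_sqrt (Finset.sum_nonneg fun i _ => sq_nonneg _)]
    rw [h7] at h6
    have h8 := Real.abs_le_sqrt h6
    rw [Real.sqrt_mul hH0] at h8
    exact h5.trans ((le_abs_self _).trans h8)
  rcases eq_or_lt_of_le hS0 with h9 | h9
  · rw [← h9]; positivity
  · have h10 : 0 < √S := Real.sqrt_pos.2 h9
    have h11 : √S * √S ≤ √H * (K * √S) := by
      rw [Real.mul_self_sqrt hS0]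
      exact hle.trans (mul_le_mul_of_nonneg_left hv (Real.sqrt_nonneg _))
    have h12 : √S ≤ √H * K := by
      have : √S * √S ≤ (√H * K) * √S := by linarith
      exact le_of_mul_le_mul_right this h10
    have h13 := pow_le_pow_left₀ h10.le h12 2
    rw [Real.sq_sqrt hS0, mul_pow, Real.sq_sqrt hH0] at h13
    linarith

end

end Vale.Agent.P224.R2.H470
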