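import Vale.Agent.P224.R2.H470.Brg

/-!
The cross term at level T.
-/

namespace Vale.Agent.P224.R2.H470

open MeasureTheory Module Function Set Filter Real
open Vale.Agent.P224.R2.H460 Vale.Agent.P224.R2.H869 Vale.Agent.P224.R2.H484
open Vale.Agent.P224.R2.H728 (BM ZZ)
open scoped RealInnerProductSpace Topology ContDiff

set_option linter.unusedSectionVars false

section

variable {X : Type*} {E : Type*} [NormedAddCommGroup E] [InnerProductSpace ℝ E]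
  [FiniteDimensional ℝ E] [MeasurableSpace E] [BorelSpace E]
variable [TopologicalSpace X] [MeasurableSpace X] [SecondCountableTopology X]
variable [CompactSpace X] [BorelSpace X] {μ : Measure X} {m : ℕ} {p n : X → E}
  {z : X → E} {T : ℝ}

/-- the kernel form of two vector fields -/
noncomputable def VK (κ : ℝ → ℝ) (μ : Measure X) (p F G : X → E) : ℝ :=
  ∫ u : X × X, κ ⟪p u.1, p u.2⟫ * ⟪F u.1, G u.2⟫ ∂(μ.prod μ)

variable [IsProbabilityMeasure μ]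

lemma BMi {F : X → E} (hF : Continuous F) (b : E) : BM fun x => ⟪F x, b⟫ :=
  BM_cont (by fun_prop)

lemma VK_eq {κ : ℝ → ℝ} (hκ : BK κ) (hp : Continuous p) (np : ∀ x, ‖p x‖ = 1) {F G : X → E}
    (hF : Continuous F) (hG : Continuous G) {ι : Type*} [Fintype ι] (e : OrthonormalBasis ι ℝ E) :
    VK κ μ p F G = ∑ i, KF κ μ p (fun x => ⟪F x, e i⟫) (fun x => ⟪G x, e i⟫) := by
  unfold VK KF
  rw [← integral_finsetSum _ fun i _ => KF_int hp.measurable np hκ (BMi hF (e i)) (BMi hG (e i))]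
  refine integral_congr_ae (Eventually.of_forall fun u => ?_)
  simp only
  rw [inner_sum_basis e (F u.1) (G u.2), Finset.mul_sum]

lemma inner_int {F : X → E} (hF : Continuous F) (b : E) :
    ∫ x, ⟪F x, b⟫ ∂μ = ⟪∫ x, F x ∂μ, b⟫ := by
  rw [real_inner_comm, ← integral_inner (int_of_cont hF) b]
  refine integral_congr_ae (Eventually.of_forall fun x => ?_)
  simp only
  rw [real_inner_comm]

lemma KF_sk_one (hp : Measurable p) (np : ∀ x, ‖p x‖ = 1) {F G : X → ℝ} (hF : BM F) (hG : BM G)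
    (q : ℕ) (h0 : 0 ≤ T) (h1 : T < 1) : KF (sk m q T) μ p F G
      = (∫ x, F x ∂μ) * (∫ x, G x ∂μ) + KF (rk m q 1 T) μ p F G := by
  rw [KF_rk hp np m q 1 h0 h1 hF hG, Finset.sum_range_one, KF_a0, pow_zero, mul_one]
  have : PT m q μ p F G T = KF (sk m q T) μ p F G := by
    unfold PT KF
    rfl
  rw [this]
  ring

lemma VK_sk (hp : Continuous p) (np : ∀ x, ‖p x‖ = 1) {F G : X → E} (hF : Continuous F)
    (hG : Continuous G) (q : ℕ) (h0 : 0 ≤ T) (h1 : T < 1) : VK (sk m q T) μ p F G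
      = ⟪∫ x, F x ∂μ, ∫ x, G x ∂μ⟫ + VK (rk m q 1 T) μ p F G := by
  have e := stdOrthonormalBasis ℝ E
  rw [VK_eq (BK_sk m q h0 h1) hp np hF hG e, VK_eq (BK_rk m q 1 h0 h1) hp np hF hG e,
    inner_sum_basis e, ← Finset.sum_add_distrib]
  refine Finset.sum_congr rfl fun i _ => ?_
  rw [KF_sk_one hp.measurable np (BMi hF (e i)) (BMi hG (e i)) q h0 h1, inner_int hF, inner_int hG]

lemma VK_symm {κ : ℝ → ℝ} (hκ : BK κ) (hp : Continuous p) (np : ∀ x, ‖p x‖ = 1) {F G : X → E}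
    (hF : Continuous F) (hG : Continuous G) : VK κ μ p F G = VK κ μ p G F := by
  have e := stdOrthonormalBasis ℝ E
  rw [VK_eq hκ hp np hF hG e, VK_eq hκ hp np hG hF e]
  exact Finset.sum_congr rfl fun i _ => KF_symm

lemma VK_cs (hp : Continuous p) (np : ∀ x, ‖p x‖ = 1) {F G : X → E} (hF : Continuous F)
    (hG : Continuous G) {q : ℕ} (hq : 1 ≤ q) (hd : finrank ℝ E = m + 2) (h0 : 0 < T) (h1 : T < 1) :
    0 ≤ VK (rk m q 1 T) μ p F F ∧
    VK (rk m q 1 T) μ p F G ^ 2 ≤ VK (rk m q 1 T) μ p F F * VK (rk m q 1 T) μ p G G := by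
  have e := stdOrthonormalBasis ℝ E
  have hb := BK_rk m q 1 h0.le h1
  have hP : PD (rk m q 1 T) μ p := PD_rk hp.measurable np hq hd (by norm_num) h0 h1
  rw [VK_eq hb hp np hF hF e, VK_eq hb hp np hF hG e, VK_eq hb hp np hG hG e]
  refine ⟨Finset.sum_nonneg fun i _ => hP _ (BMi hF (e i)), ?_⟩
  exact hP.cs hp.measurable np hb Finset.univ (fun i => BMi hF (e i)) fun i => BMi hG (e i)

lemma sum_int_sq {F : X → E} (hF : Continuous F) {ι : Type*} [Fintype ι]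
    (e : OrthonormalBasis ι ℝ E) : ∑ i, ∫ x, ⟪F x, e i⟫ ^ 2 ∂μ = ∫ x, ‖F x‖ ^ 2 ∂μ := by
  rw [← integral_finsetSum _ fun i _ => int_of_cont (by fun_prop)]
  refine integral_congr_ae (Eventually.of_forall fun x => ?_)
  simp only
  rw [← real_inner_self_eq_norm_sq, inner_sum_basis e]
  exact Finset.sum_congr rfl fun i _ => sq _

lemma VK_schur [Nontrivial E] (h : OneP μ m p n) (hm : 1 ≤ m) (h0 : 0 ≤ T) (h1 : T < 1)
    {F : X → E} (hF : Continuous F) :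
    (1 - T ^ 2) * VK (sk m m T) μ p F F ≤ ∫ x, ‖F x‖ ^ 2 ∂μ := by
  have hk : 0 < 1 - T ^ 2 := by nlinarith
  have e := stdOrthonormalBasis ℝ E
  rw [VK_eq (BK_sk m m h0 h1) h.cp h.np hF hF e, ← sum_int_sq hF e, Finset.mul_sum]
  refine Finset.sum_le_sum fun i _ => ?_
  have h2 := KF_schur (μ := μ) h.cp.measurable h.np (BK_sk m m h0 h1) (fun s hs => by
    unfold sk
    have hv : 0 < 1 - T * s := by
      have := mul_le_mul_of_nonneg_left hs.2 h0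
      linarith
    positivity) (fun x => sk_m_le h hm h0 h1 x) (BMi hF (e i))
  have h3 := mul_le_mul_of_nonneg_left h2 hk.le
  refine h3.trans (le_of_eq ?_)
  field_simp

lemma cwPI_v (h0 : 0 ≤ T) (h1 : T < 1) {F G : X → E} :
    cw m T * PI μ p T m (fun u => ⟪F u.1, G u.2⟫) = (1 - T ^ 2) * VK (sk m m T) μ p F G := by
  unfold PI VK
  rw [← integral_const_mul, ← integral_const_mul]
  refine integral_congr_ae (Eventually.of_forall fun u => ?_)
  simp only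
  rw [← mul_assoc, ← sk_eq_m h0 h1]
  ring

/-- the quadratic form of the field in pair integrals -/
theorem ZZ_PI (hp : Continuous p) (np : ∀ x, ‖p x‖ = 1) (hz : Continuous z) (h0 : 0 ≤ T)
    (h1 : T < 1) : (1 - T ^ 2) ^ 2 * ZZ m μ p z T
      = T * (cw m T * PI μ p T m (fun u => ⟪z u.1, z u.2⟫))
        + T ^ 2 * (cw m T * (m * PI μ p T (m + 1) (fun u => Y2 p z T u * Y2 p z T u.swap))) := by
  have hk : 0 < 1 - T ^ 2 := by nlinarith
  have c2 := cont_Y2 (T := T) hp hz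
  have c3 := cont_Y2s (T := T) hp hz
  have i1 := int_PI (μ := μ) h0 h1 m hp np (G := fun u => ⟪z u.1, z u.2⟫) (by fun_prop)
  have i2 := int_PI (μ := μ) h0 h1 (m + 1) hp np
    (G := fun u => Y2 p z T u * Y2 p z T u.swap) (by fun_prop)
  have e1 : T * (cw m T * PI μ p T m (fun u => ⟪z u.1, z u.2⟫))
        + T ^ 2 * (cw m T * (m * PI μ p T (m + 1) (fun u => Y2 p z T u * Y2 p z T u.swap)))
      = ∫ u : X × X, (T * cw m T) * (kr T m ⟪p u.1, p u.2⟫ * ⟪z u.1, z u.2⟫)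
        + (T ^ 2 * cw m T * m) * (kr T (m + 1) ⟪p u.1, p u.2⟫ * (Y2 p z T u * Y2 p z T u.swap))
        ∂(μ.prod μ) := by
    rw [integral_add (i1.const_mul _) (i2.const_mul _), integral_const_mul, integral_const_mul]
    unfold PI
    ring
  rw [e1]
  unfold ZZ
  rw [← integral_const_mul]
  refine integral_congr_ae (Eventually.of_forall fun u => ?_)
  simp only
  rw [ZK_eq m h0 h1]
  have e : (1 - T ^ 2) ^ ((m : ℝ) / 2 - 2) = (1 - T ^ 2) ^ ((m : ℝ) / 2) / (1 - T ^ 2) ^ 2 := by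
    rw [Real.rpow_sub hk]
    norm_num
  rw [e]
  simp only [kr, cw, Y2, Prod.fst_swap, Prod.snd_swap, inner_sub_left, real_inner_smul_left]
  rw [real_inner_comm (z u.1) (p u.2), real_inner_comm (z u.1) (p u.1),
    real_inner_comm (z u.2) (p u.2), real_inner_comm (z u.2) (p u.1)]
  field_simp
  ring

theorem ZZ_top [Nontrivial E] (h : OneP μ m p n) (hm : 1 ≤ m) (hz : Continuous z) (h0 : 0 ≤ T)
    (h1 : T < 1) : (1 - T ^ 2) ^ 2 * ZZ m μ p z T
      ≤ (T + T ^ 2 * (1472 / 1000 / (1 - T))) * ∫ x, ‖z x‖ ^ 2 ∂μ := by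
  have hp := h.cp
  have h2 := VK_schur h hm h0 h1 hz
  rw [← cwPI_v h0 h1] at h2
  have h3 := MM_le_h h hm h0 h1 hz
  have h4 : cw m T * MM μ m p z T ≤ 1472 / 1000 / (1 - T) * ∫ x, ‖z x‖ ^ 2 ∂μ := by
    rw [div_mul_eq_mul_div, le_div_iff₀ (by linarith)]
    linarith
  have cs := PI_cs_m (μ := μ) (m := m) h0 h1 (m + 1) hp h.np (cont_Y2 (T := T) hp hz)
    (cont_Y2s (T := T) hp hz)
  have s1 : PI μ p T (m + 1) (fun u => Y2 p z T u.swap ^ 2)
      = PI μ p T (m + 1) (fun u => Y2 p z T u ^ 2) :=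
    PI_swap h0 h1 (m + 1) (fun u => Y2 p z T u ^ 2)
  rw [s1] at cs
  have hM : 0 ≤ MM μ m p z T := MM_nonneg h0 h1 h.np
  have e2 : √(m * PI μ p T (m + 1) (fun u => Y2 p z T u ^ 2))
      * √(m * PI μ p T (m + 1) (fun u => Y2 p z T u ^ 2)) = MM μ m p z T :=
    Real.mul_self_sqrt hM
  rw [e2] at cs
  have h5 := (abs_le.1 cs).2
  have h6 := mul_le_mul_of_nonneg_left h5 (cw_pos (m := m) h0 h1).le
  have h7 := mul_le_mul_of_nonneg_left (h6.trans h4) (sq_nonneg T)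
  have h8 := mul_le_mul_of_nonneg_left h2 h0
  rw [ZZ_PI hp h.np hz h0 h1]
  linarith

lemma tg_self (x : X) (a b : E) : ⟪a, tg p n x b⟫ = ⟪tg p n x a, b⟫ := by
  unfold tg
  simp only [inner_sub_left, inner_sub_right, real_inner_smul_left, real_inner_smul_right]
  rw [real_inner_comm (p x) a, real_inner_comm (n x) a]
  ring

lemma tg_norm (h : OneP μ m p n) (x : X) (b : E) : ‖tg p n x b‖ ^ 2 ≤ ‖b‖ ^ 2 := by
  have e : ‖tg p n x b‖ ^ 2 = ‖b‖ ^ 2 - ⟪p x, b⟫ ^ 2 - ⟪n x, b⟫ ^ 2 := by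
    unfold tg
    rw [← real_inner_self_eq_norm_sq, ← real_inner_self_eq_norm_sq]
    simp only [inner_sub_left, inner_sub_right, real_inner_smul_left, real_inner_smul_right, h.pp,
      h.nnn, h.pn, h.np']
    rw [real_inner_comm (p x) b, real_inner_comm (n x) b]
    ring
  rw [e]
  nlinarith [sq_nonneg ⟪p x, b⟫, sq_nonneg ⟪n x, b⟫]

lemma cont_tgz (hp : Continuous p) (hn : Continuous n) (hz : Continuous z) :
    Continuous fun x => tg p n x (z x) := by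
  unfold tg
  fun_prop

lemma norm_int_sq_le {F : X → E} (hF : Continuous F) :
    ‖∫ x, F x ∂μ‖ ^ 2 ≤ ∫ x, ‖F x‖ ^ 2 ∂μ := by
  have e := stdOrthonormalBasis ℝ E
  rw [← sum_int_sq hF e, ← real_inner_self_eq_norm_sq, inner_sum_basis e]
  refine Finset.sum_le_sum fun i _ => ?_
  rw [← inner_int hF, ← sq]
  have h1 := cs_int (μ := μ) (f := fun x => ⟪F x, e i⟫) (g := fun _ => (1 : ℝ)) (by fun_prop)
    continuous_const
  simp only [mul_one, one_pow, integral_const, probReal_univ, smul_eq_mul] at h1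
  exact h1

/-- the first moments of the radial part -/
lemma m1f_vec (hp : Continuous p) (hz : Continuous z) {ι : Type*} [Fintype ι]
    (e : OrthonormalBasis ι ℝ E) :
    ∑ i, (∫ x, ⟪z x, e i⟫ ∂μ) * m1f μ p e (fun x => ⟪z x, p x⟫) i
      = ⟪∫ x, z x ∂μ, ∫ x, ⟪z x, p x⟫ • p x ∂μ⟫ := by
  rw [inner_sum_basis e]
  refine Finset.sum_congr rfl fun i _ => ?_
  rw [inner_int hz, ← inner_int (F := fun x => ⟪z x, p x⟫ • p x) (by fun_prop)]
  congr 1
  unfold m1f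
  refine integral_congr_ae (Eventually.of_forall fun x => ?_)
  simp only
  rw [real_inner_smul_left]

/-- algebra of the cross term -/
lemma cr_alg {T k E2 z3 W' H B C D Xc G c2 c3 t f R : ℝ} (hT : 0 < T) (hk0 : 0 ≤ k) (hk1 : k ≤ 1)
    (hk : k = 1 - T ^ 2) (hG : 0 ≤ G * H) (hW : 0 ≤ W' * H)
    (h11 : T ^ 2 * Xc ≤ k ^ 2 * (E2 * T + z3 * T ^ 3 + T ^ 4 * (W' * H)) - T * (k * (E2 + B)))
    (h8 : z3 ≤ G * H + c2 * E2 - c3 * f) (hC : 4 * T * C ≤ B / T + 4 * T ^ 3 * D)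
    (hD : k * D ≤ H) (hR : R = Xc + 4 * T * (k * (t + C))) :
    R ≤ (G * T + W' * T ^ 2 + 4 * T ^ 3) * H + k * T * (4 * t - E2)
      + k ^ 2 * T * (c2 * E2 - c3 * f) := by
  have h15 : T ^ 2 * Xc ≤ T ^ 2 * (-(k * T * E2) + k ^ 2 * T * z3
      + k ^ 2 * T ^ 2 * (W' * H) - k * (B / T)) := by
    refine h11.trans (le_of_eq ?_)
    have h16 : T ^ 2 * (k * (B / T)) = T * (k * B) := by field_simp
    have h17 : k ^ 2 * (E2 * T) - T * (k * E2) = T ^ 2 * (-(k * T * E2)) := by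
      rw [hk]
      ring
    linear_combination h17 + h16
  have h18 := le_of_mul_le_mul_left h15 (by positivity)
  have h19 := mul_le_mul_of_nonneg_left hC hk0
  have h20 : k ^ 2 * T * z3 ≤ k ^ 2 * T * (G * H + c2 * E2 - c3 * f) :=
    mul_le_mul_of_nonneg_left h8 (by positivity)
  have hk2 : k ^ 2 ≤ 1 := pow_le_one₀ hk0 hk1
  have h21 : k ^ 2 * (T * (G * H)) ≤ 1 * (T * (G * H)) :=
    mul_le_mul_of_nonneg_right hk2 (by positivity)
  have h22 : k ^ 2 * (T ^ 2 * (W' * H)) ≤ 1 * (T ^ 2 * (W' * H)) :=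
    mul_le_mul_of_nonneg_right hk2 (by positivity)
  have h23 : 4 * T ^ 3 * (k * D) ≤ 4 * T ^ 3 * H :=
    mul_le_mul_of_nonneg_left hD (by positivity)
  rw [hR]
  linarith

/-- the cross term, general form -/
theorem Cr_le0 [Nontrivial E] (h : OneP μ m p n) (hm : 1 ≤ m) (hd : finrank ℝ E = m + 2)
    {ι : Type*} [Fintype ι] (e : OrthonormalBasis ι ℝ E) {K2 : ℝ} (hK : 0 ≤ K2)
    (hQ : QB μ p e K2) (hz : Continuous z)
    (ha : ∀ i j, m1f μ p e (fun x => ⟪z x, e i⟫) j = -m1f μ p e (fun x => ⟪z x, e j⟫) i)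
    {T1 : ℝ} (h1 : 0 < T) (h2 : T ≤ T1) (h3 : T1 < 1) :
    cw m T * Cr μ m p n z T
      ≤ (3 * (m * (m + 1) / 2 * K2) * T
        + (T1 + T1 ^ 2 * (1472 / 1000 / (1 - T1))) / (1 - T1 ^ 2) ^ 2 / T1 ^ 4 * T ^ 2
        + 4 * T ^ 3) * (∫ x, ‖z x‖ ^ 2 ∂μ)
      + (1 - T ^ 2) * T * (4 * ⟪∫ x, z x ∂μ, ∫ x, tg p n x (z x) ∂μ⟫ - ‖∫ x, z x ∂μ‖ ^ 2)
      + (1 - T ^ 2) ^ 2 * T * ((2 - m * (3 * m + 4) / (2 * (m + 2) ^ 2)) * ‖∫ x, z x ∂μ‖ ^ 2
        - 2 * m / (m + 2) * ⟪∫ x, z x ∂μ, ∫ x, ⟪z x, p x⟫ • p x ∂μ⟫) := by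
  have hT1 : T < 1 := h2.trans_lt h3
  have hT10 : 0 < T1 := h1.trans_le h2
  have hk : 0 < 1 - T ^ 2 := by nlinarith
  have hk1 : 0 < 1 - T1 ^ 2 := by nlinarith
  have hkle : 1 - T ^ 2 ≤ 1 := sub_le_self 1 (sq_nonneg T)
  have hp := h.cp
  have hn := h.cn
  have hzt := cont_tgz hp hn hz
  obtain ⟨C0, hC0⟩ := (isCompact_univ (X := X)).exists_bound_of_continuousOn hz.continuousOn
  have hC : ∀ x, ‖z x‖ ≤ max C0 0 := fun x => (hC0 x (mem_univ x)).trans (le_max_left _ _)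
  have hC' : 0 ≤ max C0 0 := le_max_right _ _
  set H := ∫ x, ‖z x‖ ^ 2 ∂μ with hH
  have hH0 : 0 ≤ H := integral_nonneg fun x => sq_nonneg _
  set ev := ∫ x, z x ∂μ with hev
  set tv := ∫ x, tg p n x (z x) ∂μ with htv
  set fv := ∫ x, ⟪z x, p x⟫ • p x ∂μ with hfv
  set B := VK (rk m m 1 T) μ p z z with hB
  set C := VK (rk m m 1 T) μ p z (fun x => tg p n x (z x)) with hCC
  set D := VK (rk m m 1 T) μ p (fun x => tg p n x (z x)) (fun x => tg p n x (z x)) with hD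
  -- the tangential term
  have e1 : PI μ p T m (fun u => ⟪z u.2, tg p n u.2 (z u.1)⟫)
      = PI μ p T m (fun u => ⟪z u.1, tg p n u.2 (z u.2)⟫) := by
    congr 1
    funext u
    rw [tg_self, real_inner_comm]
  have e2 : cw m T * PI μ p T m (fun u => ⟪z u.2, tg p n u.2 (z u.1)⟫)
      = (1 - T ^ 2) * (⟪ev, tv⟫ + C) := by
    rw [e1, cwPI_v h1.le hT1 (F := z) (G := fun x => tg p n x (z x)),
      VK_sk hp h.np hz hzt m h1.le hT1]
  have e3 : cw m T * PI μ p T m (fun u => ⟪z u.1, z u.2⟫) = (1 - T ^ 2) * (‖ev‖ ^ 2 + B) := by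
    rw [cwPI_v h1.le hT1 (F := z) (G := z), VK_sk hp h.np hz hz m h1.le hT1,
      real_inner_self_eq_norm_sq]
  have e4 := ZZ_PI (μ := μ) (m := m) hp h.np hz h1.le hT1
  rw [e3] at e4
  obtain ⟨hB0, hcs⟩ := VK_cs (μ := μ) hp h.np hz hzt hm hd h1 hT1
  have hD0 : 0 ≤ D := (VK_cs (μ := μ) hp h.np hzt hzt hm hd h1 hT1).1
  have hDle : (1 - T ^ 2) * D ≤ H := by
    have h4 := VK_schur h hm h1.le hT1 hzt
    rw [VK_sk hp h.np hzt hzt m h1.le hT1, real_inner_self_eq_norm_sq] at h4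
    have h5 : ∫ x, ‖tg p n x (z x)‖ ^ 2 ∂μ ≤ H :=
      integral_mono (int_of_cont (by fun_prop)) (int_of_cont (by fun_prop)) fun x =>
        tg_norm h x (z x)
    have h6 : 0 ≤ (1 - T ^ 2) * ‖tv‖ ^ 2 := by positivity
    linarith
  have hCle : 4 * T * C ≤ B / T + 4 * T ^ 3 * D := by
    have h4 : (4 * T * C) ^ 2 ≤ (B / T + 4 * T ^ 3 * D) ^ 2 := by
      have h5 : B / T * (4 * T ^ 3 * D) = 4 * T ^ 2 * (B * D) := by field_simp
      have h6 : (4 * T * C) ^ 2 ≤ 16 * T ^ 2 * (B * D) := by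
        have := mul_le_mul_of_nonneg_left hcs (by positivity : 0 ≤ 16 * T ^ 2)
        linarith
      nlinarith [sq_nonneg (B / T - 4 * T ^ 3 * D)]
    exact (abs_le_of_sq_le_sq' h4 (by positivity)).2
  -- the expansion
  obtain ⟨-, h7⟩ := ZZ_up (μ := μ) (m := m) hp.measurable hz.measurable h.np hC hC' hm hd e ha h1
    h2 h3
  have h8 := zcf3_le (μ := μ) (m := m) hp.measurable hz.measurable h.np hC e hd hK hQ
  have s1 : ∑ i, (∫ x, ⟪z x, e i⟫ ∂μ) ^ 2 = ‖ev‖ ^ 2 := by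
    rw [← real_inner_self_eq_norm_sq, inner_sum_basis e]
    refine Finset.sum_congr rfl fun i _ => ?_
    rw [inner_int hz, sq]
  rw [zcf1 hz.measurable hC e m, s1] at h7
  rw [s1, m1f_vec hp hz e] at h8
  have h9 := ZZ_top h hm hz hT10.le h3
  set W := (T1 + T1 ^ 2 * (1472 / 1000 / (1 - T1))) / (1 - T1 ^ 2) ^ 2 with hW
  have hW0 : 0 ≤ W := by
    have : 0 < 1 - T1 := by linarith
    positivity
  have h10 : ZZ m μ p z T1 ≤ W * H := by
    rw [hW, div_mul_eq_mul_div, le_div_iff₀ (by positivity)]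
    linarith
  set z3 := zcf m μ p z 3 with hz3
  set Z1 := ZZ m μ p z T1 with hZ1
  set ZT := ZZ m μ p z T with hZT
  set Xc := cw m T * (m * PI μ p T (m + 1) (fun u => Y2 p z T u * Y2 p z T u.swap)) with hXc
  have eC : cw m T * Cr μ m p n z T
      = Xc + 4 * T * ((1 - T ^ 2) * (⟪ev, tv⟫ + C)) := by
    rw [← e2]
    unfold Cr
    rw [hXc]
    ring
  set k := 1 - T ^ 2 with hkk
  have hk1' : k ≤ 1 := hkle
  -- bound of Xc
  have h11 : ZT ≤ ‖ev‖ ^ 2 * T + z3 * T ^ 3 + T ^ 4 * (W / T1 ^ 4 * H) := by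
    refine h7.trans ?_
    have h12 : (T / T1) ^ 4 * Z1 ≤ (T / T1) ^ 4 * (W * H) :=
      mul_le_mul_of_nonneg_left h10 (by positivity)
    have h13 : (T / T1) ^ 4 * (W * H) = T ^ 4 * (W / T1 ^ 4 * H) := by
      rw [div_pow]
      ring
    linarith
  have h14 : T ^ 2 * Xc ≤ k ^ 2 * (‖ev‖ ^ 2 * T + z3 * T ^ 3 + T ^ 4 * (W / T1 ^ 4 * H))
      - T * (k * (‖ev‖ ^ 2 + B)) := by
    have := mul_le_mul_of_nonneg_left h11 (sq_nonneg k)
    linarith
  exact cr_alg (B := B) (C := C) (D := D) h1 hk.le hk1' hkk (by positivity) (by positivity) h14 h8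
    hCle hDle eC

/-- the first moments are antisymmetric for the symmetric minimiser -/
lemma m1f_anti (hp : Continuous p) (hz : Continuous z)
    (hmin : ∀ S : E →L[ℝ] E, (∀ u v, ⟪S u, v⟫ = ⟪u, S v⟫) → ∫ x, ⟪z x, S (p x)⟫ ∂μ = 0)
    {ι : Type*} [Fintype ι] (e : OrthonormalBasis ι ℝ E) (i j : ι) :
    m1f μ p e (fun x => ⟪z x, e i⟫) j = -m1f μ p e (fun x => ⟪z x, e j⟫) i := by
  have h1 := hmin ((innerSL ℝ (e j)).smulRight (e i) + (innerSL ℝ (e i)).smulRight (e j))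
    (fun u v => by
      simp only [ContinuousLinearMap.add_apply, ContinuousLinearMap.smulRight_apply,
        innerSL_apply_apply, inner_add_left, inner_add_right, real_inner_smul_left,
        real_inner_smul_right]
      rw [real_inner_comm u (e i), real_inner_comm u (e j)]
      ring)
  have h2 : ∫ x, ⟪z x, ((innerSL ℝ (e j)).smulRight (e i)
      + (innerSL ℝ (e i)).smulRight (e j)) (p x)⟫ ∂μ
      = m1f μ p e (fun x => ⟪z x, e i⟫) j + m1f μ p e (fun x => ⟪z x, e j⟫) i := by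
    unfold m1f
    rw [← integral_add (int_of_cont (by fun_prop)) (int_of_cont (by fun_prop))]
    refine integral_congr_ae (Eventually.of_forall fun x => ?_)
    simp only [ContinuousLinearMap.add_apply, ContinuousLinearMap.smulRight_apply,
        innerSL_apply_apply, inner_add_right, real_inner_smul_right]
    rw [real_inner_comm (e j) (p x), real_inner_comm (e i) (p x)]
    ring
  rw [h2] at h1
  linarith

/-- algebra of the mean terms -/
lemma cr_alg2 {T k E2 f g a b c2 c3 : ℝ} (hT : 0 ≤ T) (hk0 : 0 ≤ k) (hk1 : k ≤ 1) (hE : 0 ≤ E2)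
    (hc2 : 0 ≤ c2) (hc30 : 0 ≤ c3) (hc3 : c3 ≤ 2) (hf : |f| ≤ a) (hg : |g| ≤ b) :
    k * T * (4 * (E2 - f - g) - E2) + k ^ 2 * T * (c2 * E2 - c3 * f)
      ≤ T * ((3 + c2) * E2 + 6 * a + 4 * b) := by
  have hf1 := abs_le.1 hf
  have hg1 := abs_le.1 hg
  have ha0 : 0 ≤ a := (abs_nonneg f).trans hf
  have hb0 : 0 ≤ b := (abs_nonneg g).trans hg
  have h1 : 4 * (E2 - f - g) - E2 ≤ 3 * E2 + 4 * a + 4 * b := by linarith [hf1.1, hg1.1]
  have h2 : c2 * E2 - c3 * f ≤ c2 * E2 + 2 * a := by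
    have : -(c3 * f) ≤ c3 * a := by
      have := mul_le_mul_of_nonneg_left hf1.1 hc30
      linarith
    have h3 : c3 * a ≤ 2 * a := mul_le_mul_of_nonneg_right hc3 ha0
    linarith
  have h3 : k * T * (4 * (E2 - f - g) - E2) ≤ 1 * T * (3 * E2 + 4 * a + 4 * b) := by
    refine (mul_le_mul_of_nonneg_left h1 (by positivity)).trans ?_
    refine mul_le_mul_of_nonneg_right (mul_le_mul_of_nonneg_right hk1 hT) (by positivity)
  have h4 : k ^ 2 * T * (c2 * E2 - c3 * f) ≤ 1 * T * (c2 * E2 + 2 * a) := by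
    refine (mul_le_mul_of_nonneg_left h2 (by positivity)).trans ?_
    refine mul_le_mul_of_nonneg_right (mul_le_mul_of_nonneg_right (pow_le_one₀ hk0 hk1) hT)
      (by positivity)
  linarith

/-- the cross term -/
theorem Cr_le [Nontrivial E] (h : OneP μ m p n) (hm : 1 ≤ m) (hd : finrank ℝ E = m + 2)
    {ι : Type*} [Fintype ι] (e : OrthonormalBasis ι ℝ E)
    (hQ : QB μ p e (16 / ((m + 1) * (7 * m + 23)))) (hz : Continuous z)
    (ha : ∀ i j, m1f μ p e (fun x => ⟪z x, e i⟫) j = -m1f μ p e (fun x => ⟪z x, e j⟫) i)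
    (h1 : 0 < T) (h2 : T ≤ 27 / 50) {ν : ℝ} (hν0 : 0 ≤ ν)
    (hν : ∫ x, ⟪n x, ∫ y, z y ∂μ⟫ ^ 2 ∂μ ≤ ν * ‖∫ y, z y ∂μ‖ ^ 2) :
    cw m T * Cr μ m p n z T
      ≤ (24 / 7 * T + 173 / 5 * T ^ 2 + 4 * T ^ 3) * (∫ x, ‖z x‖ ^ 2 ∂μ)
        + T * ((7 / 2 + 4 / (m + 2)) * ‖∫ y, z y ∂μ‖ ^ 2
          + (6 / √(m + 1) + 4 * √ν) * (‖∫ y, z y ∂μ‖ * √(∫ x, ‖z x‖ ^ 2 ∂μ))) := by
  have hm1 : (0 : ℝ) < (m : ℝ) + 1 := by positivity
  have hm1' : (1 : ℝ) ≤ m := by exact_mod_cast hm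
  have hp := h.cp
  have hn := h.cn
  have hmain := Cr_le0 h hm hd e (K2 := 16 / ((m + 1) * (7 * m + 23))) (by positivity) hQ hz ha h1
    h2 (by norm_num : (27 / 50 : ℝ) < 1)
  have hkle : 1 - T ^ 2 ≤ 1 := sub_le_self 1 (sq_nonneg T)
  have hk : 0 ≤ 1 - T ^ 2 := by nlinarith
  set H := ∫ x, ‖z x‖ ^ 2 ∂μ with hH
  have hH0 : 0 ≤ H := integral_nonneg fun x => sq_nonneg _
  set ev := ∫ x, z x ∂μ with hev
  set fv := ∫ x, ⟪z x, p x⟫ • p x ∂μ with hfv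
  set gv := ∫ x, ⟪z x, n x⟫ • n x ∂μ with hgv
  have e1 : ∫ x, tg p n x (z x) ∂μ = ev - fv - gv := by
    rw [hev, hfv, hgv, ← integral_sub (int_of_cont hz) (int_of_cont (by fun_prop)),
      ← integral_sub (int_of_cont (by fun_prop)) (int_of_cont (by fun_prop))]
    refine integral_congr_ae (Eventually.of_forall fun x => ?_)
    simp only [tg]
    rw [real_inner_comm (p x) (z x), real_inner_comm (n x) (z x)]
  have hz1 : ∀ {q : X → E}, Continuous q → (∀ x, ‖q x‖ = 1) → ∫ x, ⟪z x, q x⟫ ^ 2 ∂μ ≤ H := by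
    intro q hq nq
    refine integral_mono (int_of_cont (by fun_prop)) (int_of_cont (by fun_prop)) fun x => ?_
    simp only
    have := abs_real_inner_le_norm (z x) (q x)
    rw [nq, mul_one] at this
    exact sq_le_sq' (abs_le.1 this).1 (abs_le.1 this).2
  have hip : ∀ {q : X → E}, Continuous q → (∀ x, ‖q x‖ = 1) → ∀ {c : ℝ}, 0 ≤ c →
      ∫ x, ⟪q x, ev⟫ ^ 2 ∂μ ≤ c * ‖ev‖ ^ 2 →
      |⟪ev, ∫ x, ⟪z x, q x⟫ • q x ∂μ⟫| ≤ √c * (‖ev‖ * √H) := by
    intro q hq nq c hc hcb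
    have e2 : ⟪ev, ∫ x, ⟪z x, q x⟫ • q x ∂μ⟫ = ∫ x, ⟪z x, q x⟫ * ⟪q x, ev⟫ ∂μ := by
      rw [real_inner_comm, ← inner_int (F := fun x => ⟪z x, q x⟫ • q x) (by fun_prop)]
      refine integral_congr_ae (Eventually.of_forall fun x => ?_)
      simp only
      rw [real_inner_smul_left]
    have h3 := cs_int (μ := μ) (f := fun x => ⟪z x, q x⟫) (g := fun x => ⟪q x, ev⟫) (by fun_prop)
      (by fun_prop)
    rw [← e2] at h3
    have h4 : ⟪ev, ∫ x, ⟪z x, q x⟫ • q x ∂μ⟫ ^ 2 ≤ (√c * (‖ev‖ * √H)) ^ 2 := by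
      rw [mul_pow, mul_pow, Real.sq_sqrt hc, Real.sq_sqrt hH0]
      refine h3.trans ((mul_le_mul (hz1 hq nq) hcb (integral_nonneg fun x => sq_nonneg _)
        hH0).trans (le_of_eq (by ring)))
    exact abs_le_of_sq_le_sq h4 (by positivity)
  have hP : ∫ x, ⟪p x, ev⟫ ^ 2 ∂μ ≤ 1 / ((m : ℝ) + 1) * ‖ev‖ ^ 2 := by
    have h3 := h.int_sq_le ev
    have h4 : 0 ≤ ∫ x, ⟪n x, ev⟫ ^ 2 ∂μ := integral_nonneg fun x => sq_nonneg _
    rw [div_mul_eq_mul_div, one_mul, le_div_iff₀ hm1]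
    linarith
  have hfb := hip hp h.np (c := 1 / ((m : ℝ) + 1)) (by positivity) hP
  have hgb := hip hn h.nn hν0 hν
  have e3 : √(1 / ((m : ℝ) + 1)) = 1 / √(m + 1) := by
    rw [Real.sqrt_div zero_le_one, Real.sqrt_one]
  rw [e3] at hfb
  have hc2 : (2 : ℝ) - m * (3 * m + 4) / (2 * (m + 2) ^ 2) ≤ 1 / 2 + 4 / (m + 2) := by
    rw [sub_le_iff_le_add, div_add_div _ _ (by norm_num) (by positivity),
      div_add_div _ _ (by positivity) (by positivity), le_div_iff₀ (by positivity)]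
    ring_nf
    nlinarith
  have hc20 : (0 : ℝ) ≤ 2 - m * (3 * m + 4) / (2 * (m + 2) ^ 2) := by
    rw [sub_nonneg, div_le_iff₀ (by positivity)]
    nlinarith
  have hc30 : (0 : ℝ) ≤ 2 * m / (m + 2) := by positivity
  have hc3 : (2 : ℝ) * m / (m + 2) ≤ 2 := by
    rw [div_le_iff₀ (by positivity)]
    linarith
  have e4 : ⟪ev, ev - fv - gv⟫ = ‖ev‖ ^ 2 - ⟪ev, fv⟫ - ⟪ev, gv⟫ := by
    rw [inner_sub_right, inner_sub_right, real_inner_self_eq_norm_sq]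
  rw [e1, e4] at hmain
  have h5 := cr_alg2 h1.le hk hkle (sq_nonneg ‖ev‖) hc20 hc30 hc3 hfb hgb
  have hg2 : 3 * ((m : ℝ) * (m + 1) / 2 * (16 / ((m + 1) * (7 * m + 23)))) ≤ 24 / 7 := by
    have e5 : 3 * ((m : ℝ) * (m + 1) / 2 * (16 / ((m + 1) * (7 * m + 23))))
        = 24 * m / (7 * m + 23) := by
      field_simp
      ring
    rw [e5, div_le_div_iff₀ (by positivity) (by norm_num)]
    linarith
  have hW : (27 / 50 + (27 / 50) ^ 2 * (1472 / 1000 / (1 - 27 / 50))) / (1 - (27 / 50) ^ 2) ^ 2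
      / (27 / 50) ^ 4 ≤ (173 / 5 : ℝ) := by norm_num
  have h6 : (3 * ((m : ℝ) * (m + 1) / 2 * (16 / ((m + 1) * (7 * m + 23)))) * T
        + (27 / 50 + (27 / 50) ^ 2 * (1472 / 1000 / (1 - 27 / 50))) / (1 - (27 / 50) ^ 2) ^ 2
          / (27 / 50) ^ 4 * T ^ 2 + 4 * T ^ 3) * H
      ≤ (24 / 7 * T + 173 / 5 * T ^ 2 + 4 * T ^ 3) * H := by
    refine mul_le_mul_of_nonneg_right ?_ hH0
    have h7 := mul_le_mul_of_nonneg_right hg2 h1.le
    have h8 := mul_le_mul_of_nonneg_right hW (sq_nonneg T)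
    linarith
  have h7 : T * ((3 + (2 - m * (3 * m + 4) / (2 * (m + 2) ^ 2))) * ‖ev‖ ^ 2
        + 6 * (1 / √(m + 1) * (‖ev‖ * √H)) + 4 * (√ν * (‖ev‖ * √H)))
      ≤ T * ((7 / 2 + 4 / (m + 2)) * ‖ev‖ ^ 2 + (6 / √(m + 1) + 4 * √ν) * (‖ev‖ * √H)) := by
    refine mul_le_mul_of_nonneg_left ?_ h1.le
    have h8 := mul_le_mul_of_nonneg_right hc2 (sq_nonneg ‖ev‖)
    have e6 : 6 * (1 / √((m : ℝ) + 1) * (‖ev‖ * √H)) = 6 / √(m + 1) * (‖ev‖ * √H) := by ring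
    rw [e6]
    linarith
  linarith

end

end Vale.Agent.P224.R2.H470
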