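import Vale.Agent.P224.R2.H470.L8u
import Vale.Agent.P224.R2.H662.Inst

/-!
The Frobenius norm of the traceless second moment from its diagonal.
-/

namespace Vale.Agent.P224.R2.H470

open MeasureTheory Set Filter Function Real Module Vale.Agent.P224.R2.H728
open Vale.Agent.P224.R2.H579 Vale.Agent.P224.R2.H662
open Vale.Agent.P224.R2.H582 (co)
open scoped Topology RealInnerProductSpace

set_option linter.unusedSectionVars false

section

variable {X : Type*} {E : Type*} [NormedAddCommGroup E] [InnerProductSpace ℝ E]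
  [FiniteDimensional ℝ E] [MeasurableSpace E] [BorelSpace E]
  [TopologicalSpace X] [MeasurableSpace X] [CompactSpace X] [BorelSpace X]
  [SecondCountableTopology X] {μ : Measure X} {m : ℕ} {p n : X → E} {ι : Type*} [Fintype ι] [DecidableEq ι]

theorem sum_le_nu (h : OneP μ m p n) (hm : 1 ≤ m) (b : OrthonormalBasis ι ℝ E) {j : ι → ℝ}
    (hT : T0Data μ m (cob b p) (cob b n))
    (hL : LSq μ (Matrix.diagonal j) (cob b p) (cob b n)) {ν : ℝ}
    (hν : ∀ a, m2 μ (cob b n) (cob b n) a a ≤ ν) :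
    ∑ a, ∑ c, m2 μ (cob b n) (cob b n) a c ^ 2
      ≤ ν + hh μ (Matrix.diagonal j) (cob b p) (cob b n) := by
  have := hT.prob
  set z : X → E := fun x => n x - dop b j (p x) with hz
  have hzc : Continuous z := h.cn.sub ((dop b j).continuous.comp h.cp)
  have hzJ : ∀ x, z x = n x - dop b j (p x) := fun x => rfl
  have ha := anti_of_LSq b hL hzJ
  have hH : ∫ x, ‖z x‖ ^ 2 ∂μ = hh μ (Matrix.diagonal j) (cob b p) (cob b n) :=
    (hh_norm b j).symm
  have hν2 : ∀ a, ∫ x, ⟪n x, b a⟫ ^ 2 ∂μ ≤ ν := by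
    intro a
    refine le_trans (le_of_eq ?_) (hν a)
    unfold m2
    exact integral_congr_ae (Eventually.of_forall fun x => sq _)
  have h1 := P_op_le h hm b hzc hzJ ha hν2
  rw [hH] at h1
  obtain ⟨b', hb'⟩ := exists_eig (μ := μ) h.cn.measurable h.nn
  have h2 : ∀ i, m2 μ (co b' n) (co b' n) i i
      ≤ ν + hh μ (Matrix.diagonal j) (cob b p) (cob b n) := by
    intro i
    have h3 := h1 (b' i)
    rw [b'.norm_eq_one, one_pow, mul_one] at h3
    refine le_trans (le_of_eq ?_) h3
    unfold m2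
    exact integral_congr_ae (Eventually.of_forall fun x => (sq _).symm)
  have h3 : ∑ a, ∑ c, m2 μ (cob b n) (cob b n) a c ^ 2 = ∑ i, m2 μ (co b' n) (co b' n) i i ^ 2 := by
    have e1 := fro_basis (μ := μ) h.cn.measurable h.nn b
    have e2 := fro_basis (μ := μ) h.cn.measurable h.nn b'
    have e3 : ∑ a, ∑ c, m2 μ (co b' n) (co b' n) a c ^ 2 = ∑ i, m2 μ (co b' n) (co b' n) i i ^ 2 := by
      refine Finset.sum_congr rfl fun a _ => ?_
      rw [Finset.sum_eq_single a]
      · intro c _ hc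
        rw [hb' a c (Ne.symm hc)]
        norm_num
      · intro h
        exact absurd (Finset.mem_univ a) h
    rw [← e3, e2, ← e1]
    rfl
  have h4 : ∑ i, m2 μ (co b' n) (co b' n) i i = 1 := by
    unfold m2
    have bi : ∀ i, BM (co b' n i) := fun i => co_bm h.cn.measurable h.nn b' i
    rw [← integral_finsetSum _ fun a _ => ((bi a).mul (bi a)).int]
    have e : ∀ x, ∑ i, co b' n i x * co b' n i x = 1 := by
      intro x
      have := b'.sum_sq_inner_left (n x)
      rw [h.nn, one_pow] at this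
      rw [← this]
      refine Finset.sum_congr rfl fun i _ => ?_
      simp only [co]
      ring
    simp_rw [e]
    simp
  rw [h3]
  set H := hh μ (Matrix.diagonal j) (cob b p) (cob b n)
  calc ∑ i, m2 μ (co b' n) (co b' n) i i ^ 2
      ≤ ∑ i, (ν + H) * m2 μ (co b' n) (co b' n) i i := by
        refine Finset.sum_le_sum fun i _ => ?_
        rw [sq]
        exact mul_le_mul_of_nonneg_right (h2 i) (m2_nn_nonneg i)
    _ = ν + H := by rw [← Finset.mul_sum, h4, mul_one]

/-- the Frobenius norm is bounded by the diagonal -/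
theorem fro_le_nu (h : OneP μ m p n) (hm : 1 ≤ m) (b : OrthonormalBasis ι ℝ E) {j : ι → ℝ}
    (hT : T0Data μ m (cob b p) (cob b n))
    (hL : LSq μ (Matrix.diagonal j) (cob b p) (cob b n)) {ν : ℝ}
    (hν : ∀ a, m2 μ (cob b n) (cob b n) a a ≤ ν)
    (hs : ν + hh μ (Matrix.diagonal j) (cob b p) (cob b n) ≤ 1 / 2) :
    fro (De μ (cob b p) (cob b n)) ≤ ν + hh μ (Matrix.diagonal j) (cob b p) (cob b n) := by
  have h1 := sum_le_nu h hm b hT hL hν
  have hm0 : (0 : ℝ) ≤ m := Nat.cast_nonneg m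
  rw [fro_NN hT hm0, div_le_iff₀ (by positivity)] at h1
  set s := ν + hh μ (Matrix.diagonal j) (cob b p) (cob b n)
  have h2 : 0 < ((m : ℝ) + 1) ^ 2 := by positivity
  have h3 : ((m : ℝ) + 1) ^ 2 * fro (De μ (cob b p) (cob b n)) ≤ ((m : ℝ) + 1) ^ 2 * s := by
    nlinarith
  exact le_of_mul_le_mul_left h3 h2

end

end Vale.Agent.P224.R2.H470
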