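import Vale.Agent.P224.R2.H470.One

/-!
Moments of a minimal hypersurface and the Gram bound for quadratic functions.
-/

namespace Vale.Agent.P224.R2.H470

open MeasureTheory Module Function Set
open scoped RealInnerProductSpace Topology ContDiff

set_option linter.unusedSectionVars false

section

variable {X : Type*} {E : Type*} [NormedAddCommGroup E] [InnerProductSpace ℝ E]
  [TopologicalSpace X] [MeasurableSpace X] [CompactSpace X] [BorelSpace X] {μ : Measure X}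
  [IsFiniteMeasure μ] {m : ℕ} {p n : X → E}

lemma hasFD_inner (a u : E) : HasFDerivAt (fun u : E => ⟪u, a⟫) (innerSL ℝ a) u := by
  have h := (innerSL ℝ a).hasFDerivAt (x := u)
  refine h.congr_of_eventuallyEq (Filter.Eventually.of_forall fun v => ?_)
  simp only [innerSL_apply_apply]
  rw [real_inner_comm]

lemma contDiff_inner_l (a : E) : ContDiff ℝ ∞ (fun u : E => ⟪u, a⟫) :=
  contDiff_id.inner ℝ contDiff_const

/-- mean of the position -/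
theorem OneP.mean (h : OneP μ m p n) (hm : 1 ≤ m) (b : E) : ∫ x, ⟪p x, b⟫ ∂μ = 0 := by
  have h1 := h.r1' (f := fun _ => (1 : ℝ)) (f' := fun _ => 0) contDiff_const
    (fun u => hasFDerivAt_const 1 u) b
  simp only [_root_.zero_apply, mul_zero, sub_zero, integral_zero, mul_one] at h1
  have h2 : (m : ℝ) ≠ 0 := by
    have : (1 : ℝ) ≤ m := by exact_mod_cast hm
    linarith
  rcases mul_eq_zero.1 h1.symm with h3 | h3
  · exact absurd h3 h2
  · exact h3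

/-- symmetry of the mixed second moments -/
theorem OneP.alt1 (h : OneP μ m p n) (hm : 1 ≤ m) (a b : E) :
    ∫ x, ⟪n x, a⟫ * ⟪p x, b⟫ ∂μ = ∫ x, ⟪n x, b⟫ * ⟪p x, a⟫ ∂μ := by
  have h1 := h.r2' (f := fun _ => (1 : ℝ)) (f' := fun _ => 0) contDiff_const
    (fun u => hasFDerivAt_const 1 u) a b
  simp only [_root_.zero_apply, mul_zero, sub_zero, integral_zero, mul_one] at h1
  have h2 : (m : ℝ) ≠ 0 := by
    have : (1 : ℝ) ≤ m := by exact_mod_cast hm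
    linarith
  have cp := h.cp
  have cn := h.cn
  rw [integral_sub (int_of_cont (by fun_prop)) (int_of_cont (by fun_prop))] at h1
  rcases mul_eq_zero.1 h1.symm with h3 | h3
  · exact absurd h3 h2
  · linarith

/-- second moments -/
theorem OneP.mom2 (h : OneP μ m p n) (a b : E) :
    (m + 1) * ∫ x, ⟪p x, a⟫ * ⟪p x, b⟫ ∂μ + ∫ x, ⟪n x, a⟫ * ⟪n x, b⟫ ∂μ
      = ⟪a, b⟫ * μ.real univ := by
  have cp := h.cp
  have cn := h.cn
  have h1 := h.r1' (contDiff_inner_l a) (hasFD_inner a) b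
  simp only [innerSL_apply_apply] at h1
  have e1 : ∫ x, (⟪a, b⟫ - ⟪p x, b⟫ * ⟪a, p x⟫ - ⟪n x, b⟫ * ⟪a, n x⟫) ∂μ
      = ⟪a, b⟫ * μ.real univ - ∫ x, ⟪p x, a⟫ * ⟪p x, b⟫ ∂μ - ∫ x, ⟪n x, a⟫ * ⟪n x, b⟫ ∂μ := by
    rw [integral_sub (int_of_cont (by fun_prop)) (int_of_cont (by fun_prop)),
      integral_sub (int_of_cont (by fun_prop)) (int_of_cont (by fun_prop)), integral_const,
      smul_eq_mul, mul_comm]
    congr 1
    · congr 1
      refine integral_congr_ae (Filter.Eventually.of_forall fun x => ?_)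
      simp only
      rw [real_inner_comm (p x) a, mul_comm]
    · refine integral_congr_ae (Filter.Eventually.of_forall fun x => ?_)
      simp only
      rw [real_inner_comm (n x) a, mul_comm]
  have e2 : ∫ x, ⟪p x, b⟫ * ⟪p x, a⟫ ∂μ = ∫ x, ⟪p x, a⟫ * ⟪p x, b⟫ ∂μ := by
    refine integral_congr_ae (Filter.Eventually.of_forall fun x => ?_)
    simp only
    rw [mul_comm]
  rw [e1, e2] at h1
  linarith

/-- the second row with a linear function -/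
theorem OneP.alt2 (h : OneP μ m p n) (a b c : E) :
    (m + 1) * ∫ x, (⟪n x, a⟫ * ⟪p x, b⟫ - ⟪n x, b⟫ * ⟪p x, a⟫) * ⟪p x, c⟫ ∂μ
      = ⟪b, c⟫ * ∫ x, ⟪n x, a⟫ ∂μ - ⟪a, c⟫ * ∫ x, ⟪n x, b⟫ ∂μ := by
  have cp := h.cp
  have cn := h.cn
  have h1 := h.r2' (contDiff_inner_l c) (hasFD_inner c) a b
  simp only [innerSL_apply_apply] at h1
  have e1 : ∫ x, (⟪n x, a⟫ * (⟪c, b⟫ - ⟪p x, b⟫ * ⟪c, p x⟫)
      - ⟪n x, b⟫ * (⟪c, a⟫ - ⟪p x, a⟫ * ⟪c, p x⟫)) ∂μ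
      = ⟪b, c⟫ * (∫ x, ⟪n x, a⟫ ∂μ) - ⟪a, c⟫ * (∫ x, ⟪n x, b⟫ ∂μ)
        - ∫ x, (⟪n x, a⟫ * ⟪p x, b⟫ - ⟪n x, b⟫ * ⟪p x, a⟫) * ⟪p x, c⟫ ∂μ := by
    rw [← integral_const_mul, ← integral_const_mul,
      ← integral_sub (int_of_cont (by fun_prop)) (int_of_cont (by fun_prop)),
      ← integral_sub (int_of_cont (by fun_prop)) (int_of_cont (by fun_prop))]
    refine integral_congr_ae (Filter.Eventually.of_forall fun x => ?_)
    simp only
    rw [real_inner_comm (p x) c, real_inner_comm b c, real_inner_comm a c]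
    ring
  rw [e1] at h1
  linarith

/-- third moments -/
theorem OneP.mom3 (h : OneP μ m p n) (hm : 1 ≤ m) (a b c : E) :
    ∫ x, ⟪n x, a⟫ * ⟪n x, b⟫ * ⟪p x, c⟫ ∂μ
      = -((m + 2) / 2) * ∫ x, ⟪p x, a⟫ * ⟪p x, b⟫ * ⟪p x, c⟫ ∂μ := by
  have cp := h.cp
  have cn := h.cn
  have key : ∀ a b c : E, (m + 2) * ∫ x, ⟪p x, a⟫ * ⟪p x, b⟫ * ⟪p x, c⟫ ∂μ
      = - (∫ x, ⟪n x, a⟫ * ⟪n x, b⟫ * ⟪p x, c⟫ ∂μ) - ∫ x, ⟪n x, c⟫ * ⟪n x, b⟫ * ⟪p x, a⟫ ∂μ := by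
    intro a b c
    have h1 := h.r1' ((contDiff_inner_l a).mul (contDiff_inner_l c))
      (fun u => (hasFD_inner a u).mul (hasFD_inner c u)) b
    simp only [_root_.add_apply, _root_.smul_apply, smul_eq_mul, innerSL_apply_apply] at h1
    have ha := h.mean hm a
    have hc := h.mean hm c
    have e1 : ∫ x, (⟪p x, a⟫ * ⟪c, b⟫ + ⟪p x, c⟫ * ⟪a, b⟫
          - ⟪p x, b⟫ * (⟪p x, a⟫ * ⟪c, p x⟫ + ⟪p x, c⟫ * ⟪a, p x⟫)
          - ⟪n x, b⟫ * (⟪p x, a⟫ * ⟪c, n x⟫ + ⟪p x, c⟫ * ⟪a, n x⟫)) ∂μ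
        = ⟪c, b⟫ * (∫ x, ⟪p x, a⟫ ∂μ) + ⟪a, b⟫ * (∫ x, ⟪p x, c⟫ ∂μ)
          - 2 * (∫ x, ⟪p x, a⟫ * ⟪p x, b⟫ * ⟪p x, c⟫ ∂μ)
          - (∫ x, ⟪n x, a⟫ * ⟪n x, b⟫ * ⟪p x, c⟫ ∂μ)
          - ∫ x, ⟪n x, c⟫ * ⟪n x, b⟫ * ⟪p x, a⟫ ∂μ := by
      rw [← integral_const_mul, ← integral_const_mul, ← integral_const_mul,
        ← integral_add (int_of_cont (by fun_prop)) (int_of_cont (by fun_prop)),
        ← integral_sub (int_of_cont (by fun_prop)) (int_of_cont (by fun_prop)),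
        ← integral_sub (int_of_cont (by fun_prop)) (int_of_cont (by fun_prop)),
        ← integral_sub (int_of_cont (by fun_prop)) (int_of_cont (by fun_prop))]
      refine integral_congr_ae (Filter.Eventually.of_forall fun x => ?_)
      simp only
      rw [real_inner_comm (p x) c, real_inner_comm (n x) c, real_inner_comm (p x) a,
        real_inner_comm (n x) a]
      ring
    have e2 : ∫ x, ⟪p x, b⟫ * (⟪p x, a⟫ * ⟪p x, c⟫) ∂μ
        = ∫ x, ⟪p x, a⟫ * ⟪p x, b⟫ * ⟪p x, c⟫ ∂μ := by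
      refine integral_congr_ae (Filter.Eventually.of_forall fun x => ?_)
      simp only
      ring
    rw [e1, e2, ha, hc] at h1
    linarith
  have s1 : ∀ a b c : E, ∫ x, ⟪p x, a⟫ * ⟪p x, b⟫ * ⟪p x, c⟫ ∂μ
      = ∫ x, ⟪p x, b⟫ * ⟪p x, a⟫ * ⟪p x, c⟫ ∂μ := by
    intro a b c
    refine integral_congr_ae (Filter.Eventually.of_forall fun x => ?_)
    simp only
    ring
  have s2 : ∀ a b c : E, ∫ x, ⟪n x, a⟫ * ⟪n x, b⟫ * ⟪p x, c⟫ ∂μ
      = ∫ x, ⟪n x, b⟫ * ⟪n x, a⟫ * ⟪p x, c⟫ ∂μ := by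
    intro a b c
    refine integral_congr_ae (Filter.Eventually.of_forall fun x => ?_)
    simp only
    ring
  have k1 := key a b c
  have k2 := key b a c
  have k3 := key a c b
  have t1 := s1 a b c
  have t2 := s2 a b c
  have t3 := s2 c b a
  have t4 := s2 c a b
  have t5 : ∫ x, ⟪p x, a⟫ * ⟪p x, c⟫ * ⟪p x, b⟫ ∂μ
      = ∫ x, ⟪p x, a⟫ * ⟪p x, b⟫ * ⟪p x, c⟫ ∂μ := by
    refine integral_congr_ae (Filter.Eventually.of_forall fun x => ?_)
    simp only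
    ring
  rw [t5] at k3
  rw [← t1] at k2
  linarith

end

end Vale.Agent.P224.R2.H470
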