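import Vale.Agent.P224.SM2.Anti

/-!
A minorant of the defect by one point quantities: pointwise part.
-/

namespace Vale.Agent.P224.R2.H470

open Set Function Vale.Agent.P224.SM2

/-- the radial profile of the coefficient of (p - t)² -/
noncomputable def Fp (m : ℕ) (T A B s : ℝ) : ℝ := A * ker T (m + 1) s - B * ker T (m + 2) s

/-- its slope -/
noncomputable def Fp' (m : ℕ) (T A B s : ℝ) : ℝ :=
  T * (A * (m + 1) * ker T (m + 2) s - B * (m + 2) * ker T (m + 3) s)

lemma one_sub_pos_Ts {T s : ℝ} (h0 : 0 ≤ T) (h1 : T < 1) (hs : s ≤ 1) : 0 < 1 - T * s := by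
  have := mul_le_mul_of_nonneg_left hs h0
  linarith

lemma hasDerivAt_Fp {m : ℕ} {T A B s : ℝ} (h : 1 - T * s ≠ 0) :
    HasDerivAt (Fp m T A B) (Fp' m T A B s) s := by
  have h1 := (hasDerivAt_ker (q := m + 1) h).const_mul A
  have h2 := (hasDerivAt_ker (q := m + 2) h).const_mul B
  refine (h1.sub h2).congr_deriv ?_
  unfold Fp'
  push_cast
  ring

lemma hasDerivAt_Fp' {m : ℕ} {T A B s : ℝ} (h : 1 - T * s ≠ 0) :
    HasDerivAt (Fp' m T A B) ((m + 2) * T ^ 2 * ker T (m + 4) s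
      * ((m + 1) * A * (1 - T * s) - (m + 3) * B)) s := by
  have h1 := (hasDerivAt_ker (q := m + 2) h).const_mul (A * (m + 1))
  have h2 := (hasDerivAt_ker (q := m + 3) h).const_mul (B * (m + 2))
  refine ((h1.sub h2).const_mul T).congr_deriv ?_
  have h3 : ker T (m + 3) s = ker T (m + 4) s * (1 - T * s) := by
    unfold ker
    rw [pow_succ (1 - T * s) (m + 3)]
    field_simp
  have h4 : ker T (m + 2 + 1) s = ker T (m + 3) s := rfl
  have h5 : ker T (m + 3 + 1) s = ker T (m + 4) s := rfl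
  rw [h4, h5, h3]
  push_cast
  ring

/-- the tangent line -/
theorem Fp_ge {m : ℕ} {T A B s s0 : ℝ} (h0 : 0 ≤ T) (h1 : T < 1) (hA : 0 ≤ A)
    (hAB : (m + 3) * B ≤ (m + 1) * A * (1 - T)) (hs : s ∈ Icc (-1 : ℝ) 1)
    (hs0 : s0 ∈ Icc (-1 : ℝ) 1) : Fp m T A B s0 + Fp' m T A B s0 * (s - s0) ≤ Fp m T A B s := by
  have hv : ∀ u ∈ Icc (-1 : ℝ) 1, 0 < 1 - T * u := fun u hu => one_sub_pos_Ts h0 h1 hu.2
  have hmono : MonotoneOn (Fp' m T A B) (Icc (-1 : ℝ) 1) := by
    refine monotoneOn_of_deriv_nonneg (convex_Icc _ _) ?_ ?_ ?_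
    · exact fun u hu => (hasDerivAt_Fp' (hv u hu).ne').continuousAt.continuousWithinAt
    · intro u hu
      exact (hasDerivAt_Fp' (hv u (interior_subset hu)).ne').differentiableAt.differentiableWithinAt
    · intro u hu
      have hu' := interior_subset hu
      rw [(hasDerivAt_Fp' (hv u hu').ne').deriv]
      have hk : 0 ≤ ker T (m + 4) u := by
        unfold ker
        exact inv_nonneg.2 (pow_nonneg (hv u hu').le _)
      have h2 : (m + 1) * A * (1 - T) ≤ (m + 1) * A * (1 - T * u) := by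
        have h3 : T * u ≤ T * 1 := mul_le_mul_of_nonneg_left hu'.2 h0
        exact mul_le_mul_of_nonneg_left (by linarith) (by positivity)
      exact mul_nonneg (by positivity) (by linarith)
  rcases lt_trichotomy s s0 with h | h | h
  · obtain ⟨ξ, hξ, he⟩ := exists_hasDerivAt_eq_slope (Fp m T A B) (Fp' m T A B) h
      (fun u hu => (hasDerivAt_Fp (hv u ⟨hs.1.trans hu.1, hu.2.trans hs0.2⟩).ne').continuousAt.continuousWithinAt)
      (fun u hu => hasDerivAt_Fp (hv u ⟨hs.1.trans hu.1.le, hu.2.le.trans hs0.2⟩).ne')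
    have h4 := hmono ⟨hs.1.trans hξ.1.le, hξ.2.le.trans hs0.2⟩ hs0 hξ.2.le
    rw [he, div_le_iff₀ (by linarith)] at h4
    linarith
  · rw [h]; simp
  · obtain ⟨ξ, hξ, he⟩ := exists_hasDerivAt_eq_slope (Fp m T A B) (Fp' m T A B) h
      (fun u hu => (hasDerivAt_Fp (hv u ⟨hs0.1.trans hu.1, hu.2.trans hs.2⟩).ne').continuousAt.continuousWithinAt)
      (fun u hu => hasDerivAt_Fp (hv u ⟨hs0.1.trans hu.1.le, hu.2.le.trans hs.2⟩).ne')
    have h4 := hmono hs0 ⟨hs0.1.trans hξ.1.le, hξ.2.le.trans hs.2⟩ hξ.1.le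
    rw [he, le_div_iff₀ (by linarith)] at h4
    linarith

/-- the coefficient of the tail -/
noncomputable def gT (m : ℕ) (T r : ℝ) : ℝ := (m + 1) * (m + 2) * T ^ 2 * r / (m * (1 - T ^ 2))

/-- the constants of the tangent line -/
noncomputable def At (m : ℕ) (T y r L : ℝ) : ℝ := T * y + m * r - gT m T r * L
noncomputable def Bt (m : ℕ) (T e r : ℝ) : ℝ := (m + 1) * T * (2 * (1 - T) * r - e)

/-- the excess over the threshold -/
noncomputable def exc (m : ℕ) (T L p t v : ℝ) : ℝ := max (-(m * (1 - T ^ 2) * (p * t) / v ^ 2) - L) 0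

/-- the pointwise minorant of the defect -/
theorem FF_ge {m : ℕ} (hm : 1 ≤ m) {T y e r s t p c L s0 : ℝ} (h0 : 0 < T) (h1 : T < 1)
    (hr : 0 ≤ r) (her : e ≤ 2 * r) (hs : s ∈ Icc (-1 : ℝ) 1) (hc : -1 ≤ c)
    (hs0 : s0 ∈ Icc (-1 : ℝ) 1) (hA : 0 ≤ At m T y r L)
    (hAB : (m + 3) * Bt m T e r ≤ (m + 1) * At m T y r L * (1 - T)) :
    m * e * ker T (m + 1) s * (c - s) ^ 2
      + m * (p - t) ^ 2 / 2 * (Fp m T (At m T y r L) (Bt m T e r) s0
        + Fp' m T (At m T y r L) (Bt m T e r) s0 * (s - s0))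
      - m * (p - t) ^ 2 / 2 * (gT m T r * exc m T L p t (1 - T * s) * ker T (m + 1) s)
      ≤ FF m T y e r s t p c (1 - T * s) (ker T m s) := by
  have hm0 : (0 : ℝ) < m := by exact_mod_cast hm
  have hv : 0 < 1 - T * s := one_sub_pos_Ts h0.le h1 hs.2
  have hk : 0 < 1 - T ^ 2 := by nlinarith
  have hg : 0 ≤ gT m T r := by unfold gT; positivity
  have hK1 : 0 < ker T (m + 1) s := by
    unfold ker
    exact inv_pos.2 (pow_pos hv _)
  have hK2 : 0 < ker T (m + 2) s := by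
    unfold ker
    exact inv_pos.2 (pow_pos hv _)
  have e1 : ker T m s / (1 - T * s) = ker T (m + 1) s := by
    unfold ker
    rw [pow_succ]
    field_simp
  have e2 : ker T m s / (1 - T * s) ^ 2 = ker T (m + 2) s := by
    unfold ker
    rw [pow_add]
    field_simp
  have e3 : ker T m s / (1 - T * s) ^ 3 = ker T (m + 1) s / (1 - T * s) ^ 2 := by
    rw [← e1, div_div]
    congr 1
    ring
  have ht := Fp_ge (m := m) (A := At m T y r L) (B := Bt m T e r) h0.le h1 hA hAB hs hs0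
  set K1 := ker T (m + 1) s with hK1d
  set K2 := ker T (m + 2) s with hK2d
  set v := 1 - T * s with hvd
  set X := exc m T L p t v with hX
  have hX1 : -(m * (1 - T ^ 2) * (p * t) / v ^ 2) ≤ L + X := by
    have := le_max_left (-(m * (1 - T ^ 2) * (p * t) / v ^ 2) - L) 0
    have e : X = max (-(m * (1 - T ^ 2) * (p * t) / v ^ 2) - L) 0 := rfl
    linarith
  -- the bracket
  have hbr : At m T y r L * K1 - Bt m T e r * K2 - gT m T r * X * K1
      ≤ (T * y + m * r) * K1 + (m + 1) * (2 * T ^ 2 * r + c * (T * (2 * r - e))) * K2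
        + (m + 1) * (m + 2) * T ^ 2 * r * (p * t) * (K1 / v ^ 2) := by
    have a1 : (m + 1) * (m + 2) * T ^ 2 * r * (p * t) * (K1 / v ^ 2)
        = - (gT m T r * -(m * (1 - T ^ 2) * (p * t) / v ^ 2) * K1) := by
      unfold gT
      field_simp
    have a2 : gT m T r * -(m * (1 - T ^ 2) * (p * t) / v ^ 2) * K1 ≤ gT m T r * (L + X) * K1 :=
      mul_le_mul_of_nonneg_right (mul_le_mul_of_nonneg_left hX1 hg) hK1.le
    have a3 : -(T * (2 * r - e)) ≤ c * (T * (2 * r - e)) := by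
      have : 0 ≤ T * (2 * r - e) := mul_nonneg h0.le (by linarith)
      nlinarith
    have a4 : (m + 1) * (2 * T ^ 2 * r + -(T * (2 * r - e))) * K2
        ≤ (m + 1) * (2 * T ^ 2 * r + c * (T * (2 * r - e))) * K2 := by
      gcongr
    rw [a1]
    have a5 : At m T y r L * K1 - Bt m T e r * K2 - gT m T r * X * K1
        = (T * y + m * r) * K1 + (m + 1) * (2 * T ^ 2 * r + -(T * (2 * r - e))) * K2
          - gT m T r * (L + X) * K1 := by
      unfold At Bt
      ring
    rw [a5]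
    linarith
  have hFF : FF m T y e r s t p c v (ker T m s) = m * e * K1 * (c - s) ^ 2
      + m * (p - t) ^ 2 / 2 * ((T * y + m * r) * K1
        + (m + 1) * (2 * T ^ 2 * r + c * (T * (2 * r - e))) * K2
        + (m + 1) * (m + 2) * T ^ 2 * r * (p * t) * (K1 / v ^ 2)) := by
    unfold FF
    rw [e1, e2, e3]
    ring
  rw [hFF]
  have hpt : 0 ≤ m * (p - t) ^ 2 / 2 := by positivity
  set q : ℝ := m * (p - t) ^ 2 / 2 with hq
  set br : ℝ := (T * y + m * r) * K1 + (m + 1) * (2 * T ^ 2 * r + c * (T * (2 * r - e))) * K2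
        + (m + 1) * (m + 2) * T ^ 2 * r * (p * t) * (K1 / v ^ 2) with hbrd
  set F0 : ℝ := Fp m T (At m T y r L) (Bt m T e r) s0
        + Fp' m T (At m T y r L) (Bt m T e r) s0 * (s - s0) with hF0
  have b3 : Fp m T (At m T y r L) (Bt m T e r) s = At m T y r L * K1 - Bt m T e r * K2 := rfl
  rw [b3] at ht
  have b4 : F0 - gT m T r * X * K1 ≤ br := by linarith
  have b5 := mul_le_mul_of_nonneg_left b4 hpt
  have b6 : q * (F0 - gT m T r * X * K1) = q * F0 - q * (gT m T r * X * K1) := by ring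
  rw [b6] at b5
  linarith

end Vale.Agent.P224.R2.H470
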