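import Mathlib

/-!
Uniform expansions of the kernels in the level.
-/

namespace Vale.Agent.P224.R2.H470

open Set Real

/-- negative powers to the second order -/
lemma inv_pow_exp (q : ℕ) : ∃ C : ℝ, 0 ≤ C ∧ ∀ x : ℝ, |x| ≤ 1 / 2 →
    |((1 - x) ^ q)⁻¹ - (1 + q * x + q * (q + 1) / 2 * x ^ 2)| ≤ C * |x| ^ 3 := by
  induction q with
  | zero =>
    refine ⟨0, le_rfl, fun x _ => ?_⟩
    simp
  | succ q ih =>
    obtain ⟨C, hC, h⟩ := ih
    refine ⟨2 * (C + (q + 1) * (q + 2) / 2), by positivity, fun x hx => ?_⟩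
    have hx1 : 1 / 2 ≤ 1 - x := by linarith [(abs_le.1 hx).2]
    have hx0 : 0 < 1 - x := by linarith
    have e : ((1 - x) ^ (q + 1))⁻¹ - (1 + ((q + 1 : ℕ) : ℝ) * x
        + ((q + 1 : ℕ) : ℝ) * (((q + 1 : ℕ) : ℝ) + 1) / 2 * x ^ 2)
        = (1 - x)⁻¹ * ((((1 - x) ^ q)⁻¹ - (1 + q * x + q * (q + 1) / 2 * x ^ 2))
          + (q + 1) * (q + 2) / 2 * x ^ 3) := by
      rw [pow_succ, mul_inv]
      push_cast
      field_simp
      ring
    rw [e, abs_mul, abs_inv, abs_of_pos hx0]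
    have h1 : (1 - x)⁻¹ ≤ 2 := by
      rw [inv_le_comm₀ hx0 two_pos]
      linarith
    have h2 : |(((1 - x) ^ q)⁻¹ - (1 + q * x + q * (q + 1) / 2 * x ^ 2))
          + (q + 1) * (q + 2) / 2 * x ^ 3| ≤ C * |x| ^ 3 + (q + 1) * (q + 2) / 2 * |x| ^ 3 := by
      refine (abs_add_le _ _).trans (add_le_add (h x hx) (le_of_eq ?_))
      rw [abs_mul, abs_pow, abs_of_nonneg (by positivity : (0 : ℝ) ≤ (q + 1) * (q + 2) / 2)]
    calc (1 - x)⁻¹ * |(((1 - x) ^ q)⁻¹ - (1 + q * x + q * (q + 1) / 2 * x ^ 2))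
          + (q + 1) * (q + 2) / 2 * x ^ 3|
        ≤ 2 * (C * |x| ^ 3 + (q + 1) * (q + 2) / 2 * |x| ^ 3) :=
          mul_le_mul h1 h2 (abs_nonneg _) (by norm_num)
      _ = _ := by ring

/-- real powers to the first order -/
lemma rpow_exp (r : ℝ) : ∃ C : ℝ, 0 ≤ C ∧ ∀ y : ℝ, 0 ≤ y → y ≤ 1 / 2 →
    |(1 - y) ^ r - (1 - r * y)| ≤ C * y ^ 2 := by
  have hx : ∃ C : ℝ, 0 ≤ C ∧ ∀ y ∈ Icc (0 : ℝ) (1 / 2), |(1 - y) ^ (r - 2)| ≤ C := by
    have hc : ContinuousOn (fun y : ℝ => (1 - y) ^ (r - 2)) (Icc 0 (1 / 2)) := by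
      refine ContinuousOn.rpow_const (by fun_prop) fun y hy => Or.inl ?_
      have := hy.2
      linarith
    obtain ⟨C, hC⟩ := isCompact_Icc.exists_bound_of_continuousOn hc
    refine ⟨max C 0, le_max_right _ _, fun y hy => ?_⟩
    have := hC y hy
    rw [Real.norm_eq_abs] at this
    exact this.trans (le_max_left _ _)
  obtain ⟨D, hD, hb⟩ := hx
  set B : ℝ := |r * (r - 1)| * D with hB
  have hB0 : 0 ≤ B := by positivity
  refine ⟨B, hB0, fun y hy0 hy1 => ?_⟩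
  have hd1 : ∀ t ∈ Icc (0 : ℝ) (1 / 2), HasDerivAt (fun y => (1 - y) ^ r)
      (-(r * (1 - t) ^ (r - 1))) t := by
    intro t ht
    have h1 : HasDerivAt (fun y : ℝ => 1 - y) (-1) t := by
      simpa using (hasDerivAt_id t).const_sub 1
    have h2 := h1.rpow_const (p := r) (Or.inl (by have := ht.2; linarith))
    refine h2.congr_deriv ?_
    ring
  have hd2 : ∀ t ∈ Icc (0 : ℝ) (1 / 2), HasDerivAt (fun y => -(r * (1 - y) ^ (r - 1)))
      (r * (r - 1) * (1 - t) ^ (r - 2)) t := by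
    intro t ht
    have h1 : HasDerivAt (fun y : ℝ => 1 - y) (-1) t := by
      simpa using (hasDerivAt_id t).const_sub 1
    have h2 := (h1.rpow_const (p := r - 1) (Or.inl (by have := ht.2; linarith))).const_mul (-r)
    have e : (fun y : ℝ => -(r * (1 - y) ^ (r - 1))) = fun y => -r * (1 - y) ^ (r - 1) := by
      funext y
      ring
    rw [e]
    refine h2.congr_deriv ?_
    have e2 : r - 1 - 1 = r - 2 := by ring
    rw [e2]
    ring
  have hs1 : ∀ t ∈ Icc (0 : ℝ) (1 / 2), |-(r * (1 - t) ^ (r - 1)) - -(r * (1 - 0) ^ (r - 1))|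
      ≤ B * t := by
    intro t ht
    have h3 := Convex.norm_image_sub_le_of_norm_hasDerivWithin_le
      (f := fun y : ℝ => -(r * (1 - y) ^ (r - 1))) (s := Icc (0 : ℝ) (1 / 2)) (x := 0) (y := t)
      (C := B) (fun u hu => (hd2 u hu).hasDerivWithinAt) (fun u hu => by
        rw [Real.norm_eq_abs, abs_mul]
        exact mul_le_mul_of_nonneg_left (hb u hu) (abs_nonneg _)) (convex_Icc _ _)
      ⟨le_rfl, by norm_num⟩ ht
    rw [Real.norm_eq_abs, Real.norm_eq_abs, sub_zero t, abs_of_nonneg ht.1] at h3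
    exact h3
  have h4 := Convex.norm_image_sub_le_of_norm_hasDerivWithin_le
    (f := fun t : ℝ => (1 - t) ^ r - (1 - r * t))
    (f' := fun t : ℝ => -(r * (1 - t) ^ (r - 1)) + r) (s := Icc (0 : ℝ) y) (x := 0) (y := y)
    (C := B * y) (fun u hu => by
      have h5 := (hd1 u ⟨hu.1, hu.2.trans hy1⟩).sub
        (((hasDerivAt_id u).const_mul r).const_sub 1)
      refine h5.hasDerivWithinAt.congr_deriv ?_
      ring) (fun u hu => by
      have h6 := hs1 u ⟨hu.1, hu.2.trans hy1⟩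
      rw [sub_zero, Real.one_rpow, mul_one, sub_neg_eq_add] at h6
      rw [Real.norm_eq_abs]
      exact h6.trans (mul_le_mul_of_nonneg_left hu.2 hB0)) (convex_Icc _ _)
    ⟨le_rfl, hy0⟩ ⟨hy0, le_rfl⟩
  rw [Real.norm_eq_abs, Real.norm_eq_abs, sub_zero y, abs_of_nonneg hy0] at h4
  simp only [sub_zero, Real.one_rpow, mul_zero, sub_self] at h4
  refine h4.trans (le_of_eq ?_)
  ring

/-- the kernel to the second order in the level -/
theorem ker_exp (q : ℕ) (r : ℝ) : ∃ C : ℝ, 0 ≤ C ∧ ∀ T s : ℝ, 0 ≤ T → T ≤ 1 / 2 → |s| ≤ 1 →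
    |(1 - T ^ 2) ^ r * ((1 - T * s) ^ q)⁻¹
      - (1 + q * s * T + (q * (q + 1) / 2 * s ^ 2 - r) * T ^ 2)| ≤ C * T ^ 3 := by
  obtain ⟨C1, h10, h1⟩ := inv_pow_exp q
  obtain ⟨C2, h20, h2⟩ := rpow_exp r
  set c2 : ℝ := q * (q + 1) / 2 with hc2
  have hc20 : 0 ≤ c2 := by positivity
  refine ⟨C1 * (1 + C2 + |r|) + (|r| * q + |r| * c2 + C2 * (1 + q + c2)), by positivity,
    fun T s hT hT1 hs => ?_⟩
  have hTs : |T * s| ≤ T := by
    rw [abs_mul, abs_of_nonneg hT]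
    exact (mul_le_mul_of_nonneg_left hs hT).trans (by rw [mul_one])
  have a1 := h1 (T * s) (hTs.trans hT1)
  have a2 := h2 (T ^ 2) (by positivity) (by nlinarith)
  have b1 : |((1 - T * s) ^ q)⁻¹ - (1 + q * (T * s) + c2 * (T * s) ^ 2)| ≤ C1 * T ^ 3 := by
    refine a1.trans (mul_le_mul_of_nonneg_left ?_ h10)
    exact pow_le_pow_left₀ (abs_nonneg _) hTs 3
  set P : ℝ := 1 + q * (T * s) + c2 * (T * s) ^ 2 with hP
  set Q : ℝ := ((1 - T * s) ^ q)⁻¹ with hQ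
  set W : ℝ := (1 - T ^ 2) ^ r with hW
  have hT2 : T ^ 2 ≤ 1 := by nlinarith
  have hT4 : T ^ 2 * T ^ 2 ≤ T ^ 3 := by nlinarith [pow_nonneg hT 3]
  have hW1 : |W| ≤ 1 + C2 + |r| := by
    have : W = (W - (1 - r * T ^ 2)) + (1 - r * T ^ 2) := by ring
    rw [this]
    refine (abs_add_le _ _).trans ?_
    have e1 : |1 - r * T ^ 2| ≤ 1 + |r| := by
      refine (abs_sub _ _).trans ?_
      rw [abs_one, abs_mul, abs_of_nonneg (by positivity : 0 ≤ T ^ 2)]
      have := mul_le_mul_of_nonneg_left hT2 (abs_nonneg r)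
      linarith
    have e2 : C2 * (T ^ 2) ^ 2 ≤ C2 := by
      have : (T ^ 2) ^ 2 ≤ 1 := pow_le_one₀ (by positivity) hT2
      nlinarith
    linarith
  have hP1 : |P| ≤ 1 + q + c2 := by
    rw [hP]
    refine (abs_add_le _ _).trans (add_le_add ((abs_add_le _ _).trans ?_) ?_)
    · rw [abs_one, abs_mul, abs_of_nonneg (by positivity : (0 : ℝ) ≤ q)]
      have : |T * s| ≤ 1 := hTs.trans (by linarith)
      have := mul_le_mul_of_nonneg_left this (by positivity : (0 : ℝ) ≤ q)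
      linarith
    · rw [abs_mul, abs_of_nonneg hc20, abs_pow]
      have : |T * s| ^ 2 ≤ 1 := pow_le_one₀ (abs_nonneg _) (hTs.trans (by linarith))
      have := mul_le_mul_of_nonneg_left this hc20
      linarith
  have e : W * Q - (1 + q * s * T + (c2 * s ^ 2 - r) * T ^ 2)
      = W * (Q - P) + (W - (1 - r * T ^ 2)) * P + (- r * T ^ 2 * (q * (T * s) + c2 * (T * s) ^ 2)) := by
    rw [hP]
    ring
  rw [e]
  refine (abs_add_le _ _).trans ?_
  refine (add_le_add (abs_add_le _ _) le_rfl).trans ?_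
  have f1 : |W * (Q - P)| ≤ (1 + C2 + |r|) * (C1 * T ^ 3) := by
    rw [abs_mul]
    exact mul_le_mul hW1 b1 (abs_nonneg _) (by positivity)
  have f2 : |(W - (1 - r * T ^ 2)) * P| ≤ C2 * T ^ 3 * (1 + q + c2) := by
    rw [abs_mul]
    refine mul_le_mul (a2.trans ?_) hP1 (abs_nonneg _) (by positivity)
    refine mul_le_mul_of_nonneg_left ?_ h20
    calc (T ^ 2) ^ 2 = T ^ 2 * T ^ 2 := by ring
      _ ≤ T ^ 3 := hT4
  have f3 : |- r * T ^ 2 * (q * (T * s) + c2 * (T * s) ^ 2)| ≤ |r| * T ^ 2 * (q * T + c2 * T) := by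
    rw [abs_mul, abs_mul, abs_neg, abs_of_nonneg (by positivity : 0 ≤ T ^ 2)]
    refine mul_le_mul_of_nonneg_left ?_ (by positivity)
    refine (abs_add_le _ _).trans (add_le_add ?_ ?_)
    · rw [abs_mul, abs_of_nonneg (by positivity : (0 : ℝ) ≤ q)]
      exact mul_le_mul_of_nonneg_left hTs (by positivity)
    · rw [abs_mul, abs_of_nonneg hc20, abs_pow]
      refine mul_le_mul_of_nonneg_left ?_ hc20
      calc |T * s| ^ 2 ≤ T ^ 2 := pow_le_pow_left₀ (abs_nonneg _) hTs 2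
        _ ≤ T := by nlinarith
  have f4 : |r| * T ^ 2 * (q * T + c2 * T) = (|r| * q + |r| * c2) * T ^ 3 := by ring
  rw [f4] at f3
  calc |W * (Q - P)| + |(W - (1 - r * T ^ 2)) * P|
        + |- r * T ^ 2 * (q * (T * s) + c2 * (T * s) ^ 2)|
      ≤ (1 + C2 + |r|) * (C1 * T ^ 3) + C2 * T ^ 3 * (1 + q + c2)
        + (|r| * q + |r| * c2) * T ^ 3 := add_le_add (add_le_add f1 f2) f3
    _ = _ := by ring

end Vale.Agent.P224.R2.H470
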