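import Vale.Agent.P224.R2.H470.SMix
import Vale.Agent.P224.R2.H728.T0
import Vale.Agent.P224.R2.H470.Tay

/-!
Kernel forms on the sphere and their expansion in the level.
-/

namespace Vale.Agent.P224.R2.H470

open MeasureTheory Set Filter Function Real Module Vale.Agent.P224.R2.H728
open scoped Topology RealInnerProductSpace

set_option linter.unusedSectionVars false

section

variable {V : Type*} [NormedAddCommGroup V] [InnerProductSpace ℝ V] [FiniteDimensional ℝ V]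
  [MeasurableSpace V] [BorelSpace V] {Ω : Type*} [MeasurableSpace Ω]

lemma _root_.Vale.Agent.P224.R2.H728.BM.smul {F : Ω → ℝ} (hF : BM F) (c : ℝ) :
    BM fun x => c * F x := hF.const_mul c

/-- kernels bounded on the interval of cosines -/
def BK (κ : ℝ → ℝ) : Prop := Measurable κ ∧ ∃ D, ∀ s ∈ Icc (-1 : ℝ) 1, |κ s| ≤ D

lemma BK.add {κ κ' : ℝ → ℝ} (h : BK κ) (h' : BK κ') : BK fun s => κ s + κ' s := by
  obtain ⟨h1, C, hC⟩ := h
  obtain ⟨h2, D, hD⟩ := h'
  exact ⟨h1.add h2, C + D, fun s hs => (abs_add_le _ _).trans (add_le_add (hC s hs) (hD s hs))⟩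

lemma BK.smul {κ : ℝ → ℝ} (h : BK κ) (c : ℝ) : BK fun s => c * κ s := by
  obtain ⟨h1, C, hC⟩ := h
  refine ⟨h1.const_mul c, |c| * C, fun s hs => ?_⟩
  rw [abs_mul]
  exact mul_le_mul_of_nonneg_left (hC s hs) (abs_nonneg _)

lemma BK.sub {κ κ' : ℝ → ℝ} (h : BK κ) (h' : BK κ') : BK fun s => κ s - κ' s := by
  obtain ⟨h1, C, hC⟩ := h
  obtain ⟨h2, D, hD⟩ := h'
  exact ⟨h1.sub h2, C + D, fun s hs => (abs_sub _ _).trans (add_le_add (hC s hs) (hD s hs))⟩

lemma BK.of_cont {κ : ℝ → ℝ} (h : Continuous κ) : BK κ := by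
  refine ⟨h.measurable, ?_⟩
  obtain ⟨C, hC⟩ := isCompact_Icc.exists_bound_of_continuousOn (h.continuousOn (s := Icc (-1 : ℝ) 1))
  exact ⟨C, fun s hs => by have := hC s hs; rwa [Real.norm_eq_abs] at this⟩

lemma BK.sum {n : ℕ} {κ : ℕ → ℝ → ℝ} (h : ∀ i, BK (κ i)) :
    BK fun s => ∑ i ∈ Finset.range n, κ i s := by
  induction n with
  | zero => simpa using BK.of_cont (κ := fun _ => 0) continuous_const
  | succ n ih => simpa only [Finset.sum_range_succ] using ih.add (h n)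

lemma BK_sk (m q : ℕ) {T : ℝ} (h0 : 0 ≤ T) (h1 : T < 1) : BK (sk m q T) := by
  have hk : 0 < 1 - T ^ 2 := by nlinarith
  refine ⟨?_, (1 - T ^ 2) ^ ((q : ℝ) - m / 2 - 1) * ((1 - T) ^ q)⁻¹, fun s hs => ?_⟩
  · unfold sk
    fun_prop
  · have hv : 1 - T ≤ 1 - T * s := by
      have := mul_le_mul_of_nonneg_left hs.2 h0
      linarith
    have h2 : 0 < 1 - T := by linarith
    unfold sk
    rw [abs_of_nonneg (mul_nonneg (Real.rpow_nonneg hk.le _)
      (inv_nonneg.2 (pow_nonneg (h2.le.trans hv) _)))]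
    refine mul_le_mul_of_nonneg_left ?_ (Real.rpow_nonneg hk.le _)
    exact inv_anti₀ (pow_pos h2 _) (pow_le_pow_left₀ h2.le hv _)

/-- the kernel form -/
noncomputable def KF (κ : ℝ → ℝ) (μ : Measure Ω) (p : Ω → V) (F G : Ω → ℝ) : ℝ :=
  ∫ u : Ω × Ω, κ ⟪p u.1, p u.2⟫ * (F u.1 * G u.2) ∂(μ.prod μ)

variable {μ : Measure Ω} [IsFiniteMeasure μ] {p : Ω → V} {F G F' G' : Ω → ℝ} {κ κ' : ℝ → ℝ}

lemma cos_mem (hp1 : ∀ x, ‖p x‖ = 1) (u : Ω × Ω) : (⟪p u.1, p u.2⟫ : ℝ) ∈ Icc (-1 : ℝ) 1 := by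
  have h := abs_real_inner_le_norm (p u.1) (p u.2)
  rw [hp1, hp1, one_mul] at h
  exact abs_le.1 h

lemma KF_int (hp : Measurable p) (hp1 : ∀ x, ‖p x‖ = 1) (hκ : BK κ) (hF : BM F) (hG : BM G) :
    Integrable (fun u : Ω × Ω => κ ⟪p u.1, p u.2⟫ * (F u.1 * G u.2)) (μ.prod μ) := by
  obtain ⟨k1, D, hD⟩ := hκ
  obtain ⟨f1, A, hA⟩ := hF
  obtain ⟨g1, B, hB⟩ := hG
  have c1 : Measurable (fun u : Ω × Ω => (⟪p u.1, p u.2⟫ : ℝ)) :=
    (hp.comp measurable_fst).inner (𝕜 := ℝ) (hp.comp measurable_snd)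
  have c2 : Measurable (fun u : Ω × Ω => κ ⟪p u.1, p u.2⟫ * (F u.1 * G u.2)) :=
    (k1.comp c1).mul ((f1.comp measurable_fst).mul (g1.comp measurable_snd))
  refine Integrable.mono' (integrable_const (D * (A * B))) c2.aestronglyMeasurable
    (Eventually.of_forall fun u => ?_)
  rw [Real.norm_eq_abs, abs_mul, abs_mul]
  have h1 := hD _ (cos_mem hp1 u)
  exact mul_le_mul h1 (mul_le_mul (hA _) (hB _) (abs_nonneg _) ((abs_nonneg _).trans (hA u.1)))
    (by positivity) ((abs_nonneg _).trans h1)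

lemma KF_add_left (hp : Measurable p) (hp1 : ∀ x, ‖p x‖ = 1) (hκ : BK κ) (hF : BM F) (hF' : BM F')
    (hG : BM G) : KF κ μ p (fun x => F x + F' x) G = KF κ μ p F G + KF κ μ p F' G := by
  unfold KF
  rw [← integral_add (KF_int hp hp1 hκ hF hG) (KF_int hp hp1 hκ hF' hG)]
  refine integral_congr_ae (Eventually.of_forall fun u => ?_)
  simp only
  ring

lemma KF_smul_left (c : ℝ) : KF κ μ p (fun x => c * F x) G = c * KF κ μ p F G := by
  unfold KF
  rw [← integral_const_mul]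
  refine integral_congr_ae (Eventually.of_forall fun u => ?_)
  simp only
  ring

lemma KF_symm : KF κ μ p F G = KF κ μ p G F := by
  unfold KF
  have h := integral_prod_swap (μ := μ) (ν := μ)
    (fun u : Ω × Ω => κ ⟪p u.1, p u.2⟫ * (F u.1 * G u.2))
  rw [← h]
  refine integral_congr_ae (Eventually.of_forall fun u => ?_)
  simp only [Prod.fst_swap, Prod.snd_swap]
  rw [real_inner_comm]
  ring

lemma KF_add_right (hp : Measurable p) (hp1 : ∀ x, ‖p x‖ = 1) (hκ : BK κ) (hF : BM F) (hG : BM G)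
    (hG' : BM G') : KF κ μ p F (fun x => G x + G' x) = KF κ μ p F G + KF κ μ p F G' := by
  rw [KF_symm, KF_add_left hp hp1 hκ hG hG' hF, KF_symm (F := G), KF_symm (F := G')]

lemma KF_smul_right (c : ℝ) : KF κ μ p F (fun x => c * G x) = c * KF κ μ p F G := by
  rw [KF_symm, KF_smul_left, KF_symm]

lemma KF_kadd (hp : Measurable p) (hp1 : ∀ x, ‖p x‖ = 1) (hκ : BK κ) (hκ' : BK κ') (hF : BM F)
    (hG : BM G) : KF (fun s => κ s + κ' s) μ p F G = KF κ μ p F G + KF κ' μ p F G := by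
  unfold KF
  rw [← integral_add (KF_int hp hp1 hκ hF hG) (KF_int hp hp1 hκ' hF hG)]
  refine integral_congr_ae (Eventually.of_forall fun u => ?_)
  simp only
  ring

lemma KF_ksmul (c : ℝ) : KF (fun s => c * κ s) μ p F G = c * KF κ μ p F G := by
  unfold KF
  rw [← integral_const_mul]
  refine integral_congr_ae (Eventually.of_forall fun u => ?_)
  simp only
  ring

lemma KF_ksub (hp : Measurable p) (hp1 : ∀ x, ‖p x‖ = 1) (hκ : BK κ) (hκ' : BK κ') (hF : BM F)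
    (hG : BM G) : KF (fun s => κ s - κ' s) μ p F G = KF κ μ p F G - KF κ' μ p F G := by
  unfold KF
  rw [← integral_sub (KF_int hp hp1 hκ hF hG) (KF_int hp hp1 hκ' hF hG)]
  refine integral_congr_ae (Eventually.of_forall fun u => ?_)
  simp only
  ring

lemma KF_ksum (hp : Measurable p) (hp1 : ∀ x, ‖p x‖ = 1) {n : ℕ} {κ : ℕ → ℝ → ℝ}
    (h : ∀ i, BK (κ i)) (hF : BM F) (hG : BM G) :
    KF (fun s => ∑ i ∈ Finset.range n, κ i s) μ p F G
      = ∑ i ∈ Finset.range n, KF (κ i) μ p F G := by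
  induction n with
  | zero => simp [KF]
  | succ n ih =>
    simp only [Finset.sum_range_succ]
    rw [KF_kadd hp hp1 (BK.sum h) (h n) hF hG, ih]

lemma KF_abs_le (hp1 : ∀ x, ‖p x‖ = 1) {D A B : ℝ} (hD : ∀ s ∈ Icc (-1 : ℝ) 1, |κ s| ≤ D)
    (hA : ∀ x, |F x| ≤ A) (hB : ∀ x, |G x| ≤ B) :
    |KF κ μ p F G| ≤ D * (A * B) * (μ.prod μ).real univ := by
  unfold KF
  rw [← Real.norm_eq_abs]
  refine norm_integral_le_of_norm_le_const (Eventually.of_forall fun u => ?_)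
  rw [Real.norm_eq_abs, abs_mul, abs_mul]
  have h1 := hD _ (cos_mem hp1 u)
  exact mul_le_mul h1 (mul_le_mul (hA _) (hB _) (abs_nonneg _) ((abs_nonneg _).trans (hA u.1)))
    (by positivity) ((abs_nonneg _).trans h1)

/-- positive definite kernels -/
def PD (κ : ℝ → ℝ) (μ : Measure Ω) (p : Ω → V) : Prop := ∀ F : Ω → ℝ, BM F → 0 ≤ KF κ μ p F F

lemma disc_le {a b c : ℝ} (h : ∀ t : ℝ, 0 ≤ a + 2 * t * b + t ^ 2 * c) : b ^ 2 ≤ a * c := by
  have ha : 0 ≤ a := by have := h 0; simpa using this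
  have hc : 0 ≤ c := by
    by_contra hc
    push Not at hc
    have h1 := h ((|b| + a + 1) / (-c) + 1)
    have h2 := h (-((|b| + a + 1) / (-c) + 1))
    set t := (|b| + a + 1) / (-c) + 1 with ht
    have hc' : 0 < -c := by linarith
    have ht1 : 1 ≤ t := by
      have : 0 ≤ (|b| + a + 1) / (-c) := by positivity
      linarith
    have ht2 : |b| + a + 1 ≤ t * (-c) := by
      have : (|b| + a + 1) / (-c) * (-c) = |b| + a + 1 := div_mul_cancel₀ _ hc'.ne'
      nlinarith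
    have : 0 ≤ 2 * a + 2 * t ^ 2 * c := by nlinarith
    nlinarith [abs_nonneg b]
  rcases eq_or_lt_of_le hc with h0 | h0
  · rw [← h0]
    by_contra hb
    push Not at hb
    have hb' : 0 < b ^ 2 := by simpa using hb
    have h1 := h (-(a + 1) / (2 * b))
    rw [← h0] at h1
    have hb0 : b ≠ 0 := fun h => by simp [h] at hb'
    have : a + 2 * (-(a + 1) / (2 * b)) * b + (-(a + 1) / (2 * b)) ^ 2 * 0 = -1 := by
      field_simp
      ring
    rw [this] at h1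
    linarith
  · have h1 := h (-b / c)
    have : a + 2 * (-b / c) * b + (-b / c) ^ 2 * c = a - b ^ 2 / c := by
      field_simp
      ring
    rw [this, sub_nonneg, div_le_iff₀ h0] at h1
    exact h1

/-- the Schwarz inequality for families -/
theorem PD.cs (h : PD κ μ p) (hp : Measurable p) (hp1 : ∀ x, ‖p x‖ = 1) (hκ : BK κ)
    {ι : Type*} (S : Finset ι) {F G : ι → Ω → ℝ} (hF : ∀ i, BM (F i)) (hG : ∀ i, BM (G i)) :
    (∑ i ∈ S, KF κ μ p (F i) (G i)) ^ 2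
      ≤ (∑ i ∈ S, KF κ μ p (F i) (F i)) * ∑ i ∈ S, KF κ μ p (G i) (G i) := by
  refine disc_le fun t => ?_
  have h1 : ∀ i, 0 ≤ KF κ μ p (F i) (F i) + 2 * t * KF κ μ p (F i) (G i)
      + t ^ 2 * KF κ μ p (G i) (G i) := by
    intro i
    have h2 := h _ ((hF i).add ((hG i).smul t))
    rw [KF_add_left hp hp1 hκ (hF i) ((hG i).smul t) ((hF i).add ((hG i).smul t)),
      KF_add_right hp hp1 hκ (hF i) (hF i) ((hG i).smul t),
      KF_add_right hp hp1 hκ ((hG i).smul t) (hF i) ((hG i).smul t), KF_smul_right, KF_smul_left,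
      KF_smul_left, KF_smul_right, KF_symm (F := G i) (G := F i)] at h2
    linarith
  have h3 : 0 ≤ ∑ i ∈ S, (KF κ μ p (F i) (F i) + 2 * t * KF κ μ p (F i) (G i)
      + t ^ 2 * KF κ μ p (G i) (G i)) := Finset.sum_nonneg fun i _ => h1 i
  rw [Finset.sum_add_distrib, Finset.sum_add_distrib, ← Finset.mul_sum, ← Finset.mul_sum] at h3
  exact h3

/-- the first coefficients of the kernel -/
noncomputable def ak (m q : ℕ) : ℕ → ℝ → ℝ
  | 0, _ => 1
  | 1, s => q * s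
  | 2, s => q * (q + 1) / 2 * s ^ 2 - ((q : ℝ) - m / 2 - 1)
  | _, _ => 0

lemma BK_ak (m q i : ℕ) : BK (ak m q i) := by
  match i with
  | 0 => exact BK.of_cont (by unfold ak; fun_prop)
  | 1 => exact BK.of_cont (by unfold ak; fun_prop)
  | 2 => exact BK.of_cont (by unfold ak; fun_prop)
  | (n + 3) => exact BK.of_cont (by unfold ak; fun_prop)

/-- the remainder of the kernel -/
noncomputable def rk (m q N : ℕ) (T s : ℝ) : ℝ :=
  sk m q T s - ∑ i ∈ Finset.range N, T ^ i * ak m q i s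

lemma BK_rk (m q N : ℕ) {T : ℝ} (h0 : 0 ≤ T) (h1 : T < 1) : BK (rk m q N T) := by
  unfold rk
  exact (BK_sk m q h0 h1).sub (BK.sum fun i => (BK_ak m q i).smul _)

lemma KF_rk (hp : Measurable p) (hp1 : ∀ x, ‖p x‖ = 1) (m q N : ℕ) {T : ℝ} (h0 : 0 ≤ T)
    (h1 : T < 1) (hF : BM F) (hG : BM G) : KF (rk m q N T) μ p F G
      = PT m q μ p F G T - ∑ i ∈ Finset.range N, KF (ak m q i) μ p F G * T ^ i := by
  unfold rk
  rw [KF_ksub hp hp1 (BK_sk m q h0 h1) (BK.sum fun i => (BK_ak m q i).smul _) hF hG,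
    KF_ksum hp hp1 (fun i => (BK_ak m q i).smul _) hF hG]
  congr 1
  refine Finset.sum_congr rfl fun i _ => ?_
  rw [KF_ksmul, mul_comm]

theorem PT_split3 (hp : Measurable p) (hp1 : ∀ x, ‖p x‖ = 1) (hF : BM F) {m q : ℕ} (hq : 1 ≤ q)
    (hd : finrank ℝ V = m + 2) :
    (∀ i < 3, 0 ≤ KF (ak m q i) μ p F F) ∧ ∀ {T T1 : ℝ}, 0 < T → T ≤ T1 → T1 < 1 →
      0 ≤ KF (rk m q 3 T) μ p F F ∧
      KF (rk m q 3 T) μ p F F ≤ (T / T1) ^ 3 * KF (rk m q 3 T1) μ p F F := by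
  obtain ⟨hF1, A, hA⟩ := hF
  have hA0 : ∀ x, |F x| ≤ max A 0 := fun x => (hA x).trans (le_max_left _ _)
  have hN := PT_nps (μ := μ) hp hF1 hp1 hA0 (le_max_right _ _) hq hd
  obtain ⟨C, hC, hk⟩ := ker_exp q ((q : ℝ) - m / 2 - 1)
  have hF : BM F := ⟨hF1, A, hA⟩
  have hb : ∀ T ∈ Ioo (0 : ℝ) (1 / 2), |PT m q μ p F F T
      - ∑ i ∈ Finset.range 3, KF (ak m q i) μ p F F * T ^ i|
      ≤ (C * (max A 0 * max A 0) * (μ.prod μ).real univ) * T ^ 3 := by
    intro T hT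
    have hT1 : T < 1 := by linarith [hT.2]
    rw [← KF_rk hp hp1 m q 3 hT.1.le hT1 hF hF]
    have h2 := KF_abs_le (μ := μ) (κ := rk m q 3 T) hp1 (D := C * T ^ 3) (fun s hs => ?_) hA0 hA0
    · refine h2.trans (le_of_eq ?_)
      ring
    · have h3 := hk T s hT.1.le hT.2.le (abs_le.2 hs)
      refine le_trans (le_of_eq ?_) h3
      unfold rk sk
      rw [Finset.sum_range_succ, Finset.sum_range_succ, Finset.sum_range_succ,
        Finset.sum_range_zero]
      simp only [ak]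
      congr 1
      ring
  have hs := hN.split (by norm_num : (0 : ℝ) < 1 / 2) hb
  refine ⟨hs.1, fun {T T1} h1 h2 h3 => ?_⟩
  have h4 := hs.2 h1 h2 h3
  rw [KF_rk hp hp1 m q 3 h1.le (h2.trans_lt h3) hF hF,
    KF_rk hp hp1 m q 3 (h1.le.trans h2) h3 hF hF]
  exact h4

lemma rk_succ (m q N : ℕ) (T s : ℝ) : rk m q N T s = rk m q (N + 1) T s + T ^ N * ak m q N s := by
  unfold rk
  rw [Finset.sum_range_succ]
  ring

/-- the remainders are positive definite and decay -/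
theorem PT_rk (hp : Measurable p) (hp1 : ∀ x, ‖p x‖ = 1) (hF : BM F) {m q : ℕ} (hq : 1 ≤ q)
    (hd : finrank ℝ V = m + 2) {N : ℕ} (hN : N ≤ 3) {T T1 : ℝ} (h1 : 0 < T) (h2 : T ≤ T1)
    (h3 : T1 < 1) : 0 ≤ KF (rk m q N T) μ p F F ∧
      KF (rk m q N T) μ p F F ≤ (T / T1) ^ N * KF (rk m q N T1) μ p F F := by
  obtain ⟨ha, hr⟩ := PT_split3 (μ := μ) hp hp1 hF hq hd
  have hT1 : 0 < T1 := h1.trans_le h2
  obtain ⟨j, rfl⟩ : ∃ j, N = 3 - j := ⟨3 - N, by omega⟩
  clear hN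
  induction j with
  | zero => exact hr h1 h2 h3
  | succ j ih =>
    rcases Nat.lt_or_ge 2 j with hj | hj
    · have : 3 - (j + 1) = 3 - j := by omega
      rw [this]
      exact ih
    · have h5 : 3 - j = (3 - (j + 1)) + 1 := by omega
      rw [h5] at ih
      set N := 3 - (j + 1) with hN
      have hN3 : N < 3 := by omega
      have e : ∀ {T : ℝ}, 0 ≤ T → T < 1 → KF (rk m q N T) μ p F F
          = KF (rk m q (N + 1) T) μ p F F + T ^ N * KF (ak m q N) μ p F F := by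
        intro T h0 h1
        have e1 : rk m q N T = fun s => rk m q (N + 1) T s + T ^ N * ak m q N s := by
          funext s
          exact rk_succ m q N T s
        rw [e1, KF_kadd hp hp1 (BK_rk m q (N + 1) h0 h1) ((BK_ak m q N).smul _) hF hF, KF_ksmul]
      rw [e h1.le (h2.trans_lt h3), e hT1.le h3]
      have hx : T / T1 ≤ 1 := (div_le_one hT1).2 h2
      have hx0 : 0 < T / T1 := div_pos h1 hT1
      have h6 : (T / T1) ^ (N + 1) ≤ (T / T1) ^ N := pow_le_pow_of_le_one hx0.le hx (Nat.le_succ N)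
      have h7 : 0 ≤ KF (rk m q (N + 1) T1) μ p F F := by
        have h8 := ih.1.trans ih.2
        exact nonneg_of_mul_nonneg_right h8 (pow_pos hx0 _)
      constructor
      · exact add_nonneg ih.1 (mul_nonneg (pow_nonneg h1.le _) (ha N hN3))
      · have h9 := mul_le_mul_of_nonneg_right h6 h7
        have h10 : (T / T1) ^ N * (T1 ^ N * KF (ak m q N) μ p F F) = T ^ N * KF (ak m q N) μ p F F := by
          rw [← mul_assoc, ← mul_pow, div_mul_cancel₀ _ hT1.ne']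
        rw [mul_add, h10]
        linarith [ih.2]

theorem PD_rk (hp : Measurable p) (hp1 : ∀ x, ‖p x‖ = 1) {m q : ℕ} (hq : 1 ≤ q)
    (hd : finrank ℝ V = m + 2) {N : ℕ} (hN : N ≤ 3) {T : ℝ} (h1 : 0 < T) (h3 : T < 1) :
    PD (rk m q N T) μ p := fun _ hF => (PT_rk hp hp1 hF hq hd hN h1 le_rfl h3).1

theorem PD_ak (hp : Measurable p) (hp1 : ∀ x, ‖p x‖ = 1) {m q : ℕ} (hq : 1 ≤ q)
    (hd : finrank ℝ V = m + 2) {i : ℕ} (hi : i < 3) : PD (ak m q i) μ p :=
  fun _ hF => (PT_split3 hp hp1 hF hq hd).1 i hi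

end

end Vale.Agent.P224.R2.H470
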