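import Vale.Agent.P224.R2.H470.MacU
import Vale.Agent.P224.R2.H579.MeanEight
import Vale.Agent.P224.R2.H662.JJ

/-!
The factor of the mean normal law, uniformly in the dimension.
-/

namespace Vale.Agent.P224.R2.H470

open MeasureTheory Set Filter Function Real Vale.Agent.P224.R2.H728 Vale.Agent.P224.R2.H579
open Vale.Agent.P224.R2.H662

set_option linter.unusedSectionVars false

section

variable {ι Ω : Type*} [Fintype ι] [DecidableEq ι] [MeasurableSpace Ω] {μ : Measure Ω}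
  {m : ℝ} {x N : ι → Ω → ℝ} {j : ι → ℝ}

lemma m2_nn_nonneg (a : ι) : 0 ≤ m2 μ N N a a := integral_nonneg fun _ => mul_self_nonneg _

lemma j_sq_diag (h : T0Data μ m x N) (hm : 0 ≤ m) (hL : LSq μ (Matrix.diagonal j) x N) {ν : ℝ}
    (hν1 : ν < 1) (hν : ∀ a, m2 μ N N a a ≤ ν) (a : ι) :
    j a ^ 2 * (1 - ν) ≤ (m + 1) * m2 μ N N a a := by
  have h1 := h.GP a a
  rw [if_pos rfl] at h1
  have hG : 0 < m2 μ x x a a := by
    have h2 : 0 < (m + 1) * m2 μ x x a a := by linarith [hν a]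
    exact pos_of_mul_pos_right h2 (by linarith)
  have h3 := j_sq_le h hm hL a le_rfl hG
  have h4 := mul_le_mul_of_nonneg_left (hν a) (sq_nonneg (j a))
  linarith

lemma sum_diag_sq (h : T0Data μ m x N) (hm : 0 ≤ m) {δ : ℝ} (hf : fro (De μ x N) ≤ δ ^ 2) :
    ∑ a, m2 μ N N a a ^ 2 ≤ δ ^ 2 + 1 / (m + 2) := by
  have h1 : ∑ a, m2 μ N N a a ^ 2 ≤ ∑ a, ∑ c, m2 μ N N a c ^ 2 :=
    Finset.sum_le_sum fun a _ => Finset.single_le_sum (f := fun c => m2 μ N N a c ^ 2)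
      (fun c _ => sq_nonneg _) (Finset.mem_univ a)
  refine h1.trans ?_
  rw [fro_NN h hm]
  have h2 : 0 ≤ fro (De μ x N) := fro_nonneg _
  have h3 : ((m + 1) ^ 2 * fro (De μ x N) + (m + 2)) / (m + 2) ^ 2
      = ((m + 1) / (m + 2)) ^ 2 * fro (De μ x N) + 1 / (m + 2) := by
    field_simp
  rw [h3]
  have h4 : ((m + 1) / (m + 2)) ^ 2 ≤ 1 := by
    have h5 : (m + 1) / (m + 2) ≤ 1 := by
      rw [div_le_one (by linarith)]
      linarith
    exact pow_le_one₀ (by positivity) h5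
  have h5 := mul_le_mul_of_nonneg_right h4 h2
  linarith

/-- the quadratic mean of the weights -/
theorem ff_sq_le (h : T0Data μ m x N) (hm : 0 ≤ m) (hL : LSq μ (Matrix.diagonal j) x N) {ν δ : ℝ}
    (hν1 : ν < 1) (hν : ∀ a, m2 μ N N a a ≤ ν) (hf : fro (De μ x N) ≤ δ ^ 2) :
    ∑ b, (j b ^ 2 / ((m + 2) / 2 + j b ^ 2)) ^ 2 ≤ 4 * (δ ^ 2 + 1 / (m + 2)) / (1 - ν) ^ 2 := by
  have hn : 0 < 1 - ν := by linarith
  have h1 : ∀ b, (j b ^ 2 / ((m + 2) / 2 + j b ^ 2)) ^ 2 ≤ 4 / (1 - ν) ^ 2 * m2 μ N N b b ^ 2 := by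
    intro b
    have h2 := j_sq_diag h hm hL hν1 hν b
    have h0 := m2_nn_nonneg (μ := μ) (N := N) b
    have h3 : j b ^ 2 / ((m + 2) / 2 + j b ^ 2) ≤ 2 / (1 - ν) * m2 μ N N b b := by
      rw [div_le_iff₀ (by positivity)]
      have h4 : j b ^ 2 ≤ (m + 1) * m2 μ N N b b / (1 - ν) := by
        rw [le_div_iff₀ hn]
        exact h2
      have h5 : 2 / (1 - ν) * m2 μ N N b b * ((m + 2) / 2 + j b ^ 2)
          = (m + 2) * m2 μ N N b b / (1 - ν) + 2 / (1 - ν) * m2 μ N N b b * j b ^ 2 := by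
        field_simp
      have h6 : (m + 1) * m2 μ N N b b / (1 - ν) ≤ (m + 2) * m2 μ N N b b / (1 - ν) := by
        gcongr
        linarith
      have h7 : 0 ≤ 2 / (1 - ν) * m2 μ N N b b * j b ^ 2 := by positivity
      linarith
    have h8 := pow_le_pow_left₀ (by positivity) h3 2
    refine h8.trans (le_of_eq ?_)
    rw [mul_pow, div_pow]
    norm_num
  calc ∑ b, (j b ^ 2 / ((m + 2) / 2 + j b ^ 2)) ^ 2
      ≤ ∑ b, 4 / (1 - ν) ^ 2 * m2 μ N N b b ^ 2 := Finset.sum_le_sum fun b _ => h1 b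
    _ = 4 / (1 - ν) ^ 2 * ∑ b, m2 μ N N b b ^ 2 := by rw [Finset.mul_sum]
    _ ≤ 4 / (1 - ν) ^ 2 * (δ ^ 2 + 1 / (m + 2)) :=
        mul_le_mul_of_nonneg_left (sum_diag_sq h hm hf) (by positivity)
    _ = _ := by ring

/-- the trace term -/
theorem jR_le (h : T0Data μ m x N) (hm : 0 ≤ m) (hL : LSq μ (Matrix.diagonal j) x N) {ν δ s : ℝ}
    (hν1 : ν < 1) (hν : ∀ a, m2 μ N N a a ≤ ν) (hf : fro (De μ x N) ≤ δ ^ 2) (hs : 0 ≤ s)
    (hs2 : ν * (δ ^ 2 + 1 / (m + 2)) ≤ s ^ 2) (a : ι) :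
    |j a| * |∑ b, j b * (j b ^ 2 / ((m + 2) / 2 + j b ^ 2))| ≤ (m + 1) * (2 * s / (1 - ν) ^ 2) := by
  have hn : 0 < 1 - ν := by linarith
  have hm1 : 0 < m + 1 := by linarith
  have h1 : j a ^ 2 ≤ (m + 1) * ν / (1 - ν) := by
    rw [le_div_iff₀ hn]
    have := j_sq_diag h hm hL hν1 hν a
    have h2 := mul_le_mul_of_nonneg_left (hν a) hm1.le
    linarith
  have h2 : ∑ b, j b ^ 2 ≤ (m + 1) / (1 - ν) := by
    rw [le_div_iff₀ hn]
    have h3 := j_sum_sq h hL hν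
    have h4 := mul_nonneg hm1.le (T0Data.hh_nonneg h (Matrix.diagonal j))
    linarith
  have h3 := ff_sq_le h hm hL hν1 hν hf
  have h4 : (∑ b, j b * (j b ^ 2 / ((m + 2) / 2 + j b ^ 2))) ^ 2
      ≤ (∑ b, j b ^ 2) * ∑ b, (j b ^ 2 / ((m + 2) / 2 + j b ^ 2)) ^ 2 :=
    Finset.sum_mul_sq_le_sq_mul_sq _ _ _
  have hν0 : 0 ≤ ν := (m2_nn_nonneg (μ := μ) (N := N) a).trans (hν a)
  have h5 : (|j a| * |∑ b, j b * (j b ^ 2 / ((m + 2) / 2 + j b ^ 2))|) ^ 2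
      ≤ ((m + 1) * (2 * s / (1 - ν) ^ 2)) ^ 2 := by
    rw [mul_pow, sq_abs, sq_abs]
    calc j a ^ 2 * (∑ b, j b * (j b ^ 2 / ((m + 2) / 2 + j b ^ 2))) ^ 2
        ≤ ((m + 1) * ν / (1 - ν)) * (((m + 1) / (1 - ν))
          * (4 * (δ ^ 2 + 1 / (m + 2)) / (1 - ν) ^ 2)) := by
          refine mul_le_mul h1 (h4.trans ?_) (sq_nonneg _) (by positivity)
          exact mul_le_mul h2 h3 (Finset.sum_nonneg fun _ _ => sq_nonneg _) (by positivity)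
      _ = 4 * (m + 1) ^ 2 / (1 - ν) ^ 4 * (ν * (δ ^ 2 + 1 / (m + 2))) := by
          field_simp
      _ ≤ 4 * (m + 1) ^ 2 / (1 - ν) ^ 4 * s ^ 2 := mul_le_mul_of_nonneg_left hs2 (by positivity)
      _ = _ := by field_simp; ring
  exact le_of_sq_le_sq h5 (by positivity)

lemma Ew_mono {δ η η' : ℝ} (hδ : 0 ≤ δ) (hδ1 : δ < 1) (h0 : 0 ≤ η) (h : η ≤ η') :
    Ew δ η ≤ Ew δ η' := by
  unfold Ew
  have h1 : 0 < 1 - δ := by linarith
  have h2 : (δ + η) ^ 2 + η * (δ + η) ≤ (δ + η') ^ 2 + η' * (δ + η') := by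
    have : 0 ≤ δ + η := by linarith
    nlinarith
  have := div_le_div_of_nonneg_right h2 h1.le
  linarith

/-- **the factor of the mean normal law, uniformly in the dimension** -/
theorem L8_uni (h : T0Data μ m x N) (hL : LSq μ (Matrix.diagonal j) x N) {ν δ s H m0 : ℝ}
    (hm0 : 0 < m0) (hm : m0 ≤ m) (hν1 : ν < 1) (hν : ∀ a, m2 μ N N a a ≤ ν) (hδ : 0 ≤ δ)
    (hδ1 : δ < 1) (hf : fro (De μ x N) ≤ δ ^ 2) (hH : hh μ (Matrix.diagonal j) x N ≤ H)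
    (hs : 0 ≤ s) (hs2 : ν * (δ ^ 2 + 1 / (m0 + 2)) ≤ s ^ 2) (a : ι) :
    1 - (2 + 4 * (ν / (1 - ν))) / (m0 + 4) - 2 * Ew δ H * (1 + 1 / (m0 + 1) + ν / (1 - ν))
      - 2 * s / (1 - ν) ^ 2 ≤ L8 m j a := by
  have hmp : 0 < m := by linarith
  have hn : 0 < 1 - ν := by linarith
  have hm1 : 0 < m + 1 := by linarith
  have hν0 : 0 ≤ ν := (m2_nn_nonneg (μ := μ) (N := N) a).trans (hν a)
  set R := ∑ b, j b * (j b ^ 2 / ((m + 2) / 2 + j b ^ 2)) with hR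
  have h1 := L8_ge h hmp hL hδ hδ1 hf (τ := |R| / (m + 1)) (by
    rw [mul_div_cancel₀ _ hm1.ne']) a
  have h2 := jR_le h hmp.le hL hν1 hν hf hs (by
    refine le_trans (mul_le_mul_of_nonneg_left ?_ hν0) hs2
    have : 1 / (m + 2) ≤ 1 / (m0 + 2) := one_div_le_one_div_of_le (by linarith) (by linarith)
    linarith) a
  have h3 : |j a| * (|R| / (m + 1)) ≤ 2 * s / (1 - ν) ^ 2 := by
    rw [← mul_div_assoc, div_le_iff₀ hm1, mul_comm (2 * s / (1 - ν) ^ 2)]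
    exact h2
  have h4 : j a ^ 2 ≤ (m + 1) * (ν / (1 - ν)) := by
    rw [← mul_div_assoc, le_div_iff₀ hn]
    have h5 := j_sq_diag h hmp.le hL hν1 hν a
    have h6 := mul_le_mul_of_nonneg_left (hν a) hm1.le
    linarith
  have hk : 0 ≤ ν / (1 - ν) := by positivity
  have h5 : 2 * m / ((m + 1) * (m + 4)) ≤ 2 / (m0 + 4) := by
    rw [div_le_div_iff₀ (by positivity) (by positivity)]
    nlinarith
  have h6 : 4 * j a ^ 2 / ((m + 1) * (m + 4)) ≤ 4 * (ν / (1 - ν)) / (m0 + 4) := by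
    calc 4 * j a ^ 2 / ((m + 1) * (m + 4)) ≤ 4 * ((m + 1) * (ν / (1 - ν))) / ((m + 1) * (m + 4)) := by
          gcongr
      _ = 4 * (ν / (1 - ν)) / (m + 4) := by
          field_simp
      _ ≤ _ := by gcongr
  have h7 : Ew δ (hh μ (Matrix.diagonal j) x N) ≤ Ew δ H :=
    Ew_mono hδ hδ1 (T0Data.hh_nonneg h _) hH
  have h7' : 0 ≤ Ew δ (hh μ (Matrix.diagonal j) x N) :=
    Ew_nonneg hδ hδ1 (T0Data.hh_nonneg h _)
  have h8 : (m + 2 + j a ^ 2) / (m + 1) ≤ 1 + 1 / (m0 + 1) + ν / (1 - ν) := by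
    rw [div_le_iff₀ hm1]
    have h9 : 1 ≤ 1 / (m0 + 1) * (m + 1) := by
      rw [one_div, inv_mul_eq_div, one_le_div (by linarith)]
      linarith
    linarith
  have h10 : 2 * Ew δ (hh μ (Matrix.diagonal j) x N) * (m + 2 + j a ^ 2) / (m + 1)
      ≤ 2 * Ew δ H * (1 + 1 / (m0 + 1) + ν / (1 - ν)) := by
    rw [mul_div_assoc]
    exact mul_le_mul (by linarith) h8 (by positivity) (by linarith)
  have e1 : (2 + 4 * (ν / (1 - ν))) / (m0 + 4) = 2 / (m0 + 4) + 4 * (ν / (1 - ν)) / (m0 + 4) := by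
    ring
  rw [e1]
  linarith

end

end Vale.Agent.P224.R2.H470
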