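import Vale.Agent.P224.R2.H470.Mac

/-!
The lower bound of the square at level T in closed form and its integral.
-/

namespace Vale.Agent.P224.R2.H470

open MeasureTheory Set Filter Function Real Module Vale.Agent.P224.R2.H728
open scoped Topology RealInnerProductSpace

set_option linter.unusedSectionVars false

/-- the upper bound of Phi by an even quadratic polynomial -/
lemma Phi_le {m : ℕ} {T0 T A η : ℝ} (h0 : 0 ≤ T) (h1 : T ≤ T0) (h2 : 0 < T0)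
    (hA : 1 / ((m : ℝ) + 1) + 8 * T0 / (7 * m + 23) ≤ A)
    (hη : 1 / (2 * ((m : ℝ) + 1)) + 8 / ((7 * m + 23) * T0) + 8 * (m + 2) / (7 * m + 23)
      + 27 / 5 * T0 ≤ η) :
    Phi m (1 / (m + 1)) (16 / ((m + 1) * (7 * m + 23))) (1 / (1 - (31 / 40) ^ 2)) (31 / 40) T
      ≤ A + η * T ^ 2 := by
  have hm1 : (0 : ℝ) < (m : ℝ) + 1 := by positivity
  have hm7 : (0 : ℝ) < 7 * (m : ℝ) + 23 := by positivity
  have e1 : Phi m (1 / (m + 1)) (16 / ((m + 1) * (7 * m + 23))) (1 / (1 - (31 / 40) ^ 2)) (31 / 40) T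
      = 1 / ((m : ℝ) + 1) + 1 / (2 * ((m : ℝ) + 1)) * T ^ 2 + 16 / (7 * m + 23) * T
        + 8 * (m + 2) / (7 * m + 23) * T ^ 2
        + (1 / (1 - (31 / 40) ^ 2) / (31 / 40) ^ 3) * (T * T ^ 2) := by
    unfold Phi
    field_simp
    ring
  have h3 : T ≤ T0 / 2 + T ^ 2 / (2 * T0) := by
    have h4 : T0 / 2 + T ^ 2 / (2 * T0) - T = (T - T0) ^ 2 / (2 * T0) := by
      field_simp
      ring
    have h5 : 0 ≤ (T - T0) ^ 2 / (2 * T0) := by positivity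
    linarith
  have h4 : 16 / (7 * (m : ℝ) + 23) * T
      ≤ 8 * T0 / (7 * m + 23) + 8 / ((7 * m + 23) * T0) * T ^ 2 := by
    refine (mul_le_mul_of_nonneg_left h3 (by positivity)).trans (le_of_eq ?_)
    field_simp
    ring
  have h5 : (1 / (1 - (31 / 40) ^ 2) / (31 / 40) ^ 3 : ℝ) * (T * T ^ 2) ≤ 27 / 5 * (T0 * T ^ 2) := by
    have h6 : (1 / (1 - (31 / 40) ^ 2) / (31 / 40) ^ 3 : ℝ) ≤ 27 / 5 := by norm_num
    have h7 : T * T ^ 2 ≤ T0 * T ^ 2 := mul_le_mul_of_nonneg_right h1 (sq_nonneg T)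
    exact mul_le_mul h6 h7 (by positivity) (by norm_num)
  have h8 := mul_le_mul_of_nonneg_right hη (sq_nonneg T)
  rw [e1]
  linarith

lemma Phi_nonneg {m : ℕ} {T : ℝ} (h0 : 0 ≤ T) :
    0 ≤ Phi m (1 / (m + 1)) (16 / ((m + 1) * (7 * m + 23))) (1 / (1 - (31 / 40) ^ 2)) (31 / 40) T := by
  have h1 : (0 : ℝ) ≤ 1 / (1 - (31 / 40) ^ 2) := by norm_num
  unfold Phi
  positivity

/-- the integral of the lower bound -/
lemma int_mac (S η u : ℝ) : ∫ T in (0 : ℝ)..S, T * (1 - 7 / 2 * T ^ 2)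
      * ((η * (S ^ 2 - T ^ 2)) ^ 2 - 2 * T * u)
    = η ^ 2 * S ^ 6 / 6 * (1 - 7 / 8 * S ^ 2) - 2 * u * (S ^ 3 / 3 - 7 / 10 * S ^ 5) := by
  have hd : ∀ T : ℝ, HasDerivAt (fun T : ℝ => η ^ 2 * (S ^ 4 * T ^ 2 / 2 - 2 * S ^ 2 * T ^ 4 / 4
      + T ^ 6 / 6 - 7 / 2 * (S ^ 4 * T ^ 4 / 4 - 2 * S ^ 2 * T ^ 6 / 6 + T ^ 8 / 8))
      - 2 * u * (T ^ 3 / 3 - 7 / 10 * T ^ 5))
      (T * (1 - 7 / 2 * T ^ 2) * ((η * (S ^ 2 - T ^ 2)) ^ 2 - 2 * T * u)) T := by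
    intro T
    have p : ∀ n : ℕ, HasDerivAt (fun T : ℝ => T ^ n) (n * T ^ (n - 1)) T := fun n => hasDerivAt_pow n T
    have h := (((((p 2).const_mul (S ^ 4)).div_const 2).fun_sub
      (((p 4).const_mul (2 * S ^ 2)).div_const 4)).fun_add ((p 6).div_const 6)).fun_sub
      ((((((p 4).const_mul (S ^ 4)).div_const 4).fun_sub
      (((p 6).const_mul (2 * S ^ 2)).div_const 6)).fun_add ((p 8).div_const 8)).const_mul (7 / 2))
    have h2 := (h.const_mul (η ^ 2)).fun_sub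
      ((((p 3).div_const 3).fun_sub ((p 5).const_mul (7 / 10))).const_mul (2 * u))
    refine h2.congr_deriv ?_
    norm_num
    ring
  rw [intervalIntegral.integral_eq_sub_of_hasDerivAt (fun T _ => hd T)
    (Continuous.intervalIntegrable (by fun_prop) _ _)]
  ring

/-- a function cut at the level `S` -/
noncomputable def ctf (S : ℝ) (f : ℝ → ℝ) : ℝ → ℝ := (Iio S).indicator f

lemma ctf_lt {S T : ℝ} (f : ℝ → ℝ) (h : T < S) : ctf S f T = f T :=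
  indicator_of_mem (s := Iio S) (mem_Iio.2 h) f

lemma ctf_ge {S T : ℝ} (f : ℝ → ℝ) (h : S ≤ T) : ctf S f T = 0 :=
  indicator_of_notMem (s := Iio S) (fun h2 => absurd (mem_Iio.1 h2) (not_lt.2 h)) f

lemma int_ctf {f : ℝ → ℝ} {S : ℝ} (h0 : 0 ≤ S) (h1 : S ≤ 1)
    (hf : IntervalIntegrable f volume 0 S) :
    IntervalIntegrable (ctf S f) volume 0 1 ∧ ∫ T in (0 : ℝ)..1, ctf S f T
      = ∫ T in (0 : ℝ)..S, f T := by
  have hf' := (intervalIntegrable_iff_integrableOn_Ioo_of_le h0).1 hf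
  have e1 : Iio S ∩ Ioc 0 1 = Ioo 0 S := by
    ext x
    simp only [mem_inter_iff, mem_Iio, mem_Ioc, mem_Ioo]
    constructor
    · rintro ⟨a, b, -⟩
      exact ⟨b, a⟩
    · rintro ⟨a, b⟩
      exact ⟨b, a, by linarith⟩
  have e2 : Ioc (0 : ℝ) 1 ∩ Iio S = Ioo 0 S := by rw [inter_comm, e1]
  refine ⟨?_, ?_⟩
  · rw [intervalIntegrable_iff_integrableOn_Ioc_of_le zero_le_one]
    unfold ctf
    rw [integrableOn_indicator_iff measurableSet_Iio, e1]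
    exact hf'
  · rw [intervalIntegral.integral_of_le zero_le_one, intervalIntegral.integral_of_le h0]
    unfold ctf
    rw [setIntegral_indicator measurableSet_Iio, e2, integral_Ioc_eq_integral_Ioo]

section

variable {V : Type*} [NormedAddCommGroup V] [InnerProductSpace ℝ V] [FiniteDimensional ℝ V]
  [MeasurableSpace V] [BorelSpace V] {Ω : Type*} [MeasurableSpace Ω]

variable {μ : Measure Ω} [IsFiniteMeasure μ] {p n : Ω → V}

/-- the pointwise bound -/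
theorem mac_pt (hp : Measurable p) (hp1 : ∀ x, ‖p x‖ = 1) (hn : Measurable n)
    (hn1 : ∀ x, ‖n x‖ = 1) {ι : Type*} [Fintype ι]
    (e : OrthonormalBasis ι ℝ V) {m : ℕ} (hd : finrank ℝ V = m + 2)
    (hL : LB μ p e (1 / (m + 1))) (hQ : QB μ p e (16 / ((m + 1) * (7 * m + 23))))
    (hc : ∀ x, ∫ y, sk m (m + 1) (31 / 40) ⟪p x, p y⟫ ∂μ ≤ 1 / (1 - (31 / 40) ^ 2))
    {T0 T A η S : ℝ} (h1 : 0 < T) (h2 : T ≤ S) (hS : S ≤ T0) (hT0 : T0 ≤ 31 / 40)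
    (hA : 1 / ((m : ℝ) + 1) + 8 * T0 / (7 * m + 23) ≤ A)
    (hη : 1 / (2 * ((m : ℝ) + 1)) + 8 / ((7 * m + 23) * T0) + 8 * (m + 2) / (7 * m + 23)
      + 27 / 5 * T0 ≤ η) (hη0 : 0 ≤ η) (a : ι)
    (hSη : η * S ^ 2 = (∫ x, ⟪n x, e a⟫ ^ 2 ∂μ) - A) :
    (η * (S ^ 2 - T ^ 2)) ^ 2 - 2 * T * ∑ b, (∫ x, ⟪n x, e b⟫ ∂μ) ^ 2
      ≤ ∫ u : Ω × Ω, sk m (m + 1) T ⟪p u.1, p u.2⟫ * (⟪n u.1, n u.2⟫ - ⟪p u.1, p u.2⟫) ^ 2
        ∂(μ.prod μ) := by
  have hT00 : 0 < T0 := h1.trans_le (h2.trans hS)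
  have h3 := Phi_le (m := m) h1.le (h2.trans hS) hT00 hA hη
  have h4 := mac_pos (μ := μ) hp hp1 hn hn1 e hd (K1 := 1 / (m + 1))
    (K2 := 16 / ((m + 1) * (7 * m + 23))) (by positivity) hL (by positivity) hQ h1
    ((h2.trans hS).trans hT0) (by norm_num) hc (Phi_nonneg h1.le)
  refine le_trans ?_ h4
  set P := Phi m (1 / (m + 1)) (16 / ((m + 1) * (7 * m + 23))) (1 / (1 - (31 / 40) ^ 2)) (31 / 40) T
  have h5 : max ((∫ x, ⟪n x, e a⟫ ^ 2 ∂μ) - P) 0 ^ 2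
      ≤ ∑ b, max ((∫ x, ⟪n x, e b⟫ ^ 2 ∂μ) - P) 0 ^ 2 :=
    Finset.single_le_sum (f := fun b => max ((∫ x, ⟪n x, e b⟫ ^ 2 ∂μ) - P) 0 ^ 2)
      (fun b _ => sq_nonneg _) (Finset.mem_univ a)
  have h6 : 0 ≤ η * (S ^ 2 - T ^ 2) := by
    have : T ^ 2 ≤ S ^ 2 := pow_le_pow_left₀ h1.le h2 2
    exact mul_nonneg hη0 (by linarith)
  have h7 : η * (S ^ 2 - T ^ 2) ≤ max ((∫ x, ⟪n x, e a⟫ ^ 2 ∂μ) - P) 0 := by
    refine le_trans ?_ (le_max_left _ _)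
    linarith
  have h8 := pow_le_pow_left₀ h6 h7 2
  linarith

end

section

variable {X : Type*} {E : Type*} [NormedAddCommGroup E] [InnerProductSpace ℝ E]
variable [TopologicalSpace X] [MeasurableSpace X] {μ : Measure X} {m : ℕ} {p n : X → E}

/-- the rows do not depend on the scale of the measure -/
theorem OneP.smul (h : OneP μ m p n) (c : ENNReal) : OneP (c • μ) m p n where
  cp := h.cp
  cn := h.cn
  np := h.np
  nn := h.nn
  pn := h.pn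
  r1 := by
    intro f hf b
    rw [integral_smul_measure, integral_smul_measure, h.r1 f hf b, smul_eq_mul, smul_eq_mul]
    ring
  r2 := by
    intro f hf b c'
    rw [integral_smul_measure, integral_smul_measure, h.r2 f hf b c', smul_eq_mul, smul_eq_mul]
    ring

end

end Vale.Agent.P224.R2.H470
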