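import Vale.Agent.P224.R2.H470.MacL

/-!
The lower bound of the square, summed over a basis.
-/

namespace Vale.Agent.P224.R2.H470

open MeasureTheory Set Filter Function Real Module Vale.Agent.P224 Vale.Agent.P224.FV
open Vale.Agent.P224.SM2 Vale.Agent.P224.R2.H820 Vale.Agent.P224.R2.H728
open Vale.Agent.P224.R2.H627 Vale.Agent.P224.R2.H582
open scoped Topology RealInnerProductSpace ContDiff Manifold

set_option linter.unusedSectionVars false

section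

variable {V : Type*} [NormedAddCommGroup V] [InnerProductSpace ℝ V] [FiniteDimensional ℝ V]
  [MeasurableSpace V] [BorelSpace V] {Ω : Type*} [MeasurableSpace Ω]

variable {μ : Measure Ω} [IsFiniteMeasure μ] {p n : Ω → V}

/-- the pointwise bound, all directions -/
theorem mac_pt_sum (hp : Measurable p) (hp1 : ∀ x, ‖p x‖ = 1) (hn : Measurable n)
    (hn1 : ∀ x, ‖n x‖ = 1) {ι : Type*} [Fintype ι]
    (e : OrthonormalBasis ι ℝ V) {m : ℕ} (hd : finrank ℝ V = m + 2)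
    (hL : LB μ p e (1 / (m + 1))) (hQ : QB μ p e (16 / ((m + 1) * (7 * m + 23))))
    (hc : ∀ x, ∫ y, sk m (m + 1) (31 / 40) ⟪p x, p y⟫ ∂μ ≤ 1 / (1 - (31 / 40) ^ 2))
    {T0 T A η : ℝ} {S : ι → ℝ} (h1 : 0 < T) (hS : T ≤ T0) (hT0 : T0 ≤ 31 / 40)
    (hA : 1 / ((m : ℝ) + 1) + 8 * T0 / (7 * m + 23) ≤ A)
    (hη : 1 / (2 * ((m : ℝ) + 1)) + 8 / ((7 * m + 23) * T0) + 8 * (m + 2) / (7 * m + 23)
      + 27 / 5 * T0 ≤ η) (hη0 : 0 ≤ η)
    (hSη : ∀ b, η * S b ^ 2 ≤ max ((∫ x, ⟪n x, e b⟫ ^ 2 ∂μ) - A) 0) :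
    ∑ b, max (η * (S b ^ 2 - T ^ 2)) 0 ^ 2 - 2 * T * ∑ b, (∫ x, ⟪n x, e b⟫ ∂μ) ^ 2
      ≤ ∫ u : Ω × Ω, sk m (m + 1) T ⟪p u.1, p u.2⟫ * (⟪n u.1, n u.2⟫ - ⟪p u.1, p u.2⟫) ^ 2
        ∂(μ.prod μ) := by
  have hT00 : 0 < T0 := h1.trans_le hS
  have h3 := Phi_le (m := m) h1.le hS hT00 hA hη
  have h4 := mac_pos (μ := μ) hp hp1 hn hn1 e hd (K1 := 1 / (m + 1))
    (K2 := 16 / ((m + 1) * (7 * m + 23))) (by positivity) hL (by positivity) hQ h1
    (hS.trans hT0) (by norm_num) hc (Phi_nonneg h1.le)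
  refine le_trans ?_ h4
  set P := Phi m (1 / (m + 1)) (16 / ((m + 1) * (7 * m + 23))) (1 / (1 - (31 / 40) ^ 2)) (31 / 40) T
  have h5 : ∑ b, max (η * (S b ^ 2 - T ^ 2)) 0 ^ 2
      ≤ ∑ b, max ((∫ x, ⟪n x, e b⟫ ^ 2 ∂μ) - P) 0 ^ 2 := by
    refine Finset.sum_le_sum fun b _ => pow_le_pow_left₀ (le_max_right _ _) ?_ 2
    have h6 := hSη b
    have h7 : 0 ≤ η * T ^ 2 := by positivity
    refine max_le ?_ (le_max_right _ _)
    rcases le_total ((∫ x, ⟪n x, e b⟫ ^ 2 ∂μ) - A) 0 with h8 | h8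
    · rw [max_eq_right h8] at h6
      refine le_trans ?_ (le_max_right _ _)
      linarith
    · rw [max_eq_left h8] at h6
      refine le_trans ?_ (le_max_left _ _)
      linarith
  linarith

end

lemma int_mac_pos {S T0 η : ℝ} (hS : 0 ≤ S) (hST : S ≤ T0) (hT0 : T0 ≤ 3 / 10) (hη : 0 ≤ η) :
    η ^ 2 * S ^ 6 / 6 * (1 - 7 / 8 * T0 ^ 2)
      ≤ ∫ T in (0 : ℝ)..T0, T * (1 - 7 / 2 * T ^ 2) * max (η * (S ^ 2 - T ^ 2)) 0 ^ 2 := by
  have hT00 : 0 ≤ T0 := hS.trans hST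
  have hi : ∀ a b : ℝ, IntervalIntegrable
      (fun T : ℝ => T * (1 - 7 / 2 * T ^ 2) * max (η * (S ^ 2 - T ^ 2)) 0 ^ 2) volume a b :=
    fun a b => Continuous.intervalIntegrable (by fun_prop) _ _
  rw [← intervalIntegral.integral_add_adjacent_intervals (hi 0 S) (hi S T0)]
  have h1 : ∫ T in (0 : ℝ)..S, T * (1 - 7 / 2 * T ^ 2) * max (η * (S ^ 2 - T ^ 2)) 0 ^ 2
      = ∫ T in (0 : ℝ)..S, T * (1 - 7 / 2 * T ^ 2) * ((η * (S ^ 2 - T ^ 2)) ^ 2 - 2 * T * 0) := by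
    refine intervalIntegral.integral_congr fun T hT => ?_
    rw [uIcc_of_le hS] at hT
    have : 0 ≤ η * (S ^ 2 - T ^ 2) := by
      have := pow_le_pow_left₀ hT.1 hT.2 2
      exact mul_nonneg hη (by linarith)
    rw [max_eq_left this]
    ring
  have h2 : 0 ≤ ∫ T in S..T0, T * (1 - 7 / 2 * T ^ 2) * max (η * (S ^ 2 - T ^ 2)) 0 ^ 2 := by
    refine intervalIntegral.integral_nonneg hST fun T hT => ?_
    have h3 : 0 ≤ T := hS.trans hT.1
    have h4 : T ^ 2 ≤ 9 / 100 := by nlinarith [hT.2]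
    exact mul_nonneg (mul_nonneg h3 (by linarith)) (sq_nonneg _)
  rw [h1, int_mac]
  have h4 : S ^ 2 ≤ T0 ^ 2 := pow_le_pow_left₀ hS hST 2
  have h6 : η ^ 2 * S ^ 6 / 6 * (1 - 7 / 8 * T0 ^ 2) ≤ η ^ 2 * S ^ 6 / 6 * (1 - 7 / 8 * S ^ 2) :=
    mul_le_mul_of_nonneg_left (by linarith) (by positivity)
  linarith

section

variable {V W M : Type*} [NormedAddCommGroup V] [InnerProductSpace ℝ V] [FiniteDimensional ℝ V]
  [NormedAddCommGroup W] [InnerProductSpace ℝ W] [FiniteDimensional ℝ W]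
  [TopologicalSpace M] [ChartedSpace V M] [IsManifold 𝓘(ℝ, V) ∞ M]
  [CompactSpace M] [T2Space M]
  [MeasurableSpace V] [BorelSpace V] [MeasurableSpace W] [BorelSpace W]
  [MeasurableSpace M] [BorelSpace M]

/-- the integrated lower bound, all directions -/
theorem mac_law_sum [Nonempty M] (hm : 17 ≤ finrank ℝ V) (hW : finrank ℝ W = finrank ℝ V + 2)
    {F : M → W} (hF : SphImm V F) (hmin : ∀ x n, IsUnitNormal V F x n → meanCurv V F x n = 0)
    {N : M → W} (hNs : ContMDiff 𝓘(ℝ, V) 𝓘(ℝ, W) ∞ N) (hN : ∀ x, IsUnitNormal V F x (N x))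
    {ι : Type*} [Fintype ι] [DecidableEq ι] (b : OrthonormalBasis ι ℝ W)
    {m : ℕ} (hmm : m = finrank ℝ V) {T0 A η : ℝ} (hT00 : 0 < T0) (hT0 : T0 ≤ 3 / 10)
    (hA : 1 / ((m : ℝ) + 1) + 8 * T0 / (7 * m + 23) ≤ A)
    (hη : 1 / (2 * ((m : ℝ) + 1)) + 8 / ((7 * m + 23) * T0) + 8 * (m + 2) / (7 * m + 23)
      + 27 / 5 * T0 ≤ η) :
    ∃ Bc : ℝ → ℝ, IntervalIntegrable Bc volume 0 1 ∧
      (∀ T ∈ Ioo (0 : ℝ) 1, Bc T * (volM V F).real univ ^ 2
        ≤ m * eM m T * E2 (volM V F) F N (fun k => SM2.ker T (m + 1) k.1 * Ck k)) ∧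
      (∑ a, max (min (m2 (nrm (volM V F)) (co b N) (co b N) a a - A) (η * T0 ^ 2)) 0 ^ 3)
        / (6 * η) * (1 - 7 / 8 * T0 ^ 2)
        - 2 / 3 * T0 ^ 3 * ∑ i, m1 (nrm (volM V F)) (co b N) i ^ 2
        ≤ ∫ T in (0 : ℝ)..1, Bc T := by
  subst hmm
  set m := finrank ℝ V with hmdef
  have hfin : IsFiniteMeasure (volM V F) := isFiniteMeasure_volM hF
  have hm1 : 1 ≤ m := by omega
  have hvpos : 0 < volM V F univ := volM_pos_of_isOpen hW hF isOpen_univ univ_nonempty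
  have hnz : NeZero (volM V F) := ⟨fun h => by rw [h] at hvpos; simp at hvpos⟩
  have hA0 : 0 < (volM V F).real univ := ENNReal.toReal_pos hvpos.ne' (measure_ne_top _ _)
  have hT0' : T0Data (nrm (volM V F)) m (co b F) (co b N) :=
    t0Data_of_min hm1 hW hF hmin hNs hN b
  have hprob : IsProbabilityMeasure (nrm (volM V F)) := hT0'.prob
  have hone : OneP (nrm (volM V F)) m F N := oneP_nrm hW hF hmin hNs hN
  have hsc : SecondCountableTopology M := ChartedSpace.secondCountable_of_sigmaCompact V M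
  have hnt : Nontrivial W := Module.nontrivial_of_finrank_pos (R := ℝ) (by omega)
  have hm0 : (0 : ℝ) < m := by
    have : 0 < m := by omega
    exact_mod_cast this
  have hη0 : 0 < η := lt_of_lt_of_le (by positivity) hη
  have hAp : 0 ≤ A := le_trans (by positivity) hA
  set ν : ι → ℝ := fun a => m2 (nrm (volM V F)) (co b N) (co b N) a a with hνd
  set u := ∑ i, m1 (nrm (volM V F)) (co b N) i ^ 2 with hu
  have hu0 : 0 ≤ u := Finset.sum_nonneg fun i _ => sq_nonneg _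
  have hν1 : ∀ a, ν a = ∫ x, ⟪N x, b a⟫ ^ 2 ∂(nrm (volM V F)) := by
    intro a
    rw [hνd]
    unfold m2 co
    simp only [sq]
  have hu1 : u = ∑ i, (∫ x, ⟪N x, b i⟫ ∂(nrm (volM V F))) ^ 2 := rfl
  set P : ι → ℝ := fun a => max (min (ν a - A) (η * T0 ^ 2)) 0 with hP
  set S : ι → ℝ := fun a => √(P a / η) with hS
  have hP0 : ∀ a, 0 ≤ P a := fun a => le_max_right _ _
  have hS0 : ∀ a, 0 ≤ S a := fun a => Real.sqrt_nonneg _
  have hS2 : ∀ a, η * S a ^ 2 = P a := by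
    intro a
    simp only [hS]
    rw [Real.sq_sqrt (div_nonneg (hP0 a) hη0.le)]
    field_simp
  have hST : ∀ a, S a ≤ T0 := by
    intro a
    simp only [hS]
    rw [Real.sqrt_le_left hT00.le, div_le_iff₀ hη0]
    rw [mul_comm]
    exact max_le (min_le_right _ _) (by positivity)
  set f : ℝ → ℝ := fun T => ∑ a, T * (1 - 7 / 2 * T ^ 2) * max (η * (S a ^ 2 - T ^ 2)) 0 ^ 2
    + T * (1 - 7 / 2 * T ^ 2) * ((0 * (0 ^ 2 - T ^ 2)) ^ 2 - 2 * T * u) with hf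
  have hfi : IntervalIntegrable f volume 0 T0 := Continuous.intervalIntegrable (by
    rw [hf]
    fun_prop) _ _
  obtain ⟨j0, j1⟩ := int_ctf hT00.le (by linarith : T0 ≤ 1) hfi
  refine ⟨ctf T0 f, j0, fun T hT => ?_, ?_⟩
  · have hk : 0 < 1 - T ^ 2 := by nlinarith [hT.1, hT.2]
    have e1 : m * eM m T * E2 (volM V F) F N (fun k => SM2.ker T (m + 1) k.1 * Ck k)
        = (volM V F).real univ ^ 2 * (eh m T * ∫ q : M × M, sk m (m + 1) T ⟪F q.1, F q.2⟫
          * (⟪N q.1, N q.2⟫ - ⟪F q.1, F q.2⟫) ^ 2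
            ∂((nrm (volM V F)).prod (nrm (volM V F)))) := by
      rw [E2_nrm, eM_eq hT]
      have e2 : ∫ q : M × M, sk m (m + 1) T ⟪F q.1, F q.2⟫
          * (⟪N q.1, N q.2⟫ - ⟪F q.1, F q.2⟫) ^ 2 ∂((nrm (volM V F)).prod (nrm (volM V F)))
          = (1 - T ^ 2) ^ ((m : ℝ) / 2)
            * ∫ q : M × M, SM2.ker T (m + 1) (SM2.pr F N q).1 * Ck (SM2.pr F N q)
            ∂((nrm (volM V F)).prod (nrm (volM V F))) := by
        rw [← integral_const_mul]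
        refine integral_congr_ae (Eventually.of_forall fun q => ?_)
        simp only [sk, SM2.ker, Ck, SM2.pr]
        have e3 : ((m + 1 : ℕ) : ℝ) - m / 2 - 1 = (m : ℝ) / 2 := by push_cast; ring
        rw [e3]
        ring
      rw [e2]
      ring
    have hD : 0 ≤ ∫ q : M × M, sk m (m + 1) T ⟪F q.1, F q.2⟫
          * (⟪N q.1, N q.2⟫ - ⟪F q.1, F q.2⟫) ^ 2
            ∂((nrm (volM V F)).prod (nrm (volM V F))) := by
      refine integral_nonneg fun q => mul_nonneg ?_ (sq_nonneg _)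
      have hv := H460.one_sub_pos hT.1.le hT.2 (hone.np q.1) (hone.np q.2)
      unfold sk
      positivity
    have heh : 0 ≤ eh m T := by
      have hb := bds2_M (m := m) (T := T) hm hT
      have := hb.E0
      have := hT.1
      unfold eh
      positivity
    rw [e1]
    rcases lt_or_ge T T0 with hTS | hTS
    · rw [ctf_lt f hTS]
      have h3 := mac_pt_sum (μ := nrm (volM V F)) hone.cp.measurable hone.np hone.cn.measurable
        hone.nn b hW (lb_of_T0 b (by positivity : (0 : ℝ) ≤ (m : ℝ)) hT0')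
        (qb_of_T0 b (by positivity : (0 : ℝ) ≤ (m : ℝ)) hT0')
        (fun x => sk_m1_le hone hm1 (by norm_num) (by norm_num) x) (S := S) hT.1 hTS.le
        (by linarith) hA hη hη0.le (fun a => by
          rw [← hν1, hS2]
          exact max_le_max (min_le_left _ _) le_rfl)
      rw [← hu1] at h3
      have h4 := eh_ge hm hT.1 (by linarith : T ≤ 3 / 10)
      have hw0 : 0 ≤ T * (1 - 7 / 2 * T ^ 2) := by
        have : T ^ 2 ≤ 9 / 100 := by nlinarith [hT.1]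
        exact mul_nonneg hT.1.le (by linarith)
      have h5 : f T ≤ eh m T * ∫ q : M × M, sk m (m + 1) T ⟪F q.1, F q.2⟫
          * (⟪N q.1, N q.2⟫ - ⟪F q.1, F q.2⟫) ^ 2
            ∂((nrm (volM V F)).prod (nrm (volM V F))) := by
        have h6 := mul_le_mul_of_nonneg_left h3 hw0
        have h7 := mul_le_mul_of_nonneg_right h4 hD
        refine le_trans (le_of_eq ?_) (h6.trans h7)
        rw [hf]
        simp only
        rw [← Finset.mul_sum]
        ring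
      rw [mul_comm]
      exact mul_le_mul_of_nonneg_left h5 (by positivity)
    · rw [ctf_ge f hTS, zero_mul]
      positivity
  · have hi : ∀ a, IntervalIntegrable
        (fun T : ℝ => T * (1 - 7 / 2 * T ^ 2) * max (η * (S a ^ 2 - T ^ 2)) 0 ^ 2) volume 0 T0 :=
      fun a => Continuous.intervalIntegrable (by fun_prop) _ _
    have e1 : ∫ T in (0 : ℝ)..T0, f T
        = ∑ a, (∫ T in (0 : ℝ)..T0, T * (1 - 7 / 2 * T ^ 2) * max (η * (S a ^ 2 - T ^ 2)) 0 ^ 2)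
          + (0 ^ 2 * T0 ^ 6 / 6 * (1 - 7 / 8 * T0 ^ 2) - 2 * u * (T0 ^ 3 / 3 - 7 / 10 * T0 ^ 5)) := by
      have q1 : IntervalIntegrable (fun T : ℝ => ∑ a, T * (1 - 7 / 2 * T ^ 2)
          * max (η * (S a ^ 2 - T ^ 2)) 0 ^ 2) volume 0 T0 :=
        Continuous.intervalIntegrable (by fun_prop) _ _
      have q2 : IntervalIntegrable (fun T : ℝ => T * (1 - 7 / 2 * T ^ 2)
          * ((0 * (T0 ^ 2 - T ^ 2)) ^ 2 - 2 * T * u)) volume 0 T0 :=
        Continuous.intervalIntegrable (by fun_prop) _ _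
      rw [← int_mac T0 0 u, ← intervalIntegral.integral_finsetSum fun a _ => hi a,
        ← intervalIntegral.integral_add q1 q2]
      refine intervalIntegral.integral_congr fun T _ => ?_
      simp only [hf]
      ring
    rw [j1, e1]
    have h3 : ∑ a, P a ^ 3 / (6 * η) * (1 - 7 / 8 * T0 ^ 2)
        ≤ ∑ a, ∫ T in (0 : ℝ)..T0, T * (1 - 7 / 2 * T ^ 2) * max (η * (S a ^ 2 - T ^ 2)) 0 ^ 2 := by
      refine Finset.sum_le_sum fun a _ => ?_
      refine le_trans (le_of_eq ?_) (int_mac_pos (hS0 a) (hST a) hT0 hη0.le)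
      rw [← hS2 a]
      field_simp
    rw [Finset.sum_div, Finset.sum_mul]
    have h4 : 0 ≤ T0 ^ 5 := by positivity
    have h5 : 2 * u * (T0 ^ 3 / 3 - 7 / 10 * T0 ^ 5) ≤ 2 / 3 * T0 ^ 3 * u := by
      have h9 : T0 ^ 3 / 3 - 7 / 10 * T0 ^ 5 ≤ T0 ^ 3 / 3 := by linarith
      have := mul_le_mul_of_nonneg_left h9 (by positivity : 0 ≤ 2 * u)
      linarith
    change ∑ a, P a ^ 3 / (6 * η) * (1 - 7 / 8 * T0 ^ 2) - 2 / 3 * T0 ^ 3 * u ≤ _
    linarith

end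

end Vale.Agent.P224.R2.H470
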