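import Vale.Agent.P224.R2.H470.MacS
import Vale.Agent.P224.R2.H728.T0m

/-!
The spectral form of the summed lower bound.
-/

namespace Vale.Agent.P224.R2.H470

open MeasureTheory Set Filter Function Real Module Vale.Agent.P224 Vale.Agent.P224.FV
open Vale.Agent.P224.SM2 Vale.Agent.P224.R2.H820 Vale.Agent.P224.R2.H728
open Vale.Agent.P224.R2.H627 Vale.Agent.P224.R2.H582
open scoped Topology RealInnerProductSpace ContDiff Manifold

set_option linter.unusedSectionVars false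

section

variable {W Ω : Type*} [NormedAddCommGroup W] [InnerProductSpace ℝ W] [FiniteDimensional ℝ W]
  [MeasurableSpace W] [BorelSpace W] [MeasurableSpace Ω]

variable {μ : Measure Ω} [IsFiniteMeasure μ] {N : Ω → W}

lemma co_bm (hN : Measurable N) (hN1 : ∀ x, ‖N x‖ = 1) {ι : Type*} [Fintype ι]
    (b : OrthonormalBasis ι ℝ W) (a : ι) : BM (co b N a) := BM_p hN hN1 (b a)

/-- the Frobenius norm of the second moment does not depend on the basis -/
theorem fro_basis (hN : Measurable N) (hN1 : ∀ x, ‖N x‖ = 1) {ι : Type*} [Fintype ι]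
    (b : OrthonormalBasis ι ℝ W) :
    ∑ a, ∑ c, m2 μ (co b N) (co b N) a c ^ 2 = KF (fun s => s ^ 2) μ N (fun _ => 1) fun _ => 1 := by
  have h1 : BM fun _ : Ω => (1 : ℝ) := BM.const 1
  rw [KF_s2 hN hN1 h1 h1 b]
  refine Finset.sum_congr rfl fun a _ => Finset.sum_congr rfl fun c _ => ?_
  simp only [one_mul, m2, co]
  ring

/-- an eigenbasis of the second moment of the normal -/
theorem exists_eig (hN : Measurable N) (hN1 : ∀ x, ‖N x‖ = 1) :
    ∃ b : OrthonormalBasis (Fin (finrank ℝ W)) ℝ W, ∀ i k, i ≠ k →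
      m2 μ (co b N) (co b N) i k = 0 := by
  classical
  set b0 := stdOrthonormalBasis ℝ W with hb0
  set A : Matrix (Fin (finrank ℝ W)) (Fin (finrank ℝ W)) ℝ :=
    Matrix.of fun a c => m2 μ (co b0 N) (co b0 N) a c with hA
  have hA' : A.IsHermitian := by
    ext a c
    simp only [hA, Matrix.conjTranspose_apply, Matrix.of_apply, star_trivial, m2]
    refine integral_congr_ae (Eventually.of_forall fun x => ?_)
    simp only
    ring
  set ev := hA'.eigenvectorBasis with hev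
  set b : OrthonormalBasis (Fin (finrank ℝ W)) ℝ W := ev.map b0.repr.symm with hb
  have hcoord : ∀ (w : W) (i : Fin (finrank ℝ W)), ⟪w, b i⟫ = ∑ a, ev i a * ⟪w, b0 a⟫ := by
    intro w i
    have h1 : b i = b0.repr.symm (ev i) := OrthonormalBasis.map_apply _ _ _
    rw [h1, ← LinearIsometryEquiv.inner_map_map b0.repr w, LinearIsometryEquiv.apply_symm_apply,
      PiLp.inner_apply]
    refine Finset.sum_congr rfl fun a _ => ?_
    rw [b0.repr_apply_apply, real_inner_comm (b0 a) w]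
    simp [real_inner_comm]
  have bc : ∀ a, BM (co b0 N a) := fun a => co_bm hN hN1 b0 a
  refine ⟨b, fun i k hik => ?_⟩
  have e1 : m2 μ (co b N) (co b N) i k = ∑ a, ∑ c, ev i a * ev k c * A a c := by
    unfold m2
    have e : ∀ x, co b N i x * co b N k x
        = ∑ a, ∑ c, ev i a * ev k c * (co b0 N a x * co b0 N c x) := by
      intro x
      simp only [co]
      rw [hcoord, hcoord, Finset.sum_mul_sum]
      exact Finset.sum_congr rfl fun a _ => Finset.sum_congr rfl fun c _ => by ring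
    simp_rw [e]
    have i1 : ∀ a c, BM (fun x => ev i a * ev k c * (co b0 N a x * co b0 N c x)) := fun a c =>
      ((bc a).mul (bc c)).const_mul _
    rw [integral_finsetSum _ fun a _ => (BM.sum _ fun c _ => i1 a c).int]
    refine Finset.sum_congr rfl fun a _ => ?_
    rw [integral_finsetSum _ fun c _ => (i1 a c).int]
    exact Finset.sum_congr rfl fun c _ => integral_const_mul _ _
  have hU : ∀ a, ∑ c, A a c * ev k c = hA'.eigenvalues k * ev k a := by
    intro a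
    have := congrFun (hA'.mulVec_eigenvectorBasis k) a
    simpa [Matrix.mulVec, dotProduct] using this
  have h2 : ∑ a, ev i a * ev k a = 0 := by
    have h3 : ⟪ev k, ev i⟫ = 0 := ev.orthonormal.2 hik.symm
    rw [PiLp.inner_apply] at h3
    rw [← h3]
    refine Finset.sum_congr rfl fun a _ => ?_
    simp
  rw [e1]
  calc ∑ a, ∑ c, ev i a * ev k c * A a c = ∑ a, ev i a * (hA'.eigenvalues k * ev k a) := by
        refine Finset.sum_congr rfl fun a _ => ?_
        rw [← hU a, Finset.mul_sum]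
        exact Finset.sum_congr rfl fun c _ => by ring
    _ = hA'.eigenvalues k * ∑ a, ev i a * ev k a := by
        rw [Finset.mul_sum]
        exact Finset.sum_congr rfl fun a _ => by ring
    _ = 0 := by rw [h2, mul_zero]

/-- the diagonal entries in any basis are below the largest eigenvalue -/
theorem diag_le (hN : Measurable N) (hN1 : ∀ x, ‖N x‖ = 1) {ι : Type*} [Fintype ι]
    (b : OrthonormalBasis ι ℝ W) {b' : OrthonormalBasis (Fin (finrank ℝ W)) ℝ W}
    (hb : ∀ i k, i ≠ k → m2 μ (co b' N) (co b' N) i k = 0) {l : ℝ}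
    (hl : ∀ i, m2 μ (co b' N) (co b' N) i i ≤ l) (a : ι) : m2 μ (co b N) (co b N) a a ≤ l := by
  classical
  have bc : ∀ i, BM (co b' N i) := fun i => co_bm hN hN1 b' i
  have e1 : m2 μ (co b N) (co b N) a a
      = ∑ i, ∑ k, ⟪b' i, b a⟫ * ⟪b' k, b a⟫ * m2 μ (co b' N) (co b' N) i k := by
    unfold m2
    have e : ∀ x, co b N a x * co b N a x
        = ∑ i, ∑ k, ⟪b' i, b a⟫ * ⟪b' k, b a⟫ * (co b' N i x * co b' N k x) := by
      intro x
      simp only [co]
      rw [inner_sum_basis b' (N x) (b a), Finset.sum_mul_sum]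
      refine Finset.sum_congr rfl fun i _ => Finset.sum_congr rfl fun k _ => ?_
      rw [real_inner_comm (b' i) (b a), real_inner_comm (b' k) (b a)]
      ring
    simp_rw [e]
    have i1 : ∀ i k, BM (fun x => ⟪b' i, b a⟫ * ⟪b' k, b a⟫ * (co b' N i x * co b' N k x)) :=
      fun i k => ((bc i).mul (bc k)).const_mul _
    rw [integral_finsetSum _ fun i _ => (BM.sum _ fun k _ => i1 i k).int]
    refine Finset.sum_congr rfl fun i _ => ?_
    rw [integral_finsetSum _ fun k _ => (i1 i k).int]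
    exact Finset.sum_congr rfl fun k _ => integral_const_mul _ _
  have e2 : ∀ i, ∑ k, ⟪b' i, b a⟫ * ⟪b' k, b a⟫ * m2 μ (co b' N) (co b' N) i k
      = ⟪b' i, b a⟫ ^ 2 * m2 μ (co b' N) (co b' N) i i := by
    intro i
    rw [Finset.sum_eq_single i]
    · ring
    · intro k _ hk
      rw [hb i k (Ne.symm hk), mul_zero]
    · intro h
      exact absurd (Finset.mem_univ i) h
  rw [e1]
  simp_rw [e2]
  calc ∑ i, ⟪b' i, b a⟫ ^ 2 * m2 μ (co b' N) (co b' N) i i ≤ ∑ i, ⟪b' i, b a⟫ ^ 2 * l :=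
        Finset.sum_le_sum fun i _ => mul_le_mul_of_nonneg_left (hl i) (sq_nonneg _)
    _ = l := by
        rw [← Finset.sum_mul, b'.sum_sq_inner_right (b a), b.norm_eq_one]
        ring

end

lemma jensen_cube {ι : Type*} [Fintype ι] {ν : ι → ℝ} (h0 : ∀ i, 0 ≤ ν i) (h1 : ∑ i, ν i = 1) :
    (∑ i, ν i ^ 2) ^ 2 ≤ ∑ i, ν i ^ 3 := by
  set D := ∑ i, ν i ^ 2
  have h2 : 0 ≤ ∑ i, ν i * (ν i - D) ^ 2 :=
    Finset.sum_nonneg fun i _ => mul_nonneg (h0 i) (sq_nonneg _)
  have h3 : ∑ i, ν i * (ν i - D) ^ 2 = ∑ i, ν i ^ 3 - 2 * D * ∑ i, ν i ^ 2 + D ^ 2 * ∑ i, ν i := by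
    have e : ∀ i, ν i * (ν i - D) ^ 2 = ν i ^ 3 - 2 * D * ν i ^ 2 + D ^ 2 * ν i := fun i => by ring
    simp_rw [e]
    rw [Finset.sum_add_distrib, Finset.sum_sub_distrib, ← Finset.mul_sum, ← Finset.mul_sum]
  have h4 : ∑ i, ν i ^ 2 = D := rfl
  rw [h1, h4] at h3
  nlinarith [h2, h3]

/-- the lower bound of one direction -/
noncomputable def psi (c m ν : ℝ) : ℝ := max (c * ν ^ 3 - ν ^ 2 / (3 * m)) 0

lemma psi_le {ν A c m η T0 ν2 : ℝ} (hν : 0 ≤ ν) (hA : 0 ≤ A) (hc : 0 ≤ c) (hm : 0 < m)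
    (h : 9 * c * (A * m) ≤ 1) (h2 : 0 ≤ ν2) (h3 : ν2 ≤ η * T0 ^ 2) :
    psi c m (min ν ν2) ≤ c * max (min (ν - A) (η * T0 ^ 2)) 0 ^ 3 := by
  have h0 : 0 ≤ min ν ν2 := le_min hν h2
  refine max_le ?_ (mul_nonneg hc (pow_nonneg (le_max_right _ _) 3))
  refine (cube_alg h0 hA hc hm h).trans (mul_le_mul_of_nonneg_left ?_ hc)
  refine pow_le_pow_left₀ (le_max_right _ _) (max_le_max (le_min ?_ ?_) le_rfl) 3
  · linarith [min_le_left ν ν2]
  · linarith [min_le_right ν ν2]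

section

variable {V W M : Type*} [NormedAddCommGroup V] [InnerProductSpace ℝ V] [FiniteDimensional ℝ V]
  [NormedAddCommGroup W] [InnerProductSpace ℝ W] [FiniteDimensional ℝ W]
  [TopologicalSpace M] [ChartedSpace V M] [IsManifold 𝓘(ℝ, V) ∞ M]
  [CompactSpace M] [T2Space M]
  [MeasurableSpace V] [BorelSpace V] [MeasurableSpace W] [BorelSpace W]
  [MeasurableSpace M] [BorelSpace M]

/-- the summed bound for large dimension -/
theorem mac_400_sum [Nonempty M] (hm : 400 ≤ finrank ℝ V) (hW : finrank ℝ W = finrank ℝ V + 2)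
    {F : M → W} (hF : SphImm V F) (hmin : ∀ x n, IsUnitNormal V F x n → meanCurv V F x n = 0)
    {N : M → W} (hNs : ContMDiff 𝓘(ℝ, V) 𝓘(ℝ, W) ∞ N) (hN : ∀ x, IsUnitNormal V F x (N x))
    {ι : Type*} [Fintype ι] [DecidableEq ι] (b : OrthonormalBasis ι ℝ W)
    {m : ℕ} (hmm : m = finrank ℝ V) {T0 c cu ν2 : ℝ} (hT00 : 0 < T0) (hT0 : T0 ≤ 3 / 10)
    (h2 : 0 ≤ ν2) (h3 : ν2 ≤ (1 / 802 + 8 / (2823 * T0) + 8 / 7 + 27 / 5 * T0) * T0 ^ 2)
    (h4 : 0 ≤ c)
    (h5 : c * (6 * (1 / 802 + 8 / (2823 * T0) + 8 / 7 + 27 / 5 * T0)) ≤ 1 - 7 / 8 * T0 ^ 2)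
    (h6 : 9 * c * (1 + 8 / 7 * T0) ≤ 1) (h7 : 2 / 3 * T0 ^ 3 ≤ cu) :
    ∃ Bc : ℝ → ℝ, IntervalIntegrable Bc volume 0 1 ∧
      (∀ T ∈ Ioo (0 : ℝ) 1, Bc T * (volM V F).real univ ^ 2
        ≤ m * eM m T * E2 (volM V F) F N (fun k => SM2.ker T (m + 1) k.1 * Ck k)) ∧
      ∑ a, psi c m (min (m2 (nrm (volM V F)) (co b N) (co b N) a a) ν2)
        - cu * ∑ i, m1 (nrm (volM V F)) (co b N) i ^ 2 ≤ ∫ T in (0 : ℝ)..1, Bc T := by
  have hmr : (400 : ℝ) ≤ m := by
    rw [hmm]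
    exact_mod_cast hm
  set A : ℝ := (1 + 8 / 7 * T0) / m with hA
  set η : ℝ := 1 / 802 + 8 / (2823 * T0) + 8 / 7 + 27 / 5 * T0 with hη
  have hη0 : 0 < η := by positivity
  have hA0 : 0 ≤ A := by positivity
  have g1 : 1 / ((m : ℝ) + 1) + 8 * T0 / (7 * m + 23) ≤ A := by
    have e1 : A = 1 / m + 8 * T0 / (7 * m) := by
      rw [hA]
      field_simp
    rw [e1]
    refine add_le_add ?_ ?_
    · exact one_div_le_one_div_of_le (by linarith) (by linarith)
    · exact div_le_div_of_nonneg_left (by positivity) (by linarith) (by linarith)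
  have g2 : 1 / (2 * ((m : ℝ) + 1)) + 8 / ((7 * m + 23) * T0) + 8 * (m + 2) / (7 * m + 23)
      + 27 / 5 * T0 ≤ η := by
    rw [hη]
    refine add_le_add (add_le_add (add_le_add ?_ ?_) ?_) le_rfl
    · exact one_div_le_one_div_of_le (by norm_num) (by linarith)
    · refine div_le_div_of_nonneg_left (by norm_num) (by positivity) ?_
      exact mul_le_mul_of_nonneg_right (by linarith) hT00.le
    · rw [div_le_div_iff₀ (by linarith) (by norm_num)]
      linarith
  obtain ⟨Bc, j1, j2, j3⟩ := mac_law_sum (by omega : 17 ≤ finrank ℝ V) hW hF hmin hNs hN b hmm hT00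
    hT0 g1 g2
  refine ⟨Bc, j1, j2, le_trans ?_ j3⟩
  set ν : ι → ℝ := fun a => m2 (nrm (volM V F)) (co b N) (co b N) a a with hνd
  have hν0 : ∀ a, 0 ≤ ν a := by
    intro a
    rw [hνd]
    unfold m2 co
    exact integral_nonneg fun x => mul_self_nonneg _
  have hu0 : 0 ≤ ∑ i, m1 (nrm (volM V F)) (co b N) i ^ 2 := Finset.sum_nonneg fun i _ => sq_nonneg _
  have k0 : A * m = 1 + 8 / 7 * T0 := by
    rw [hA]
    field_simp
  have k1 : ∀ a, psi c m (min (ν a) ν2) ≤ c * max (min (ν a - A) (η * T0 ^ 2)) 0 ^ 3 := fun a =>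
    psi_le (hν0 a) hA0 h4 (by linarith) (by rw [k0]; exact h6) h2 h3
  have k2 : c * ∑ a, max (min (ν a - A) (η * T0 ^ 2)) 0 ^ 3
      ≤ (∑ a, max (min (ν a - A) (η * T0 ^ 2)) 0 ^ 3) / (6 * η) * (1 - 7 / 8 * T0 ^ 2) := by
    have k3 : c ≤ (1 - 7 / 8 * T0 ^ 2) / (6 * η) := by
      rw [le_div_iff₀ (by positivity)]
      exact h5
    have k4 := mul_le_mul_of_nonneg_right k3
      (Finset.sum_nonneg (s := Finset.univ)
        fun a _ => pow_nonneg (le_max_right (min (ν a - A) (η * T0 ^ 2)) 0) 3)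
    refine k4.trans (le_of_eq ?_)
    ring
  have k5 := mul_le_mul_of_nonneg_right h7 hu0
  have k6 : ∑ a, psi c m (min (ν a) ν2) ≤ c * ∑ a, max (min (ν a - A) (η * T0 ^ 2)) 0 ^ 3 := by
    rw [Finset.mul_sum]
    exact Finset.sum_le_sum fun a _ => k1 a
  change ∑ a, psi c m (min (ν a) ν2) - _ ≤ _
  linarith

end

end Vale.Agent.P224.R2.H470
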