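import Vale.Agent.P224.R2.H662.RareB
import Vale.Agent.P224.R2.H925.Mom1

/-!
A moment bound for the mean normal law, uniform in the dimension.
-/

namespace Vale.Agent.P224.R2.H470

open MeasureTheory Module Function Set Vale.Agent.P224.R2.H662 Vale.Agent.P224.R2.H728
open scoped RealInnerProductSpace Topology

set_option linter.unusedSectionVars false

/-- the product of the first `k` odd numbers -/
noncomputable def df (k : ℕ) : ℝ := ∏ i ∈ Finset.range k, (2 * (i : ℝ) + 1)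

lemma df_nonneg (k : ℕ) : 0 ≤ df k := Finset.prod_nonneg fun _ _ => by positivity

lemma df_succ (k : ℕ) : df (k + 1) = df k * (2 * k + 1) := Finset.prod_range_succ _ _

lemma young_pow {t δ : ℝ} (hδ : 0 < δ) {k : ℕ} (hk : 1 ≤ k) :
    |t| ≤ δ * (1 - 1 / (2 * k)) + δ / (2 * k) / δ ^ (2 * k) * t ^ (2 * k) := by
  have k0 : (0 : ℝ) < 2 * k := by
    have : (1 : ℝ) ≤ k := by exact_mod_cast hk
    linarith
  have h1 := one_add_mul_le_pow (a := |t| / δ - 1)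
    (by have := div_nonneg (abs_nonneg t) hδ.le; linarith) (2 * k)
  have h2 : (1 + (|t| / δ - 1)) ^ (2 * k) = t ^ (2 * k) / δ ^ (2 * k) := by
    rw [show 1 + (|t| / δ - 1) = |t| / δ by ring, div_pow, pow_mul, sq_abs, ← pow_mul]
  rw [h2] at h1
  push_cast at h1
  have h3 : δ / (2 * k) * (1 + 2 * k * (|t| / δ - 1))
      ≤ δ / (2 * k) * (t ^ (2 * k) / δ ^ (2 * k)) :=
    mul_le_mul_of_nonneg_left h1 (by positivity)
  have h4 : δ / (2 * k) * (1 + 2 * k * (|t| / δ - 1)) = |t| - δ * (1 - 1 / (2 * k)) := by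
    field_simp
    ring
  have h5 : δ / (2 * k) / δ ^ (2 * k) * t ^ (2 * k) = δ / (2 * k) * (t ^ (2 * k) / δ ^ (2 * k)) := by
    ring
  rw [h4] at h3
  rw [h5]
  linarith

lemma amgm_pow {x y : ℝ} (hx : 0 ≤ x) (hy : 0 ≤ y) (k : ℕ) :
    (k + 1) * (x * y ^ k) ≤ x ^ (k + 1) + k * y ^ (k + 1) := by
  rcases eq_or_lt_of_le hy with h | h
  · subst h
    rcases Nat.eq_zero_or_pos k with rfl | hk
    · simp
    · rw [zero_pow hk.ne', zero_pow (by omega)]
      simp only [mul_zero, add_zero]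
      positivity
  · have h1 := one_add_mul_le_pow (a := x / y - 1)
      (by have := div_nonneg hx hy; linarith) (k + 1)
    rw [show 1 + (x / y - 1) = x / y by ring, div_pow] at h1
    push_cast at h1
    have h2 : 0 < y ^ (k + 1) := by positivity
    have h3 : y ^ (k + 1) * (1 + (k + 1) * (x / y - 1)) ≤ x ^ (k + 1) := by
      have := mul_le_mul_of_nonneg_left h1 h2.le
      rwa [mul_div_cancel₀ _ h2.ne'] at this
    have h4 : y ^ (k + 1) * (1 + (k + 1) * (x / y - 1))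
        = (k + 1) * (x * y ^ k) - k * y ^ (k + 1) := by
      rw [pow_succ]
      field_simp
      ring
    linarith

section

variable {X : Type*} {E : Type*} [NormedAddCommGroup E] [InnerProductSpace ℝ E]
  [FiniteDimensional ℝ E] [TopologicalSpace X] [MeasurableSpace X] [CompactSpace X] [BorelSpace X]
  {μ : Measure X} {m : ℕ} {p n : X → E} {ι : Type*} [Fintype ι]

theorem mom_w [IsProbabilityMeasure μ] (h : OneP μ m p n) {w : E} (hw : ‖w‖ ≤ 1) (k : ℕ) :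
    ∫ x, ⟪p x, w⟫ ^ (2 * k) ∂μ ≤ df k / (m + 1) ^ k := by
  have h1 := H925.mom_even h w k
  have e0 : ∏ i ∈ Finset.range k, (2 * (i : ℝ) + 1) / (m + 2 * i + 1)
      ≤ ∏ i ∈ Finset.range k, (2 * (i : ℝ) + 1) / (m + 1) :=
    Finset.prod_le_prod (fun _ _ => by positivity) fun i _ => by
      refine div_le_div_of_nonneg_left (by positivity) (by positivity) ?_
      have : (0 : ℝ) ≤ i := Nat.cast_nonneg i
      linarith
  have e1 : ∏ i ∈ Finset.range k, (2 * (i : ℝ) + 1) / ((m : ℝ) + 1) = df k / (m + 1) ^ k := by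
    rw [Finset.prod_div_distrib, Finset.prod_const, Finset.card_range]
    rfl
  rw [e1] at e0
  have e2 : ‖w‖ ^ (2 * k) ≤ 1 := pow_le_one₀ (norm_nonneg _) hw
  have e3 : μ.real univ = 1 := by simp
  rw [e3, mul_one] at h1
  refine h1.trans ?_
  have e4 : 0 ≤ ∏ i ∈ Finset.range k, (2 * (i : ℝ) + 1) / ((m : ℝ) + 2 * i + 1) :=
    Finset.prod_nonneg fun _ _ => by positivity
  calc _ ≤ (∏ i ∈ Finset.range k, (2 * (i : ℝ) + 1) / ((m : ℝ) + 2 * i + 1)) * 1 :=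
        mul_le_mul_of_nonneg_left e2 e4
    _ ≤ _ := by rw [mul_one]; exact e0

theorem mom_qw [IsProbabilityMeasure μ] (h : OneP μ m p n) (b : OrthonormalBasis ι ℝ E)
    {j : ι → ℝ} {L : ℝ} (hL : ∑ a, j a ^ 2 ≤ L * (m + 1)) {w : E} (hw : ‖w‖ ≤ 1) (k : ℕ) :
    ∫ x, qd b j p x * ⟪p x, w⟫ ^ (2 * k) ∂μ ≤ L * df (k + 1) / (m + 1) ^ k := by
  have cpi : ∀ v : E, Continuous fun x => ⟪p x, v⟫ := fun v => h.cp.inner continuous_const
  have int : ∀ {f : X → ℝ}, Continuous f → Integrable f μ := fun hf =>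
    hf.integrable_of_hasCompactSupport (HasCompactSupport.of_compactSpace _)
  have m0 : (0 : ℝ) < m + 1 := by positivity
  have pt : ∀ x, qd b j p x * ⟪p x, w⟫ ^ (2 * k)
      ≤ ∑ a, j a ^ 2 * ((⟪p x, b a⟫ ^ (2 * (k + 1)) + k * ⟪p x, w⟫ ^ (2 * (k + 1))) / (k + 1)) := by
    intro x
    rw [qd, Finset.sum_mul]
    refine Finset.sum_le_sum fun a _ => ?_
    rw [mul_assoc]
    refine mul_le_mul_of_nonneg_left ?_ (sq_nonneg _)
    rw [le_div_iff₀ (by positivity)]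
    have := amgm_pow (sq_nonneg ⟪p x, b a⟫) (sq_nonneg ⟪p x, w⟫) k
    rw [← pow_mul, ← pow_mul, ← pow_mul] at this
    linarith
  have b0 : 0 ≤ df (k + 1) / ((m : ℝ) + 1) ^ (k + 1) := div_nonneg (df_nonneg _) (by positivity)
  have i1 : ∫ x, qd b j p x * ⟪p x, w⟫ ^ (2 * k) ∂μ
      ≤ ∑ a, j a ^ 2 * ((∫ x, ⟪p x, b a⟫ ^ (2 * (k + 1)) ∂μ
        + k * ∫ x, ⟪p x, w⟫ ^ (2 * (k + 1)) ∂μ) / (k + 1)) := by
    have e : ∫ x, ∑ a, j a ^ 2 * ((⟪p x, b a⟫ ^ (2 * (k + 1))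
          + k * ⟪p x, w⟫ ^ (2 * (k + 1))) / (k + 1)) ∂μ
        = ∑ a, j a ^ 2 * ((∫ x, ⟪p x, b a⟫ ^ (2 * (k + 1)) ∂μ
        + k * ∫ x, ⟪p x, w⟫ ^ (2 * (k + 1)) ∂μ) / (k + 1)) := by
      rw [integral_finsetSum _ fun a _ => int (by have := cpi (b a); have := cpi w; fun_prop)]
      refine Finset.sum_congr rfl fun a _ => ?_
      have c1 : Continuous fun x => ⟪p x, b a⟫ ^ (2 * (k + 1)) := (cpi (b a)).pow _
      have c2 : Continuous fun x => (k : ℝ) * ⟪p x, w⟫ ^ (2 * (k + 1)) :=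
        continuous_const.mul ((cpi w).pow _)
      rw [integral_const_mul, integral_div, integral_add (int c1) (int c2), integral_const_mul]
    rw [← e]
    refine integral_mono (int ?_) (int ?_) pt
    · have : Continuous fun x => qd b j p x := by
        unfold qd
        have := cpi
        fun_prop
      have := cpi w
      fun_prop
    · have := cpi
      fun_prop
  refine i1.trans ?_
  have i2 : ∀ a, (∫ x, ⟪p x, b a⟫ ^ (2 * (k + 1)) ∂μ + k * ∫ x, ⟪p x, w⟫ ^ (2 * (k + 1)) ∂μ) / (k + 1)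
      ≤ df (k + 1) / ((m : ℝ) + 1) ^ (k + 1) := by
    intro a
    rw [div_le_iff₀ (by positivity)]
    have h1 := mom_w h (w := b a) (by rw [b.norm_eq_one]) (k + 1)
    have h2 := mom_w h hw (k + 1)
    have h3 := mul_le_mul_of_nonneg_left h2 (Nat.cast_nonneg (α := ℝ) k)
    linarith
  calc ∑ a, j a ^ 2 * ((∫ x, ⟪p x, b a⟫ ^ (2 * (k + 1)) ∂μ
        + k * ∫ x, ⟪p x, w⟫ ^ (2 * (k + 1)) ∂μ) / (k + 1))
      ≤ ∑ a, j a ^ 2 * (df (k + 1) / ((m : ℝ) + 1) ^ (k + 1)) :=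
        Finset.sum_le_sum fun a _ => mul_le_mul_of_nonneg_left (i2 a) (sq_nonneg _)
    _ = (∑ a, j a ^ 2) * (df (k + 1) / ((m : ℝ) + 1) ^ (k + 1)) := by rw [Finset.sum_mul]
    _ ≤ (L * (m + 1)) * (df (k + 1) / ((m : ℝ) + 1) ^ (k + 1)) :=
        mul_le_mul_of_nonneg_right hL b0
    _ = _ := by rw [pow_succ]; field_simp

/-- `|N - J x|² ≤ 2 (1 + |J x|²)` -/
lemma ad_le_two (b : OrthonormalBasis ι ℝ E) (j : ι → ℝ) {x : X} (hn : ‖n x‖ = 1) :
    ad b j p n x ≤ 2 * (1 + qd b j p x) := by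
  have h1 : ∑ a, ⟪n x, b a⟫ ^ 2 = 1 := by
    rw [b.sum_sq_inner_left (n x), hn, one_pow]
  calc ad b j p n x ≤ ∑ a, (2 * ⟪n x, b a⟫ ^ 2 + 2 * (j a ^ 2 * ⟪p x, b a⟫ ^ 2)) :=
        Finset.sum_le_sum fun a _ => by nlinarith [sq_nonneg (⟪n x, b a⟫ + j a * ⟪p x, b a⟫)]
    _ = _ := by rw [Finset.sum_add_distrib, ← Finset.mul_sum, ← Finset.mul_sum, h1, qd]; ring

theorem pow_ad_le [IsProbabilityMeasure μ] (h : OneP μ m p n) (b : OrthonormalBasis ι ℝ E)
    {j : ι → ℝ} {L κ : ℝ} (hκ : 0 ≤ κ) (hL : ∑ a, j a ^ 2 ≤ L * (m + 1)) {w : E} (hw : ‖w‖ ≤ 1)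
    (k : ℕ) :
    ∫ x, (√(κ * (m + 1)) * ⟪p x, w⟫) ^ (2 * k) * ad b j p n x ∂μ
      ≤ 2 * df k * κ ^ k * (1 + (2 * k + 1) * L) := by
  have cpi : ∀ v : E, Continuous fun x => ⟪p x, v⟫ := fun v => h.cp.inner continuous_const
  have cni : ∀ v : E, Continuous fun x => ⟪n x, v⟫ := fun v => h.cn.inner continuous_const
  have int : ∀ {f : X → ℝ}, Continuous f → Integrable f μ := fun hf =>
    hf.integrable_of_hasCompactSupport (HasCompactSupport.of_compactSpace _)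
  have m0 : (0 : ℝ) < m + 1 := by positivity
  have cq : Continuous fun x => qd b j p x := by
    unfold qd
    have := cpi
    fun_prop
  have ca : Continuous fun x => ad b j p n x := by
    unfold ad
    have := cpi
    have := cni
    fun_prop
  have cw := cpi w
  have e1 : ∀ x, (√(κ * (m + 1)) * ⟪p x, w⟫) ^ (2 * k)
      = κ ^ k * ((m : ℝ) + 1) ^ k * ⟪p x, w⟫ ^ (2 * k) := by
    intro x
    rw [mul_pow, pow_mul (√(κ * (m + 1))), Real.sq_sqrt (by positivity), mul_pow]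
  have i1 : ∫ x, (√(κ * (m + 1)) * ⟪p x, w⟫) ^ (2 * k) * ad b j p n x ∂μ
      ≤ ∫ x, (2 * κ ^ k * ((m : ℝ) + 1) ^ k) * (⟪p x, w⟫ ^ (2 * k)
        + qd b j p x * ⟪p x, w⟫ ^ (2 * k)) ∂μ := by
    refine integral_mono (int (by fun_prop)) (int (by fun_prop)) fun x => ?_
    simp only
    rw [e1]
    have h1 := ad_le_two (p := p) b j (h.nn x)
    have h2 : 0 ≤ κ ^ k * ((m : ℝ) + 1) ^ k * ⟪p x, w⟫ ^ (2 * k) := by
      rw [pow_mul]; positivity
    calc _ ≤ κ ^ k * ((m : ℝ) + 1) ^ k * ⟪p x, w⟫ ^ (2 * k) * (2 * (1 + qd b j p x)) :=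
          mul_le_mul_of_nonneg_left h1 h2
      _ = _ := by ring
  refine i1.trans ?_
  rw [integral_const_mul, integral_add (int (by fun_prop)) (int (by fun_prop))]
  have h1 := mom_w h hw k
  have h2 := mom_qw h b hL hw k
  calc 2 * κ ^ k * ((m : ℝ) + 1) ^ k * (∫ x, ⟪p x, w⟫ ^ (2 * k) ∂μ
        + ∫ x, qd b j p x * ⟪p x, w⟫ ^ (2 * k) ∂μ)
      ≤ 2 * κ ^ k * ((m : ℝ) + 1) ^ k * (df k / (m + 1) ^ k
        + L * df (k + 1) / (m + 1) ^ k) :=
        mul_le_mul_of_nonneg_left (add_le_add h1 h2) (by positivity)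
    _ = _ := by
        rw [df_succ]
        field_simp

/-- **the linear weight, uniformly in the dimension** -/
theorem lin_uni [DecidableEq ι] [IsProbabilityMeasure μ] (h : OneP μ m p n)
    (b : OrthonormalBasis ι ℝ E) {j : ι → ℝ} {L κ δ : ℝ} (hκ : 0 ≤ κ) (hδ : 0 < δ)
    (hL : ∑ a, j a ^ 2 ≤ L * (m + 1)) {w : E} (hw : ‖w‖ ≤ 1) {k : ℕ} (hk : 1 ≤ k) :
    √(κ * (m + 1)) * ∫ x, |⟪p x, w⟫| * ad b j p n x ∂μ
      ≤ δ * (1 - 1 / (2 * k)) * hh μ (Matrix.diagonal j) (cob b p) (cob b n)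
        + δ / (2 * k) / δ ^ (2 * k) * (2 * df k * κ ^ k * (1 + (2 * k + 1) * L)) := by
  have cpi : ∀ v : E, Continuous fun x => ⟪p x, v⟫ := fun v => h.cp.inner continuous_const
  have cni : ∀ v : E, Continuous fun x => ⟪n x, v⟫ := fun v => h.cn.inner continuous_const
  have int : ∀ {f : X → ℝ}, Continuous f → Integrable f μ := fun hf =>
    hf.integrable_of_hasCompactSupport (HasCompactSupport.of_compactSpace _)
  have ca : Continuous fun x => ad b j p n x := by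
    unfold ad
    have := cpi
    have := cni
    fun_prop
  have cw := cpi w
  have eh : hh μ (Matrix.diagonal j) (cob b p) (cob b n) = ∫ x, ad b j p n x ∂μ := by
    rw [hh]
    exact integral_congr_ae (Filter.Eventually.of_forall fun x => (ad_eq b j x).symm)
  have a0 : ∀ x, 0 ≤ ad b j p n x := fun x => Finset.sum_nonneg fun _ _ => sq_nonneg _
  rw [eh, ← integral_const_mul]
  have hs := Real.sqrt_nonneg (κ * ((m : ℝ) + 1))
  calc ∫ x, √(κ * (m + 1)) * (|⟪p x, w⟫| * ad b j p n x) ∂μ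
      ≤ ∫ x, (δ * (1 - 1 / (2 * k)) * ad b j p n x + δ / (2 * k) / δ ^ (2 * k)
        * ((√(κ * (m + 1)) * ⟪p x, w⟫) ^ (2 * k) * ad b j p n x)) ∂μ := by
        refine integral_mono (int (by fun_prop)) (int (by fun_prop)) fun x => ?_
        simp only
        have h1 := mul_le_mul_of_nonneg_right
          (young_pow (t := √(κ * (m + 1)) * ⟪p x, w⟫) hδ hk) (a0 x)
        rw [abs_mul, abs_of_nonneg hs] at h1
        linarith
    _ = δ * (1 - 1 / (2 * k)) * (∫ x, ad b j p n x ∂μ) + δ / (2 * k) / δ ^ (2 * k)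
        * ∫ x, (√(κ * (m + 1)) * ⟪p x, w⟫) ^ (2 * k) * ad b j p n x ∂μ := by
        rw [integral_add (int (by fun_prop)) (int (by fun_prop)), integral_const_mul,
          integral_const_mul]
    _ ≤ _ := by
        have := pow_ad_le h b hκ hL hw k (j := j)
        gcongr

/-- the same in a box of the defect -/
theorem lin_box [DecidableEq ι] [IsProbabilityMeasure μ] (h : OneP μ m p n)
    (b : OrthonormalBasis ι ℝ E) {j : ι → ℝ} {L κ δ : ℝ} (hκ : 0 ≤ κ) (hδ : 0 < δ)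
    (hL : ∑ a, j a ^ 2 ≤ L * (m + 1)) {w : E} (hw : ‖w‖ ≤ 1) {k : ℕ} (hk : 1 ≤ k)
    (hC : 2 * df k * κ ^ k * (1 + (2 * k + 1) * L)
      ≤ δ ^ (2 * k) * hh μ (Matrix.diagonal j) (cob b p) (cob b n)) :
    √(κ * (m + 1)) * ∫ x, |⟪p x, w⟫| * ad b j p n x ∂μ
      ≤ δ * hh μ (Matrix.diagonal j) (cob b p) (cob b n) := by
  have k0 : (0 : ℝ) < 2 * k := by
    have : (1 : ℝ) ≤ k := by exact_mod_cast hk
    linarith
  have h1 := lin_uni h b hκ hδ hL hw hk
  have h2 : δ / (2 * k) / δ ^ (2 * k) * (2 * df k * κ ^ k * (1 + (2 * k + 1) * L))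
      ≤ δ / (2 * k) / δ ^ (2 * k)
        * (δ ^ (2 * k) * hh μ (Matrix.diagonal j) (cob b p) (cob b n)) :=
    mul_le_mul_of_nonneg_left hC (by positivity)
  have h3 : δ / (2 * k) / δ ^ (2 * k)
        * (δ ^ (2 * k) * hh μ (Matrix.diagonal j) (cob b p) (cob b n))
      = δ / (2 * k) * hh μ (Matrix.diagonal j) (cob b p) (cob b n) := by
    field_simp
  have h4 : δ * (1 - 1 / (2 * k)) * hh μ (Matrix.diagonal j) (cob b p) (cob b n)
      + δ / (2 * k) * hh μ (Matrix.diagonal j) (cob b p) (cob b n)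
      = δ * hh μ (Matrix.diagonal j) (cob b p) (cob b n) := by
    field_simp
    ring
  linarith

lemma short_vec (b : OrthonormalBasis ι ℝ E) {v : ι → ℝ} (hv : ∑ a, v a ^ 2 ≤ 1) :
    ‖∑ a, v a • b a‖ ≤ 1 := by
  have h1 : ‖∑ a, v a • b a‖ ^ 2 = ∑ a, v a ^ 2 := by
    rw [← real_inner_self_eq_norm_sq, b.orthonormal.inner_sum v v Finset.univ]
    refine Finset.sum_congr rfl fun a _ => ?_
    simp [sq]
  have h2 : ‖∑ a, v a • b a‖ ^ 2 ≤ 1 ^ 2 := by rw [h1, one_pow]; exact hv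
  exact le_of_sq_le_sq h2 zero_le_one

/-- the coordinate form -/
theorem lin_box_co [DecidableEq ι] [IsProbabilityMeasure μ] (h : OneP μ m p n)
    (b : OrthonormalBasis ι ℝ E) {j : ι → ℝ} {L κ δ : ℝ} (hκ : 0 ≤ κ) (hδ : 0 < δ)
    (hL : ∑ a, j a ^ 2 ≤ L * (m + 1)) {k : ℕ} (hk : 1 ≤ k)
    (hC : 2 * df k * κ ^ k * (1 + (2 * k + 1) * L)
      ≤ δ ^ (2 * k) * hh μ (Matrix.diagonal j) (cob b p) (cob b n))
    {v : ι → ℝ} (hv : ∑ a, v a ^ 2 ≤ 1) :
    √(κ * (m + 1)) * ∫ x, |∑ a, v a * cob b p a x|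
        * ∑ a, zd j (cob b p) (cob b n) a x * zd j (cob b p) (cob b n) a x ∂μ
      ≤ δ * hh μ (Matrix.diagonal j) (cob b p) (cob b n) := by
  have h1 := lin_box h b hκ hδ hL (short_vec b hv) hk hC
  have e : ∀ x, |∑ a, v a * cob b p a x|
        * ∑ a, zd j (cob b p) (cob b n) a x * zd j (cob b p) (cob b n) a x
      = |⟪p x, ∑ a, v a • b a⟫| * ad b j p n x := by
    intro x
    congr 1
    · congr 1
      rw [inner_sum]
      refine Finset.sum_congr rfl fun a _ => ?_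
      rw [real_inner_smul_right, cob]
    · rw [ad]
      refine Finset.sum_congr rfl fun a _ => ?_
      rw [zd, cob, cob, sq]
  simp only [e]
  exact h1

end

end Vale.Agent.P224.R2.H470
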