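import Vale.Agent.P224.R2.H728.Circ

/-!
Functions given on the unit interval by a power series with nonnegative coefficients.
-/

namespace Vale.Agent.P224.R2.H470

open MeasureTheory Set Filter Function Complex Real
open scoped Topology

/-- power series with nonnegative coefficients -/
def NPS (Φ : ℝ → ℝ) : Prop :=
  ∃ a : ℕ → ℝ, (∀ n, 0 ≤ a n) ∧ ∀ T ∈ Ioo (0 : ℝ) 1, HasSum (fun n => a n * T ^ n) (Φ T)

lemma NPS.congr {Φ Ψ : ℝ → ℝ} (h : NPS Φ) (he : ∀ T ∈ Ioo (0 : ℝ) 1, Φ T = Ψ T) : NPS Ψ := by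
  obtain ⟨a, ha, hs⟩ := h
  exact ⟨a, ha, fun T hT => he T hT ▸ hs T hT⟩

lemma NPS.const_mul {Φ : ℝ → ℝ} (h : NPS Φ) {c : ℝ} (hc : 0 ≤ c) : NPS fun T => c * Φ T := by
  obtain ⟨a, ha, hs⟩ := h
  refine ⟨fun n => c * a n, fun n => mul_nonneg hc (ha n), fun T hT => ?_⟩
  simpa only [mul_assoc] using (hs T hT).mul_left c

/-- the remainder after n terms, divided by its order -/
lemma tail_bound {a : ℕ → ℝ} (ha : ∀ n, 0 ≤ a n) {Φ : ℝ → ℝ}
    (hs : ∀ T ∈ Ioo (0 : ℝ) 1, HasSum (fun n => a n * T ^ n) (Φ T)) (N : ℕ) {T T1 : ℝ}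
    (hT : 0 < T) (hT1 : T ≤ T1) (h1 : T1 < 1) :
    0 ≤ Φ T - ∑ i ∈ Finset.range N, a i * T ^ i ∧
    Φ T - ∑ i ∈ Finset.range N, a i * T ^ i
      ≤ (T / T1) ^ N * (Φ T1 - ∑ i ∈ Finset.range N, a i * T1 ^ i) := by
  have hT1' : 0 < T1 := hT.trans_le hT1
  have s1 := hs T ⟨hT, hT1.trans_lt h1⟩
  have s2 := hs T1 ⟨hT1', h1⟩
  have t1 : HasSum (fun n => a (n + N) * T ^ (n + N))
      (Φ T - ∑ i ∈ Finset.range N, a i * T ^ i) := (hasSum_nat_add_iff' N).2 s1
  have t2 : HasSum (fun n => a (n + N) * T1 ^ (n + N))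
      (Φ T1 - ∑ i ∈ Finset.range N, a i * T1 ^ i) := (hasSum_nat_add_iff' N).2 s2
  refine ⟨t1.nonneg fun n => mul_nonneg (ha _) (pow_nonneg hT.le _), ?_⟩
  refine hasSum_le (fun n => ?_) t1 (t2.mul_left ((T / T1) ^ N))
  have e : T ^ (n + N) = (T / T1) ^ N * ((T / T1) ^ n * T1 ^ (n + N)) := by
    rw [div_pow, div_pow, pow_add, pow_add]
    field_simp
  rw [e]
  have hq0 : 0 ≤ T / T1 := div_nonneg hT.le hT1'.le
  have hq1 : (T / T1) ^ n ≤ 1 := pow_le_one₀ hq0 ((div_le_one hT1').2 hT1)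
  have h3 : 0 ≤ a (n + N) * T1 ^ (n + N) := mul_nonneg (ha _) (pow_nonneg hT1'.le _)
  calc a (n + N) * ((T / T1) ^ N * ((T / T1) ^ n * T1 ^ (n + N)))
      = (T / T1) ^ N * ((T / T1) ^ n * (a (n + N) * T1 ^ (n + N))) := by ring
    _ ≤ (T / T1) ^ N * (1 * (a (n + N) * T1 ^ (n + N))) :=
        mul_le_mul_of_nonneg_left (mul_le_mul_of_nonneg_right hq1 h3) (pow_nonneg hq0 _)
    _ = _ := by ring

/-- the sequence of levels -/
noncomputable def sq0 (k : ℕ) : ℝ := 1 / ((k : ℝ) + 2)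

lemma sq0_mem (k : ℕ) : sq0 k ∈ Ioo (0 : ℝ) 1 := by
  unfold sq0
  constructor
  · positivity
  · rw [div_lt_one (by positivity)]
    linarith [(Nat.cast_nonneg k : (0 : ℝ) ≤ k)]

lemma tendsto_sq0 : Tendsto sq0 atTop (𝓝 0) := by
  have h1 := (tendsto_const_div_atTop_nhds_zero_nat (1 : ℝ)).comp (tendsto_add_atTop_nat 2)
  refine h1.congr fun k => ?_
  unfold sq0
  simp

lemma coeff_lim {a : ℕ → ℝ} (ha : ∀ n, 0 ≤ a n) {Φ : ℝ → ℝ}
    (hs : ∀ T ∈ Ioo (0 : ℝ) 1, HasSum (fun n => a n * T ^ n) (Φ T)) (N : ℕ) :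
    Tendsto (fun k => (Φ (sq0 k) - ∑ i ∈ Finset.range N, a i * sq0 k ^ i) / sq0 k ^ N) atTop
      (𝓝 (a N)) := by
  set C : ℝ := (Φ (1 / 2) - ∑ i ∈ Finset.range (N + 1), a i * (1 / 2 : ℝ) ^ i) * 2 ^ (N + 1) with hC
  have h1 : Tendsto (fun k => a N + C * sq0 k) atTop (𝓝 (a N)) := by
    have := (tendsto_sq0.const_mul C).const_add (a N)
    simpa using this
  refine tendsto_of_tendsto_of_tendsto_of_le_of_le tendsto_const_nhds h1 (fun k => ?_) fun k => ?_
  all_goals
    have hk := sq0_mem k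
    have hk2 : sq0 k ≤ 1 / 2 := by
      unfold sq0
      exact one_div_le_one_div_of_le (by norm_num) (by linarith [(Nat.cast_nonneg k : (0 : ℝ) ≤ k)])
    obtain ⟨b1, b2⟩ := tail_bound ha hs (N + 1) hk.1 hk2 (by norm_num)
    rw [Finset.sum_range_succ] at b1
    have hp : 0 < sq0 k ^ N := pow_pos hk.1 N
  · rw [le_div_iff₀ hp]
    linarith
  · rw [div_le_iff₀ hp]
    have e : (sq0 k / (1 / 2)) ^ (N + 1) * (Φ (1 / 2) - ∑ i ∈ Finset.range (N + 1),
        a i * (1 / 2 : ℝ) ^ i) = C * sq0 k * sq0 k ^ N := by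
      rw [hC, show sq0 k / (1 / 2) = sq0 k * 2 by ring, mul_pow]
      ring
    rw [e, Finset.sum_range_succ] at b2
    linarith [add_mul (a N) (C * sq0 k) (sq0 k ^ N)]

/-- closure under integration -/
theorem NPS.integral {Z : Type*} [MeasurableSpace Z] {ν : Measure Z} {Φ : Z → ℝ → ℝ}
    (h : ∀ z, NPS (Φ z)) (hi : ∀ T ∈ Ioo (0 : ℝ) 1, Integrable (fun z => Φ z T) ν) :
    NPS fun T => ∫ z, Φ z T ∂ν := by
  choose a ha hs using h
  have hm : ∀ N, AEStronglyMeasurable (fun z => a z N) ν := by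
    intro N
    induction N using Nat.strong_induction_on with
    | _ N ih =>
      refine aestronglyMeasurable_of_tendsto_ae atTop
        (f := fun k z => (Φ z (sq0 k) - ∑ i ∈ Finset.range N, a z i * sq0 k ^ i) / sq0 k ^ N)
        (fun k => ?_) (Eventually.of_forall fun z => coeff_lim (ha z) (hs z) N)
      have h1 : AEStronglyMeasurable (fun z => ∑ i ∈ Finset.range N, a z i * sq0 k ^ i) ν := by
        refine Finset.aestronglyMeasurable_fun_sum _ fun i hi' => ?_
        exact (ih i (Finset.mem_range.1 hi')).mul_const _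
      have h2 := ((hi _ (sq0_mem k)).aestronglyMeasurable.sub h1)
      have h3 : AEStronglyMeasurable (fun z => (Φ z (sq0 k)
          - ∑ i ∈ Finset.range N, a z i * sq0 k ^ i) * (sq0 k ^ N)⁻¹) ν := h2.mul_const _
      exact h3
  refine ⟨fun n => ∫ z, a z n ∂ν, fun n => integral_nonneg fun z => ha z n, fun T hT => ?_⟩
  have key := hasSum_integral_of_dominated_convergence (μ := ν)
    (F := fun n z => a z n * T ^ n) (f := fun z => Φ z T) (fun n z => a z n * T ^ n)
    (fun n => (hm n).mul_const _) (fun n => Eventually.of_forall fun z => ?_)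
    (Eventually.of_forall fun z => (hs z T hT).summable) ?_
    (Eventually.of_forall fun z => hs z T hT)
  · simpa only [integral_mul_const] using key
  · rw [Real.norm_eq_abs, abs_of_nonneg (mul_nonneg (ha z n) (pow_nonneg hT.1.le n))]
  · exact (hi T hT).congr (Eventually.of_forall fun z => (hs z T hT).tsum_eq.symm)

/-- circle means of the square of an entire function -/
theorem NPS.circle {h : ℂ → ℂ} (hd : Differentiable ℂ h) :
    NPS fun T => ∫ θ in (0 : ℝ)..(2 * π), ‖h ((√T : ℝ) * cexp (θ * I))‖ ^ 2 := by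
  set c : ℕ → ℂ := fun i => (Nat.factorial i : ℂ)⁻¹ * iteratedDeriv i h 0 with hc
  refine ⟨fun n => 2 * π * ‖c n‖ ^ 2, fun n => by positivity, fun T hT => ?_⟩
  have hT0 := hT.1.le
  have t1 := H728.tendsto_poly_mean hd (√T) (Real.sqrt_nonneg T)
  have key : ∀ n, ∫ θ in (0 : ℝ)..(2 * π),
      ‖∑ i ∈ Finset.range n, ((Nat.factorial i : ℂ)⁻¹ * iteratedDeriv i h 0)
        * ((√T : ℝ) * cexp (θ * I)) ^ i‖ ^ 2
      = ∑ i ∈ Finset.range n, 2 * π * ‖c i‖ ^ 2 * T ^ i := by
    intro n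
    set p : Polynomial ℂ := ∑ i ∈ Finset.range n,
      Polynomial.C (c i * ((√T : ℝ) : ℂ) ^ i) * Polynomial.X ^ i with hp
    have he : ∀ z, p.eval z = ∑ i ∈ Finset.range n, c i * ((√T : ℝ) * z) ^ i := by
      intro z
      rw [hp, Polynomial.eval_finsetSum]
      refine Finset.sum_congr rfl fun i _ => ?_
      simp only [Polynomial.eval_mul, Polynomial.eval_C, Polynomial.eval_pow, Polynomial.eval_X,
        mul_pow]
      ring
    have hco : ∀ j, p.coeff j = if j ∈ Finset.range n then c j * ((√T : ℝ) : ℂ) ^ j else 0 := by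
      intro j
      rw [hp, Polynomial.finsetSum_coeff]
      simp only [Polynomial.coeff_C_mul_X_pow]
      rw [Finset.sum_ite_eq]
    have h1 := H728.poly_mean p
    have hsub : p.support ⊆ Finset.range n := by
      intro j hj
      rw [Polynomial.mem_support_iff, hco] at hj
      by_contra hn
      exact hj (if_neg hn)
    rw [Finset.sum_subset hsub (fun j _ hj => by
      rw [Polynomial.notMem_support_iff] at hj
      rw [hj]; simp)] at h1
    have hpi : (0 : ℝ) < 2 * π := by positivity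
    have h2 : ∫ θ in (0 : ℝ)..(2 * π), ‖p.eval (cexp (θ * I))‖ ^ 2
        = 2 * π * ∑ i ∈ Finset.range n, ‖p.coeff i‖ ^ 2 := by
      rw [← h1, mul_inv_cancel_left₀ hpi.ne']
    simp only [he] at h2
    rw [h2, Finset.mul_sum]
    refine Finset.sum_congr rfl fun i hi => ?_
    rw [hco, if_pos hi, norm_mul, mul_pow, norm_pow, Complex.norm_real, Real.norm_eq_abs,
      abs_of_nonneg (Real.sqrt_nonneg T), ← pow_mul, mul_comm i 2, pow_mul, Real.sq_sqrt hT0]
    ring
  simp only [key] at t1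
  refine (hasSum_iff_tendsto_nat_of_nonneg (fun n => ?_) _).2 t1
  exact mul_nonneg (by positivity) (pow_nonneg hT0 n)

/-- a polynomial of small size at the origin vanishes -/
lemma poly_zero {N : ℕ} {c : ℕ → ℝ} {C T0 : ℝ} (hT0 : 0 < T0)
    (h : ∀ T ∈ Ioo (0 : ℝ) T0, |∑ i ∈ Finset.range N, c i * T ^ i| ≤ C * T ^ N) :
    ∀ i < N, c i = 0 := by
  intro i
  induction i using Nat.strong_induction_on with
  | _ i ih =>
    intro hi
    have hlim : Tendsto (fun T : ℝ => ∑ j ∈ Finset.range (N - i), c (i + j) * T ^ j)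
        (𝓝[>] 0) (𝓝 (c i)) := by
      have h1 : Continuous fun T : ℝ => ∑ j ∈ Finset.range (N - i), c (i + j) * T ^ j := by
        fun_prop
      have h2 := (h1.tendsto 0).mono_left (nhdsWithin_le_nhds (s := Ioi (0 : ℝ)))
      have e : ∑ j ∈ Finset.range (N - i), c (i + j) * (0 : ℝ) ^ j = c i := by
        rw [Finset.sum_eq_single 0]
        · simp
        · intro j _ hj
          rw [zero_pow hj, mul_zero]
        · intro h3
          exact absurd (Finset.mem_range.2 (by omega)) h3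
      rwa [e] at h2
    have hz : Tendsto (fun T : ℝ => |C| * T) (𝓝[>] 0) (𝓝 0) := by
      have h1 : Continuous fun T : ℝ => |C| * T := by fun_prop
      have h2 := (h1.tendsto 0).mono_left (nhdsWithin_le_nhds (s := Ioi (0 : ℝ)))
      simpa using h2
    have hb : ∀ᶠ T in 𝓝[>] (0 : ℝ), |∑ j ∈ Finset.range (N - i), c (i + j) * T ^ j| ≤ |C| * T := by
      have hmem : Ioo (0 : ℝ) (min T0 1) ∈ 𝓝[>] (0 : ℝ) :=
        Ioo_mem_nhdsGT (lt_min hT0 one_pos)
      filter_upwards [hmem] with T hT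
      have hT1 : T < T0 := hT.2.trans_le (min_le_left _ _)
      have hT2 : T ≤ 1 := hT.2.le.trans (min_le_right _ _)
      have h1 := h T ⟨hT.1, hT1⟩
      have e1 : ∑ j ∈ Finset.range N, c j * T ^ j
          = T ^ i * ∑ j ∈ Finset.range (N - i), c (i + j) * T ^ j := by
        have e2 : N = i + (N - i) := by omega
        conv_lhs => rw [e2]
        rw [Finset.sum_range_add, Finset.sum_eq_zero, zero_add, Finset.mul_sum]
        · refine Finset.sum_congr rfl fun j _ => ?_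
          rw [pow_add]
          ring
        · intro j hj
          have := Finset.mem_range.1 hj
          rw [ih j this (by omega), zero_mul]
      rw [e1, abs_mul, abs_of_pos (pow_pos hT.1 i)] at h1
      have e3 : C * T ^ N ≤ T ^ i * (|C| * T) := by
        have e4 : T ^ N = T ^ i * (T * T ^ (N - i - 1)) := by
          rw [← pow_succ', ← pow_add]
          congr 1
          omega
        have h5 : T ^ (N - i - 1) ≤ 1 := pow_le_one₀ hT.1.le hT2
        have h6 : 0 ≤ T ^ i * T := mul_nonneg (pow_nonneg hT.1.le _) hT.1.le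
        calc C * T ^ N ≤ |C| * T ^ N :=
              mul_le_mul_of_nonneg_right (le_abs_self C) (pow_nonneg hT.1.le _)
          _ = |C| * (T ^ i * T) * T ^ (N - i - 1) := by rw [e4]; ring
          _ ≤ |C| * (T ^ i * T) * 1 :=
              mul_le_mul_of_nonneg_left h5 (mul_nonneg (abs_nonneg _) h6)
          _ = T ^ i * (|C| * T) := by ring
      exact le_of_mul_le_mul_left (h1.trans e3) (pow_pos hT.1 i)
    have h0 : Tendsto (fun T : ℝ => ∑ j ∈ Finset.range (N - i), c (i + j) * T ^ j)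
        (𝓝[>] 0) (𝓝 0) := squeeze_zero_norm' (by simpa only [Real.norm_eq_abs] using hb) hz
    exact tendsto_nhds_unique hlim h0

/-- **Splitting**: the first coefficients are given by the expansion at the origin. -/
theorem NPS.split {Φ : ℝ → ℝ} (h : NPS Φ) {N : ℕ} {A : ℕ → ℝ} {C T0 : ℝ} (hT0 : 0 < T0)
    (hA : ∀ T ∈ Ioo (0 : ℝ) T0, |Φ T - ∑ i ∈ Finset.range N, A i * T ^ i| ≤ C * T ^ N) :
    (∀ i < N, 0 ≤ A i) ∧ ∀ {T T1 : ℝ}, 0 < T → T ≤ T1 → T1 < 1 →
      0 ≤ Φ T - ∑ i ∈ Finset.range N, A i * T ^ i ∧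
      Φ T - ∑ i ∈ Finset.range N, A i * T ^ i
        ≤ (T / T1) ^ N * (Φ T1 - ∑ i ∈ Finset.range N, A i * T1 ^ i) := by
  obtain ⟨a, ha, hs⟩ := h
  have key : ∀ i < N, a i - A i = 0 := by
    refine poly_zero (T0 := min T0 (1 / 2)) (C := C + |(Φ (1 / 2)
      - ∑ i ∈ Finset.range N, a i * (1 / 2 : ℝ) ^ i) * 2 ^ N|) (lt_min hT0 (by norm_num)) ?_
    intro T hT
    have h1 := hA T ⟨hT.1, hT.2.trans_le (min_le_left _ _)⟩
    obtain ⟨b1, b2⟩ := tail_bound ha hs N hT.1 (hT.2.le.trans (min_le_right _ _)) (by norm_num)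
    have e1 : ∑ i ∈ Finset.range N, (a i - A i) * T ^ i
        = (Φ T - ∑ i ∈ Finset.range N, A i * T ^ i)
          - (Φ T - ∑ i ∈ Finset.range N, a i * T ^ i) := by
      simp only [sub_mul, Finset.sum_sub_distrib]
      ring
    rw [e1, add_mul]
    refine (abs_sub _ _).trans (add_le_add h1 ?_)
    rw [abs_of_nonneg b1]
    refine b2.trans ?_
    have e2 : (T / (1 / 2)) ^ N * (Φ (1 / 2) - ∑ i ∈ Finset.range N, a i * (1 / 2 : ℝ) ^ i)
        = ((Φ (1 / 2) - ∑ i ∈ Finset.range N, a i * (1 / 2 : ℝ) ^ i) * 2 ^ N) * T ^ N := by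
      rw [show T / (1 / 2) = T * 2 by ring, mul_pow]
      ring
    rw [e2]
    exact mul_le_mul_of_nonneg_right (le_abs_self _) (pow_nonneg hT.1.le _)
  have key' : ∀ i < N, A i = a i := fun i hi => by linarith [key i hi]
  have e : ∀ T : ℝ, ∑ i ∈ Finset.range N, A i * T ^ i = ∑ i ∈ Finset.range N, a i * T ^ i :=
    fun T => Finset.sum_congr rfl fun i hi => by rw [key' i (Finset.mem_range.1 hi)]
  refine ⟨fun i hi => by rw [key' i hi]; exact ha i, fun {T T1} hT hT1 h1 => ?_⟩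
  rw [e, e]
  exact tail_bound ha hs N hT hT1 h1

end Vale.Agent.P224.R2.H470
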