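import Mathlib

/-!
The one point rows of a minimal hypersurface of the sphere, abstract form.
-/

namespace Vale.Agent.P224.R2.H470

open MeasureTheory Module Function Set
open scoped RealInnerProductSpace Topology ContDiff

set_option linter.unusedSectionVars false

section

variable {X : Type*} {E : Type*} [NormedAddCommGroup E] [InnerProductSpace ℝ E]

/-- the tangential part of b -/
noncomputable def tg (p n : X → E) (x : X) (b : E) : E := b - ⟪p x, b⟫ • p x - ⟪n x, b⟫ • n x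

variable [TopologicalSpace X] [MeasurableSpace X]

/-- the rows of a minimal hypersurface -/
structure OneP (μ : Measure X) (m : ℕ) (p n : X → E) : Prop where
  cp : Continuous p
  cn : Continuous n
  np : ∀ x, ‖p x‖ = 1
  nn : ∀ x, ‖n x‖ = 1
  pn : ∀ x, ⟪p x, n x⟫ = 0
  r1 : ∀ f : E → ℝ, (∀ u, ‖u‖ = 1 → ContDiffAt ℝ ∞ f u) → ∀ b,
    ∫ x, fderiv ℝ f (p x) (tg p n x b) ∂μ = m * ∫ x, ⟪p x, b⟫ * f (p x) ∂μ
  r2 : ∀ f : E → ℝ, (∀ u, ‖u‖ = 1 → ContDiffAt ℝ ∞ f u) → ∀ b c,
    ∫ x, (⟪n x, b⟫ * fderiv ℝ f (p x) (tg p n x c) - ⟪n x, c⟫ * fderiv ℝ f (p x) (tg p n x b)) ∂μ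
      = m * ∫ x, (⟪n x, b⟫ * ⟪p x, c⟫ - ⟪n x, c⟫ * ⟪p x, b⟫) * f (p x) ∂μ

variable [CompactSpace X] [BorelSpace X] {μ : Measure X} [IsFiniteMeasure μ] {m : ℕ} {p n : X → E}

lemma int_of_cont {F : Type*} [NormedAddCommGroup F] {g : X → F} (hg : Continuous g) :
    Integrable g μ :=
  hg.integrable_of_hasCompactSupport (HasCompactSupport.of_compactSpace g)

lemma OneP.np' (h : OneP μ m p n) (x : X) : ⟪n x, p x⟫ = 0 := by
  rw [real_inner_comm]; exact h.pn x

lemma OneP.pp (h : OneP μ m p n) (x : X) : ⟪p x, p x⟫ = 1 := by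
  rw [real_inner_self_eq_norm_sq, h.np]; norm_num

lemma OneP.nnn (h : OneP μ m p n) (x : X) : ⟪n x, n x⟫ = 1 := by
  rw [real_inner_self_eq_norm_sq, h.nn]; norm_num

/-- first row with a given derivative -/
theorem OneP.r1' (h : OneP μ m p n) {f : E → ℝ} {f' : E → E →L[ℝ] ℝ} (hf : ContDiff ℝ ∞ f)
    (hd : ∀ u, HasFDerivAt f (f' u) u) (b : E) :
    ∫ x, (f' (p x) b - ⟪p x, b⟫ * f' (p x) (p x) - ⟪n x, b⟫ * f' (p x) (n x)) ∂μ
      = m * ∫ x, ⟪p x, b⟫ * f (p x) ∂μ := by
  rw [← h.r1 f (fun u _ => hf.contDiffAt) b]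
  refine integral_congr_ae (Filter.Eventually.of_forall fun x => ?_)
  simp only [(hd (p x)).fderiv, tg, map_sub, map_smul, smul_eq_mul]

/-- second row with a given derivative -/
theorem OneP.r2' (h : OneP μ m p n) {f : E → ℝ} {f' : E → E →L[ℝ] ℝ} (hf : ContDiff ℝ ∞ f)
    (hd : ∀ u, HasFDerivAt f (f' u) u) (b c : E) :
    ∫ x, (⟪n x, b⟫ * (f' (p x) c - ⟪p x, c⟫ * f' (p x) (p x))
        - ⟪n x, c⟫ * (f' (p x) b - ⟪p x, b⟫ * f' (p x) (p x))) ∂μ
      = m * ∫ x, (⟪n x, b⟫ * ⟪p x, c⟫ - ⟪n x, c⟫ * ⟪p x, b⟫) * f (p x) ∂μ := by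
  rw [← h.r2 f (fun u _ => hf.contDiffAt) b c]
  refine integral_congr_ae (Filter.Eventually.of_forall fun x => ?_)
  simp only [(hd (p x)).fderiv, tg, map_sub, map_smul, smul_eq_mul]
  ring

variable [FiniteDimensional ℝ E]

/-- the row of a vector field -/
theorem OneP.rv (h : OneP μ m p n) {W : E → E} {W' : E → E →L[ℝ] E} (hW : ContDiff ℝ ∞ W)
    (hd : ∀ u, HasFDerivAt W (W' u) u) (hc : Continuous W') :
    ∫ x, (LinearMap.trace ℝ E (W' (p x) : E →ₗ[ℝ] E) - ⟪W' (p x) (p x), p x⟫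
        - ⟪W' (p x) (n x), n x⟫) ∂μ = m * ∫ x, ⟪p x, W (p x)⟫ ∂μ := by
  set e := stdOrthonormalBasis ℝ E with he
  have cp := h.cp
  have cn := h.cn
  have cW := hW.continuous
  have hi : ∀ i, ∫ x, (⟪W' (p x) (e i), e i⟫ - ⟪p x, e i⟫ * ⟪W' (p x) (p x), e i⟫
      - ⟪n x, e i⟫ * ⟪W' (p x) (n x), e i⟫) ∂μ = m * ∫ x, ⟪p x, e i⟫ * ⟪W (p x), e i⟫ ∂μ := by
    intro i
    have hf : ContDiff ℝ ∞ (fun u => ⟪W u, e i⟫) := hW.inner ℝ contDiff_const
    have hd' : ∀ u, HasFDerivAt (fun u => ⟪W u, e i⟫) ((innerSL ℝ (e i)).comp (W' u)) u := by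
      intro u
      have h1 := (innerSL ℝ (e i)).hasFDerivAt.comp u (hd u)
      refine h1.congr_of_eventuallyEq (Filter.Eventually.of_forall fun v => ?_)
      simp only [comp_apply, innerSL_apply_apply]
      rw [real_inner_comm]
    have h2 := h.r1' hf hd' (e i)
    simp only [ContinuousLinearMap.comp_apply, innerSL_apply_apply] at h2
    rw [← h2]
    refine integral_congr_ae (Filter.Eventually.of_forall fun x => ?_)
    simp only [real_inner_comm]
  have hs : ∑ i, ∫ x, (⟪W' (p x) (e i), e i⟫ - ⟪p x, e i⟫ * ⟪W' (p x) (p x), e i⟫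
      - ⟪n x, e i⟫ * ⟪W' (p x) (n x), e i⟫) ∂μ = ∑ i, m * ∫ x, ⟪p x, e i⟫ * ⟪W (p x), e i⟫ ∂μ :=
    Finset.sum_congr rfl fun i _ => hi i
  have c1 : Continuous fun x => W' (p x) := hc.comp cp
  rw [← integral_finsetSum, ← Finset.mul_sum, ← integral_finsetSum] at hs
  · refine Eq.trans ?_ (hs.trans ?_)
    · refine integral_congr_ae (Filter.Eventually.of_forall fun x => ?_)
      simp only
      rw [Finset.sum_sub_distrib, Finset.sum_sub_distrib, LinearMap.trace_eq_sum_inner _ e]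
      congr 1
      · congr 1
        · refine Finset.sum_congr rfl fun i _ => ?_
          rw [real_inner_comm]
          rfl
        · rw [← e.sum_inner_mul_inner]
          refine Finset.sum_congr rfl fun i _ => ?_
          rw [real_inner_comm (p x) (e i)]
          ring
      · rw [← e.sum_inner_mul_inner]
        refine Finset.sum_congr rfl fun i _ => ?_
        rw [real_inner_comm (n x) (e i)]
        ring
    · congr 1
      refine integral_congr_ae (Filter.Eventually.of_forall fun x => ?_)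
      simp only
      rw [← e.sum_inner_mul_inner]
      refine Finset.sum_congr rfl fun i _ => ?_
      rw [real_inner_comm (e i) (W (p x))]
  · intro i _
    refine int_of_cont ?_
    exact (cp.inner continuous_const).mul ((cW.comp cp).inner continuous_const)
  · intro i _
    refine int_of_cont ?_
    exact (((c1.clm_apply continuous_const).inner continuous_const).sub
      ((cp.inner continuous_const).mul ((c1.clm_apply cp).inner continuous_const))).sub
      ((cn.inner continuous_const).mul ((c1.clm_apply cn).inner continuous_const))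

end

end Vale.Agent.P224.R2.H470
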