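import Vale.Agent.P224.R2.H470.Kf
import Vale.Agent.P224.R2.H470.Bess

/-!
The bilinear positive definite expansion with the Gram bound at the second order.
-/

namespace Vale.Agent.P224.R2.H470

open MeasureTheory Set Filter Function Real Module Vale.Agent.P224.R2.H728
open scoped Topology RealInnerProductSpace

set_option linter.unusedSectionVars false

section

variable {V : Type*} [NormedAddCommGroup V] [InnerProductSpace ℝ V] [FiniteDimensional ℝ V]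
  [MeasurableSpace V] [BorelSpace V] {Ω : Type*} [MeasurableSpace Ω]

variable {μ : Measure Ω} [IsFiniteMeasure μ] {p : Ω → V} {F G : Ω → ℝ} {κ : ℝ → ℝ}

lemma BM_p (hp : Measurable p) (hp1 : ∀ x, ‖p x‖ = 1) (b : V) : BM fun x => ⟪p x, b⟫ := by
  refine ⟨hp.inner_const, ‖b‖, fun x => ?_⟩
  have := abs_real_inner_le_norm (p x) b
  rwa [hp1, one_mul] at this

lemma inner_sum_basis {ι : Type*} [Fintype ι] (e : OrthonormalBasis ι ℝ V) (x y : V) :
    ⟪x, y⟫ = ∑ i, ⟪x, e i⟫ * ⟪y, e i⟫ := by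
  rw [← e.sum_inner_mul_inner x y]
  refine Finset.sum_congr rfl fun i _ => ?_
  rw [real_inner_comm y (e i)]

lemma KF_s (hp : Measurable p) (hp1 : ∀ x, ‖p x‖ = 1) (hF : BM F) (hG : BM G) {ι : Type*}
    [Fintype ι] (e : OrthonormalBasis ι ℝ V) : KF (fun s => s) μ p F G
      = ∑ i, (∫ x, F x * ⟪p x, e i⟫ ∂μ) * ∫ x, G x * ⟪p x, e i⟫ ∂μ := by
  unfold KF
  have h1 : ∀ i, (∫ x, F x * ⟪p x, e i⟫ ∂μ) * (∫ x, G x * ⟪p x, e i⟫ ∂μ)
      = ∫ u : Ω × Ω, (F u.1 * ⟪p u.1, e i⟫) * (G u.2 * ⟪p u.2, e i⟫) ∂(μ.prod μ) := fun i =>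
    (integral_prod_mul (μ := μ) (ν := μ) (fun x => F x * ⟪p x, e i⟫)
      (fun x => G x * ⟪p x, e i⟫)).symm
  simp only [h1]
  rw [← integral_finsetSum _ fun i _ => ?_]
  · refine integral_congr_ae (Eventually.of_forall fun u => ?_)
    simp only
    rw [inner_sum_basis e, Finset.sum_mul]
    refine Finset.sum_congr rfl fun i _ => ?_
    ring
  · exact (hF.mul (BM_p hp hp1 (e i))).int.mul_prod (hG.mul (BM_p hp hp1 (e i))).int

lemma KF_s2 (hp : Measurable p) (hp1 : ∀ x, ‖p x‖ = 1) (hF : BM F) (hG : BM G) {ι : Type*}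
    [Fintype ι] (e : OrthonormalBasis ι ℝ V) : KF (fun s => s ^ 2) μ p F G
      = ∑ i, ∑ j, (∫ x, F x * (⟪p x, e i⟫ * ⟪p x, e j⟫) ∂μ)
        * ∫ x, G x * (⟪p x, e i⟫ * ⟪p x, e j⟫) ∂μ := by
  unfold KF
  have h1 : ∀ i j, (∫ x, F x * (⟪p x, e i⟫ * ⟪p x, e j⟫) ∂μ)
      * (∫ x, G x * (⟪p x, e i⟫ * ⟪p x, e j⟫) ∂μ)
      = ∫ u : Ω × Ω, (F u.1 * (⟪p u.1, e i⟫ * ⟪p u.1, e j⟫))
        * (G u.2 * (⟪p u.2, e i⟫ * ⟪p u.2, e j⟫)) ∂(μ.prod μ) := fun i j =>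
    (integral_prod_mul (μ := μ) (ν := μ) (fun x => F x * (⟪p x, e i⟫ * ⟪p x, e j⟫))
      (fun x => G x * (⟪p x, e i⟫ * ⟪p x, e j⟫))).symm
  simp only [h1]
  have h2 : ∀ i j, Integrable (fun u : Ω × Ω => (F u.1 * (⟪p u.1, e i⟫ * ⟪p u.1, e j⟫))
        * (G u.2 * (⟪p u.2, e i⟫ * ⟪p u.2, e j⟫))) (μ.prod μ) := fun i j =>
    (hF.mul ((BM_p hp hp1 (e i)).mul (BM_p hp hp1 (e j)))).int.mul_prod
      (hG.mul ((BM_p hp hp1 (e i)).mul (BM_p hp hp1 (e j)))).int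
  have h3 : ∀ i, ∑ j, ∫ u : Ω × Ω, (F u.1 * (⟪p u.1, e i⟫ * ⟪p u.1, e j⟫))
        * (G u.2 * (⟪p u.2, e i⟫ * ⟪p u.2, e j⟫)) ∂(μ.prod μ)
      = ∫ u : Ω × Ω, ∑ j, (F u.1 * (⟪p u.1, e i⟫ * ⟪p u.1, e j⟫))
        * (G u.2 * (⟪p u.2, e i⟫ * ⟪p u.2, e j⟫)) ∂(μ.prod μ) := fun i =>
    (integral_finsetSum _ fun j _ => h2 i j).symm
  simp only [h3]
  rw [← integral_finsetSum _ fun i _ => integrable_finsetSum _ fun j _ => h2 i j]
  refine integral_congr_ae (Eventually.of_forall fun u => ?_)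
  simp only
  rw [sq, inner_sum_basis e (p u.1) (p u.2), Finset.sum_mul_sum, Finset.sum_mul]
  refine Finset.sum_congr rfl fun i _ => ?_
  rw [Finset.sum_mul]
  refine Finset.sum_congr rfl fun j _ => ?_
  ring

lemma KF_a0 (m q : ℕ) : KF (ak m q 0) μ p F G = (∫ x, F x ∂μ) * ∫ x, G x ∂μ := by
  unfold KF
  rw [← integral_prod_mul (μ := μ) (ν := μ) F G]
  refine integral_congr_ae (Eventually.of_forall fun u => ?_)
  simp only [ak, one_mul]

lemma KF_a1 (hp : Measurable p) (hp1 : ∀ x, ‖p x‖ = 1) (hF : BM F) (hG : BM G) {ι : Type*}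
    [Fintype ι] (e : OrthonormalBasis ι ℝ V) (m q : ℕ) : KF (ak m q 1) μ p F G
      = q * ∑ i, (∫ x, F x * ⟪p x, e i⟫ ∂μ) * ∫ x, G x * ⟪p x, e i⟫ ∂μ := by
  rw [← KF_s hp hp1 hF hG e, ← KF_ksmul]
  rfl

lemma KF_a2 (hp : Measurable p) (hp1 : ∀ x, ‖p x‖ = 1) (hF : BM F) (hG : BM G) {ι : Type*}
    [Fintype ι] (e : OrthonormalBasis ι ℝ V) (m q : ℕ) : KF (ak m q 2) μ p F G
      = q * (q + 1) / 2 * (∑ i, ∑ j, (∫ x, F x * (⟪p x, e i⟫ * ⟪p x, e j⟫) ∂μ)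
        * ∫ x, G x * (⟪p x, e i⟫ * ⟪p x, e j⟫) ∂μ)
        - ((q : ℝ) - m / 2 - 1) * ((∫ x, F x ∂μ) * ∫ x, G x ∂μ) := by
  rw [← KF_s2 hp hp1 hF hG e, ← KF_a0 (μ := μ) (p := p) (F := F) (G := G) m q, ← KF_ksmul,
    ← KF_ksmul, ← KF_ksub hp hp1 ?_ ((BK_ak m q 0).smul _) hF hG]
  · unfold KF
    refine integral_congr_ae (Eventually.of_forall fun u => ?_)
    simp only [ak, mul_one]
  · exact BK.of_cont (by fun_prop)

/-- the Gram bound for trace free quadratic forms -/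
def QB {ι : Type*} [Fintype ι] (μ : Measure Ω) (p : Ω → V) (e : OrthonormalBasis ι ℝ V)
    (K2 : ℝ) : Prop :=
  ∀ c : ι → ι → ℝ, (∀ i j, c i j = c j i) → ∑ i, c i i = 0 →
    ∫ x, (∑ i, ∑ j, c i j * (⟪p x, e i⟫ * ⟪p x, e j⟫)) ^ 2 ∂μ ≤ K2 * ∑ i, ∑ j, c i j ^ 2

lemma int_cs {f g : Ω → ℝ} (hf : BM f) (hg : BM g) :
    (∫ x, f x * g x ∂μ) ^ 2 ≤ (∫ x, f x ^ 2 ∂μ) * ∫ x, g x ^ 2 ∂μ := by
  refine disc_le fun t => ?_
  have hf2 : BM fun x => f x ^ 2 := by simpa only [sq] using hf.mul hf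
  have hg2 : BM fun x => g x ^ 2 := by simpa only [sq] using hg.mul hg
  have e : (∫ x, f x ^ 2 ∂μ) + 2 * t * (∫ x, f x * g x ∂μ) + t ^ 2 * ∫ x, g x ^ 2 ∂μ
      = ∫ x, (f x + t * g x) ^ 2 ∂μ := by
    rw [← integral_const_mul, ← integral_const_mul, ← integral_add hf2.int
      ((hf.mul hg).smul _).int, ← integral_add (hf2.add ((hf.mul hg).smul _)).int
      (hg2.smul _).int]
    refine integral_congr_ae (Eventually.of_forall fun x => ?_)
    simp only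
    ring
  rw [e]
  exact integral_nonneg fun x => sq_nonneg _

lemma BM_quad (hp : Measurable p) (hp1 : ∀ x, ‖p x‖ = 1) {ι : Type*} [Fintype ι]
    (e : OrthonormalBasis ι ℝ V) (c : ι → ι → ℝ) :
    BM fun x => ∑ i, ∑ j, c i j * (⟪p x, e i⟫ * ⟪p x, e j⟫) := by
  have hs : ∀ {κ : Type _} (S : Finset κ) (f : κ → Ω → ℝ), (∀ i, BM (f i)) →
      BM fun x => ∑ i ∈ S, f i x := by
    intro κ S f hf
    classical
    induction S using Finset.induction_on with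
    | empty => exact ⟨by simp, 0, fun x => by simp⟩
    | insert a S ha ih =>
      simp only [Finset.sum_insert ha]
      exact (hf a).add ih
  exact hs _ _ fun i => hs _ _ fun j => ((BM_p hp hp1 (e i)).mul (BM_p hp hp1 (e j))).smul _

/-- the second moments of a function -/
noncomputable def m2f {ι : Type*} [Fintype ι] (μ : Measure Ω) (p : Ω → V)
    (e : OrthonormalBasis ι ℝ V) (F : Ω → ℝ) (i j : ι) : ℝ :=
  ∫ x, F x * (⟪p x, e i⟫ * ⟪p x, e j⟫) ∂μ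

theorem m2f_le (hp : Measurable p) (hp1 : ∀ x, ‖p x‖ = 1) (hF : BM F) {ι : Type*} [Fintype ι]
    (e : OrthonormalBasis ι ℝ V) {m : ℕ} (hd : Fintype.card ι = m + 2) {K2 : ℝ} (hK : 0 ≤ K2)
    (hq : QB μ p e K2) : ∑ i, ∑ j, m2f μ p e F i j ^ 2
      ≤ K2 * (∫ x, F x ^ 2 ∂μ) + (∫ x, F x ∂μ) ^ 2 / (m + 2) := by
  classical
  set t := ∫ x, F x ∂μ with ht
  set T := m2f μ p e F with hT
  have hm : (0 : ℝ) < m + 2 := by positivity
  have hcard : (Fintype.card ι : ℝ) = m + 2 := by rw [hd]; push_cast; ring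
  set c : ι → ι → ℝ := fun i j => T i j - t / (m + 2) * (if i = j then 1 else 0) with hc
  have hTs : ∀ i j, T i j = T j i := by
    intro i j
    simp only [hT, m2f]
    refine integral_congr_ae (Eventually.of_forall fun x => ?_)
    simp only
    ring
  have hcs : ∀ i j, c i j = c j i := by
    intro i j
    simp only [hc]
    rw [hTs i j]
    by_cases h : i = j
    · simp [h]
    · simp [h, Ne.symm h]
  have hTt : ∑ i, T i i = t := by
    simp only [hT, m2f]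
    rw [← integral_finsetSum _ fun i _ =>
      (hF.mul ((BM_p hp hp1 (e i)).mul (BM_p hp hp1 (e i)))).int]
    refine integral_congr_ae (Eventually.of_forall fun x => ?_)
    simp only
    rw [← Finset.mul_sum, ← inner_sum_basis e, real_inner_self_eq_norm_sq, hp1]
    ring
  have hct : ∑ i, c i i = 0 := by
    simp only [hc, if_true, mul_one]
    rw [Finset.sum_sub_distrib, hTt, Finset.sum_const, Finset.card_univ, nsmul_eq_mul, hcard]
    field_simp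
    ring
  have hTc : ∑ i, ∑ j, T i j ^ 2 = (∑ i, ∑ j, c i j ^ 2) + t ^ 2 / (m + 2) := by
    have h1 : ∀ i, ∑ j, T i j ^ 2 = (∑ j, c i j ^ 2) + (2 * (t / (m + 2)) * c i i
        + (t / (m + 2)) ^ 2) := by
      intro i
      have h2 : ∀ j, T i j ^ 2 = c i j ^ 2 + (if i = j then (2 * (t / (m + 2)) * c i i
          + (t / (m + 2)) ^ 2) else 0) := by
        intro j
        by_cases h : i = j
        · subst h
          simp only [hc, if_true]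
          ring
        · simp only [hc, h, if_false]
          ring
      simp only [h2]
      rw [Finset.sum_add_distrib, Finset.sum_ite_eq]
      simp
    simp only [h1]
    rw [Finset.sum_add_distrib, Finset.sum_add_distrib, ← Finset.mul_sum, hct, Finset.sum_const,
      Finset.card_univ, nsmul_eq_mul, hcard]
    field_simp
    ring
  set S := ∑ i, ∑ j, c i j ^ 2 with hS
  have hS0 : 0 ≤ S := Finset.sum_nonneg fun i _ => Finset.sum_nonneg fun j _ => sq_nonneg _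
  have hdual : S = ∫ x, F x * (∑ i, ∑ j, c i j * (⟪p x, e i⟫ * ⟪p x, e j⟫)) ∂μ := by
    have h1 : ∫ x, F x * (∑ i, ∑ j, c i j * (⟪p x, e i⟫ * ⟪p x, e j⟫)) ∂μ
        = ∑ i, ∑ j, c i j * T i j := by
      simp only [Finset.mul_sum]
      have h2 : ∀ i j, Integrable (fun x => F x * (c i j * (⟪p x, e i⟫ * ⟪p x, e j⟫))) μ :=
        fun i j => (hF.mul (((BM_p hp hp1 (e i)).mul (BM_p hp hp1 (e j))).smul (c i j))).int
      rw [integral_finsetSum _ fun i _ => integrable_finsetSum _ fun j _ => h2 i j]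
      refine Finset.sum_congr rfl fun i _ => ?_
      rw [integral_finsetSum _ fun j _ => h2 i j]
      refine Finset.sum_congr rfl fun j _ => ?_
      simp only [hT, m2f]
      rw [← integral_const_mul]
      refine integral_congr_ae (Eventually.of_forall fun x => ?_)
      simp only
      ring
    rw [h1, hS]
    have h3 : ∀ i, ∑ j, c i j * T i j = (∑ j, c i j ^ 2) + t / (m + 2) * c i i := by
      intro i
      have h2 : ∀ j, c i j * T i j = c i j ^ 2 + (if i = j then t / (m + 2) * c i i else 0) := by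
        intro j
        by_cases h : i = j
        · subst h
          simp only [hc, if_true]
          ring
        · simp only [hc, h, if_false]
          ring
      simp only [h2]
      rw [Finset.sum_add_distrib, Finset.sum_ite_eq]
      simp
    simp only [h3]
    rw [Finset.sum_add_distrib, ← Finset.mul_sum, hct, mul_zero, add_zero]
  have h4 := int_cs (μ := μ) hF (BM_quad hp hp1 e c)
  rw [← hdual] at h4
  have h5 := hq c hcs hct
  have hF2 : 0 ≤ ∫ x, F x ^ 2 ∂μ := integral_nonneg fun x => sq_nonneg _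
  have h6 : S ^ 2 ≤ (∫ x, F x ^ 2 ∂μ) * (K2 * S) := h4.trans (mul_le_mul_of_nonneg_left h5 hF2)
  have h7 : S ≤ K2 * ∫ x, F x ^ 2 ∂μ := by
    rcases eq_or_lt_of_le hS0 with h8 | h8
    · rw [← h8]; positivity
    · have : S * S ≤ (K2 * ∫ x, F x ^ 2 ∂μ) * S := by nlinarith
      exact le_of_mul_le_mul_right this h8
  rw [hTc]
  linarith

/-- the Schur bound -/
theorem KF_schur (hp : Measurable p) (hp1 : ∀ x, ‖p x‖ = 1) (hκ : BK κ)
    (h0 : ∀ s ∈ Icc (-1 : ℝ) 1, 0 ≤ κ s) {c : ℝ}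
    (hc : ∀ x, ∫ y, κ ⟪p x, p y⟫ ∂μ ≤ c) (hF : BM F) :
    KF κ μ p F F ≤ c * ∫ x, F x ^ 2 ∂μ := by
  have hF2 : BM fun x => F x ^ 2 := by simpa only [sq] using hF.mul hF
  have h1 : BM fun _ : Ω => (1 : ℝ) := ⟨measurable_const, 1, fun x => by simp⟩
  have i1 := KF_int (μ := μ) hp hp1 hκ hF2 h1
  have i2 := KF_int (μ := μ) hp hp1 hκ h1 hF2
  have h2 : KF κ μ p F F ≤ (1 / 2) * KF κ μ p (fun x => F x ^ 2) (fun _ => 1)
      + (1 / 2) * KF κ μ p (fun _ => 1) (fun x => F x ^ 2) := by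
    unfold KF
    rw [← integral_const_mul, ← integral_const_mul, ← integral_add (i1.const_mul _) (i2.const_mul _)]
    refine integral_mono (KF_int hp hp1 hκ hF hF) ((i1.const_mul _).add (i2.const_mul _))
      fun u => ?_
    simp only
    have h3 := h0 _ (cos_mem hp1 u)
    nlinarith [mul_nonneg h3 (sq_nonneg (F u.1 - F u.2))]
  rw [KF_symm (F := fun _ => (1 : ℝ))] at h2
  have h4 : KF κ μ p (fun x => F x ^ 2) (fun _ => 1) = ∫ x, F x ^ 2 * ∫ y, κ ⟪p x, p y⟫ ∂μ ∂μ := by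
    unfold KF
    rw [integral_prod _ i1]
    refine integral_congr_ae (Eventually.of_forall fun x => ?_)
    simp only
    rw [← integral_const_mul]
    refine integral_congr_ae (Eventually.of_forall fun y => ?_)
    simp only
    ring
  have i3 : Integrable (fun x => F x ^ 2 * ∫ y, κ ⟪p x, p y⟫ ∂μ) μ := by
    refine i1.integral_prod_left.congr (Eventually.of_forall fun x => ?_)
    simp only
    rw [← integral_const_mul]
    refine integral_congr_ae (Eventually.of_forall fun y => ?_)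
    simp only
    ring
  have h5 : ∫ x, F x ^ 2 * ∫ y, κ ⟪p x, p y⟫ ∂μ ∂μ ≤ ∫ x, c * F x ^ 2 ∂μ := by
    refine integral_mono i3 (hF2.smul c).int fun x => ?_
    simp only
    rw [mul_comm c]
    exact mul_le_mul_of_nonneg_left (hc x) (sq_nonneg _)
  rw [integral_const_mul] at h5
  rw [h4] at h2
  linarith

/-- the remainder of the second order -/
theorem rk2_le (hp : Measurable p) (hp1 : ∀ x, ‖p x‖ = 1) (hF : BM F) {ι : Type*} [Fintype ι]
    (e : OrthonormalBasis ι ℝ V) {m q : ℕ} (hq : 1 ≤ q) (hd : finrank ℝ V = m + 2) {K2 : ℝ}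
    (hK : 0 ≤ K2) (hQ : QB μ p e K2) {T T1 c : ℝ} (h1 : 0 < T) (h2 : T ≤ T1) (h3 : T1 < 1)
    (hc : ∀ x, ∫ y, sk m q T1 ⟪p x, p y⟫ ∂μ ≤ c) :
    KF (rk m q 2 T) μ p F F ≤ (q * (q + 1) / 2 * K2 * T ^ 2 + c * (T / T1) ^ 3)
        * (∫ x, F x ^ 2 ∂μ)
      + (q * (q + 1) / (2 * (m + 2)) - ((q : ℝ) - m / 2 - 1)) * T ^ 2 * (∫ x, F x ∂μ) ^ 2 := by
  have hT1 : 0 < T1 := h1.trans_le h2
  obtain ⟨ha, hr⟩ := PT_split3 (μ := μ) hp hp1 hF hq hd
  have e1 : KF (rk m q 2 T) μ p F F = KF (rk m q 3 T) μ p F F + T ^ 2 * KF (ak m q 2) μ p F F := by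
    have e2 : rk m q 2 T = fun s => rk m q 3 T s + T ^ 2 * ak m q 2 s := by
      funext s
      exact rk_succ m q 2 T s
    rw [e2, KF_kadd hp hp1 (BK_rk m q 3 h1.le (h2.trans_lt h3)) ((BK_ak m q 2).smul _) hF hF,
      KF_ksmul]
  have hcard : Fintype.card ι = m + 2 := by
    rw [← hd]
    exact (Module.finrank_eq_card_basis e.toBasis).symm
  have h4 := m2f_le (μ := μ) hp hp1 hF e hcard hK hQ
  have h5 : KF (ak m q 2) μ p F F ≤ q * (q + 1) / 2 * (K2 * (∫ x, F x ^ 2 ∂μ)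
      + (∫ x, F x ∂μ) ^ 2 / (m + 2)) - ((q : ℝ) - m / 2 - 1) * (∫ x, F x ∂μ) ^ 2 := by
    rw [KF_a2 hp hp1 hF hF e, ← sq]
    have h6 : ∑ i, ∑ j, (∫ x, F x * (⟪p x, e i⟫ * ⟪p x, e j⟫) ∂μ)
        * (∫ x, F x * (⟪p x, e i⟫ * ⟪p x, e j⟫) ∂μ) = ∑ i, ∑ j, m2f μ p e F i j ^ 2 := by
      refine Finset.sum_congr rfl fun i _ => Finset.sum_congr rfl fun j _ => ?_
      unfold m2f
      ring
    rw [h6]
    have h7 := mul_le_mul_of_nonneg_left h4 (by positivity : (0 : ℝ) ≤ q * (q + 1) / 2)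
    linarith
  have h8 : KF (rk m q 3 T1) μ p F F ≤ KF (sk m q T1) μ p F F := by
    have e3 := KF_rk (μ := μ) hp hp1 m q 3 hT1.le h3 hF hF
    have e4 : PT m q μ p F F T1 = KF (sk m q T1) μ p F F := rfl
    rw [e3, e4]
    have h9 : 0 ≤ ∑ i ∈ Finset.range 3, KF (ak m q i) μ p F F * T1 ^ i :=
      Finset.sum_nonneg fun i hi => mul_nonneg (ha i (Finset.mem_range.1 hi)) (pow_nonneg hT1.le _)
    linarith
  have h10 : KF (sk m q T1) μ p F F ≤ c * ∫ x, F x ^ 2 ∂μ := by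
    refine KF_schur hp hp1 (BK_sk m q hT1.le h3) (fun s hs => ?_) hc hF
    have hv : 0 ≤ 1 - T1 * s := by
      have := mul_le_mul_of_nonneg_left hs.2 hT1.le
      linarith
    have hk : 0 < 1 - T1 ^ 2 := by nlinarith
    unfold sk
    exact mul_nonneg (Real.rpow_nonneg hk.le _) (inv_nonneg.2 (pow_nonneg hv _))
  have h11 := (hr h1 h2 h3).2
  have h12 : (T / T1) ^ 3 * KF (rk m q 3 T1) μ p F F ≤ (T / T1) ^ 3 * (c * ∫ x, F x ^ 2 ∂μ) :=
    mul_le_mul_of_nonneg_left (h8.trans h10) (by positivity)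
  have h13 := mul_le_mul_of_nonneg_left h5 (sq_nonneg T)
  rw [e1]
  have hm2 : (m + 2 : ℝ) ≠ 0 := by positivity
  calc KF (rk m q 3 T) μ p F F + T ^ 2 * KF (ak m q 2) μ p F F
      ≤ (T / T1) ^ 3 * (c * ∫ x, F x ^ 2 ∂μ) + T ^ 2 * (q * (q + 1) / 2 * (K2 * (∫ x, F x ^ 2 ∂μ)
      + (∫ x, F x ∂μ) ^ 2 / (m + 2)) - ((q : ℝ) - m / 2 - 1) * (∫ x, F x ∂μ) ^ 2) :=
        add_le_add (h11.trans h12) h13
    _ = _ := by
        field_simp
        ring

/-- families of functions -/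
theorem rk2_fam (hp : Measurable p) (hp1 : ∀ x, ‖p x‖ = 1) {κ : Type*} (S : Finset κ)
    {F : κ → Ω → ℝ} (hF : ∀ i, BM (F i)) {ι : Type*} [Fintype ι]
    (e : OrthonormalBasis ι ℝ V) {m q : ℕ} (hq : 1 ≤ q) (hd : finrank ℝ V = m + 2) {K2 : ℝ}
    (hK : 0 ≤ K2) (hQ : QB μ p e K2) {T T1 c : ℝ} (h1 : 0 < T) (h2 : T ≤ T1) (h3 : T1 < 1)
    (hc : ∀ x, ∫ y, sk m q T1 ⟪p x, p y⟫ ∂μ ≤ c) :
    ∑ i ∈ S, KF (rk m q 2 T) μ p (F i) (F i)
      ≤ (q * (q + 1) / 2 * K2 * T ^ 2 + c * (T / T1) ^ 3) * (∑ i ∈ S, ∫ x, F i x ^ 2 ∂μ)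
      + (q * (q + 1) / (2 * (m + 2)) - ((q : ℝ) - m / 2 - 1)) * T ^ 2
        * ∑ i ∈ S, (∫ x, F i x ∂μ) ^ 2 := by
  rw [Finset.mul_sum, Finset.mul_sum, ← Finset.sum_add_distrib]
  exact Finset.sum_le_sum fun i _ => rk2_le hp hp1 (hF i) e hq hd hK hQ h1 h2 h3 hc

/-- the bilinear expansion -/
theorem rk2_bilin (hp : Measurable p) (hp1 : ∀ x, ‖p x‖ = 1) {κ : Type*} (S : Finset κ)
    {F G : κ → Ω → ℝ} (hF : ∀ i, BM (F i)) (hG : ∀ i, BM (G i)) {ι : Type*} [Fintype ι]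
    (e : OrthonormalBasis ι ℝ V) {m q : ℕ} (hq : 1 ≤ q) (hd : finrank ℝ V = m + 2) {T : ℝ}
    (h1 : 0 < T) (h3 : T < 1) :
    |(∑ i ∈ S, KF (sk m q T) μ p (F i) (G i)) - (∑ i ∈ S, (∫ x, F i x ∂μ) * ∫ x, G i x ∂μ)
      - T * (q * ∑ i ∈ S, ∑ j, (∫ x, F i x * ⟪p x, e j⟫ ∂μ) * ∫ x, G i x * ⟪p x, e j⟫ ∂μ)|
      ≤ √((∑ i ∈ S, KF (rk m q 2 T) μ p (F i) (F i))
        * ∑ i ∈ S, KF (rk m q 2 T) μ p (G i) (G i)) := by
  have hPD := PD_rk (μ := μ) hp hp1 hq hd (by norm_num : 2 ≤ 3) h1 h3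
  have h4 := hPD.cs hp hp1 (BK_rk m q 2 h1.le h3) S hF hG
  have h5 := Real.abs_le_sqrt h4
  have e1 : ∑ i ∈ S, KF (rk m q 2 T) μ p (F i) (G i)
      = (∑ i ∈ S, KF (sk m q T) μ p (F i) (G i)) - (∑ i ∈ S, (∫ x, F i x ∂μ) * ∫ x, G i x ∂μ)
      - T * (q * ∑ i ∈ S, ∑ j, (∫ x, F i x * ⟪p x, e j⟫ ∂μ) * ∫ x, G i x * ⟪p x, e j⟫ ∂μ) := by
    rw [Finset.mul_sum, Finset.mul_sum, ← Finset.sum_sub_distrib, ← Finset.sum_sub_distrib]
    refine Finset.sum_congr rfl fun i _ => ?_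
    rw [KF_rk hp hp1 m q 2 h1.le h3 (hF i) (hG i), Finset.sum_range_succ, Finset.sum_range_succ,
      Finset.sum_range_zero, KF_a0, KF_a1 hp hp1 (hF i) (hG i) e]
    unfold PT KF
    ring
  rw [e1] at h5
  exact h5

end

end Vale.Agent.P224.R2.H470
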