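import Vale.Agent.P224.R2.H728.Mix

/-!
Positive definiteness of the sphere kernel, with its constant term.
-/

namespace Vale.Agent.P224.R2.H470

open MeasureTheory Set Filter Function Real Module Vale.Agent.P224.R2.H728
open scoped Topology RealInnerProductSpace

set_option linter.unusedSectionVars false

section

variable {V : Type*} [NormedAddCommGroup V] [InnerProductSpace ℝ V] [FiniteDimensional ℝ V]
  [MeasurableSpace V] [BorelSpace V]

lemma integrable_gr {b : ℝ} (hb : 0 < b) (w : V) :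
    Integrable (fun v : V => rexp (-b * ‖v‖ ^ 2 + ⟪w, v⟫)) := by
  refine (integrable_gauss (V := V) hb ‖w‖ 0).mono' (by fun_prop)
    (Eventually.of_forall fun v => ?_)
  rw [Real.norm_eq_abs, Real.abs_exp, pow_zero, one_mul]
  refine Real.exp_le_exp.2 ?_
  have := real_inner_le_norm w v
  linarith

lemma integral_gr {b : ℝ} (hb : 0 < b) (w : V) :
    ∫ v, rexp (-b * ‖v‖ ^ 2 + ⟪w, v⟫)
      = (π / b) ^ (finrank ℝ V / 2 : ℝ) * rexp (‖w‖ ^ 2 / (4 * b)) := by
  have h1 := integral_gw (V := V) hb 1 w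
  rw [gc_eq hb] at h1
  have e1 : ∀ v : V, gw b 1 w v = ((rexp (-b * ‖v‖ ^ 2 + ⟪w, v⟫) : ℝ) : ℂ) := by
    intro v
    unfold gw
    push_cast
    ring_nf
  simp only [e1] at h1
  rw [integral_complex_ofReal] at h1
  have e2 : (((π / b) ^ (finrank ℝ V / 2 : ℝ) : ℝ) : ℂ) * Complex.exp ((1 : ℂ) ^ 2 * ‖w‖ ^ 2 / (4 * b))
      = (((π / b) ^ (finrank ℝ V / 2 : ℝ) * rexp (‖w‖ ^ 2 / (4 * b)) : ℝ) : ℂ) := by
    push_cast
    ring_nf
  rw [e2] at h1
  exact_mod_cast h1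

variable {Ω : Type*} [MeasurableSpace Ω] {μ : Measure Ω} [IsFiniteMeasure μ] {p : Ω → V}
  {F : Ω → ℝ}

/-- the transform -/
noncomputable def AF (μ : Measure Ω) (p : Ω → V) (F : Ω → ℝ) (β : ℝ) (z : V) : ℝ :=
  ∫ x, F x * rexp (√β * ⟪p x, z⟫) ∂μ

lemma exp_int (hp : Measurable p) (hF : Measurable F) {C : ℝ} (hC : 0 ≤ C)
    (hp1 : ∀ x, ‖p x‖ = 1) (hFC : ∀ x, |F x| ≤ C) {β : ℝ} (hβ : 0 ≤ β) :
    Integrable (fun z => rexp (-(1 / 2) * ‖z‖ ^ 2) * AF μ p F β z ^ 2) ∧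
    ∫ z, rexp (-(1 / 2) * ‖z‖ ^ 2) * AF μ p F β z ^ 2
      = (π / (1 / 2)) ^ (finrank ℝ V / 2 : ℝ) * rexp β
        * ∫ q : Ω × Ω, rexp (β * ⟪p q.1, p q.2⟫) * (F q.1 * F q.2) ∂(μ.prod μ) := by
  set G : V × (Ω × Ω) → ℝ := fun u => rexp (-(1 / 2) * ‖u.1‖ ^ 2)
    * ((F u.2.1 * rexp (√β * ⟪p u.2.1, u.1⟫)) * (F u.2.2 * rexp (√β * ⟪p u.2.2, u.1⟫))) with hG
  have hGm : Measurable G := by
    have a1 : Measurable (fun u : V × (Ω × Ω) => p u.2.1) :=
      hp.comp (measurable_fst.comp measurable_snd)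
    have a2 : Measurable (fun u : V × (Ω × Ω) => p u.2.2) :=
      hp.comp (measurable_snd.comp measurable_snd)
    have a3 : Measurable (fun u : V × (Ω × Ω) => F u.2.1) :=
      hF.comp (measurable_fst.comp measurable_snd)
    have a4 : Measurable (fun u : V × (Ω × Ω) => F u.2.2) :=
      hF.comp (measurable_snd.comp measurable_snd)
    have a5 : Measurable (fun u : V × (Ω × Ω) => u.1) := measurable_fst
    have c1 := a1.inner (𝕜 := ℝ) a5
    have c2 := a2.inner (𝕜 := ℝ) a5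
    exact (Real.measurable_exp.comp ((a5.norm.pow_const 2).const_mul _)).mul
      ((a3.mul (Real.measurable_exp.comp (c1.const_mul _))).mul
        (a4.mul (Real.measurable_exp.comp (c2.const_mul _))))
  have hexp : ∀ x (z : V), rexp (√β * ⟪p x, z⟫) ≤ rexp (√β * ‖z‖) := by
    intro x z
    refine Real.exp_le_exp.2 (mul_le_mul_of_nonneg_left ?_ (Real.sqrt_nonneg _))
    have := real_inner_le_norm (p x) z
    rwa [hp1, one_mul] at this
  have hi : Integrable G (volume.prod (μ.prod μ)) := by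
    have h1 := (integrable_gauss (V := V) (b := 1 / 2) (by norm_num) (2 * √β) 0).const_mul (C ^ 2)
    have h2 := h1.comp_fst (μ.prod μ)
    refine h2.mono' hGm.aestronglyMeasurable (Eventually.of_forall fun u => ?_)
    simp only [hG]
    rw [Real.norm_eq_abs, abs_mul, abs_mul, abs_mul, abs_mul, Real.abs_exp, Real.abs_exp,
      Real.abs_exp, pow_zero, one_mul]
    have e1 : rexp (-(1 / 2) * ‖u.1‖ ^ 2 + 2 * √β * ‖u.1‖)
        = rexp (-(1 / 2) * ‖u.1‖ ^ 2) * (rexp (√β * ‖u.1‖) * rexp (√β * ‖u.1‖)) := by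
      rw [← Real.exp_add, ← Real.exp_add]
      congr 1
      ring
    rw [e1]
    have b1 := mul_le_mul (hFC u.2.1) (hexp u.2.1 u.1) (Real.exp_pos _).le hC
    have b2 := mul_le_mul (hFC u.2.2) (hexp u.2.2 u.1) (Real.exp_pos _).le hC
    have b3 := mul_le_mul b1 b2 (by positivity) (by positivity)
    have b4 := mul_le_mul_of_nonneg_left b3 (Real.exp_pos (-(1 / 2) * ‖u.1‖ ^ 2)).le
    refine b4.trans (le_of_eq (by ring))
  have hz : ∀ z : V, ∫ q : Ω × Ω, G (z, q) ∂(μ.prod μ)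
      = rexp (-(1 / 2) * ‖z‖ ^ 2) * AF μ p F β z ^ 2 := by
    intro z
    simp only [hG]
    rw [integral_const_mul]
    congr 1
    rw [integral_prod_mul (fun x => F x * rexp (√β * ⟪p x, z⟫))
      (fun x => F x * rexp (√β * ⟪p x, z⟫)), sq]
    rfl
  have hq : ∀ q : Ω × Ω, ∫ z, G (z, q) = (π / (1 / 2)) ^ (finrank ℝ V / 2 : ℝ) * rexp β
      * (rexp (β * ⟪p q.1, p q.2⟫) * (F q.1 * F q.2)) := by
    intro q
    have e1 : ∀ z : V, G (z, q) = (F q.1 * F q.2)
        * rexp (-(1 / 2) * ‖z‖ ^ 2 + ⟪√β • (p q.1 + p q.2), z⟫) := by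
      intro z
      simp only [hG]
      rw [real_inner_smul_left, inner_add_left, Real.exp_add, mul_add (√β), Real.exp_add]
      ring
    simp only [e1]
    rw [integral_const_mul, integral_gr (by norm_num : (0 : ℝ) < 1 / 2)]
    have e2 : ‖√β • (p q.1 + p q.2)‖ ^ 2 / (4 * (1 / 2)) = β + β * ⟪p q.1, p q.2⟫ := by
      rw [norm_smul, mul_pow, Real.norm_eq_abs, sq_abs, Real.sq_sqrt hβ, norm_add_sq_real, hp1, hp1]
      ring
    rw [e2, Real.exp_add]
    ring
  constructor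
  · have h3 := hi.integral_prod_left
    refine h3.congr (Eventually.of_forall fun z => ?_)
    simp only
    rw [hz]
  · rw [← integral_const_mul]
    have h4 := (integral_prod G hi).symm.trans (integral_prod_symm G hi)
    simp only [hz, hq] at h4
    exact h4

lemma exp_lin (hp : Measurable p) (hF : Measurable F) {C : ℝ} (hC : 0 ≤ C)
    (hp1 : ∀ x, ‖p x‖ = 1) (hFC : ∀ x, |F x| ≤ C) {β b : ℝ} (hβ : 0 ≤ β) (hb : 0 < b) :
    Integrable (fun z => rexp (-b * ‖z‖ ^ 2) * AF μ p F β z) ∧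
    ∫ z, rexp (-b * ‖z‖ ^ 2) * AF μ p F β z
      = (π / b) ^ (finrank ℝ V / 2 : ℝ) * rexp (β / (4 * b)) * ∫ x, F x ∂μ := by
  set G : V × Ω → ℝ := fun u => rexp (-b * ‖u.1‖ ^ 2)
    * (F u.2 * rexp (√β * ⟪p u.2, u.1⟫)) with hG
  have hGm : Measurable G := by
    have a1 : Measurable (fun u : V × Ω => p u.2) := hp.comp measurable_snd
    have a3 : Measurable (fun u : V × Ω => F u.2) := hF.comp measurable_snd
    have a5 : Measurable (fun u : V × Ω => u.1) := measurable_fst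
    have c1 := a1.inner (𝕜 := ℝ) a5
    exact (Real.measurable_exp.comp ((a5.norm.pow_const 2).const_mul _)).mul
      (a3.mul (Real.measurable_exp.comp (c1.const_mul _)))
  have hexp : ∀ x (z : V), rexp (√β * ⟪p x, z⟫) ≤ rexp (√β * ‖z‖) := by
    intro x z
    refine Real.exp_le_exp.2 (mul_le_mul_of_nonneg_left ?_ (Real.sqrt_nonneg _))
    have := real_inner_le_norm (p x) z
    rwa [hp1, one_mul] at this
  have hi : Integrable G (volume.prod μ) := by
    have h1 := (integrable_gauss (V := V) hb (√β) 0).const_mul C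
    have h2 := h1.comp_fst μ
    refine h2.mono' hGm.aestronglyMeasurable (Eventually.of_forall fun u => ?_)
    simp only [hG]
    rw [Real.norm_eq_abs, abs_mul, abs_mul, Real.abs_exp, Real.abs_exp, pow_zero, one_mul,
      Real.exp_add]
    have b1 := mul_le_mul (hFC u.2) (hexp u.2 u.1) (Real.exp_pos _).le hC
    have b4 := mul_le_mul_of_nonneg_left b1 (Real.exp_pos (-b * ‖u.1‖ ^ 2)).le
    refine b4.trans (le_of_eq (by ring))
  have hz : ∀ z : V, ∫ x, G (z, x) ∂μ = rexp (-b * ‖z‖ ^ 2) * AF μ p F β z := by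
    intro z
    simp only [hG]
    rw [integral_const_mul]
    rfl
  have hq : ∀ x, ∫ z, G (z, x) = (π / b) ^ (finrank ℝ V / 2 : ℝ) * rexp (β / (4 * b)) * F x := by
    intro x
    have e1 : ∀ z : V, G (z, x) = F x * rexp (-b * ‖z‖ ^ 2 + ⟪√β • p x, z⟫) := by
      intro z
      simp only [hG]
      rw [real_inner_smul_left, Real.exp_add]
      ring
    simp only [e1]
    rw [integral_const_mul, integral_gr hb]
    have e2 : ‖√β • p x‖ ^ 2 / (4 * b) = β / (4 * b) := by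
      rw [norm_smul, mul_pow, Real.norm_eq_abs, sq_abs, Real.sq_sqrt hβ, hp1]
      ring
    rw [e2]
    ring
  constructor
  · have h3 := hi.integral_prod_left
    refine h3.congr (Eventually.of_forall fun z => ?_)
    simp only
    rw [hz]
  · rw [← integral_const_mul]
    have h4 := (integral_prod G hi).symm.trans (integral_prod_symm G hi)
    simp only [hz, hq] at h4
    exact h4

/-- the exponential kernel -/
theorem exp_ge (hp : Measurable p) (hF : Measurable F) {C : ℝ} (hC : 0 ≤ C)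
    (hp1 : ∀ x, ‖p x‖ = 1) (hFC : ∀ x, |F x| ≤ C) {β T : ℝ} (hβ : 0 ≤ β) (h0 : 0 < T)
    (h1 : T < 1) :
    rexp (β * T) * (1 - T ^ 2) ^ (finrank ℝ V / 2 : ℝ) * (∫ x, F x ∂μ) ^ 2
      ≤ ∫ q : Ω × Ω, rexp (β * ⟪p q.1, p q.2⟫) * (F q.1 * F q.2) ∂(μ.prod μ) := by
  obtain ⟨i1, e1⟩ := exp_int (μ := μ) hp hF hC hp1 hFC hβ
  have hb : 0 < 1 / (2 * (1 + T)) := by positivity
  have hc : 0 < (1 - T) / (2 * (1 + T)) := div_pos (by linarith) (by positivity)
  obtain ⟨i2, e2⟩ := exp_lin (μ := μ) hp hF hC hp1 hFC hβ hb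
  have i3 := integrable_gr (V := V) hc 0
  have e3 := integral_gr (V := V) hc 0
  simp only [inner_zero_left, add_zero, norm_zero] at i3 e3
  set I1 := ∫ z, rexp (-(1 / 2) * ‖z‖ ^ 2) * AF μ p F β z ^ 2 with hI1
  set I2 := ∫ z, rexp (-(1 / (2 * (1 + T))) * ‖z‖ ^ 2) * AF μ p F β z with hI2
  set I3 := ∫ z : V, rexp (-((1 - T) / (2 * (1 + T))) * ‖z‖ ^ 2) with hI3
  have hq : ∀ l : ℝ, 0 ≤ I1 - 2 * l * I2 + l ^ 2 * I3 := by
    intro l
    have e4 : I1 - 2 * l * I2 + l ^ 2 * I3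
        = ∫ z : V, rexp (-(1 / 2) * ‖z‖ ^ 2) * (AF μ p F β z
          - l * rexp ((T / (2 * (1 + T))) * ‖z‖ ^ 2)) ^ 2 := by
      have i12 : Integrable (fun z => rexp (-(1 / 2) * ‖z‖ ^ 2) * AF μ p F β z ^ 2
          - 2 * l * (rexp (-(1 / (2 * (1 + T))) * ‖z‖ ^ 2) * AF μ p F β z)) :=
        i1.sub (i2.const_mul _)
      rw [hI1, hI2, hI3, ← integral_const_mul, ← integral_const_mul,
        ← integral_sub i1 (i2.const_mul _), ← integral_add i12 (i3.const_mul _)]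
      refine integral_congr_ae (Eventually.of_forall fun z => ?_)
      simp only
      have a1 : rexp (-(1 / (2 * (1 + T))) * ‖z‖ ^ 2)
          = rexp (-(1 / 2) * ‖z‖ ^ 2) * rexp ((T / (2 * (1 + T))) * ‖z‖ ^ 2) := by
        rw [← Real.exp_add]
        congr 1
        field_simp
        ring
      have a2 : rexp (-((1 - T) / (2 * (1 + T))) * ‖z‖ ^ 2)
          = rexp (-(1 / 2) * ‖z‖ ^ 2) * rexp ((T / (2 * (1 + T))) * ‖z‖ ^ 2) ^ 2 := by
        rw [sq (rexp ((T / (2 * (1 + T))) * ‖z‖ ^ 2)), ← Real.exp_add, ← Real.exp_add]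
        congr 1
        field_simp
        ring
      rw [a1, a2]
      ring
    rw [e4]
    exact integral_nonneg fun z => mul_nonneg (Real.exp_pos _).le (sq_nonneg _)
  have hk : 0 < 1 - T ^ 2 := by nlinarith
  have h3pos : 0 < I3 := by
    rw [e3]
    have : 0 < π / ((1 - T) / (2 * (1 + T))) := div_pos pi_pos hc
    positivity
  have hcs : I2 ^ 2 ≤ I1 * I3 := by
    have h := hq (I2 / I3)
    have h' : I1 - 2 * (I2 / I3) * I2 + (I2 / I3) ^ 2 * I3 = I1 - I2 ^ 2 / I3 := by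
      field_simp
      ring
    rw [h', sub_nonneg, div_le_iff₀ h3pos] at h
    exact h
  rw [e1, e2, e3] at hcs
  set S := ∫ x, F x ∂μ with hS
  set Q := ∫ q : Ω × Ω, rexp (β * ⟪p q.1, p q.2⟫) * (F q.1 * F q.2) ∂(μ.prod μ) with hQ
  set d : ℝ := (finrank ℝ V / 2 : ℝ) with hd
  have x1 : (π / (1 / (2 * (1 + T)))) ^ d = (2 * π) ^ d * (1 + T) ^ d := by
    rw [← Real.mul_rpow (by positivity) (by positivity)]
    congr 1
    field_simp
  have x2 : (π / (1 / 2)) ^ d = (2 * π) ^ d := by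
    congr 1
    field_simp
  have x3 : (π / ((1 - T) / (2 * (1 + T)))) ^ d * (1 - T ^ 2) ^ d
      = (2 * π) ^ d * ((1 + T) ^ d * (1 + T) ^ d) := by
    have hT1 : (1 - T) ≠ 0 := by linarith
    rw [← Real.mul_rpow (div_pos pi_pos hc).le hk.le, ← Real.mul_rpow (by positivity) (by positivity),
      ← Real.mul_rpow (by positivity) (by positivity)]
    congr 1
    field_simp
    ring
  have x4 : rexp (β / (4 * (1 / (2 * (1 + T))))) ^ 2 = rexp β * rexp (β * T) := by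
    rw [sq, ← Real.exp_add, ← Real.exp_add]
    congr 1
    field_simp
    ring
  have x5 : rexp 0 = 1 := Real.exp_zero
  have hA : 0 < (2 * π) ^ d := by positivity
  have hB : 0 < (1 + T) ^ d := by positivity
  have hD : 0 < (1 - T ^ 2) ^ d := by positivity
  have hexp0 : rexp ((0 : ℝ) ^ 2 / (4 * ((1 - T) / (2 * (1 + T))))) = 1 := by
    rw [zero_pow two_ne_zero, zero_div, Real.exp_zero]
  rw [hexp0, mul_one, x1, x2, mul_pow, mul_pow, x4] at hcs
  have h5 := mul_le_mul_of_nonneg_right hcs hD.le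
  have h6 : (2 * π) ^ d * rexp β * Q * (π / ((1 - T) / (2 * (1 + T)))) ^ d * (1 - T ^ 2) ^ d
      = ((2 * π) ^ d * rexp β * Q) * ((2 * π) ^ d * ((1 + T) ^ d * (1 + T) ^ d)) := by
    rw [← x3]
    ring
  rw [h6] at h5
  have hE : 0 < rexp β := Real.exp_pos _
  have hM : 0 < ((2 * π) ^ d) ^ 2 * ((1 + T) ^ d) ^ 2 * rexp β := by positivity
  have h7 : (((2 * π) ^ d) ^ 2 * ((1 + T) ^ d) ^ 2 * rexp β)
      * (rexp (β * T) * (1 - T ^ 2) ^ d * S ^ 2)
      ≤ (((2 * π) ^ d) ^ 2 * ((1 + T) ^ d) ^ 2 * rexp β) * Q := by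
    nlinarith [h5]
  exact le_of_mul_le_mul_left h7 hM

/-- positive definiteness of the sphere kernels, with the constant term -/
theorem psd_ge (hp : Measurable p) (hF : Measurable F) {C : ℝ} (hC : 0 ≤ C)
    (hp1 : ∀ x, ‖p x‖ = 1) (hFC : ∀ x, |F x| ≤ C) {T : ℝ} (h0 : 0 < T) (h1 : T < 1) {q : ℕ}
    (hq : 1 ≤ q) :
    (1 - T ^ 2) ^ (finrank ℝ V / 2 : ℝ) * (∫ x, F x ∂μ) ^ 2
      ≤ (1 - T ^ 2) ^ q
        * ∫ u : Ω × Ω, ((1 - T * ⟪p u.1, p u.2⟫) ^ q)⁻¹ * (F u.1 * F u.2) ∂(μ.prod μ) := by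
  have hk : 0 < 1 - T ^ 2 := by nlinarith
  have hs : ∀ u : Ω × Ω, ⟪p u.1, p u.2⟫ ≤ 1 := by
    intro u
    have := real_inner_le_norm (p u.1) (p u.2)
    rwa [hp1, hp1, one_mul] at this
  have hv : ∀ u : Ω × Ω, 1 - T ≤ 1 - T * ⟪p u.1, p u.2⟫ := by
    intro u
    have := mul_le_mul_of_nonneg_left (hs u) h0.le
    linarith
  have hT : 0 < 1 - T := by linarith
  set G : ℝ × (Ω × Ω) → ℝ := fun w => (w.1 ^ (q - 1) * rexp (-((1 - T * ⟪p w.2.1, p w.2.2⟫) * w.1)))
    * (F w.2.1 * F w.2.2) with hG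
  have hGm : Measurable G := by
    have a1 : Measurable (fun u : ℝ × (Ω × Ω) => p u.2.1) :=
      hp.comp (measurable_fst.comp measurable_snd)
    have a2 : Measurable (fun u : ℝ × (Ω × Ω) => p u.2.2) :=
      hp.comp (measurable_snd.comp measurable_snd)
    have a3 : Measurable (fun u : ℝ × (Ω × Ω) => F u.2.1) :=
      hF.comp (measurable_fst.comp measurable_snd)
    have a4 : Measurable (fun u : ℝ × (Ω × Ω) => F u.2.2) :=
      hF.comp (measurable_snd.comp measurable_snd)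
    have a5 : Measurable (fun u : ℝ × (Ω × Ω) => u.1) := measurable_fst
    have c1 := a1.inner (𝕜 := ℝ) a2
    exact ((a5.pow_const _).mul (Real.measurable_exp.comp
      (((c1.const_mul T).const_sub 1).mul a5).neg)).mul (a3.mul a4)
  have hi : Integrable G ((volume.restrict (Ioi 0)).prod (μ.prod μ)) := by
    obtain ⟨j1, _⟩ := radial_int hT hq
    have h2 := (j1.mul_const (C ^ 2)).comp_fst (μ.prod μ)
    refine h2.mono' hGm.aestronglyMeasurable ?_
    have hae : ∀ᵐ w ∂((volume.restrict (Ioi (0 : ℝ))).prod (μ.prod μ)), w.1 ∈ Ioi (0 : ℝ) :=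
      Measure.quasiMeasurePreserving_fst.ae (ae_restrict_mem measurableSet_Ioi)
    filter_upwards [hae] with w hw
    have hw0 : (0 : ℝ) < w.1 := hw
    simp only [hG]
    rw [Real.norm_eq_abs, abs_mul, abs_mul, Real.abs_exp, abs_of_nonneg (pow_nonneg hw0.le _),
      abs_mul]
    have b1 : rexp (-((1 - T * ⟪p w.2.1, p w.2.2⟫) * w.1)) ≤ rexp (-((1 - T) * w.1)) := by
      refine Real.exp_le_exp.2 ?_
      have := mul_le_mul_of_nonneg_right (hv w.2) hw0.le
      linarith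
    have b2 : |F w.2.1| * |F w.2.2| ≤ C ^ 2 := by
      rw [sq]
      exact mul_le_mul (hFC _) (hFC _) (abs_nonneg _) hC
    exact mul_le_mul (mul_le_mul_of_nonneg_left b1 (pow_nonneg hw0.le _)) b2 (by positivity)
      (by positivity)
  have hswap := (integral_prod G hi).symm.trans (integral_prod_symm G hi)
  have hin : ∀ u : Ω × Ω, ∫ R in Ioi (0 : ℝ), G (R, u)
      = Real.Gamma q * (((1 - T * ⟪p u.1, p u.2⟫) ^ q)⁻¹ * (F u.1 * F u.2)) := by
    intro u
    simp only [hG]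
    rw [integral_mul_const, (radial_int (hT.trans_le (hv u)) hq).2]
    ring
  have hout : ∀ R ∈ Ioi (0 : ℝ), ∫ u, G (R, u) ∂(μ.prod μ)
      = R ^ (q - 1) * rexp (-R)
        * ∫ u : Ω × Ω, rexp ((R * T) * ⟪p u.1, p u.2⟫) * (F u.1 * F u.2) ∂(μ.prod μ) := by
    intro R hR
    rw [← integral_const_mul]
    refine integral_congr_ae (Eventually.of_forall fun u => ?_)
    simp only [hG]
    have e : rexp (-((1 - T * ⟪p u.1, p u.2⟫) * R))
        = rexp (-R) * rexp ((R * T) * ⟪p u.1, p u.2⟫) := by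
      rw [← Real.exp_add]
      congr 1
      ring
    rw [e]
    ring
  have hlow : ∀ R ∈ Ioi (0 : ℝ), (R ^ (q - 1) * rexp (-((1 - T ^ 2) * R)))
      * ((1 - T ^ 2) ^ (finrank ℝ V / 2 : ℝ) * (∫ x, F x ∂μ) ^ 2) ≤ ∫ u, G (R, u) ∂(μ.prod μ) := by
    intro R hR
    have hR0 : (0 : ℝ) < R := hR
    rw [hout R hR]
    have h3 := exp_ge (μ := μ) hp hF hC hp1 hFC (β := R * T) (by positivity) h0 h1
    have h4 : 0 ≤ R ^ (q - 1) * rexp (-R) := by positivity
    have h5 := mul_le_mul_of_nonneg_left h3 h4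
    refine le_trans (le_of_eq ?_) h5
    have e : rexp (-((1 - T ^ 2) * R)) = rexp (-R) * rexp (R * T * T) := by
      rw [← Real.exp_add]
      congr 1
      ring
    rw [e]
    ring
  obtain ⟨j2, e2⟩ := radial_int hk hq
  have hfin := setIntegral_mono_on (j2.mul_const _) hi.integral_prod_left measurableSet_Ioi hlow
  rw [integral_mul_const, e2] at hfin
  have h6 : ∫ R in Ioi (0 : ℝ), ∫ u, G (R, u) ∂(μ.prod μ)
      = Real.Gamma q
        * ∫ u : Ω × Ω, ((1 - T * ⟪p u.1, p u.2⟫) ^ q)⁻¹ * (F u.1 * F u.2) ∂(μ.prod μ) := by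
    rw [hswap, ← integral_const_mul]
    exact integral_congr_ae (Eventually.of_forall hin)
  rw [h6] at hfin
  have hG0 : 0 < Real.Gamma q := Real.Gamma_pos_of_pos (by exact_mod_cast hq)
  have hkq : 0 < (1 - T ^ 2) ^ q := pow_pos hk q
  set A := (1 - T ^ 2) ^ (finrank ℝ V / 2 : ℝ) * (∫ x, F x ∂μ) ^ 2 with hA
  set B := ∫ u : Ω × Ω, ((1 - T * ⟪p u.1, p u.2⟫) ^ q)⁻¹ * (F u.1 * F u.2) ∂(μ.prod μ) with hB
  have h7 : ((1 - T ^ 2) ^ q)⁻¹ * A ≤ B := by
    have : Real.Gamma q * (((1 - T ^ 2) ^ q)⁻¹ * A) ≤ Real.Gamma q * B := by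
      refine le_trans (le_of_eq ?_) hfin
      ring
    exact le_of_mul_le_mul_left this hG0
  calc A = (1 - T ^ 2) ^ q * (((1 - T ^ 2) ^ q)⁻¹ * A) := by
        field_simp
    _ ≤ _ := mul_le_mul_of_nonneg_left h7 hkq.le

end

end Vale.Agent.P224.R2.H470
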