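import Vale.Agent.P224.R2.H728.Cross
import Vale.Agent.P224.R2.H470.Nps

/-!
The Gaussian transform of a bounded function and the kernels of the sphere.
-/

namespace Vale.Agent.P224.R2.H470

open MeasureTheory Set Filter Function Complex Real Module Vale.Agent.P224.R2.H728
open scoped Topology RealInnerProductSpace ComplexConjugate

set_option linter.unusedSectionVars false

section

variable {V : Type*} [NormedAddCommGroup V] [InnerProductSpace ℝ V] [FiniteDimensional ℝ V]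
  [MeasurableSpace V] [BorelSpace V] {Ω : Type*} [MeasurableSpace Ω]

/-- the Gaussian transform of a function -/
noncomputable def SF (μ : Measure Ω) (p : Ω → V) (F : Ω → ℝ) (ρ : ℝ) (lam : ℂ) (z : V × V) : ℂ :=
  ∫ x, (F x : ℂ) * coh lam (ρ • p x) z ∂μ

variable {μ : Measure Ω} [IsFiniteMeasure μ] {p : Ω → V} {F : Ω → ℝ}

lemma SF_rot (ρ : ℝ) (lam : ℂ) (θ : ℝ) (z : V × V) :
    SF μ p F ρ lam (rot θ z) = SF μ p F ρ (lam * cexp (θ * I)) z := by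
  unfold SF
  simp only [coh_rot]

lemma SF_eq (ρ : ℝ) (lam : ℂ) (z : V × V) : SF μ p F ρ lam z
    = cexp (-lam ^ 2 / 2 * cq z) * ∫ x, (F x : ℂ) * cexp (lam * cin (ρ • p x) z) ∂μ := by
  unfold SF
  rw [← integral_const_mul]
  refine integral_congr_ae (Eventually.of_forall fun x => ?_)
  simp only
  unfold coh
  rw [mul_left_comm, ← Complex.exp_add]
  congr 2
  ring

lemma SF_entire (hp : Measurable p) (hF : Measurable F) {C : ℝ} (hp1 : ∀ x, ‖p x‖ ≤ 1)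
    (hFC : ∀ x, |F x| ≤ C) (ρ : ℝ) (z : V × V) :
    Differentiable ℂ (fun lam => SF μ p F ρ lam z) := by
  intro lam
  simp only [SF_eq]
  have hb1 : ∀ x, ‖(F x : ℂ)‖ ≤ C := fun x => by
    rw [Complex.norm_real, Real.norm_eq_abs]
    exact hFC x
  have hb2 : ∀ x, ‖cin (ρ • p x) z‖ ≤ |ρ| * (‖z.1‖ + ‖z.2‖) := fun x => by
    refine (norm_cin_le _ _).trans (mul_le_mul_of_nonneg_right ?_ (by positivity))
    rw [norm_smul, Real.norm_eq_abs]
    exact (mul_le_mul_of_nonneg_left (hp1 x) (abs_nonneg _)).trans (by rw [mul_one])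
  have hFm : Measurable fun x => (F x : ℂ) := Complex.measurable_ofReal.comp hF
  have h1 := (hasDerivAt_expInt (μ := μ) hFm (measurable_cin (hp.const_smul ρ) z)
    hb1 hb2 lam).differentiableAt
  have h2 : DifferentiableAt ℂ (fun l : ℂ => cexp (-l ^ 2 / 2 * cq z)) lam := by fun_prop
  exact h2.fun_mul h1

lemma measurable_sfld (hp : Measurable p) (hF : Measurable F) (ρ : ℝ) :
    Measurable (fun q : (ℂ × (V × V)) × Ω => (F q.2 : ℂ) * coh q.1.1 (ρ • p q.2) q.1.2) := by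
  have h1 : Measurable (fun q : (ℂ × (V × V)) × Ω => (F q.2 : ℂ)) :=
    Complex.measurable_ofReal.comp (hF.comp measurable_snd)
  have h2 : Measurable (fun q : (ℂ × (V × V)) × Ω => ρ • p q.2) :=
    (hp.comp measurable_snd).const_smul ρ
  have h3 : Measurable (fun q : (ℂ × (V × V)) × Ω => q.1.2.1) :=
    measurable_fst.comp (measurable_snd.comp measurable_fst)
  have h4 : Measurable (fun q : (ℂ × (V × V)) × Ω => q.1.2.2) :=
    measurable_snd.comp (measurable_snd.comp measurable_fst)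
  have h5 : Measurable (fun q : (ℂ × (V × V)) × Ω => q.1.1) :=
    measurable_fst.comp measurable_fst
  unfold coh cin cq
  have a3 := h2.inner (𝕜 := ℝ) h3
  have a4 := h2.inner (𝕜 := ℝ) h4
  have a5 := h3.inner (𝕜 := ℝ) h4
  have a6 := h3.norm
  have a7 := h4.norm
  fun_prop

lemma measurable_SF (hp : Measurable p) (hF : Measurable F) (ρ : ℝ) :
    Measurable (fun q : ℂ × (V × V) => SF μ p F ρ q.1 q.2) := by
  unfold SF
  exact ((measurable_sfld hp hF ρ).stronglyMeasurable.integral_prod_right' (ν := μ)).measurable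

lemma norm_SF_le {C : ℝ} (hp1 : ∀ x, ‖p x‖ ≤ 1) (hFC : ∀ x, |F x| ≤ C) (hC : 0 ≤ C) (ρ : ℝ)
    (lam : ℂ) (z : V × V) : ‖SF μ p F ρ lam z‖ ≤ (μ.real univ * C)
      * rexp (‖lam‖ * |ρ| * (‖z.1‖ + ‖z.2‖) + ‖lam‖ ^ 2 / 2 * (‖z.1‖ ^ 2 + ‖z.2‖ ^ 2)) := by
  unfold SF
  have h1 : ‖∫ x, (F x : ℂ) * coh lam (ρ • p x) z ∂μ‖ ≤ (C
      * rexp (‖lam‖ * |ρ| * (‖z.1‖ + ‖z.2‖) + ‖lam‖ ^ 2 / 2 * (‖z.1‖ ^ 2 + ‖z.2‖ ^ 2)))
        * μ.real univ := by
    refine norm_integral_le_of_norm_le_const (Eventually.of_forall fun x => ?_)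
    rw [norm_mul, Complex.norm_real, Real.norm_eq_abs]
    have e2 : ‖ρ • p x‖ ≤ |ρ| := by
      rw [norm_smul, Real.norm_eq_abs]
      exact (mul_le_mul_of_nonneg_left (hp1 x) (abs_nonneg _)).trans (by rw [mul_one])
    have e3 : ‖coh lam (ρ • p x) z‖
        ≤ rexp (‖lam‖ * |ρ| * (‖z.1‖ + ‖z.2‖) + ‖lam‖ ^ 2 / 2 * (‖z.1‖ ^ 2 + ‖z.2‖ ^ 2)) := by
      refine (norm_coh_le lam _ z).trans (Real.exp_le_exp.2 ?_)
      gcongr
    exact mul_le_mul (hFC x) e3 (norm_nonneg _) hC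
  refine h1.trans (le_of_eq (by ring))

/-- the dominating function -/
noncomputable def sdf (r ρ : ℝ) (z : V × V) : ℝ :=
  rexp (-(1 - r ^ 2) * ‖z.1‖ ^ 2 + (2 * r * |ρ|) * ‖z.1‖)
    * rexp (-(1 - r ^ 2) * ‖z.2‖ ^ 2 + (2 * r * |ρ|) * ‖z.2‖)

lemma integrable_sdf {r : ℝ} (hr0 : 0 ≤ r) (hr : r < 1) (ρ : ℝ) :
    Integrable (sdf r ρ : V × V → ℝ) := by
  have hb : 0 < 1 - r ^ 2 := by nlinarith
  have h1 := integrable_gauss (V := V) hb (2 * r * |ρ|) 0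
  simp only [pow_zero, one_mul] at h1
  rw [Measure.volume_eq_prod]
  exact h1.mul_prod h1

lemma sq_SF_le {C : ℝ} (hp1 : ∀ x, ‖p x‖ ≤ 1) (hFC : ∀ x, |F x| ≤ C) (hC : 0 ≤ C) (ρ : ℝ)
    (lam : ℂ) (z : V × V) : ‖SF μ p F ρ lam z‖ ^ 2 * gwt z
      ≤ (μ.real univ * C) ^ 2 * sdf ‖lam‖ ρ z := by
  have h1 := pow_le_pow_left₀ (norm_nonneg _) (norm_SF_le (μ := μ) hp1 hFC hC ρ lam z) 2
  have h2 := mul_le_mul_of_nonneg_right h1 (Real.exp_pos (-‖z.1‖ ^ 2 - ‖z.2‖ ^ 2)).le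
  refine h2.trans (le_of_eq ?_)
  unfold sdf
  rw [mul_pow, ← Real.exp_nat_mul]
  have e : rexp ((2 : ℕ) * (‖lam‖ * |ρ| * (‖z.1‖ + ‖z.2‖)
      + ‖lam‖ ^ 2 / 2 * (‖z.1‖ ^ 2 + ‖z.2‖ ^ 2))) * rexp (-‖z.1‖ ^ 2 - ‖z.2‖ ^ 2)
      = rexp (-(1 - ‖lam‖ ^ 2) * ‖z.1‖ ^ 2 + (2 * ‖lam‖ * |ρ|) * ‖z.1‖)
        * rexp (-(1 - ‖lam‖ ^ 2) * ‖z.2‖ ^ 2 + (2 * ‖lam‖ * |ρ|) * ‖z.2‖) := by
    rw [← Real.exp_add, ← Real.exp_add]
    congr 1
    push_cast
    ring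
  rw [mul_assoc, e]

/-- the square integral -/
noncomputable def GS (μ : Measure Ω) (p : Ω → V) (F : Ω → ℝ) (ρ r : ℝ) : ℝ :=
  ∫ z, ‖SF μ p F ρ r z‖ ^ 2 * gwt z

lemma GS_rot (hp : Measurable p) (hF : Measurable F) (ρ r θ : ℝ) :
    GS μ p F ρ r = ∫ z, ‖SF μ p F ρ (r * cexp (θ * I)) z‖ ^ 2 * gwt z := by
  unfold GS
  have hm : Measurable fun z : V × V => ‖SF μ p F ρ r z‖ ^ 2 * gwt z := by
    have h0 : Measurable fun z : V × V => (((r : ℂ), z) : ℂ × (V × V)) :=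
      measurable_const.prodMk measurable_id
    have h1 := (measurable_SF (μ := μ) hp hF ρ).comp h0
    exact (h1.norm.pow_const 2).mul continuous_gwt.measurable
  have h2 : ∫ z, ‖SF μ p F ρ r z‖ ^ 2 * gwt z
      = ∫ z : V × V, ‖SF μ p F ρ r (rot θ z)‖ ^ 2 * gwt (rot θ z) := by
    have h3 := mp_rot (V := V) θ
    conv_lhs => rw [← h3.map_eq]
    exact integral_map h3.measurable.aemeasurable hm.aestronglyMeasurable
  rw [h2]
  simp only [SF_rot, gwt_rot]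

lemma GS_mean (hp : Measurable p) (hF : Measurable F) {C : ℝ} (hp1 : ∀ x, ‖p x‖ ≤ 1)
    (hFC : ∀ x, |F x| ≤ C) (hC : 0 ≤ C) (ρ : ℝ) {r : ℝ} (hr0 : 0 ≤ r) (hr : r < 1) :
    Integrable (fun z : V × V => (∫ θ in (0 : ℝ)..(2 * π), ‖SF μ p F ρ (r * cexp (θ * I)) z‖ ^ 2)
      * gwt z) ∧
    2 * π * GS μ p F ρ r = ∫ z : V × V,
      (∫ θ in (0 : ℝ)..(2 * π), ‖SF μ p F ρ (r * cexp (θ * I)) z‖ ^ 2) * gwt z := by
  have hpi : (0 : ℝ) ≤ 2 * π := by positivity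
  set ν : Measure ℝ := volume.restrict (Ioc 0 (2 * π)) with hν
  have hnorm : ∀ θ : ℝ, ‖(r : ℂ) * cexp (θ * I)‖ = r := by
    intro θ
    rw [norm_mul, Complex.norm_exp_ofReal_mul_I, Complex.norm_real, Real.norm_eq_abs,
      abs_of_nonneg hr0, mul_one]
  have hm : Measurable fun q : ℝ × (V × V) =>
      ‖SF μ p F ρ (r * cexp (q.1 * I)) q.2‖ ^ 2 * gwt q.2 := by
    have h0 : Measurable fun q : ℝ × (V × V) =>
        ((((r : ℂ) * cexp (q.1 * I)), q.2) : ℂ × (V × V)) := by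
      refine Measurable.prodMk ?_ measurable_snd
      fun_prop
    have h1 := (measurable_SF (μ := μ) hp hF ρ).comp h0
    exact (h1.norm.pow_const 2).mul (continuous_gwt.measurable.comp measurable_snd)
  have hi : Integrable (fun q : ℝ × (V × V) =>
      ‖SF μ p F ρ (r * cexp (q.1 * I)) q.2‖ ^ 2 * gwt q.2) (ν.prod volume) := by
    have hb := (integrable_sdf (V := V) hr0 hr ρ).const_mul ((μ.real univ * C) ^ 2)
    have hb2 := hb.comp_snd ν
    refine hb2.mono' hm.aestronglyMeasurable (Eventually.of_forall fun q => ?_)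
    have hg0 : 0 ≤ gwt q.2 := (Real.exp_pos _).le
    rw [Real.norm_eq_abs, abs_of_nonneg (mul_nonneg (by positivity) hg0)]
    have h1 := sq_SF_le (μ := μ) hp1 hFC hC ρ (r * cexp (q.1 * I)) q.2
    rw [hnorm] at h1
    exact h1
  have e : ∀ z : V × V, (∫ θ in (0 : ℝ)..(2 * π), ‖SF μ p F ρ (r * cexp (θ * I)) z‖ ^ 2) * gwt z
      = ∫ θ, ‖SF μ p F ρ (r * cexp (θ * I)) z‖ ^ 2 * gwt z ∂ν := by
    intro z
    rw [integral_mul_const, intervalIntegral.integral_of_le hpi]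
  simp only [e]
  refine ⟨hi.integral_prod_right, ?_⟩
  rw [← integral_integral_swap hi]
  have h3 : ∀ θ : ℝ, ∫ z, ‖SF μ p F ρ (r * cexp (θ * I)) z‖ ^ 2 * gwt z = GS μ p F ρ r :=
    fun θ => (GS_rot hp hF ρ r θ).symm
  simp only [h3]
  rw [integral_const, hν]
  have h4 : (volume.restrict (Ioc 0 (2 * π))).real univ = 2 * π := by
    rw [Measure.real, Measure.restrict_apply_univ, Real.volume_Ioc, sub_zero,
      ENNReal.toReal_ofReal hpi]
  rw [h4, smul_eq_mul]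

theorem GS_nps (hp : Measurable p) (hF : Measurable F) {C : ℝ} (hp1 : ∀ x, ‖p x‖ ≤ 1)
    (hFC : ∀ x, |F x| ≤ C) (hC : 0 ≤ C) (ρ : ℝ) : NPS fun T => GS μ p F ρ (√T) := by
  have hsq : ∀ {T : ℝ}, T ∈ Ioo (0 : ℝ) 1 → 0 < √T ∧ √T < 1 := fun hT =>
    ⟨Real.sqrt_pos.2 hT.1, by rw [Real.sqrt_lt' one_pos]; simpa using hT.2⟩
  have h1 : NPS fun T => ∫ z : V × V, (∫ θ in (0 : ℝ)..(2 * π),
      ‖SF μ p F ρ ((√T : ℝ) * cexp (θ * I)) z‖ ^ 2) * gwt z := by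
    refine NPS.integral (fun z => ?_) fun T hT =>
      (GS_mean (μ := μ) hp hF hp1 hFC hC ρ (hsq hT).1.le (hsq hT).2).1
    have h2 := (NPS.circle (SF_entire (μ := μ) hp hF hp1 hFC ρ z)).const_mul
      (c := gwt z) (Real.exp_pos _).le
    refine h2.congr fun T _ => ?_
    rw [mul_comm]
  have h3 := h1.const_mul (c := (2 * π)⁻¹) (by positivity)
  refine h3.congr fun T hT => ?_
  have h4 := (GS_mean (μ := μ) hp hF hp1 hFC hC ρ (hsq hT).1.le (hsq hT).2).2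
  have hpi : (0 : ℝ) < 2 * π := by positivity
  rw [← h4, inv_mul_cancel_left₀ hpi.ne']

/-- the kernel integral without polynomial factors -/
theorem kern0_integral {T : ℝ} (h0 : 0 < T) (h1 : T < 1) (X Y : V) :
    ∫ z : V × V, (coh (√T : ℝ) X z * conj (coh (√T : ℝ) Y z) * gwt z) = ((MM T X Y : ℝ) : ℂ) := by
  have hp : 0 < 1 + T := by linarith
  have hm : 0 < 1 - T := by linarith
  set wa : V := √T • (X + Y) with hwa
  set wb : V := √T • (X - Y) with hwb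
  have e : (fun z : V × V => coh (√T : ℝ) X z * conj (coh (√T : ℝ) Y z) * gwt z)
      = fun z => gw (1 + T) 1 wa z.1 * gw (1 - T) I wb z.2 := by
    funext z
    rw [coh_mul T h0.le]
  rw [e, Measure.volume_eq_prod, integral_prod_mul (gw (1 + T) 1 wa) (gw (1 - T) I wb),
    integral_gw hp, integral_gw hm, gc_eq hp, gc_eq hm]
  have hexp : cexp (1 ^ 2 * ‖wa‖ ^ 2 / (4 * ((1 + T : ℝ) : ℂ)))
      * cexp (I ^ 2 * ‖wb‖ ^ 2 / (4 * ((1 - T : ℝ) : ℂ)))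
      = ((rexp (-(T ^ 2 * (‖X‖ ^ 2 + ‖Y‖ ^ 2) - 2 * T * ⟪X, Y⟫) / (2 * (1 - T ^ 2))) : ℝ) : ℂ) := by
    rw [← Complex.exp_add, Complex.ofReal_exp]
    congr 1
    have n1 : ‖wa‖ ^ 2 = T * (‖X‖ ^ 2 + 2 * ⟪X, Y⟫ + ‖Y‖ ^ 2) := by
      rw [hwa, norm_smul, mul_pow, norm_add_sq_real, Real.norm_eq_abs, sq_abs, Real.sq_sqrt h0.le]
    have n2 : ‖wb‖ ^ 2 = T * (‖X‖ ^ 2 - 2 * ⟪X, Y⟫ + ‖Y‖ ^ 2) := by
      rw [hwb, norm_smul, mul_pow, norm_sub_sq_real, Real.norm_eq_abs, sq_abs, Real.sq_sqrt h0.le]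
    rw [Complex.I_sq, ← Complex.ofReal_pow, ← Complex.ofReal_pow, n1, n2]
    have hp' : (1 + T : ℂ) ≠ 0 := by exact_mod_cast hp.ne'
    have hm' : (1 - T : ℂ) ≠ 0 := by exact_mod_cast hm.ne'
    have hk' : (1 - T ^ 2 : ℂ) ≠ 0 := by
      have : (1 - (T : ℂ) ^ 2) = (1 + T) * (1 - T) := by ring
      rw [this]
      exact mul_ne_zero hp' hm'
    push_cast
    field_simp
    ring
  unfold MM
  rw [mul_mul_mul_comm, hexp]
  push_cast
  ring

theorem GS_eq (hp : Measurable p) (hF : Measurable F) {C : ℝ} (hp1 : ∀ x, ‖p x‖ ≤ 1)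
    (hFC : ∀ x, |F x| ≤ C) (hC : 0 ≤ C) (ρ : ℝ) {T : ℝ} (h0 : 0 < T) (h1 : T < 1) :
    GS μ p F ρ (√T)
      = ∫ q : Ω × Ω, F q.1 * F q.2 * MM T (ρ • p q.1) (ρ • p q.2) ∂(μ.prod μ) := by
  have hs0 : 0 ≤ √T := Real.sqrt_nonneg T
  have hs1 : √T < 1 := by
    rw [Real.sqrt_lt' one_pos]
    simpa using h1
  have hss : (√T) ^ 2 = T := Real.sq_sqrt h0.le
  set G : Ω → V × V → ℂ := fun x z => (F x : ℂ) * coh ((√T : ℝ) : ℂ) (ρ • p x) z with hG
  have hGm : Measurable (fun q : (V × V) × Ω => G q.2 q.1) := by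
    have h2 := measurable_sfld (V := V) hp hF ρ
    have h3 : Measurable (fun q : (V × V) × Ω => (((((√T : ℝ) : ℂ), q.1) : ℂ × (V × V)), q.2)) :=
      (measurable_const.prodMk measurable_fst).prodMk measurable_snd
    exact h2.comp h3
  have hGb : ∀ x z, ‖G x z‖ ≤ C
      * rexp (√T * |ρ| * (‖z.1‖ + ‖z.2‖) + √T ^ 2 / 2 * (‖z.1‖ ^ 2 + ‖z.2‖ ^ 2)) := by
    intro x z
    have hn : ‖((√T : ℝ) : ℂ)‖ = √T := by
      rw [Complex.norm_real, Real.norm_eq_abs, abs_of_nonneg hs0]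
    simp only [hG]
    rw [norm_mul, Complex.norm_real, Real.norm_eq_abs]
    have e2 : ‖ρ • p x‖ ≤ |ρ| := by
      rw [norm_smul, Real.norm_eq_abs]
      exact (mul_le_mul_of_nonneg_left (hp1 x) (abs_nonneg _)).trans (by rw [mul_one])
    have e3 : ‖coh ((√T : ℝ) : ℂ) (ρ • p x) z‖
        ≤ rexp (√T * |ρ| * (‖z.1‖ + ‖z.2‖) + √T ^ 2 / 2 * (‖z.1‖ ^ 2 + ‖z.2‖ ^ 2)) := by
      refine (norm_coh_le _ _ z).trans (Real.exp_le_exp.2 ?_)
      rw [hn]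
      gcongr
    exact mul_le_mul (hFC x) e3 (norm_nonneg _) hC
  have hprod : ∀ z : V × V, ((‖SF μ p F ρ ((√T : ℝ) : ℂ) z‖ ^ 2 * gwt z : ℝ) : ℂ)
      = ∫ q : Ω × Ω, (G q.1 z * conj (G q.2 z) * gwt z) ∂(μ.prod μ) := by
    intro z
    have e1 : SF μ p F ρ ((√T : ℝ) : ℂ) z = ∫ x, G x z ∂μ := rfl
    have e2 : ((‖SF μ p F ρ ((√T : ℝ) : ℂ) z‖ ^ 2 : ℝ) : ℂ)
        = SF μ p F ρ ((√T : ℝ) : ℂ) z * conj (SF μ p F ρ ((√T : ℝ) : ℂ) z) := by
      rw [Complex.mul_conj, Complex.normSq_eq_norm_sq]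
    have e3 : conj (∫ x, G x z ∂μ) = ∫ x, conj (G x z) ∂μ := (integral_conj).symm
    have e4 := integral_prod_mul (μ := μ) (ν := μ) (fun x => G x z) (fun x => conj (G x z))
    rw [integral_mul_const, e4, Complex.ofReal_mul, e2, e1, e3]
  have hi : Integrable (fun q : (V × V) × (Ω × Ω) =>
      (G q.2.1 q.1 * conj (G q.2.2 q.1) * gwt q.1)) (volume.prod (μ.prod μ)) := by
    have hb := (integrable_sdf (V := V) hs0 hs1 ρ).const_mul (C ^ 2)
    have hb2 := hb.comp_fst (μ.prod μ)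
    refine hb2.mono' ?_ (Eventually.of_forall fun q => ?_)
    · have m1 : Measurable (fun q : (V × V) × (Ω × Ω) => G q.2.1 q.1) :=
        hGm.comp (measurable_fst.prodMk (measurable_fst.comp measurable_snd))
      have m2 : Measurable (fun q : (V × V) × (Ω × Ω) => G q.2.2 q.1) :=
        hGm.comp (measurable_fst.prodMk (measurable_snd.comp measurable_snd))
      have m3 : Measurable (fun q : (V × V) × (Ω × Ω) => conj (G q.2.2 q.1)) :=
        Complex.continuous_conj.measurable.comp m2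
      have m4 : Measurable (fun q : (V × V) × (Ω × Ω) => ((gwt q.1 : ℝ) : ℂ)) :=
        Complex.measurable_ofReal.comp (continuous_gwt.measurable.comp measurable_fst)
      exact ((m1.mul m3).mul m4).aestronglyMeasurable
    · have hg0 : 0 ≤ gwt q.1 := (Real.exp_pos _).le
      rw [norm_mul, norm_mul, RCLike.norm_conj, Complex.norm_real, Real.norm_eq_abs,
        abs_of_nonneg hg0]
      have h3 := mul_le_mul (hGb q.2.1 q.1) (hGb q.2.2 q.1) (norm_nonneg _)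
        ((norm_nonneg _).trans (hGb q.2.1 q.1))
      have h4 := mul_le_mul_of_nonneg_right h3 hg0
      refine h4.trans (le_of_eq ?_)
      unfold sdf gwt
      set A := √T * |ρ| * (‖q.1.1‖ + ‖q.1.2‖) + √T ^ 2 / 2 * (‖q.1.1‖ ^ 2 + ‖q.1.2‖ ^ 2) with hA
      have e : rexp A * rexp A * rexp (-‖q.1.1‖ ^ 2 - ‖q.1.2‖ ^ 2)
          = rexp (-(1 - √T ^ 2) * ‖q.1.1‖ ^ 2 + (2 * √T * |ρ|) * ‖q.1.1‖)
            * rexp (-(1 - √T ^ 2) * ‖q.1.2‖ ^ 2 + (2 * √T * |ρ|) * ‖q.1.2‖) := by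
        rw [← Real.exp_add, ← Real.exp_add, ← Real.exp_add]
        congr 1
        rw [hA]
        ring
      calc (C * rexp A * (C * rexp A) * rexp (-‖q.1.1‖ ^ 2 - ‖q.1.2‖ ^ 2))
          = C ^ 2 * (rexp A * rexp A * rexp (-‖q.1.1‖ ^ 2 - ‖q.1.2‖ ^ 2)) := by ring
        _ = _ := by rw [e]
  have hmain : ((GS μ p F ρ (√T) : ℝ) : ℂ)
      = ((∫ q : Ω × Ω, F q.1 * F q.2 * MM T (ρ • p q.1) (ρ • p q.2) ∂(μ.prod μ) : ℝ) : ℂ) := by
    unfold GS
    rw [← integral_complex_ofReal]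
    simp only [hprod]
    rw [integral_integral_swap hi, ← integral_complex_ofReal]
    refine integral_congr_ae (Eventually.of_forall fun q => ?_)
    simp only
    have h5 := kern0_integral h0 h1 (ρ • p q.1) (ρ • p q.2)
    have e : (fun z : V × V => G q.1 z * conj (G q.2 z) * gwt z)
        = fun z => ((F q.1 : ℂ) * (F q.2 : ℂ))
          * (coh (√T : ℝ) (ρ • p q.1) z * conj (coh (√T : ℝ) (ρ • p q.2) z) * gwt z) := by
      funext z
      simp only [hG, map_mul, Complex.conj_ofReal]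
      ring
    rw [e, integral_const_mul, h5]
    push_cast
    ring
  exact_mod_cast hmain

end

end Vale.Agent.P224.R2.H470
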