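import Vale.Agent.P224.R2.H470.SFld

/-!
The scalar kernels of the sphere have nonnegative coefficients.
-/

namespace Vale.Agent.P224.R2.H470

open MeasureTheory Set Filter Function Real Module Vale.Agent.P224.R2.H728
open scoped Topology RealInnerProductSpace

set_option linter.unusedSectionVars false

/-- the scalar kernel -/
noncomputable def sk (m q : ℕ) (T s : ℝ) : ℝ :=
  (1 - T ^ 2) ^ ((q : ℝ) - m / 2 - 1) * ((1 - T * s) ^ q)⁻¹

section

variable {V : Type*} [NormedAddCommGroup V] [InnerProductSpace ℝ V] [FiniteDimensional ℝ V]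
  [MeasurableSpace V] [BorelSpace V] {Ω : Type*} [MeasurableSpace Ω]

lemma MM_unit {T R : ℝ} (hR : 0 ≤ R) {x y : V} (hx : ‖x‖ = 1) (hy : ‖y‖ = 1) :
    MM T (√R • x) (√R • y) = (π / (1 + T)) ^ (finrank ℝ V / 2 : ℝ)
      * (π / (1 - T)) ^ (finrank ℝ V / 2 : ℝ)
      * rexp (-(R * (T ^ 2 - T * ⟪x, y⟫) / (1 - T ^ 2))) := by
  have hs : √R * √R = R := Real.mul_self_sqrt hR
  unfold MM
  rw [norm_smul, norm_smul, hx, hy, real_inner_smul_left, real_inner_smul_right,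
    Real.norm_eq_abs, mul_one, sq_abs]
  have e3 : -(T ^ 2 * (√R ^ 2 + √R ^ 2) - 2 * T * (√R * (√R * ⟪x, y⟫))) / (2 * (1 - T ^ 2))
      = -(R * (T ^ 2 - T * ⟪x, y⟫) / (1 - T ^ 2)) := by
    have : √R ^ 2 = R := by rw [sq, hs]
    rw [this, ← mul_assoc (√R), hs, neg_div, ← mul_div_mul_left (R * (T ^ 2 - T * ⟪x, y⟫))
      (1 - T ^ 2) two_ne_zero]
    ring
  rw [e3]

lemma mix_sk {m q : ℕ} (hq : 1 ≤ q) (hd : finrank ℝ V = m + 2) {T : ℝ} (h0 : 0 < T) (h1 : T < 1)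
    {x y : V} (hx : ‖x‖ = 1) (hy : ‖y‖ = 1) :
    ∫ R in Ioi (0 : ℝ), rw0 q R * MM T (√R • x) (√R • y)
      = Real.Gamma q * π ^ (m + 2) * sk m q T ⟪x, y⟫ := by
  have hk : 0 < 1 - T ^ 2 := by nlinarith
  have hp : 0 < 1 + T := by linarith
  have hqT : 0 < 1 - T := by linarith
  have hs : ⟪x, y⟫ ≤ 1 := by
    have := real_inner_le_norm x y
    rwa [hx, hy, one_mul] at this
  have hv : 0 < 1 - T * ⟪x, y⟫ := by
    have : T * ⟪x, y⟫ ≤ T * 1 := mul_le_mul_of_nonneg_left hs h0.le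
    linarith
  set v : ℝ := 1 - T * ⟪x, y⟫ with hvdef
  set k : ℝ := 1 - T ^ 2 with hkdef
  set c : ℝ := (π / (1 + T)) ^ (finrank ℝ V / 2 : ℝ) * (π / (1 - T)) ^ (finrank ℝ V / 2 : ℝ) with hc
  have hbp : 0 < v / k := div_pos hv hk
  obtain ⟨-, e1⟩ := radial_int hbp hq
  have e : ∀ R ∈ Ioi (0 : ℝ), rw0 q R * MM T (√R • x) (√R • y)
      = c * (R ^ (q - 1) * rexp (-(v / k * R))) := by
    intro R hR
    rw [MM_unit (le_of_lt hR) hx hy, ← hkdef, ← hc]
    unfold rw0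
    have e3 : rexp (-(v / k * R)) = rexp (-R) * rexp (-(R * (T ^ 2 - T * ⟪x, y⟫) / k)) := by
      rw [← Real.exp_add]
      congr 1
      rw [hvdef]
      field_simp
      rw [hkdef]
      ring
    rw [e3]
    ring
  rw [setIntegral_congr_fun measurableSet_Ioi e, integral_const_mul, e1]
  have hc2 : c = π ^ (m + 2) * (k * k ^ ((m : ℝ) / 2))⁻¹ := by
    rw [hc, hd, Real.div_rpow pi_pos.le hp.le, Real.div_rpow pi_pos.le hqT.le]
    have e5 : (π ^ (((m + 2 : ℕ) : ℝ) / 2)) * (π ^ (((m + 2 : ℕ) : ℝ) / 2)) = π ^ (m + 2) := by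
      rw [← Real.rpow_add pi_pos, add_halves, Real.rpow_natCast]
    have e6 : (1 + T) ^ (((m + 2 : ℕ) : ℝ) / 2) * (1 - T) ^ (((m + 2 : ℕ) : ℝ) / 2)
        = k * k ^ ((m : ℝ) / 2) := by
      rw [← Real.mul_rpow hp.le hqT.le]
      have e7 : (1 + T) * (1 - T) = k := by rw [hkdef]; ring
      have e8 : (((m + 2 : ℕ) : ℝ) / 2) = (m : ℝ) / 2 + 1 := by push_cast; ring
      rw [e7, e8, Real.rpow_add_one hk.ne', mul_comm]
    rw [div_mul_div_comm, e5, e6, div_eq_mul_inv]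
  have hkq : k ^ ((q : ℝ) - m / 2 - 1) = k ^ q * (k * k ^ ((m : ℝ) / 2))⁻¹ := by
    have e9 : (q : ℝ) - m / 2 - 1 = (q : ℝ) - ((m : ℝ) / 2 + 1) := by ring
    rw [e9, Real.rpow_sub hk, Real.rpow_natCast, Real.rpow_add_one hk.ne', div_eq_mul_inv,
      mul_comm (k ^ ((m : ℝ) / 2)) k]
  rw [hc2]
  unfold sk
  rw [← hkdef, ← hvdef, hkq, div_pow]
  have hkr : 0 < k ^ ((m : ℝ) / 2) := Real.rpow_pos_of_pos hk _
  field_simp

variable {μ : Measure Ω} [IsFiniteMeasure μ] {p : Ω → V} {F G : Ω → ℝ}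

/-- the scalar form -/
noncomputable def PT (m q : ℕ) (μ : Measure Ω) (p : Ω → V) (F G : Ω → ℝ) (T : ℝ) : ℝ :=
  ∫ u : Ω × Ω, sk m q T ⟪p u.1, p u.2⟫ * (F u.1 * G u.2) ∂(μ.prod μ)

lemma measurable_MMf (hp : Measurable p) (T : ℝ) :
    Measurable (fun q : ℝ × (Ω × Ω) => MM T (√q.1 • p q.2.1) (√q.1 • p q.2.2)) := by
  have hR : Measurable (fun q : ℝ × (Ω × Ω) => √q.1) := measurable_fst.sqrt
  have a3 : Measurable (fun q : ℝ × (Ω × Ω) => p q.2.1) :=
    hp.comp (measurable_fst.comp measurable_snd)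
  have a4 : Measurable (fun q : ℝ × (Ω × Ω) => p q.2.2) :=
    hp.comp (measurable_snd.comp measurable_snd)
  have b3 := hR.smul a3
  have b4 := hR.smul a4
  have c4 := b3.inner (𝕜 := ℝ) b4
  have c5 := b3.norm
  have c6 := b4.norm
  unfold MM
  exact measurable_const.mul (Real.measurable_exp.comp
      (((((c5.pow_const 2).add (c6.pow_const 2)).const_mul _).sub (c4.const_mul _)).neg.div_const _))

theorem mix_GS (hp : Measurable p) (hF : Measurable F) {C : ℝ} (hp1 : ∀ x, ‖p x‖ = 1)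
    (hFC : ∀ x, |F x| ≤ C) (hC : 0 ≤ C) {m q : ℕ} (hq : 1 ≤ q) (hd : finrank ℝ V = m + 2) {T : ℝ}
    (h0 : 0 < T) (h1 : T < 1) :
    IntegrableOn (fun R => rw0 q R * GS μ p F (√R) (√T)) (Ioi 0) ∧
    ∫ R in Ioi (0 : ℝ), rw0 q R * GS μ p F (√R) (√T)
      = Real.Gamma q * π ^ (m + 2) * PT m q μ p F F T := by
  have hk : 0 < 1 - T ^ 2 := by nlinarith
  have hpT : 0 < 1 + T := by linarith
  have hqT : 0 < 1 - T := by linarith
  have hp1' : ∀ x, ‖p x‖ ≤ 1 := fun x => (hp1 x).le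
  set c : ℝ := (π / (1 + T)) ^ (finrank ℝ V / 2 : ℝ) * (π / (1 - T)) ^ (finrank ℝ V / 2 : ℝ) with hc
  have hc0 : 0 ≤ c := by positivity
  have e : ∀ R, GS μ p F (√R) (√T)
      = ∫ u : Ω × Ω, F u.1 * F u.2 * MM T (√R • p u.1) (√R • p u.2) ∂(μ.prod μ) := fun R =>
    GS_eq hp hF hp1' hFC hC (√R) h0 h1
  obtain ⟨i1, -⟩ := radial_int (b := 1 / 2) (by norm_num) hq
  have hi : Integrable (fun u : ℝ × (Ω × Ω) =>
      rw0 q u.1 * (F u.2.1 * F u.2.2 * MM T (√u.1 • p u.2.1) (√u.1 • p u.2.2)))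
      ((volume.restrict (Ioi 0)).prod (μ.prod μ)) := by
    have hb2 := (i1.const_mul (c * C ^ 2)).comp_fst (μ.prod μ)
    refine hb2.mono' ?_ ?_
    · have hm1 : Measurable (fun u : ℝ × (Ω × Ω) => rw0 q u.1) := by
        unfold rw0
        fun_prop
      have a3 : Measurable (fun u : ℝ × (Ω × Ω) => F u.2.1) :=
        hF.comp (measurable_fst.comp measurable_snd)
      have a4 : Measurable (fun u : ℝ × (Ω × Ω) => F u.2.2) :=
        hF.comp (measurable_snd.comp measurable_snd)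
      exact (hm1.mul ((a3.mul a4).mul (measurable_MMf hp T))).aestronglyMeasurable
    · have hae : ∀ᵐ u : ℝ × (Ω × Ω) ∂((volume.restrict (Ioi 0)).prod (μ.prod μ)),
          u.1 ∈ Ioi (0 : ℝ) := by
        have h2 : ∀ᵐ R : ℝ ∂(volume.restrict (Ioi 0)), R ∈ Ioi (0 : ℝ) :=
          ae_restrict_mem measurableSet_Ioi
        exact Measure.quasiMeasurePreserving_fst.ae h2
      filter_upwards [hae] with u hu
      have hR : (0 : ℝ) < u.1 := hu
      rw [MM_unit hR.le (hp1 _) (hp1 _), ← hc]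
      have hs : ⟪p u.2.1, p u.2.2⟫ ≤ 1 := by
        have := real_inner_le_norm (p u.2.1) (p u.2.2)
        rwa [hp1, hp1, one_mul] at this
      have hFF : |F u.2.1 * F u.2.2| ≤ C ^ 2 := by
        rw [abs_mul, sq]
        exact mul_le_mul (hFC _) (hFC _) (abs_nonneg _) hC
      have hexp : rexp (-u.1) * rexp (-(u.1 * (T ^ 2 - T * ⟪p u.2.1, p u.2.2⟫) / (1 - T ^ 2)))
          ≤ rexp (-(1 / 2 * u.1)) := by
        rw [← Real.exp_add]
        refine Real.exp_le_exp.2 ?_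
        have h5 : (T * ⟪p u.2.1, p u.2.2⟫ - T ^ 2) / (1 - T ^ 2) ≤ 1 / 2 := by
          rw [div_le_iff₀ hk]
          have : T * ⟪p u.2.1, p u.2.2⟫ ≤ T * 1 := mul_le_mul_of_nonneg_left hs h0.le
          nlinarith
        have h6 := mul_le_mul_of_nonneg_left h5 hR.le
        have h7 : -(u.1 * (T ^ 2 - T * ⟪p u.2.1, p u.2.2⟫) / (1 - T ^ 2))
            = u.1 * ((T * ⟪p u.2.1, p u.2.2⟫ - T ^ 2) / (1 - T ^ 2)) := by ring
        rw [h7]
        linarith
      have hrw : 0 ≤ u.1 ^ (q - 1) := by positivity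
      rw [Real.norm_eq_abs]
      unfold rw0
      rw [abs_mul, abs_mul, abs_mul (F u.2.1 * F u.2.2), abs_mul c, abs_of_nonneg hrw, Real.abs_exp,
        Real.abs_exp, abs_of_nonneg hc0]
      calc u.1 ^ (q - 1) * rexp (-u.1) * (|F u.2.1 * F u.2.2| * (c
            * rexp (-(u.1 * (T ^ 2 - T * ⟪p u.2.1, p u.2.2⟫) / (1 - T ^ 2)))))
          = (u.1 ^ (q - 1) * c) * |F u.2.1 * F u.2.2|
            * (rexp (-u.1) * rexp (-(u.1 * (T ^ 2 - T * ⟪p u.2.1, p u.2.2⟫) / (1 - T ^ 2)))) := by ring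
        _ ≤ (u.1 ^ (q - 1) * c) * C ^ 2 * rexp (-(1 / 2 * u.1)) := by
          gcongr
        _ = _ := by ring
  constructor
  · have h2 := hi.integral_prod_left
    refine h2.congr (Eventually.of_forall fun R => ?_)
    simp only
    rw [integral_const_mul, e]
  · have h3 : ∫ R in Ioi (0 : ℝ), rw0 q R * GS μ p F (√R) (√T)
        = ∫ R in Ioi (0 : ℝ), ∫ u : Ω × Ω,
          rw0 q R * (F u.1 * F u.2 * MM T (√R • p u.1) (√R • p u.2)) ∂(μ.prod μ) := by
      refine integral_congr_ae (Eventually.of_forall fun R => ?_)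
      simp only
      rw [integral_const_mul, e]
    rw [h3, integral_integral_swap hi]
    unfold PT
    rw [← integral_const_mul]
    refine integral_congr_ae (Eventually.of_forall fun u => ?_)
    simp only
    have h4 := mix_sk (V := V) hq hd h0 h1 (hp1 u.1) (hp1 u.2)
    calc ∫ R in Ioi (0 : ℝ), rw0 q R * (F u.1 * F u.2 * MM T (√R • p u.1) (√R • p u.2))
        = ∫ R in Ioi (0 : ℝ), F u.1 * F u.2 * (rw0 q R * MM T (√R • p u.1) (√R • p u.2)) :=
          integral_congr_ae (Eventually.of_forall fun R => by simp only; ring)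
      _ = _ := by rw [integral_const_mul, h4]; ring

theorem PT_nps (hp : Measurable p) (hF : Measurable F) {C : ℝ} (hp1 : ∀ x, ‖p x‖ = 1)
    (hFC : ∀ x, |F x| ≤ C) (hC : 0 ≤ C) {m q : ℕ} (hq : 1 ≤ q) (hd : finrank ℝ V = m + 2) :
    NPS fun T => PT m q μ p F F T := by
  have hp1' : ∀ x, ‖p x‖ ≤ 1 := fun x => (hp1 x).le
  have hG : 0 < Real.Gamma q * π ^ (m + 2) := by
    have : (0 : ℝ) < q := by exact_mod_cast hq
    have := Real.Gamma_pos_of_pos this
    positivity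
  have hab : ∀ R ∈ Ioi (0 : ℝ), |rw0 q R| = rw0 q R := by
    intro R hR
    have h0 : (0 : ℝ) < R := hR
    refine abs_of_nonneg ?_
    unfold rw0
    positivity
  have h1 : NPS fun T => ∫ R in Ioi (0 : ℝ), |rw0 q R| * GS μ p F (√R) (√T) := by
    refine NPS.integral (fun R => (GS_nps hp hF hp1' hFC hC (√R)).const_mul (abs_nonneg _))
      fun T hT => ?_
    refine (mix_GS (μ := μ) hp hF hp1 hFC hC hq hd hT.1 hT.2).1.congr ?_
    filter_upwards [ae_restrict_mem measurableSet_Ioi] with R hR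
    rw [hab R hR]
  have h2 := h1.const_mul (c := (Real.Gamma q * π ^ (m + 2))⁻¹) (by positivity)
  refine h2.congr fun T hT => ?_
  have h3 := (mix_GS (μ := μ) hp hF hp1 hFC hC hq hd hT.1 hT.2).2
  have h4 : ∫ R in Ioi (0 : ℝ), |rw0 q R| * GS μ p F (√R) (√T)
      = ∫ R in Ioi (0 : ℝ), rw0 q R * GS μ p F (√R) (√T) :=
    setIntegral_congr_fun measurableSet_Ioi fun R hR => by simp only [hab R hR]
  rw [h4, h3, inv_mul_cancel_left₀ hG.ne']

end

end Vale.Agent.P224.R2.H470
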