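import Vale.Agent.P224.R2.H728.Cross
import Vale.Agent.P224.R2.H470.Nps

/-!
The quadratic form of a vector field on the sphere has nonnegative coefficients.
-/

namespace Vale.Agent.P224.R2.H470

open MeasureTheory Set Filter Function Real Module Vale.Agent.P224.R2.H728
open scoped Topology RealInnerProductSpace

set_option linter.unusedSectionVars false

section

variable {V : Type*} [NormedAddCommGroup V] [InnerProductSpace ℝ V] [FiniteDimensional ℝ V]
  [MeasurableSpace V] [BorelSpace V] {Ω : Type*} [MeasurableSpace Ω]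

variable {μ : Measure Ω} [IsFiniteMeasure μ] {p η : Ω → V}

lemma sqrt_mem {T : ℝ} (hT : T ∈ Ioo (0 : ℝ) 1) : 0 < √T ∧ √T < 1 :=
  ⟨Real.sqrt_pos.2 hT.1, by rw [Real.sqrt_lt' one_pos]; simpa using hT.2⟩

theorem GI_nps (hp : Measurable p) (hη : Measurable η) {C : ℝ} (hp1 : ∀ x, ‖p x‖ ≤ 1)
    (hηC : ∀ x, ‖η x‖ ≤ C) (hC : 0 ≤ C) (ρ : ℝ) : NPS fun T => GI μ p η ρ (√T) := by
  have h1 : NPS fun T => ∫ z : V × V, (∫ θ in (0 : ℝ)..(2 * π),
      ‖BF μ p η ρ ((√T : ℝ) * Complex.exp (θ * Complex.I)) z‖ ^ 2) * gwt z := by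
    refine NPS.integral (fun z => ?_) fun T hT =>
      (GI_mean (μ := μ) hp hη hp1 hηC hC ρ (sqrt_mem hT).1.le (sqrt_mem hT).2).1
    have h2 := (NPS.circle (BF_entire (μ := μ) hp hη hp1 hηC ρ z)).const_mul
      (c := gwt z) (Real.exp_pos _).le
    refine h2.congr fun T _ => ?_
    rw [mul_comm]
  have h3 := h1.const_mul (c := (2 * π)⁻¹) (by positivity)
  refine h3.congr fun T hT => ?_
  have h4 := (GI_mean (μ := μ) hp hη hp1 hηC hC ρ (sqrt_mem hT).1.le (sqrt_mem hT).2).2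
  have hpi : (0 : ℝ) < 2 * π := by positivity
  rw [← h4, inv_mul_cancel_left₀ hpi.ne']

theorem ZZ_nps (hp : Measurable p) (hη : Measurable η) {C : ℝ} (hp1 : ∀ x, ‖p x‖ = 1)
    (hηC : ∀ x, ‖η x‖ ≤ C) (hC : 0 ≤ C) {m : ℕ} (hm : 1 ≤ m) (hd : finrank ℝ V = m + 2) :
    NPS fun T => ZZ m μ p η T := by
  have hp1' : ∀ x, ‖p x‖ ≤ 1 := fun x => (hp1 x).le
  have hG : 0 < Real.Gamma m * π ^ (m + 2) := by
    have : (0 : ℝ) < m := by exact_mod_cast hm
    have := Real.Gamma_pos_of_pos this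
    positivity
  have hab : ∀ R ∈ Ioi (0 : ℝ), |rw0 m R| = rw0 m R := by
    intro R hR
    have h0 : (0 : ℝ) < R := hR
    refine abs_of_nonneg ?_
    unfold rw0
    positivity
  have h1 : NPS fun T => ∫ R in Ioi (0 : ℝ), |rw0 m R| * GI μ p η (√R) (√T) := by
    refine NPS.integral (fun R => (GI_nps hp hη hp1' hηC hC (√R)).const_mul (abs_nonneg _))
      fun T hT => ?_
    refine (mix_GI (μ := μ) hp hη hp1 hηC hC hm hd hT.1 hT.2).1.congr ?_
    filter_upwards [ae_restrict_mem measurableSet_Ioi] with R hR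
    rw [hab R hR]
  have h2 := h1.const_mul (c := (Real.Gamma m * π ^ (m + 2))⁻¹) (by positivity)
  refine h2.congr fun T hT => ?_
  have h3 := (mix_GI (μ := μ) hp hη hp1 hηC hC hm hd hT.1 hT.2).2
  have h4 : ∫ R in Ioi (0 : ℝ), |rw0 m R| * GI μ p η (√R) (√T)
      = ∫ R in Ioi (0 : ℝ), rw0 m R * GI μ p η (√R) (√T) :=
    setIntegral_congr_fun measurableSet_Ioi fun R hR => by simp only [hab R hR]
  rw [h4, h3, inv_mul_cancel_left₀ hG.ne']

end

end Vale.Agent.P224.R2.H470
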