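import Vale.Agent.P224.R2.H470.ZNps
import Vale.Agent.P224.R2.H470.Ps

/-!
The first coefficients of the quadratic form of a vector field.
-/

namespace Vale.Agent.P224.R2.H470

open MeasureTheory Set Filter Function Real Module Vale.Agent.P224.R2.H728
open scoped Topology RealInnerProductSpace

set_option linter.unusedSectionVars false

/-- the expansion of the kernel, scalar form -/
lemma zk_alg {m T s k1 k2 c c' C1 C2 D w α β γ : ℝ} (hm : 0 ≤ m) (h0 : 0 ≤ T) (hT : T ≤ 1 / 2)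
    (hs : |s| ≤ 1) (hC1 : 0 ≤ C1) (hC2 : 0 ≤ C2) (hw : |w| ≤ D) (hα : |α| ≤ D)
    (hβ : |β| ≤ 2 * D) (hγ : |γ| ≤ D)
    (h1 : |k1 - (1 + m * s * T + c * T ^ 2)| ≤ C1 * T ^ 3)
    (h2 : |k2 - (1 + (m + 1) * s * T + c' * T ^ 2)| ≤ C2 * T ^ 3) :
    |(T * (k1 * w) + T ^ 2 * (m * (k2 * (α - T * β + T ^ 2 * γ))))
      - (w * T + m * (s * w + α) * T ^ 2 + (c * w + m * ((m + 1) * s * α - β)) * T ^ 3)|
      ≤ (C1 * D + m * (D * (1 + 2 * (m + 1)) + (m + 1) * D + (|c'| + C2) * (4 * D))) * T ^ 4 := by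
  have e : (T * (k1 * w) + T ^ 2 * (m * (k2 * (α - T * β + T ^ 2 * γ))))
      - (w * T + m * (s * w + α) * T ^ 2 + (c * w + m * ((m + 1) * s * α - β)) * T ^ 3)
      = T * ((k1 - (1 + m * s * T + c * T ^ 2)) * w)
        + m * (T ^ 4 * (γ - (m + 1) * (s * β)) + T ^ 5 * ((m + 1) * (s * γ))
          + T ^ 2 * ((k2 - (1 + (m + 1) * s * T)) * (α - T * β + T ^ 2 * γ))) := by
    ring
  have b0 : |(m + 1) * (s * β)| ≤ (m + 1) * (2 * D) := by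
    rw [abs_mul, abs_mul, abs_of_nonneg (by positivity : 0 ≤ m + 1)]
    refine mul_le_mul_of_nonneg_left ?_ (by positivity)
    calc |s| * |β| ≤ 1 * (2 * D) := mul_le_mul hs hβ (abs_nonneg _) zero_le_one
      _ = 2 * D := one_mul _
  have b1 : |(m + 1) * (s * γ)| ≤ (m + 1) * D := by
    rw [abs_mul, abs_mul, abs_of_nonneg (by positivity : 0 ≤ m + 1)]
    refine mul_le_mul_of_nonneg_left ?_ (by positivity)
    calc |s| * |γ| ≤ 1 * D := mul_le_mul hs hγ (abs_nonneg _) zero_le_one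
      _ = D := one_mul _
  have hT2 : T ^ 2 ≤ 1 := by nlinarith
  have b2 : |k2 - (1 + (m + 1) * s * T)| ≤ (|c'| + C2) * T ^ 2 := by
    have : k2 - (1 + (m + 1) * s * T) = (k2 - (1 + (m + 1) * s * T + c' * T ^ 2)) + c' * T ^ 2 := by
      ring
    rw [this]
    refine (abs_add_le _ _).trans ?_
    rw [abs_mul c', abs_of_nonneg (by positivity : 0 ≤ T ^ 2)]
    have h3 : C2 * T ^ 3 ≤ C2 * T ^ 2 := by
      refine mul_le_mul_of_nonneg_left ?_ hC2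
      nlinarith [sq_nonneg T]
    linarith
  have b3 : |α - T * β + T ^ 2 * γ| ≤ 4 * D := by
    refine (abs_add_le _ _).trans ((add_le_add (abs_sub _ _) le_rfl).trans ?_)
    rw [abs_mul T, abs_mul (T ^ 2), abs_of_nonneg h0, abs_of_nonneg (by positivity : 0 ≤ T ^ 2)]
    have h4 : T * |β| ≤ 1 * (2 * D) := mul_le_mul (by linarith) hβ (abs_nonneg _) zero_le_one
    have h5 : T ^ 2 * |γ| ≤ 1 * D := mul_le_mul hT2 hγ (abs_nonneg _) zero_le_one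
    linarith
  have hT4 : 0 ≤ T ^ 4 := by positivity
  have t1 : |T * ((k1 - (1 + m * s * T + c * T ^ 2)) * w)| ≤ C1 * D * T ^ 4 := by
    rw [abs_mul, abs_mul, abs_of_nonneg h0]
    have := mul_le_mul_of_nonneg_left (mul_le_mul h1 hw (abs_nonneg _) (by positivity)) h0
    refine this.trans (le_of_eq (by ring))
  have t2 : |T ^ 4 * (γ - (m + 1) * (s * β))| ≤ T ^ 4 * (D * (1 + 2 * (m + 1))) := by
    rw [abs_mul, abs_of_nonneg hT4]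
    refine mul_le_mul_of_nonneg_left ((abs_sub _ _).trans ?_) hT4
    linarith
  have t3 : |T ^ 5 * ((m + 1) * (s * γ))| ≤ T ^ 4 * ((m + 1) * D) := by
    rw [abs_mul, abs_of_nonneg (by positivity : 0 ≤ T ^ 5)]
    refine mul_le_mul ?_ b1 (abs_nonneg _) hT4
    have : T ^ 5 = T ^ 4 * T := by ring
    rw [this]
    exact mul_le_of_le_one_right hT4 (by linarith)
  have t4 : |T ^ 2 * ((k2 - (1 + (m + 1) * s * T)) * (α - T * β + T ^ 2 * γ))|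
      ≤ T ^ 4 * ((|c'| + C2) * (4 * D)) := by
    rw [abs_mul, abs_mul, abs_of_nonneg (by positivity : 0 ≤ T ^ 2)]
    have := mul_le_mul_of_nonneg_left (mul_le_mul b2 b3 (abs_nonneg _) (by positivity))
      (by positivity : 0 ≤ T ^ 2)
    refine this.trans (le_of_eq (by ring))
  rw [e]
  refine (abs_add_le _ _).trans ?_
  have t5 : |m * (T ^ 4 * (γ - (m + 1) * (s * β)) + T ^ 5 * ((m + 1) * (s * γ))
          + T ^ 2 * ((k2 - (1 + (m + 1) * s * T)) * (α - T * β + T ^ 2 * γ)))|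
      ≤ m * (T ^ 4 * (D * (1 + 2 * (m + 1))) + T ^ 4 * ((m + 1) * D)
        + T ^ 4 * ((|c'| + C2) * (4 * D))) := by
    rw [abs_mul, abs_of_nonneg hm]
    refine mul_le_mul_of_nonneg_left ?_ hm
    exact (abs_add_le _ _).trans (add_le_add ((abs_add_le _ _).trans (add_le_add t2 t3)) t4)
  refine (add_le_add t1 t5).trans (le_of_eq ?_)
  ring

section

variable {V : Type*} [NormedAddCommGroup V] [InnerProductSpace ℝ V] [FiniteDimensional ℝ V]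
  [MeasurableSpace V] [BorelSpace V] {Ω : Type*} [MeasurableSpace Ω]

/-- the coefficients of the kernel -/
noncomputable def zc (m : ℕ) (a b x y : V) : ℕ → ℝ
  | 0 => 0
  | 1 => ⟪a, b⟫
  | 2 => m * (⟪x, y⟫ * ⟪a, b⟫ + ⟪a, y⟫ * ⟪b, x⟫)
  | 3 => (m * (m + 1) / 2 * ⟪x, y⟫ ^ 2 - ((m : ℝ) / 2 - 2)) * ⟪a, b⟫
      + m * ((m + 1) * ⟪x, y⟫ * (⟪a, y⟫ * ⟪b, x⟫) - (⟪a, x⟫ * ⟪b, x⟫ + ⟪a, y⟫ * ⟪b, y⟫))
  | _ => 0

lemma ZK_eq (m : ℕ) {T : ℝ} (h0 : 0 ≤ T) (h1 : T < 1) (a b x y : V) : ZK m T a b x y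
    = T * (((1 - T ^ 2) ^ ((m : ℝ) / 2 - 2) * ((1 - T * ⟪x, y⟫) ^ m)⁻¹) * ⟪a, b⟫)
      + T ^ 2 * (m * (((1 - T ^ 2) ^ ((m : ℝ) / 2 - 2) * ((1 - T * ⟪x, y⟫) ^ (m + 1))⁻¹)
        * (⟪a, y⟫ * ⟪b, x⟫ - T * (⟪a, x⟫ * ⟪b, x⟫ + ⟪a, y⟫ * ⟪b, y⟫)
          + T ^ 2 * (⟪a, x⟫ * ⟪b, y⟫)))) := by
  have hk : 0 < 1 - T ^ 2 := by nlinarith
  unfold ZK
  have e : (1 - T ^ 2) ^ ((m : ℝ) / 2 - 2) = (1 - T ^ 2) ^ ((m : ℝ) / 2) / (1 - T ^ 2) ^ 2 := by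
    rw [Real.rpow_sub hk]
    norm_num
  rw [e, inner_sub_right, inner_sub_right, real_inner_smul_right, real_inner_smul_right]
  field_simp
  ring

lemma zk_exp (m : ℕ) {D : ℝ} (hD : 0 ≤ D) : ∃ C : ℝ, 0 ≤ C ∧ ∀ T : ℝ, 0 ≤ T → T ≤ 1 / 2 →
    ∀ a b x y : V, ‖a‖ ≤ D → ‖b‖ ≤ D → ‖x‖ = 1 → ‖y‖ = 1 →
    |ZK m T a b x y - ∑ i ∈ Finset.range 4, zc m a b x y i * T ^ i| ≤ C * T ^ 4 := by
  obtain ⟨C1, h10, h1⟩ := ker_exp m ((m : ℝ) / 2 - 2)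
  obtain ⟨C2, h20, h2⟩ := ker_exp (m + 1) ((m : ℝ) / 2 - 2)
  set C' : ℝ := ((m + 1 : ℕ) : ℝ) * (((m + 1 : ℕ) : ℝ) + 1) / 2 + |(m : ℝ) / 2 - 2| with hC'
  have hC'0 : 0 ≤ C' := by positivity
  refine ⟨C1 * D ^ 2 + m * (D ^ 2 * (1 + 2 * (m + 1)) + (m + 1) * D ^ 2 + (C' + C2) * (4 * D ^ 2)),
    by positivity, fun T h0 hT a b x y ha hb hx hy => ?_⟩
  have hs : |⟪x, y⟫| ≤ 1 := by
    have := abs_real_inner_le_norm x y
    rwa [hx, hy, one_mul] at this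
  have hin : ∀ {c : V} {z : V}, ‖c‖ ≤ D → ‖z‖ = 1 → |⟪c, z⟫| ≤ D := by
    intro c z hc hz
    have := abs_real_inner_le_norm c z
    rw [hz, mul_one] at this
    exact this.trans hc
  have hw : |⟪a, b⟫| ≤ D ^ 2 := by
    rw [sq]
    exact (abs_real_inner_le_norm a b).trans (mul_le_mul ha hb (norm_nonneg _) hD)
  have hprod : ∀ {c d z w : V}, ‖c‖ ≤ D → ‖d‖ ≤ D → ‖z‖ = 1 → ‖w‖ = 1 →
      |⟪c, z⟫ * ⟪d, w⟫| ≤ D ^ 2 := by
    intro c d z w hc hd hz hw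
    rw [abs_mul, sq]
    exact mul_le_mul (hin hc hz) (hin hd hw) (abs_nonneg _) hD
  have hβ : |⟪a, x⟫ * ⟪b, x⟫ + ⟪a, y⟫ * ⟪b, y⟫| ≤ 2 * D ^ 2 := by
    refine (abs_add_le _ _).trans ?_
    linarith [hprod (c := a) (d := b) ha hb hx hx, hprod (c := a) (d := b) ha hb hy hy]
  have a1 := h1 T ⟪x, y⟫ h0 hT hs
  have a2 := h2 T ⟪x, y⟫ h0 hT hs
  set c : ℝ := (m : ℝ) * (m + 1) / 2 * ⟪x, y⟫ ^ 2 - ((m : ℝ) / 2 - 2) with hc
  set c' : ℝ := ((m + 1 : ℕ) : ℝ) * (((m + 1 : ℕ) : ℝ) + 1) / 2 * ⟪x, y⟫ ^ 2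
    - ((m : ℝ) / 2 - 2) with hc'
  have hc'b : |c'| ≤ C' := by
    rw [hc', hC']
    refine (abs_sub _ _).trans (add_le_add ?_ le_rfl)
    rw [abs_mul, abs_of_nonneg (by positivity : (0 : ℝ) ≤ ((m + 1 : ℕ) : ℝ)
      * (((m + 1 : ℕ) : ℝ) + 1) / 2), abs_pow]
    exact mul_le_of_le_one_right (by positivity) (pow_le_one₀ (abs_nonneg _) hs)
  have hcast : ((m + 1 : ℕ) : ℝ) = (m : ℝ) + 1 := by push_cast; ring
  have key := zk_alg (m := (m : ℝ)) (T := T) (s := ⟪x, y⟫) (c := c) (c' := c') (C1 := C1)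
    (C2 := C2) (D := D ^ 2) (w := ⟪a, b⟫) (α := ⟪a, y⟫ * ⟪b, x⟫)
    (β := ⟪a, x⟫ * ⟪b, x⟫ + ⟪a, y⟫ * ⟪b, y⟫) (γ := ⟪a, x⟫ * ⟪b, y⟫) (by positivity) h0 hT hs h10 h20
    hw (hprod ha hb hy hx) hβ (hprod ha hb hx hy) a1
    (by rw [← hcast]; exact a2)
  rw [ZK_eq m h0 (by linarith)]
  have e : ∑ i ∈ Finset.range 4, zc m a b x y i * T ^ i
      = ⟪a, b⟫ * T + (m : ℝ) * (⟪x, y⟫ * ⟪a, b⟫ + ⟪a, y⟫ * ⟪b, x⟫) * T ^ 2
        + (c * ⟪a, b⟫ + m * ((m + 1) * ⟪x, y⟫ * (⟪a, y⟫ * ⟪b, x⟫)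
          - (⟪a, x⟫ * ⟪b, x⟫ + ⟪a, y⟫ * ⟪b, y⟫))) * T ^ 3 := by
    rw [Finset.sum_range_succ, Finset.sum_range_succ, Finset.sum_range_succ,
      Finset.sum_range_succ, Finset.sum_range_zero]
    simp only [zc]
    ring
  rw [e]
  refine key.trans (mul_le_mul_of_nonneg_right ?_ (by positivity))
  gcongr

variable {μ : Measure Ω} [IsFiniteMeasure μ] {p η : Ω → V}

/-- the coefficients of the quadratic form -/
noncomputable def zcf (m : ℕ) (μ : Measure Ω) (p η : Ω → V) (i : ℕ) : ℝ :=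
  ∫ u : Ω × Ω, zc m (η u.1) (η u.2) (p u.1) (p u.2) i ∂(μ.prod μ)

lemma measurable_pair (hp : Measurable p) (hη : Measurable η) (i j : Bool) :
    Measurable (fun u : Ω × Ω => (⟪(bif i then η u.1 else η u.2), (bif j then p u.1 else p u.2)⟫ : ℝ)) := by
  have a1 : Measurable (fun u : Ω × Ω => η u.1) := hη.comp measurable_fst
  have a2 : Measurable (fun u : Ω × Ω => η u.2) := hη.comp measurable_snd
  have a3 : Measurable (fun u : Ω × Ω => p u.1) := hp.comp measurable_fst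
  have a4 : Measurable (fun u : Ω × Ω => p u.2) := hp.comp measurable_snd
  cases i <;> cases j
  · exact a2.inner (𝕜 := ℝ) a4
  · exact a2.inner (𝕜 := ℝ) a3
  · exact a1.inner (𝕜 := ℝ) a4
  · exact a1.inner (𝕜 := ℝ) a3

lemma zc_int (hp : Measurable p) (hη : Measurable η) {C : ℝ} (hp1 : ∀ x, ‖p x‖ = 1)
    (hηC : ∀ x, ‖η x‖ ≤ C) (hC : 0 ≤ C) (m i : ℕ) :
    Integrable (fun u : Ω × Ω => zc m (η u.1) (η u.2) (p u.1) (p u.2) i) (μ.prod μ) := by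
  have bs : BM (fun u : Ω × Ω => (⟪p u.1, p u.2⟫ : ℝ)) :=
    ⟨(hp.comp measurable_fst).inner (𝕜 := ℝ) (hp.comp measurable_snd), 1, fun u =>
      abs_le.2 (cos_mem hp1 u)⟩
  have bw : BM (fun u : Ω × Ω => (⟪η u.1, η u.2⟫ : ℝ)) :=
    ⟨(hη.comp measurable_fst).inner (𝕜 := ℝ) (hη.comp measurable_snd), C * C, fun u =>
      (abs_real_inner_le_norm _ _).trans (mul_le_mul (hηC _) (hηC _) (norm_nonneg _) hC)⟩
  have bb : ∀ i j : Bool, BM (fun u : Ω × Ω =>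
      (⟪(bif i then η u.1 else η u.2), (bif j then p u.1 else p u.2)⟫ : ℝ)) := by
    intro i j
    refine ⟨measurable_pair hp hη i j, C, fun u => (abs_real_inner_le_norm _ _).trans ?_⟩
    cases i <;> cases j <;> simp [hp1, hηC]
  have b1 : BM (fun u : Ω × Ω => (⟪η u.1, p u.2⟫ : ℝ)) := bb true false
  have b2 : BM (fun u : Ω × Ω => (⟪η u.2, p u.1⟫ : ℝ)) := bb false true
  have b3 : BM (fun u : Ω × Ω => (⟪η u.1, p u.1⟫ : ℝ)) := bb true true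
  have b4 : BM (fun u : Ω × Ω => (⟪η u.2, p u.2⟫ : ℝ)) := bb false false
  refine BM.int ?_
  match i with
  | 0 => exact BM.const 0
  | 1 => exact bw
  | 2 => exact (((bs.mul bw).add (b1.mul b2)).const_mul _)
  | 3 =>
    exact ((((bs.pow 2).const_mul _).sub (BM.const _)).mul bw).add
      ((((bs.const_mul _).mul (b1.mul b2)).sub ((b3.mul b2).add (b1.mul b4))).const_mul _)
  | (n + 4) => exact BM.const 0

lemma ZK_int (hp : Measurable p) (hη : Measurable η) {C : ℝ} (hp1 : ∀ x, ‖p x‖ = 1)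
    (hηC : ∀ x, ‖η x‖ ≤ C) (hC : 0 ≤ C) (m : ℕ) {T : ℝ} (h0 : 0 ≤ T) (h1 : T < 1) :
    Integrable (fun u : Ω × Ω => ZK m T (η u.1) (η u.2) (p u.1) (p u.2)) (μ.prod μ) := by
  have bs : BM (fun u : Ω × Ω => (⟪p u.1, p u.2⟫ : ℝ)) :=
    ⟨(hp.comp measurable_fst).inner (𝕜 := ℝ) (hp.comp measurable_snd), 1, fun u =>
      abs_le.2 (cos_mem hp1 u)⟩
  have bw : BM (fun u : Ω × Ω => (⟪η u.1, η u.2⟫ : ℝ)) :=
    ⟨(hη.comp measurable_fst).inner (𝕜 := ℝ) (hη.comp measurable_snd), C * C, fun u =>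
      (abs_real_inner_le_norm _ _).trans (mul_le_mul (hηC _) (hηC _) (norm_nonneg _) hC)⟩
  have bb : ∀ i j : Bool, BM (fun u : Ω × Ω =>
      (⟪(bif i then η u.1 else η u.2), (bif j then p u.1 else p u.2)⟫ : ℝ)) := by
    intro i j
    refine ⟨measurable_pair hp hη i j, C, fun u => (abs_real_inner_le_norm _ _).trans ?_⟩
    cases i <;> cases j <;> simp [hp1, hηC]
  have b1 : BM (fun u : Ω × Ω => (⟪η u.1, p u.2⟫ : ℝ)) := bb true false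
  have b2 : BM (fun u : Ω × Ω => (⟪η u.2, p u.1⟫ : ℝ)) := bb false true
  have b3 : BM (fun u : Ω × Ω => (⟪η u.1, p u.1⟫ : ℝ)) := bb true true
  have b4 : BM (fun u : Ω × Ω => (⟪η u.2, p u.2⟫ : ℝ)) := bb false false
  have hT : 0 < 1 - T := by linarith
  have bk : ∀ q : ℕ, BM (fun u : Ω × Ω => ((1 - T * (⟪p u.1, p u.2⟫ : ℝ)) ^ q)⁻¹) := by
    intro q
    refine ⟨(((bs.1.const_mul T).const_sub 1).pow_const q).inv, ((1 - T) ^ q)⁻¹, fun u => ?_⟩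
    have hv : 1 - T ≤ 1 - T * (⟪p u.1, p u.2⟫ : ℝ) := by
      have := mul_le_mul_of_nonneg_left (cos_mem hp1 u).2 h0
      linarith
    rw [abs_of_nonneg (inv_nonneg.2 (pow_nonneg (hT.le.trans hv) _))]
    exact inv_anti₀ (pow_pos hT _) (pow_le_pow_left₀ hT.le hv _)
  have hb : BM (fun u : Ω × Ω => T * (((1 - T ^ 2) ^ ((m : ℝ) / 2 - 2)
        * ((1 - T * ⟪p u.1, p u.2⟫) ^ m)⁻¹) * ⟪η u.1, η u.2⟫)
      + T ^ 2 * (m * (((1 - T ^ 2) ^ ((m : ℝ) / 2 - 2) * ((1 - T * ⟪p u.1, p u.2⟫) ^ (m + 1))⁻¹)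
        * (⟪η u.1, p u.2⟫ * ⟪η u.2, p u.1⟫ - T * (⟪η u.1, p u.1⟫ * ⟪η u.2, p u.1⟫
          + ⟪η u.1, p u.2⟫ * ⟪η u.2, p u.2⟫) + T ^ 2 * (⟪η u.1, p u.1⟫ * ⟪η u.2, p u.2⟫))))) :=
    ((((bk m).const_mul _).mul bw).const_mul _).add
      (((((bk (m + 1)).const_mul _).mul (((b1.mul b2).sub (((b3.mul b2).add (b1.mul b4)).const_mul _)).add
        ((b3.mul b4).const_mul _))).const_mul _).const_mul _)
  refine hb.int.congr (Eventually.of_forall fun u => ?_)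
  simp only
  rw [ZK_eq m h0 h1]

/-- the splitting of the quadratic form of a bounded field -/
theorem ZZ_split (hp : Measurable p) (hη : Measurable η) {C : ℝ} (hp1 : ∀ x, ‖p x‖ = 1)
    (hηC : ∀ x, ‖η x‖ ≤ C) (hC : 0 ≤ C) {m : ℕ} (hm : 1 ≤ m) (hd : finrank ℝ V = m + 2) :
    (∀ i < 4, 0 ≤ zcf m μ p η i) ∧ ∀ {T T1 : ℝ}, 0 < T → T ≤ T1 → T1 < 1 →
      0 ≤ ZZ m μ p η T - ∑ i ∈ Finset.range 4, zcf m μ p η i * T ^ i ∧
      ZZ m μ p η T - ∑ i ∈ Finset.range 4, zcf m μ p η i * T ^ i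
        ≤ (T / T1) ^ 4 * (ZZ m μ p η T1 - ∑ i ∈ Finset.range 4, zcf m μ p η i * T1 ^ i) := by
  have hN := ZZ_nps (μ := μ) hp hη hp1 hηC hC hm hd
  obtain ⟨D, hD, hk⟩ := zk_exp (V := V) m hC
  refine hN.split (C := D * (μ.prod μ).real univ) (by norm_num : (0 : ℝ) < 1 / 2) fun T hT => ?_
  have e : ZZ m μ p η T - ∑ i ∈ Finset.range 4, zcf m μ p η i * T ^ i
      = ∫ u : Ω × Ω, (ZK m T (η u.1) (η u.2) (p u.1) (p u.2)
        - ∑ i ∈ Finset.range 4, zc m (η u.1) (η u.2) (p u.1) (p u.2) i * T ^ i) ∂(μ.prod μ) := by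
    rw [integral_sub (ZK_int hp hη hp1 hηC hC m hT.1.le (by linarith [hT.2]))
      (integrable_finsetSum _ fun i _ => (zc_int hp hη hp1 hηC hC m i).mul_const _),
      integral_finsetSum _ fun i _ => (zc_int hp hη hp1 hηC hC m i).mul_const _]
    simp only [integral_mul_const]
    rfl
  rw [e, ← Real.norm_eq_abs]
  have h1 := norm_integral_le_of_norm_le_const (μ := μ.prod μ) (C := D * T ^ 4)
    (f := fun u : Ω × Ω => ZK m T (η u.1) (η u.2) (p u.1) (p u.2)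
        - ∑ i ∈ Finset.range 4, zc m (η u.1) (η u.2) (p u.1) (p u.2) i * T ^ i)
    (Eventually.of_forall fun u => by
      rw [Real.norm_eq_abs]
      exact hk T hT.1.le hT.2.le _ _ _ _ (hηC _) (hηC _) (hp1 _) (hp1 _))
  refine h1.trans (le_of_eq (by ring))

end

end Vale.Agent.P224.R2.H470
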